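import Vale.Agent.P225.Iface
import Vale.Agent.P371.LinODE

/-! Linear ODE basics. -/

namespace Vale.Agent.P225

open scoped ContDiff Topology
open Filter Set

namespace Ode

section first
variable {E : Type} [NormedAddCommGroup E] [NormedSpace ℝ E]

theorem zero_right {A : ℝ → E →L[ℝ] E} {a b M : ℝ} (hA : ∀ s ∈ Icc a b, ‖A s‖ ≤ M) {y : ℝ → E}
    (hy : ∀ s ∈ Icc a b, HasDerivAt y (A s (y s)) s) (h0 : y a = 0) : ∀ s ∈ Icc a b, y s = 0 :=
  eq_zero_of_abs_deriv_le_mul_abs_self_of_eq_zero_right (K := M)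
    (fun s hs => (hy s hs).continuousAt.continuousWithinAt)
    (fun s hs => (hy s (Ico_subset_Icc_self hs)).hasDerivWithinAt) h0
    fun s hs => (A s).le_of_opNorm_le (hA s (Ico_subset_Icc_self hs)) _

theorem rev {A : ℝ → E →L[ℝ] E} {y : ℝ → E} {s : ℝ} (h : HasDerivAt y (A (-s) (y (-s))) (-s)) :
    HasDerivAt (fun t => y (-t)) ((-A (-s)) (y (-s))) s := by
  simpa [Function.comp_def] using h.scomp s (hasDerivAt_neg s)

theorem uniq {A : ℝ → E →L[ℝ] E} {a b : ℝ} (hA : ContinuousOn A (Icc a b)) {y z : ℝ → E}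
    (hy : ∀ s ∈ Icc a b, HasDerivAt y (A s (y s)) s)
    (hz : ∀ s ∈ Icc a b, HasDerivAt z (A s (z s)) s) {t : ℝ} (ht : t ∈ Icc a b) (h : y t = z t) :
    ∀ s ∈ Icc a b, y s = z s := by
  obtain ⟨M, hM⟩ := isCompact_Icc.exists_bound_of_continuousOn hA
  have hw : ∀ s ∈ Icc a b, HasDerivAt (fun s => y s - z s) (A s (y s - z s)) s := fun s hs => by
    rw [map_sub]; exact (hy s hs).sub (hz s hs)
  intro s hs
  rw [← sub_eq_zero]
  rcases le_total t s with h1 | h1
  · exact zero_right (fun s hs => hM s ⟨ht.1.trans hs.1, hs.2⟩)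
      (fun s hs => hw s ⟨ht.1.trans hs.1, hs.2⟩) (sub_eq_zero.2 h) s ⟨h1, hs.2⟩
  · have hm : ∀ s ∈ Icc (-t) (-a), -s ∈ Icc a b := fun s hs =>
      ⟨by linarith [hs.2], by linarith [hs.1, ht.2]⟩
    have := zero_right (A := fun s => -A (-s)) (y := fun s => y (-s) - z (-s)) (a := -t) (b := -a)
      (fun s hs => by rw [norm_neg]; exact hM _ (hm s hs))
      (fun s hs => rev (y := fun s => y s - z s) (hw _ (hm s hs))) (by simp [h]) (-s)
      ⟨by linarith, by linarith [hs.1]⟩
    simpa using this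

variable [CompleteSpace E]

theorem fwd {A : ℝ → E →L[ℝ] E} (hA : Continuous A) (y₀ : E) {a b : ℝ} (hab : a < b) :
    ∃ y : ℝ → E, y a = y₀ ∧ ∀ s ∈ Icc a b, HasDerivAt y (A s (y s)) s := by
  obtain ⟨Y, -, hY⟩ := P371.exists_linODE (P := Unit) (fun _ => A) (hA.comp continuous_snd)
    (fun _ => y₀) continuous_const hab
  exact ⟨Y (), hY ()⟩

theorem two {A : ℝ → E →L[ℝ] E} (hA : Continuous A) (y₀ : E) (a : ℝ) {N : ℝ} (hN : 0 < N) :
    ∃ y : ℝ → E, y a = y₀ ∧ ∀ s ∈ Icc (a - N) (a + N), HasDerivAt y (A s (y s)) s := by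
  obtain ⟨z, z0, hz⟩ := fwd (A := fun s => -A (-s)) (hA.comp continuous_neg).neg y₀
    (a := -a) (b := -(a - N)) (by linarith)
  obtain ⟨y, y0, hy⟩ := fwd hA (z (-(a - N))) (a := a - N) (b := a + N) (by linarith)
  refine ⟨y, ?_, hy⟩
  rw [← z0]
  refine uniq (z := fun s => z (-s)) hA.continuousOn (a := a - N) (b := a)
    (fun s hs => hy s ⟨hs.1, by linarith [hs.2]⟩) (fun s hs => ?_) (t := a - N)
    ⟨le_rfl, by linarith⟩ y0 a ⟨by linarith, le_rfl⟩
  simpa using rev (A := fun s => -A (-s)) (hz (-s) ⟨by linarith [hs.2], by linarith [hs.1]⟩)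

theorem glob {A : ℝ → E →L[ℝ] E} (hA : Continuous A) (y₀ : E) (a : ℝ) :
    ∃ y : ℝ → E, y a = y₀ ∧ ∀ s, HasDerivAt y (A s (y s)) s := by
  choose Y Y0 hY using fun n : ℕ => two hA y₀ a (N := n + 1) (by positivity)
  have key : ∀ (m n : ℕ) (s : ℝ), |s - a| ≤ m + 1 → |s - a| ≤ n + 1 → Y m s = Y n s := by
    intro m n s h1 h2
    have hsub : ∀ k : ℕ, |s - a| ≤ k + 1 →
        Icc (a - |s - a|) (a + |s - a|) ⊆ Icc (a - (k + 1)) (a + (k + 1)) :=
      fun k hk => Icc_subset_Icc (by linarith) (by linarith)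
    exact uniq hA.continuousOn (fun t ht => hY m t (hsub m h1 ht)) (fun t ht => hY n t (hsub n h2 ht))
      (t := a) ⟨by simp, by simp⟩ ((Y0 m).trans (Y0 n).symm) s
      ⟨by linarith [neg_abs_le (s - a)], by linarith [le_abs_self (s - a)]⟩
  have hc : ∀ s : ℝ, |s - a| < (⌈|s - a|⌉₊ : ℕ) + 1 := fun s =>
    (Nat.le_ceil _).trans_lt (lt_add_one _)
  refine ⟨fun s => Y ⌈|s - a|⌉₊ s, Y0 _, fun s => ?_⟩
  have h1 := abs_lt.1 (hc s)
  refine (hY _ s ⟨by linarith [h1.1], by linarith [h1.2]⟩).congr_of_eventuallyEq ?_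
  have : ∀ᶠ t in 𝓝 s, |t - a| < (⌈|s - a|⌉₊ : ℕ) + 1 :=
    (continuous_id.sub continuous_const).abs.continuousAt.eventually_lt continuousAt_const (hc s)
  exact this.mono fun t ht => key _ _ t (hc t).le ht.le

end first

section second
variable {V : Type} [NormedAddCommGroup V] [NormedSpace ℝ V]

/-- The first order system of a second order equation. -/
noncomputable def sys (p : ℝ) (Q : V →L[ℝ] V) : V × V →L[ℝ] V × V :=
  (ContinuousLinearMap.inl ℝ V V).comp (ContinuousLinearMap.snd ℝ V V) +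
    (ContinuousLinearMap.inr ℝ V V).comp
      (Q.comp (ContinuousLinearMap.fst ℝ V V) - p • ContinuousLinearMap.snd ℝ V V)

theorem sys_apply (p : ℝ) (Q : V →L[ℝ] V) (y : V × V) :
    sys p Q y = (y.2, Q y.1 - p • y.2) := by simp [sys]

theorem sys_cont : Continuous fun x : ℝ × (V →L[ℝ] V) => sys x.1 x.2 :=
  continuous_const.add (continuous_const.clm_comp
    ((continuous_snd.clm_comp continuous_const).sub (continuous_fst.smul continuous_const)))

theorem sys_cont' {T : Type} [TopologicalSpace T] {p : T → ℝ} {Q : T → V →L[ℝ] V} {S : Set T}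
    (hp : ContinuousOn p S) (hQ : ContinuousOn Q S) : ContinuousOn (fun t => sys (p t) (Q t)) S :=
  sys_cont.comp_continuousOn (f := fun t => (p t, Q t)) (hp.prodMk hQ)

theorem sys_cont'' {T : Type} [TopologicalSpace T] {p : T → ℝ} {Q : T → V →L[ℝ] V}
    (hp : Continuous p) (hQ : Continuous Q) : Continuous fun t => sys (p t) (Q t) :=
  continuousOn_univ.1 (sys_cont' hp.continuousOn hQ.continuousOn)

theorem sys_iff {p : ℝ} {Q : V →L[ℝ] V} {y : ℝ → V × V} {s : ℝ} :
    HasDerivAt y (sys p Q (y s)) s ↔ HasDerivAt (fun s => (y s).1) (y s).2 s ∧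
      HasDerivAt (fun s => (y s).2) (Q (y s).1 - p • (y s).2) s := by
  rw [sys_apply]
  exact ⟨fun h => ⟨h.fst, h.snd⟩, fun h => h.1.prodMk h.2⟩

end second

/-- Restriction of scalars. -/
noncomputable def rs (D : ℕ) : Op D →L[ℝ] Vc D →L[ℝ] Vc D :=
  ContinuousLinearMap.restrictScalarsL ℂ (Vc D) (Vc D) ℝ ℝ

theorem sol_iff {D : ℕ} {p : ℝ → ℝ} {Q : ℝ → Op D} {y : ℝ → Vc D × Vc D} {S : Set ℝ} :
    Sol p Q (fun s => (y s).1) (fun s => (y s).2) S ↔
      ∀ s ∈ S, HasDerivAt y (sys (p s) (rs D (Q s)) (y s)) s :=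
  forall₂_congr fun s _ => (sys_iff (p := p s) (Q := rs D (Q s))).symm

end Ode

open Ode

theorem odeStmt : OdeStmt := by
  intro D
  refine ⟨fun p Q hp hQ a u₀ v₀ => ?_, fun p Q a b u v u' v' hp hQ h h' t ht h1 h2 s hs => ?_,
    fun P _ _ p Q u₀ v₀ a b hab hp hQ => ?_, fun p Q a b C u v hC hb h s hs => ?_,
    fun p Q u v hp hQ h => ?_⟩
  · obtain ⟨y, y0, hy⟩ := glob (A := fun s => sys (p s) (rs D (Q s)))
      (sys_cont'' hp ((rs D).continuous.comp hQ)) (u₀, v₀) a
    exact ⟨_, _, congrArg Prod.fst y0, congrArg Prod.snd y0, sol_iff.2 fun s _ => hy s⟩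
  · have := uniq (A := fun s => sys (p s) (rs D (Q s)))
      (sys_cont' hp ((rs D).continuous.comp_continuousOn hQ))
      ((sol_iff (y := fun s => (u s, v s))).1 h) ((sol_iff (y := fun s => (u' s, v' s))).1 h') ht
      (Prod.ext h1 h2) s hs
    exact ⟨congrArg Prod.fst this, congrArg Prod.snd this⟩
  · obtain ⟨Y, hc, hY⟩ := P371.exists_linODE (fun c s => sys (p s) (rs D (Q c s)))
      (sys_cont'' (hp.comp continuous_snd) ((rs D).continuous.comp hQ))
      (fun _ => (u₀, v₀)) continuous_const (a := a) (b := b + 1) (by linarith)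
    have hb : Continuous fun c => Y c b :=
      hc.comp_continuous (f := fun c => (c, b)) (by fun_prop)
        fun c => ⟨mem_univ _, hab, by linarith⟩
    exact ⟨fun c s => (Y c s).1, fun c s => (Y c s).2, hb.fst, hb.snd, fun c =>
      ⟨congrArg Prod.fst (hY c).1, congrArg Prod.snd (hY c).1,
        sol_iff.2 fun s hs => (hY c).2 s ⟨hs.1, by linarith [hs.2]⟩⟩⟩
  · have h1 := (sol_iff (y := fun s => (u s, v s))).1 h
    have h2 := norm_le_gronwallBound_of_norm_deriv_right_le (K := 2 * C + 1) (ε := 0)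
      (δ := ‖u a‖ + ‖v a‖) (fun s hs => (h1 s hs).continuousAt.continuousWithinAt)
      (fun s hs => (h1 s (Ico_subset_Icc_self hs)).hasDerivWithinAt)
      (max_le (le_add_of_nonneg_right (norm_nonneg _)) (le_add_of_nonneg_left (norm_nonneg _)))
      (fun t ht => ?_) s hs
    · rw [gronwallBound_ε0, mul_comm] at h2
      exact (le_max_left _ _).trans h2
    · obtain ⟨b1, b2⟩ := hb t (Ico_subset_Icc_self ht)
      have e1 : ‖u t‖ ≤ ‖(u t, v t)‖ := le_max_left _ _
      have e2 : ‖v t‖ ≤ ‖(u t, v t)‖ := le_max_right _ _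
      have e3 : ‖Q t (u t)‖ ≤ C * ‖u t‖ := (Q t).le_of_opNorm_le b2 _
      have e4 : ‖p t • v t‖ ≤ C * ‖v t‖ := by
        rw [norm_smul]; exact mul_le_mul_of_nonneg_right b1 (norm_nonneg _)
      have e5 := norm_sub_le (Q t (u t)) (p t • v t)
      have e6 := mul_le_mul_of_nonneg_left e1 hC
      have e7 := mul_le_mul_of_nonneg_left e2 hC
      have e8 := mul_nonneg hC (norm_nonneg (u t, v t))
      rw [sys_apply, add_zero]
      refine max_le (by dsimp only; linarith) ?_
      change ‖Q t (u t) - p t • v t‖ ≤ _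
      linarith [norm_nonneg (u t, v t)]
  · have key : ∀ n : ℕ, ContDiff ℝ n u ∧ ContDiff ℝ n v := by
      have d1 : deriv u = v := funext fun s => (h s trivial).1.deriv
      have d2 : deriv v = fun s => rs D (Q s) (u s) - p s • v s :=
        funext fun s => (h s trivial).2.deriv
      intro n
      induction n with
      | zero =>
        exact ⟨contDiff_zero.2 (continuous_iff_continuousAt.2 fun s => (h s trivial).1.continuousAt),
          contDiff_zero.2 (continuous_iff_continuousAt.2 fun s => (h s trivial).2.continuousAt)⟩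
      | succ n ih =>
        rw [Nat.cast_succ, contDiff_succ_iff_deriv, contDiff_succ_iff_deriv, d1, d2]
        refine ⟨⟨fun s => (h s trivial).1.differentiableAt, by simp, ih.2⟩,
          fun s => (h s trivial).2.differentiableAt, by simp, ?_⟩
        exact (((rs D).contDiff.comp (contDiff_infty.1 hQ n)).clm_apply ih.1).sub
          ((contDiff_infty.1 hp n).smul ih.2)
    exact contDiff_infty.2 fun n => (key n).1

end Vale.Agent.P225
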