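import Vale.Agent.P225.RDefs

/-! All traceless rank one operators on one level lie in a good Lie algebra. -/

namespace Vale.Agent.P225

open scoped ComplexConjugate Nat
open MvPolynomial

namespace All

/-- the linear algebra step -/
theorem rank_one {V : Type} [AddCommGroup V] [Module ℂ V] (K : Submodule ℂ (Module.End ℂ V))
    (hbr : ∀ E ∈ K, ∀ F ∈ K, E * F - F * E ∈ K) (v : V) (ξ : Module.Dual ℂ V) (hv : ξ v = 1)
    (h1 : ∀ u, ξ u = 0 → ξ.smulRight u ∈ K)
    (h2 : ∀ ψ : Module.Dual ℂ V, ψ v = 0 → ψ.smulRight v ∈ K)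
    (u : V) (ψ : Module.Dual ℂ V) (h : ψ u = 0) : ψ.smulRight u ∈ K := by
  have ha := h1 (u - ξ u • v) (by simp [hv])
  have hb := h2 (ψ - ψ v • ξ) (by simp [hv])
  have hc := K.add_mem (K.add_mem (K.smul_mem (ξ u) hb) (K.smul_mem (ψ v) ha)) (hbr _ ha _ hb)
  refine (congrArg (· ∈ K) ?_).mp hc
  ext w
  simp only [LinearMap.add_apply, LinearMap.smul_apply, LinearMap.smulRight_apply,
    LinearMap.sub_apply, Module.End.mul_apply, map_smul, map_sub, hv, h, smul_eq_mul]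
  module

variable {m : ℕ}

theorem ctop_apply (a : Ix m) (l : ℕ) (u : HV m l) :
    ctop a l u = coeff (Finsupp.single a l) (u : Pol m) := rfl

theorem ctop_vtop (a : Ix m) (l : ℕ) : ctop a l (vtop a l) = 1 := by
  classical
  rw [ctop_apply]
  change coeff (Finsupp.single a l) (X a ^ l : Pol m) = 1
  rw [coeff_X_pow, if_pos rfl]

theorem coeff_X_mul_ne {a b : Ix m} (h : b ≠ a) (l : ℕ) (Q : Pol m) :
    coeff (Finsupp.single a l) (X b * Q) = 0 := by
  classical
  rw [coeff_X_mul', if_neg]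
  intro hb
  exact h (Finset.mem_singleton.mp (Finsupp.support_single_subset hb))

theorem ctop_Rm {a b c : Ix m} (hb : b ≠ a) (hc : c ≠ a) (l : ℕ) (u : HV m l) :
    ctop a l (dV l (Rm b c) u) = 0 := by
  rw [ctop_apply, dV_coe (isSo_Rm b c), DM_Rm, coeff_sub, coeff_X_mul_ne hb, coeff_X_mul_ne hc,
    sub_zero]

theorem pderiv_pow_ne {a b : Ix m} (h : b ≠ a) (l : ℕ) : pderiv b (X a ^ l : Pol m) = 0 := by
  classical
  simp [Derivation.leibniz_pow, pderiv_X, h.symm]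

theorem pderiv_pow_self (a : Ix m) (l : ℕ) :
    pderiv a (X a ^ l : Pol m) = (l : ℂ) • X a ^ (l - 1) := by
  classical
  simp [Derivation.leibniz_pow, pderiv_X, smul_eq_C_mul]

theorem exists_third (hm : 3 ≤ m) (i j : Fin m) : ∃ k : Fin m, k ≠ i ∧ k ≠ j := by
  by_contra h
  have h1 : (Finset.univ : Finset (Fin m)) ⊆ {i, j} := fun k _ => by
    by_contra hk
    simp only [Finset.mem_insert, Finset.mem_singleton, not_or] at hk
    exact h ⟨k, hk⟩
  have h2 := (Finset.card_le_card h1).trans (Finset.card_le_two (a := i) (b := j))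
  rw [Finset.card_univ, Fintype.card_fin] at h2
  omega

/-- the statement on one level -/
theorem level (h1 : FisStmt) (h2 : CycStmt) (hm : 3 ≤ m) (L : ℕ)
    (K : Submodule ℂ (Module.End ℂ (HV m L)))
    (hbr : ∀ E ∈ K, ∀ F ∈ K, E * F - F * E ∈ K)
    (had : ∀ M : CM m, IsSo M → ∀ E ∈ K, dV L M * E - E * dV L M ∈ K)
    (hadj : ∀ E ∈ K, ∃ F ∈ K, ∀ u w : HV m L, fis (E u : Pol m) w = fis (u : Pol m) (F w : Pol m))
    (hone : ∀ i j : Fin m, i ≠ j → ∃ u : HV m L,
      (u : Pol m) = X (Sum.inl i) ^ (L - 1) * X (Sum.inr j) ∧ (ctop (Sum.inl i) L).smulRight u ∈ K)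
    (u : HV m L) (ψ : Module.Dual ℂ (HV m L)) (h : ψ u = 0) : ψ.smulRight u ∈ K := by
  obtain ⟨fadd, fsmul, fconj, fdef, -, ftop, -, friesz⟩ := h1 m
  obtain ⟨i₀⟩ : Nonempty (Fin m) := ⟨⟨0, by omega⟩⟩
  obtain ⟨a, ha⟩ : ∃ a : Ix m, a = Sum.inl i₀ := ⟨_, rfl⟩
  let B₀ : Submodule ℂ (HV m L) :=
    LinearMap.ker (ctop a L) ⊓ K.comap (LinearMap.smulRightₗ (ctop a L))
  have hB₀ : ∀ w, w ∈ B₀ ↔ ctop a L w = 0 ∧ (ctop a L).smulRight w ∈ K := fun w => Iff.rfl
  have hst : ∀ b c, b ≠ a → c ≠ a → ∀ w ∈ B₀, dV L (Rm b c) w ∈ B₀ := by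
    intro b c hb hc w hw
    refine (hB₀ _).mpr ⟨ctop_Rm hb hc L w, ?_⟩
    refine (congrArg (· ∈ K) ?_).mp (had _ (isSo_Rm b c) _ ((hB₀ w).mp hw).2)
    refine LinearMap.ext fun z => ?_
    simp only [LinearMap.smulRight_apply, LinearMap.sub_apply, Module.End.mul_apply, map_smul,
      ctop_Rm hb hc, zero_smul, sub_zero]
  have hr : ∀ j : Fin m, j ≠ i₀ → ∃ w ∈ B₀, (w : Pol m) = X (Sum.inr j) * X a ^ (L - 1) := by
    intro j hj
    obtain ⟨w, hw, hK⟩ := hone i₀ j hj.symm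
    rw [← ha] at hw hK
    rw [mul_comm] at hw
    refine ⟨w, (hB₀ w).mpr ⟨?_, hK⟩, hw⟩
    rw [ctop_apply, hw, coeff_X_mul_ne (by simp [ha])]
  have hk : ∀ k : Ix m, k ≠ a → Sum.swap k ≠ a →
      ∃ w ∈ B₀, (w : Pol m) = X k * X a ^ (L - 1) := by
    rintro (j | j) hk hk'
    · obtain ⟨j', hj1, hj2⟩ := exists_third hm i₀ j
      obtain ⟨w, hw, hw'⟩ := hr j' hj1
      refine ⟨_, hst (Sum.inl j) (Sum.inl j') hk (by simp [ha, hj1]) w hw, ?_⟩
      rw [dV_coe (isSo_Rm _ _), DM_Rm, hw']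
      have e1 : ∀ t : Fin m, pderiv (Sum.inr t) (X a ^ (L - 1) : Pol m) = 0 := fun t =>
        pderiv_pow_ne (by simp [ha]) _
      simp [Derivation.leibniz, e1, pderiv_X, hj2]
    · exact hr j fun hj => hk' (by simp [ha, hj])
  have htop : B₀ ⊔ Submodule.span ℂ {vtop a L} = ⊤ := by
    refine h2 m L a _ (by omega)
      (Submodule.mem_sup_right (Submodule.mem_span_singleton_self _)) fun b c hb hc w hw => ?_
    obtain ⟨w₀, hw₀, w₁, hw₁, rfl⟩ := Submodule.mem_sup.mp hw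
    obtain ⟨z, rfl⟩ := Submodule.mem_span_singleton.mp hw₁
    rw [map_add, map_smul]
    refine Submodule.mem_sup_left (B₀.add_mem (hst b c hb hc w₀ hw₀) (B₀.smul_mem z ?_))
    have hc0 : ((dV L (Rm b c) (vtop a L) : HV m L) : Pol m) =
        X b * pderiv (Sum.swap c) (X a ^ L) - X c * pderiv (Sum.swap b) (X a ^ L) := by
      rw [dV_coe (isSo_Rm _ _), DM_Rm]
      rfl
    by_cases hb' : Sum.swap b = a
    · by_cases hc' : Sum.swap c = a
      · have hbc : b = c := Sum.swap_leftInverse.injective (hb'.trans hc'.symm)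
        subst hbc
        rw [sub_self] at hc0
        rw [Subtype.ext (a2 := (0 : HV m L)) hc0]
        exact B₀.zero_mem
      · obtain ⟨w, hw, hw'⟩ := hk c hc hc'
        refine (congrArg (· ∈ B₀) (Subtype.ext ?_)).mp (B₀.smul_mem (-(L : ℂ)) hw)
        rw [hc0, pderiv_pow_ne hc', hb', pderiv_pow_self, Submodule.coe_smul, hw']
        simp
    · by_cases hc' : Sum.swap c = a
      · obtain ⟨w, hw, hw'⟩ := hk b hb hb'
        refine (congrArg (· ∈ B₀) (Subtype.ext ?_)).mp (B₀.smul_mem (L : ℂ) hw)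
        rw [hc0, pderiv_pow_ne hb', hc', pderiv_pow_self, Submodule.coe_smul, hw']
        simp
      · rw [pderiv_pow_ne hb', pderiv_pow_ne hc', mul_zero, mul_zero, sub_zero] at hc0
        rw [Subtype.ext (a2 := (0 : HV m L)) hc0]
        exact B₀.zero_mem
  have hA : ∀ w, ctop a L w = 0 → (ctop a L).smulRight w ∈ K := by
    intro w hw
    have hw' : w ∈ B₀ ⊔ Submodule.span ℂ {vtop a L} := htop ▸ Submodule.mem_top
    obtain ⟨w₀, hw₀, w₁, hw₁, rfl⟩ := Submodule.mem_sup.mp hw'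
    obtain ⟨z, rfl⟩ := Submodule.mem_span_singleton.mp hw₁
    rw [map_add, map_smul, ((hB₀ _).mp hw₀).1, ctop_vtop, smul_eq_mul, mul_one, zero_add] at hw
    rw [hw, zero_smul, add_zero]
    exact ((hB₀ _).mp hw₀).2
  have hv : ∀ w : HV m L, fis (w : Pol m) (vtop a L : Pol m) = (L ! : ℂ) * conj (ctop a L w) := by
    intro w
    rw [fconj]
    change conj (fis (X a ^ L) w) = _
    rw [ftop, map_mul, map_natCast, ctop_apply]
  refine rank_one K hbr (vtop a L) (ctop a L) (ctop_vtop a L) hA (fun χ hχ => ?_) u ψ h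
  obtain ⟨r, hr'⟩ := friesz L χ
  have hL : (L ! : ℂ) ≠ 0 := Nat.cast_ne_zero.mpr (Nat.factorial_ne_zero L)
  have hr0 : ctop a L r = 0 := by
    rw [hr', hv] at hχ
    simpa [hL] using hχ
  obtain ⟨F, hF, hF'⟩ := hadj _ (hA r hr0)
  refine (congrArg (· ∈ K) ?_).mp (K.smul_mem (L ! : ℂ) hF)
  refine LinearMap.ext fun w => ?_
  have key : ∀ z : HV m L,
      fis (z : Pol m) (((L ! : ℂ) • F w + (-χ w) • vtop a L : HV m L) : Pol m) = 0 := by
    intro z
    rw [Submodule.coe_add, Submodule.coe_smul, Submodule.coe_smul, fadd, fsmul, fsmul, ← hF', hv,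
      LinearMap.smulRight_apply, Submodule.coe_smul, fconj, fsmul, map_mul, ← fconj, ← hr']
    ring
  have h0 := fdef _ (key _)
  rw [Submodule.coe_add, Submodule.coe_smul, Submodule.coe_smul, neg_smul, add_neg_eq_zero] at h0
  exact Subtype.ext h0

end All

theorem allStmt (h1 : FisStmt) (h2 : CycStmt) (h3 : OneStmt) : AllStmt := by
  intro m Λ _ _ lev c H hm hlev hc hG l₀ u ψ h
  let σ := LinearMap.single ℂ (fun l => Module.End ℂ (HV m (lev l))) l₀
  have hσ : ∀ E, σ E = Pi.single (M := fun l => Module.End ℂ (HV m (lev l))) l₀ E := fun _ => rfl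
  have hmul : ∀ (Y : ∀ l, Module.End ℂ (HV m (lev l))) E,
      Y * σ E - σ E * Y = σ (Y l₀ * E - E * Y l₀) := by
    intro Y E
    funext l
    by_cases hl : l = l₀
    · subst hl
      simp [hσ]
    · rw [Pi.sub_apply, Pi.mul_apply, Pi.mul_apply, hσ, hσ, Pi.single_eq_of_ne hl,
        Pi.single_eq_of_ne hl, mul_zero, zero_mul]
      exact LinearMap.ext fun w => Subtype.ext (sub_self (0 : Pol m))
  refine All.level h1 h2 hm (lev l₀) (H.comap σ) (fun E hE F hF => ?_) (fun M hM E hE => ?_)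
    (fun E hE => ?_) (fun i j hij => ?_) u ψ h
  · have := hG.br _ hE _ hF
    rw [hmul, hσ E, Pi.single_eq_same] at this
    exact this
  · have := hG.ad M hM _ hE
    rw [hmul] at this
    exact this
  · obtain ⟨Z, hZ, hZ'⟩ := hG.adj _ hE
    refine ⟨Z l₀, ?_, fun u w => ?_⟩
    · refine (congrArg (· ∈ H) ?_).mp hZ
      funext l
      by_cases hl : l = l₀
      · subst hl
        simp [hσ]
      · rw [hσ, Pi.single_eq_of_ne hl]
        refine LinearMap.ext fun w => Subtype.ext ((h1 m).2.2.2.1 _ ?_)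
        rw [← hZ', hσ, Pi.single_eq_of_ne hl]
        simp [fis]
    · have := hZ' l₀ u w
      rwa [hσ, Pi.single_eq_same] at this
  · obtain ⟨k, hk1, hk2⟩ := All.exists_third hm i j
    exact h3 m Λ lev c H hlev hc hG i j k hij hk1.symm hk2.symm l₀

end Vale.Agent.P225
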