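import Vale.Agent.P225.RDefs

/-! A weight basis of the harmonic polynomials and the dimension count. -/

namespace Vale.Agent.P225

open MvPolynomial

namespace Basis

variable {m : ℕ}

/-- the bidegree -/
def w2 (m : ℕ) : Ix m → ℕ × ℕ := Sum.elim (fun _ => (1, 0)) fun _ => (0, 1)

theorem weight_w2 (d : Ix m →₀ ℕ) :
    Finsupp.weight (w2 m) d = (∑ i, d (Sum.inl i), ∑ i, d (Sum.inr i)) := by
  rw [Finsupp.weight_eq_sum, Fintype.sum_sum_type]
  ext <;> simp [w2, Prod.fst_sum, Prod.snd_sum]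

theorem weight_wt (d : Ix m →₀ ℕ) :
    Finsupp.weight (wt m) d = ((∑ i, d (Sum.inl i) : ℕ) : ℤ) - ((∑ i, d (Sum.inr i) : ℕ) : ℤ) := by
  rw [Finsupp.weight_eq_sum, Fintype.sum_sum_type]
  simp [wt, sub_eq_add_neg]

theorem weight_one (d : Ix m →₀ ℕ) :
    Finsupp.weight (1 : Ix m → ℕ) d = ∑ i, d (Sum.inl i) + ∑ i, d (Sum.inr i) := by
  rw [Finsupp.weight_eq_sum, Fintype.sum_sum_type]
  simp

theorem Lp_wt {P : Pol m} {j : ℤ} (h : IsWeightedHomogeneous (wt m) P j) :
    IsWeightedHomogeneous (wt m) (Lp P) j := by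
  rw [Lp_apply]
  refine IsWeightedHomogeneous.sum _ _ _ fun a _ => ?_
  refine IsWeightedHomogeneous.pderiv (n := j + wt m a) (h.pderiv ?_) rfl
  cases a <;> simp [wt]

theorem Lp_w2 {P : Pol m} {p q : ℕ} (h : IsWeightedHomogeneous (w2 m) P (p + 1, q + 1)) :
    IsWeightedHomogeneous (w2 m) (Lp P) (p, q) := by
  rw [Lp_apply]
  refine IsWeightedHomogeneous.sum _ _ _ fun a _ => ?_
  refine IsWeightedHomogeneous.pderiv (n := (p, q) + w2 m a) (h.pderiv ?_) rfl
  cases a <;> simp [w2]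

theorem comp_Lp (j : ℤ) (P : Pol m) : weightedHomogeneousComponent (wt m) j (Lp P) =
    Lp (weightedHomogeneousComponent (wt m) j P) := by
  induction P using MvPolynomial.induction_on' with
  | add p q hp hq => simp only [map_add, hp, hq]
  | monomial d c =>
    have h := isWeightedHomogeneous_monomial (wt m) d c rfl
    by_cases e : j = Finsupp.weight (wt m) d
    · rw [e, h.weightedHomogeneousComponent_same, (Lp_wt h).weightedHomogeneousComponent_same]
    · rw [h.weightedHomogeneousComponent_ne j e, (Lp_wt h).weightedHomogeneousComponent_ne j e,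
        map_zero]

theorem comp_mem {l : ℕ} (j : ℤ) {P : Pol m} (h : P ∈ HV m l) :
    weightedHomogeneousComponent (wt m) j P ∈ HV m l := by
  rw [mem_HV] at h ⊢
  refine ⟨fun d hd => h.1 fun e => hd ?_, by rw [← comp_Lp, h.2, map_zero]⟩
  rw [coeff_weightedHomogeneousComponent, e, ite_self]

/-- the weight spaces -/
noncomputable def W (m l : ℕ) (j : ℤ) : Submodule ℂ (HV m l) :=
  (weightedHomogeneousSubmodule ℂ (wt m) j).comap (HV m l).subtype

theorem mem_W {l : ℕ} {j : ℤ} {u : HV m l} :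
    u ∈ W m l j ↔ IsWeightedHomogeneous (wt m) (u : Pol m) j := Iff.rfl

theorem internal (m l : ℕ) : DirectSum.IsInternal (W m l) := by
  refine DirectSum.isInternal_submodule_of_iSupIndep_of_iSup_eq_top ?_ ?_
  · refine iSupIndep_def.2 fun i => Submodule.disjoint_def.2 fun x hx hx' => ?_
    have h : (⨆ j, ⨆ (_ : j ≠ i), W m l j) ≤
        LinearMap.ker (weightedHomogeneousComponent (wt m) i ∘ₗ (HV m l).subtype) :=
      iSup₂_le fun j hj y hy => (mem_W.1 hy).weightedHomogeneousComponent_ne i hj.symm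
    have h2 : weightedHomogeneousComponent (wt m) i (x : Pol m) = 0 := h hx'
    rw [(mem_W.1 hx).weightedHomogeneousComponent_same] at h2
    exact Subtype.ext h2
  · refine top_unique fun u _ => ?_
    have h := sum_weightedHomogeneousComponent (w := wt m) (u : Pol m)
    rw [finsum_eq_sum _ (weightedHomogeneousComponent_finsupp _)] at h
    have h2 : u = ∑ j ∈ (weightedHomogeneousComponent_finsupp (w := wt m) (u : Pol m)).toFinset,
        (⟨_, comp_mem j u.2⟩ : HV m l) := by
      refine Subtype.ext ?_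
      rw [Submodule.coe_sum]
      exact h.symm
    rw [h2]
    exact Submodule.sum_mem _ fun j _ => Submodule.mem_iSup_of_mem j
      (weightedHomogeneousComponent_isWeightedHomogeneous j (u : Pol m))

theorem abs_le {l : ℕ} {j : ℤ} {u : HV m l} (hu : u ≠ 0) (h : u ∈ W m l j) : |j| ≤ l := by
  have h0 : (u : Pol m) ≠ 0 := fun e => hu (Subtype.ext e)
  obtain ⟨d, hd⟩ := ne_zero_iff.1 h0
  have h1 := mem_W.1 h hd
  have h2 := (mem_HV.1 u.2).1 hd
  rw [weight_wt] at h1
  rw [weight_one] at h2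
  rw [← h1, ← h2, _root_.abs_le]
  constructor <;> omega

/-- exponents of a given bidegree -/
noncomputable def expEquiv (m p q : ℕ) : {d : Ix m →₀ ℕ | Finsupp.weight (w2 m) d = (p, q)} ≃
    {P : Fin m → ℕ // ∑ i, P i = p} × {P : Fin m → ℕ // ∑ i, P i = q} where
  toFun d := (⟨fun i => d.1 (Sum.inl i), (Prod.ext_iff.1 ((weight_w2 d.1).symm.trans d.2)).1⟩,
    ⟨fun i => d.1 (Sum.inr i), (Prod.ext_iff.1 ((weight_w2 d.1).symm.trans d.2)).2⟩)
  invFun x := ⟨Finsupp.equivFunOnFinite.symm (Sum.elim x.1.1 x.2.1),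
    (weight_w2 _).trans (Prod.ext x.1.2 x.2.2)⟩
  left_inv d := by
    refine Subtype.ext (Finsupp.ext fun a => ?_)
    cases a <;> rfl
  right_inv _ := rfl

theorem rank_w2 (m p q : ℕ) :
    FiniteDimensional ℂ (weightedHomogeneousSubmodule ℂ (w2 m) (p, q)) ∧
    Module.finrank ℂ (weightedHomogeneousSubmodule ℂ (w2 m) (p, q)) = Bn m p * Bn m q := by
  rw [weightedHomogeneousSubmodule_eq_finsupp_supported]
  let b := (basisRestrictSupport ℂ {d : Ix m →₀ ℕ | Finsupp.weight (w2 m) d = (p, q)}).reindex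
    ((expEquiv m p q).trans ((Sym.equivNatSumOfFintype (Fin m) p).symm.prodCongr
      (Sym.equivNatSumOfFintype (Fin m) q).symm))
  refine ⟨Module.Finite.of_basis b, (Module.finrank_eq_card_basis b).trans ?_⟩
  rw [Fintype.card_prod, Sym.card_sym_eq_choose, Sym.card_sym_eq_choose, Fintype.card_fin, Bn, Bn]

theorem count (m p q : ℕ) [FiniteDimensional ℂ (HV m (p + 1 + (q + 1)))] :
    Dn m (p + 1) (q + 1) ≤ Module.finrank ℂ (W m (p + 1 + (q + 1)) ((p : ℤ) - q)) := by
  obtain ⟨i1, r1⟩ := rank_w2 m (p + 1) (q + 1)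
  obtain ⟨i2, r2⟩ := rank_w2 m p q
  let f : weightedHomogeneousSubmodule ℂ (w2 m) (p + 1, q + 1) →ₗ[ℂ]
      weightedHomogeneousSubmodule ℂ (w2 m) (p, q) := Lp.restrict fun _ h => Lp_w2 h
  have h1 := f.finrank_range_add_finrank_ker
  have h2 := Submodule.finrank_le (LinearMap.range f)
  have k1 : ∀ x : LinearMap.ker f, (x.1.1 : Pol m) ∈ HV m (p + 1 + (q + 1)) := fun x => by
    refine mem_HV.2 ⟨fun d hd => ?_, congrArg Subtype.val x.2⟩
    have := (weight_w2 d).symm.trans (x.1.2 hd)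
    rw [weight_one, (Prod.mk.inj this).1, (Prod.mk.inj this).2]
  have k2 : ∀ x : LinearMap.ker f, IsWeightedHomogeneous (wt m) (x.1.1 : Pol m) ((p : ℤ) - q) :=
    fun x d hd => by
      have := (weight_w2 d).symm.trans (x.1.2 hd)
      rw [weight_wt, (Prod.mk.inj this).1, (Prod.mk.inj this).2]
      push_cast
      ring
  let g : LinearMap.ker f →ₗ[ℂ] W m (p + 1 + (q + 1)) ((p : ℤ) - q) :=
    (((Submodule.subtype _ ∘ₗ Submodule.subtype _).codRestrict _ k1).codRestrict _ k2)
  have h3 := LinearMap.finrank_le_finrank_of_injective (f := g) fun x y h =>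
    Subtype.ext (Subtype.ext (congrArg (fun z => z.1.1) h))
  rw [Dn, Nat.add_sub_cancel, Nat.add_sub_cancel]
  omega

end Basis

open _root_.Vale.Agent.P225.Basis in
theorem basisStmt (h : FisStmt) : BasisStmt := by
  intro m l
  have hf : ∀ l, FiniteDimensional ℂ (HV m l) := (h m).2.2.2.2.2.2.1
  have hfr : ∀ j, Module.Free ℂ (W m l j) := fun j =>
    Module.Free.of_divisionRing ℂ (W m l j)
  let b := (internal m l).collectedBasis fun j => Module.finBasis ℂ (W m l j)
  have : Finite (Σ j, Fin (Module.finrank ℂ (W m l j))) := Module.Finite.finite_basis b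
  let e := Finite.equivFin (Σ j, Fin (Module.finrank ℂ (W m l j)))
  have hb : ∀ i, b.reindex e i ∈ W m l (e.symm i).1 := fun i => by
    rw [Module.Basis.reindex_apply]
    exact (internal m l).collectedBasis_mem _ _
  refine ⟨_, b.reindex e, fun i => (e.symm i).1, hb,
    fun i => Basis.abs_le ((b.reindex e).ne_zero i) (hb i), fun q h1 h2 => ?_⟩
  obtain ⟨q, rfl⟩ : ∃ q', q = q' + 1 := ⟨q - 1, by omega⟩
  obtain ⟨p, hp⟩ : ∃ p, l = p + 1 + (q + 1) := ⟨l - q - 2, by omega⟩
  have h3 : Dn m (l - (q + 1)) (q + 1) ≤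
      Module.finrank ℂ (W m l ((l : ℤ) - 2 * (q + 1 : ℕ))) := by
    subst hp
    have e1 : ((p + 1 + (q + 1) : ℕ) : ℤ) - 2 * (q + 1 : ℕ) = (p : ℤ) - q := by
      push_cast
      ring
    rw [e1, Nat.add_sub_cancel]
    exact count m p q
  refine h3.trans ?_
  rw [← Fintype.card_fin (Module.finrank ℂ _), ← Finset.card_univ]
  refine Finset.card_le_card_of_injOn (fun x => e ⟨_, x⟩) (fun x _ => by simp) fun x _ y _ hxy => ?_
  exact eq_of_heq (Sigma.mk.inj (e.injective hxy)).2

end Vale.Agent.P225
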