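import Vale.Agent.P225.Iface

/-! Christoffel symbols, inverse and positivity of the Berger type metric. -/

namespace Vale.Agent.P225

open scoped ContDiff Topology Matrix
open Filter Set

namespace Chr

variable {n : ℕ}

theorem sg_pos {y : Pt n} (hy : y ≠ 0) : 0 < sg y := by
  unfold sg
  have h1 : 0 ≤ y ⬝ᵥ y := by
    unfold dotProduct
    exact Finset.sum_nonneg fun i _ => mul_self_nonneg _
  rcases h1.lt_or_eq with h | h
  · exact h
  · exact absurd (dotProduct_self_eq_zero.mp h.symm) hy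

theorem J_anti {J : Mat n} (hJ : IsCx J) (i j : Fin n) : J j i = -J i j := by
  have := congrFun (congrFun hJ.1 i) j
  simpa [Matrix.transpose_apply] using this

theorem Jw {J : Mat n} (hJ : IsCx J) (y : Pt n) : J *ᵥ (J *ᵥ y) = -y := by
  rw [Matrix.mulVec_mulVec, hJ.2, Matrix.neg_mulVec, Matrix.one_mulVec]

theorem sum_yJ {J : Mat n} (hJ : IsCx J) (y : Pt n) (i : Fin n) :
    ∑ l, y l * J l i = -(J *ᵥ y) i := by
  simp only [Matrix.mulVec, dotProduct, ← Finset.sum_neg_distrib]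
  refine Finset.sum_congr rfl fun l _ => ?_
  rw [J_anti hJ i l]; ring

theorem sum_wJ {J : Mat n} (hJ : IsCx J) (y : Pt n) (i : Fin n) :
    ∑ l, (J *ᵥ y) l * J l i = y i := by
  rw [sum_yJ hJ, Jw hJ]; simp

theorem sum_yw {J : Mat n} (hJ : IsCx J) (y : Pt n) : ∑ l, y l * (J *ᵥ y) l = 0 := by
  have h1 : ∑ l, y l * (J *ᵥ y) l = ∑ i, (∑ l, y l * J l i) * y i := by
    simp only [Matrix.mulVec, dotProduct, Finset.mul_sum, Finset.sum_mul]
    rw [Finset.sum_comm]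
    refine Finset.sum_congr rfl fun i _ => Finset.sum_congr rfl fun l _ => by ring
  have h2 : ∑ i, (∑ l, y l * J l i) * y i = -∑ l, y l * (J *ᵥ y) l := by
    rw [← Finset.sum_neg_distrib]
    refine Finset.sum_congr rfl fun i _ => ?_
    rw [sum_yJ hJ]; ring
  linarith

theorem sum_ww {J : Mat n} (hJ : IsCx J) (y : Pt n) :
    ∑ l, (J *ᵥ y) l * (J *ᵥ y) l = sg y := by
  have h1 : ∑ l, (J *ᵥ y) l * (J *ᵥ y) l = ∑ i, (∑ l, (J *ᵥ y) l * J l i) * y i := by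
    have : ∀ l, (J *ᵥ y) l * (J *ᵥ y) l = ∑ i, (J *ᵥ y) l * J l i * y i := by
      intro l
      conv_lhs => rw [show (J *ᵥ y) l * (J *ᵥ y) l = (J *ᵥ y) l * ∑ i, J l i * y i from rfl]
      rw [Finset.mul_sum]
      refine Finset.sum_congr rfl fun i _ => by ring
    simp only [this, Finset.sum_mul]
    rw [Finset.sum_comm]
  rw [h1]
  simp only [sum_wJ hJ]
  rfl

theorem sum_yy (y : Pt n) : ∑ l, y l * y l = sg y := rfl

/-- entries of a matrix of the standard form -/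
def E3 (p q r : ℝ) (y w : Pt n) (i j : Fin n) : ℝ :=
  p * (1 : Mat n) i j + q * (y i * y j) + r * (w i * w j)

theorem gm_apply (Φ x : ℝ → ℝ) (J : Mat n) (y : Pt n) (i j : Fin n) :
    gm Φ x J y i j =
      E3 (Real.exp (2 * Φ (ls y)) / sg y * cA (x (ls y)))
        (Real.exp (2 * Φ (ls y)) / sg y * ((1 - cA (x (ls y))) / sg y))
        (Real.exp (2 * Φ (ls y)) / sg y * ((cB n (x (ls y)) - cA (x (ls y))) / sg y))
        y (J *ᵥ y) i j := by
  simp only [gm, E3, Matrix.smul_apply, Matrix.add_apply, Matrix.vecMulVec_apply, smul_eq_mul]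
  ring

theorem ginv_apply (Φ x : ℝ → ℝ) (J : Mat n) (y : Pt n) (i j : Fin n) :
    ginv Φ x J y i j =
      E3 (sg y / Real.exp (2 * Φ (ls y)) * (cA (x (ls y)))⁻¹)
        (sg y / Real.exp (2 * Φ (ls y)) * ((1 - (cA (x (ls y)))⁻¹) / sg y))
        (sg y / Real.exp (2 * Φ (ls y)) * (((cB n (x (ls y)))⁻¹ - (cA (x (ls y)))⁻¹) / sg y))
        y (J *ᵥ y) i j := by
  simp only [ginv, E3, Matrix.smul_apply, Matrix.add_apply, Matrix.vecMulVec_apply, smul_eq_mul]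
  ring

theorem sum_one_left (k : Fin n) (V : Fin n → ℝ) : ∑ l, (1 : Mat n) k l * V l = V k := by
  simp [Matrix.one_apply]

theorem sum_one_right (k : Fin n) (V : Fin n → ℝ) : ∑ l, V l * (1 : Mat n) l k = V k := by
  simp [Matrix.one_apply]

theorem sum_E3 (p q r : ℝ) (y w : Pt n) (k : Fin n) (V : Fin n → ℝ) :
    ∑ l, E3 p q r y w k l * V l =
      p * V k + q * y k * (∑ l, y l * V l) + r * w k * (∑ l, w l * V l) := by
  rw [← sum_one_left k V]
  simp only [E3, Finset.mul_sum, ← Finset.sum_add_distrib]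
  refine Finset.sum_congr rfl fun l _ => by ring

theorem cA_pos (t : ℝ) : 0 < cA t := Real.exp_pos _
theorem cB_pos (t : ℝ) : 0 < cB n t := Real.exp_pos _

theorem sum_yE3 {J : Mat n} (hJ : IsCx J) (p q r : ℝ) (y : Pt n) (j : Fin n) :
    ∑ l, y l * E3 p q r y (J *ᵥ y) l j = (p + q * sg y) * y j := by
  have h : ∀ l, y l * E3 p q r y (J *ᵥ y) l j = p * (y l * (1 : Mat n) l j) +
      q * y j * (y l * y l) + r * (J *ᵥ y) j * (y l * (J *ᵥ y) l) := by
    intro l; unfold E3; ring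
  simp only [h, Finset.sum_add_distrib, ← Finset.mul_sum, sum_one_right, sum_yy, sum_yw hJ]
  ring

theorem sum_wE3 {J : Mat n} (hJ : IsCx J) (p q r : ℝ) (y : Pt n) (j : Fin n) :
    ∑ l, (J *ᵥ y) l * E3 p q r y (J *ᵥ y) l j = (p + r * sg y) * (J *ᵥ y) j := by
  have h : ∀ l, (J *ᵥ y) l * E3 p q r y (J *ᵥ y) l j = p * ((J *ᵥ y) l * (1 : Mat n) l j) +
      q * y j * (y l * (J *ᵥ y) l) + r * (J *ᵥ y) j * ((J *ᵥ y) l * (J *ᵥ y) l) := by
    intro l; unfold E3; ring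
  simp only [h, Finset.sum_add_distrib, ← Finset.mul_sum, sum_one_right, sum_ww hJ, sum_yw hJ]
  ring

theorem gm_mul_ginv (Φ x : ℝ → ℝ) {J : Mat n} (hJ : IsCx J) {y : Pt n} (hy : y ≠ 0) :
    gm Φ x J y * ginv Φ x J y = 1 := by
  ext i j
  rw [Matrix.mul_apply]
  simp only [gm_apply, ginv_apply]
  rw [sum_E3, sum_yE3 hJ, sum_wE3 hJ]
  have h1 := (sg_pos hy).ne'
  have h2 := (cA_pos (x (ls y))).ne'
  have h3 := (cB_pos (n := n) (x (ls y))).ne'
  have h4 := (Real.exp_pos (2 * Φ (ls y))).ne'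
  unfold E3
  field_simp
  ring

theorem inv_gm (Φ x : ℝ → ℝ) {J : Mat n} (hJ : IsCx J) {y : Pt n} (hy : y ≠ 0) :
    (gm Φ x J y)⁻¹ = ginv Φ x J y :=
  Matrix.inv_eq_right_inv (gm_mul_ginv Φ x hJ hy)

theorem posDef_gm (Φ x : ℝ → ℝ) {J : Mat n} (hJ : IsCx J) {y : Pt n} (hy : y ≠ 0) :
    (gm Φ x J y).PosDef := by
  have h1 := sg_pos hy
  have h2 := cA_pos (x (ls y))
  have h3 := cB_pos (n := n) (x (ls y))
  have h4 := Real.exp_pos (2 * Φ (ls y))
  rw [Matrix.posDef_iff_dotProduct_mulVec]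
  refine ⟨?_, fun v hv => ?_⟩
  · ext i j
    rw [Matrix.conjTranspose_apply, star_trivial, gm_apply, gm_apply]
    unfold E3
    rw [Matrix.one_apply, Matrix.one_apply]
    by_cases h : i = j
    · subst h; ring
    · rw [if_neg h, if_neg (Ne.symm h)]; ring
  · rw [star_trivial]
    set a := ∑ l, y l * v l with ha
    set b := ∑ l, (J *ᵥ y) l * v l with hb
    have hv2 : 0 < ∑ l, v l * v l := sg_pos hv
    have key : v ⬝ᵥ (gm Φ x J y *ᵥ v) = Real.exp (2 * Φ (ls y)) / sg y *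
        (cA (x (ls y)) * (∑ l, v l * v l - a ^ 2 / sg y - b ^ 2 / sg y) + a ^ 2 / sg y +
          cB n (x (ls y)) * (b ^ 2 / sg y)) := by
      have e : ∀ k, v k * (gm Φ x J y *ᵥ v) k =
          (Real.exp (2 * Φ (ls y)) / sg y * cA (x (ls y))) * (v k * v k) +
          (Real.exp (2 * Φ (ls y)) / sg y * ((1 - cA (x (ls y))) / sg y)) * a * (y k * v k) +
          (Real.exp (2 * Φ (ls y)) / sg y * ((cB n (x (ls y)) - cA (x (ls y))) / sg y)) * b *
            ((J *ᵥ y) k * v k) := by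
        intro k
        have : (gm Φ x J y *ᵥ v) k = ∑ l, gm Φ x J y k l * v l := rfl
        rw [this]
        simp only [gm_apply]
        rw [sum_E3, ← ha, ← hb]
        ring
      have : v ⬝ᵥ (gm Φ x J y *ᵥ v) = ∑ k, v k * (gm Φ x J y *ᵥ v) k := rfl
      rw [this]
      simp only [e, Finset.sum_add_distrib, ← Finset.mul_sum, ← ha, ← hb]
      ring
    have bes : 0 ≤ ∑ l, v l * v l - a ^ 2 / sg y - b ^ 2 / sg y := by
      have e : ∀ l, (v l - a / sg y * y l - b / sg y * (J *ᵥ y) l) ^ 2 =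
          v l * v l + (a / sg y) ^ 2 * (y l * y l) + (b / sg y) ^ 2 * ((J *ᵥ y) l * (J *ᵥ y) l) -
            2 * (a / sg y) * (y l * v l) - 2 * (b / sg y) * ((J *ᵥ y) l * v l) +
            2 * (a / sg y) * (b / sg y) * (y l * (J *ᵥ y) l) := by
        intro l; ring
      have h0 : 0 ≤ ∑ l, (v l - a / sg y * y l - b / sg y * (J *ᵥ y) l) ^ 2 :=
        Finset.sum_nonneg fun l _ => sq_nonneg _
      simp only [e, Finset.sum_add_distrib, Finset.sum_sub_distrib, ← Finset.mul_sum, ← ha, ← hb,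
        sum_yy, sum_ww hJ, sum_yw hJ] at h0
      have e2 : ∑ l, v l * v l - a ^ 2 / sg y - b ^ 2 / sg y =
          ∑ l, v l * v l + (a / sg y) ^ 2 * sg y + (b / sg y) ^ 2 * sg y - 2 * (a / sg y) * a -
            2 * (b / sg y) * b + 2 * (a / sg y) * (b / sg y) * 0 := by
        field_simp
        ring
      rw [e2]; exact h0
    rw [key]
    refine mul_pos (div_pos h4 h1) ?_
    have ha2 : 0 ≤ a ^ 2 / sg y := div_nonneg (sq_nonneg _) h1.le
    have hb2 : 0 ≤ b ^ 2 / sg y := div_nonneg (sq_nonneg _) h1.le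
    by_contra hcon
    have hcon := not_lt.mp hcon
    have t1 := mul_nonneg h2.le bes
    have t3 := mul_nonneg h3.le hb2
    have u1 : cA (x (ls y)) * (∑ l, v l * v l - a ^ 2 / sg y - b ^ 2 / sg y) = 0 := by linarith
    have u2 : a ^ 2 / sg y = 0 := by linarith
    have u3 : cB n (x (ls y)) * (b ^ 2 / sg y) = 0 := by linarith
    have w1 := (mul_eq_zero.mp u1).resolve_left h2.ne'
    have w3 := (mul_eq_zero.mp u3).resolve_left h3.ne'
    linarith

/-! ### derivatives -/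

/-- directional derivative along the coordinate `l` at `y` exists as part of a Frechet derivative -/
def HasPd (l : Fin n) (f : Pt n → ℝ) (y : Pt n) (d : ℝ) : Prop :=
  ∃ L : Pt n →L[ℝ] ℝ, HasFDerivAt f L y ∧ L (Pi.single l 1) = d

theorem HasPd.pd {l : Fin n} {f : Pt n → ℝ} {y : Pt n} {d : ℝ} (h : HasPd l f y d) :
    pd l f y = d := by
  obtain ⟨L, hL, e⟩ := h
  unfold P225.pd
  rw [hL.fderiv, e]

theorem HasPd.add {l : Fin n} {f g : Pt n → ℝ} {y : Pt n} {d e : ℝ} (hf : HasPd l f y d)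
    (hg : HasPd l g y e) : HasPd l (fun z => f z + g z) y (d + e) := by
  obtain ⟨L, hL, e1⟩ := hf
  obtain ⟨M, hM, e2⟩ := hg
  exact ⟨L + M, hL.add hM, by simp [e1, e2]⟩

theorem HasPd.mul {l : Fin n} {f g : Pt n → ℝ} {y : Pt n} {d e : ℝ} (hf : HasPd l f y d)
    (hg : HasPd l g y e) : HasPd l (fun z => f z * g z) y (d * g y + f y * e) := by
  obtain ⟨L, hL, e1⟩ := hf
  obtain ⟨M, hM, e2⟩ := hg
  refine ⟨f y • M + g y • L, hL.mul hM, ?_⟩
  simp [e1, e2]; ring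

theorem HasPd.comp {l : Fin n} {f : Pt n → ℝ} {y : Pt n} {d : ℝ} (hf : HasPd l f y d)
    {φ : ℝ → ℝ} {c : ℝ} (hφ : HasDerivAt φ c (f y)) : HasPd l (fun z => φ (f z)) y (c * d) := by
  obtain ⟨L, hL, e1⟩ := hf
  refine ⟨c • L, hφ.comp_hasFDerivAt y hL, ?_⟩
  simp [e1]

theorem HasPd.congr {l : Fin n} {f g : Pt n → ℝ} {y : Pt n} {d e : ℝ} (hf : HasPd l f y d)
    (h1 : ∀ z, g z = f z) (h2 : e = d) : HasPd l g y e := by
  have : g = f := funext h1
  rw [this, h2]; exact hf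

theorem hasPd_const (l : Fin n) (c : ℝ) (y : Pt n) : HasPd l (fun _ => c) y 0 :=
  ⟨0, hasFDerivAt_const c y, rfl⟩

theorem hasPd_coord (l i : Fin n) (y : Pt n) : HasPd l (fun z => z i) y ((1 : Mat n) i l) := by
  refine ⟨ContinuousLinearMap.proj i, hasFDerivAt_apply i y, ?_⟩
  simp [Matrix.one_apply, Pi.single_apply]

theorem HasPd.sum {l : Fin n} {ι : Type} (s : Finset ι) {f : ι → Pt n → ℝ} {y : Pt n}
    {d : ι → ℝ} (hf : ∀ i ∈ s, HasPd l (f i) y (d i)) :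
    HasPd l (fun z => ∑ i ∈ s, f i z) y (∑ i ∈ s, d i) := by
  classical
  induction s using Finset.induction_on with
  | empty => simpa using hasPd_const l 0 y
  | insert a s ha ih =>
    refine ((hf a (Finset.mem_insert_self a s)).add
      (ih fun i hi => hf i (Finset.mem_insert_of_mem hi))).congr (fun z => ?_) ?_
    · rw [Finset.sum_insert ha]
    · rw [Finset.sum_insert ha]

theorem hasPd_w (J : Mat n) (l i : Fin n) (y : Pt n) :
    HasPd l (fun z => (J *ᵥ z) i) y (J i l) := by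
  refine (HasPd.sum Finset.univ (f := fun k z => J i k * z k)
    (fun k _ => (hasPd_const l (J i k) y).mul (hasPd_coord l k y))).congr (fun z => rfl) ?_
  simp [Matrix.one_apply]

theorem hasPd_sg (l : Fin n) (y : Pt n) : HasPd l sg y (2 * y l) := by
  refine (HasPd.sum Finset.univ (f := fun k z => z k * z k)
    (fun k _ => (hasPd_coord l k y).mul (hasPd_coord l k y))).congr (fun z => rfl) ?_
  simp only [Finset.sum_add_distrib, sum_one_right]
  have : ∑ k, (1 : Mat n) k l * y k = y l := by simp [Matrix.one_apply]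
  rw [this]; ring

theorem hasPd_ls (l : Fin n) {y : Pt n} (hy : y ≠ 0) : HasPd l ls y (y l / sg y) := by
  have h := (sg_pos hy).ne'
  refine (((hasPd_sg l y).comp (Real.hasDerivAt_log h)).mul (hasPd_const l (1 / 2) y)).congr
    (fun z => ?_) ?_
  · unfold ls; ring
  · field_simp
    ring

theorem hasPd_inv_sg (l : Fin n) {y : Pt n} (hy : y ≠ 0) :
    HasPd l (fun z => (sg z)⁻¹) y (-(2 * y l) / sg y ^ 2) := by
  have h := (sg_pos hy).ne'
  refine ((hasPd_sg l y).comp (hasDerivAt_inv h)).congr (fun z => rfl) ?_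
  field_simp

theorem hasPd_exp (l : Fin n) {y : Pt n} (hy : y ≠ 0) {f : ℝ → ℝ} (hf : ContDiff ℝ ∞ f) (c : ℝ) :
    HasPd l (fun z => Real.exp (c * f (ls z))) y
      (Real.exp (c * f (ls y)) * (c * deriv f (ls y)) * (y l / sg y)) := by
  have h1 : HasDerivAt f (deriv f (ls y)) (ls y) :=
    ((hf.differentiable (by simp)) (ls y)).hasDerivAt
  have h2 : HasDerivAt (fun s => Real.exp (c * f s))
      (Real.exp (c * f (ls y)) * (c * deriv f (ls y))) (ls y) := (h1.const_mul c).exp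
  exact (hasPd_ls l hy).comp h2

theorem pd_gm (Φ x : ℝ → ℝ) (J : Mat n) (hΦ : ContDiff ℝ ∞ Φ) (hx : ContDiff ℝ ∞ x) {y : Pt n}
    (hy : y ≠ 0) (l i j : Fin n) :
    pd l (fun z => gm Φ x J z i j) y =
      Real.exp (2 * Φ (ls y)) / sg y ^ 2 * cA (x (ls y)) *
          (2 * deriv Φ (ls y) + 2 * deriv x (ls y) - 2) * y l * (1 : Mat n) i j +
        Real.exp (2 * Φ (ls y)) / sg y ^ 3 * ((2 * deriv Φ (ls y) - 4) * (1 - cA (x (ls y))) -
          2 * deriv x (ls y) * cA (x (ls y))) * y l * (y i * y j) +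
        Real.exp (2 * Φ (ls y)) / sg y ^ 2 * (1 - cA (x (ls y))) *
          ((1 : Mat n) i l * y j + y i * (1 : Mat n) j l) +
        Real.exp (2 * Φ (ls y)) / sg y ^ 3 *
          ((2 * deriv Φ (ls y) - 4) * (cB n (x (ls y)) - cA (x (ls y))) -
            2 * ((n : ℝ) - 2) * deriv x (ls y) * cB n (x (ls y)) -
            2 * deriv x (ls y) * cA (x (ls y))) * y l * ((J *ᵥ y) i * (J *ᵥ y) j) +
        Real.exp (2 * Φ (ls y)) / sg y ^ 2 * (cB n (x (ls y)) - cA (x (ls y))) *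
          (J i l * (J *ᵥ y) j + (J *ᵥ y) i * J j l) := by
  have hE := hasPd_exp l hy hΦ 2
  have hA : HasPd l (fun z => cA (x (ls z))) y _ := hasPd_exp l hy hx 2
  have hB : HasPd l (fun z => cB n (x (ls z))) y _ := hasPd_exp l hy hx (-2 * ((n : ℝ) - 2))
  have hI := hasPd_inv_sg l hy
  have hm : HasPd l (fun _ => (-1 : ℝ)) y 0 := hasPd_const l (-1) y
  have h1 : HasPd l (fun _ => (1 : ℝ)) y 0 := hasPd_const l 1 y
  have hδ : HasPd l (fun _ => (1 : Mat n) i j) y 0 := hasPd_const l _ y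
  have T1 := ((hE.mul hI).mul hA).mul hδ
  have T2 := ((hE.mul hI).mul ((h1.add (hm.mul hA)).mul hI)).mul
    ((hasPd_coord l i y).mul (hasPd_coord l j y))
  have T3 := ((hE.mul hI).mul ((hB.add (hm.mul hA)).mul hI)).mul
    ((hasPd_w J l i y).mul (hasPd_w J l j y))
  refine (((T1.add T2).add T3).congr (fun z => ?_) ?_).pd
  · rw [gm_apply]; unfold E3; ring
  · have h := (sg_pos hy).ne'
    have eA : Real.exp (2 * x (ls y)) = cA (x (ls y)) := rfl
    have eB : Real.exp (-2 * ((n : ℝ) - 2) * x (ls y)) = cB n (x (ls y)) := rfl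
    simp only [eA, eB]
    field_simp
    ring

theorem sum_yV {J : Mat n} (hJ : IsCx J) (y : Pt n) (i j : Fin n) (a1 a2 a3 a4 a5 a6 : ℝ) :
    ∑ l, y l * (a1 * (1 : Mat n) l j + a2 * (1 : Mat n) l i + a3 * y l + a4 * (J *ᵥ y) l +
      a5 * J l i + a6 * J l j) =
      a1 * y j + a2 * y i + a3 * sg y - a5 * (J *ᵥ y) i - a6 * (J *ᵥ y) j := by
  have h : ∀ l, y l * (a1 * (1 : Mat n) l j + a2 * (1 : Mat n) l i + a3 * y l + a4 * (J *ᵥ y) l +
      a5 * J l i + a6 * J l j) = a1 * (y l * (1 : Mat n) l j) + a2 * (y l * (1 : Mat n) l i) +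
      a3 * (y l * y l) + a4 * (y l * (J *ᵥ y) l) + a5 * (y l * J l i) + a6 * (y l * J l j) := by
    intro l; ring
  simp only [h, Finset.sum_add_distrib, ← Finset.mul_sum, sum_one_right, sum_yy, sum_yw hJ,
    sum_yJ hJ]
  ring

theorem sum_wV {J : Mat n} (hJ : IsCx J) (y : Pt n) (i j : Fin n) (a1 a2 a3 a4 a5 a6 : ℝ) :
    ∑ l, (J *ᵥ y) l * (a1 * (1 : Mat n) l j + a2 * (1 : Mat n) l i + a3 * y l + a4 * (J *ᵥ y) l +
      a5 * J l i + a6 * J l j) =
      a1 * (J *ᵥ y) j + a2 * (J *ᵥ y) i + a4 * sg y + a5 * y i + a6 * y j := by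
  have h : ∀ l, (J *ᵥ y) l * (a1 * (1 : Mat n) l j + a2 * (1 : Mat n) l i + a3 * y l +
      a4 * (J *ᵥ y) l + a5 * J l i + a6 * J l j) = a1 * ((J *ᵥ y) l * (1 : Mat n) l j) +
      a2 * ((J *ᵥ y) l * (1 : Mat n) l i) + a3 * (y l * (J *ᵥ y) l) +
      a4 * ((J *ᵥ y) l * (J *ᵥ y) l) + a5 * ((J *ᵥ y) l * J l i) + a6 * ((J *ᵥ y) l * J l j) := by
    intro l; ring
  simp only [h, Finset.sum_add_distrib, ← Finset.mul_sum, sum_one_right, sum_ww hJ, sum_yw hJ,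
    sum_wJ hJ]
  ring

theorem one_symm (i j : Fin n) : (1 : Mat n) i j = (1 : Mat n) j i := by
  simp [Matrix.one_apply, eq_comm]

theorem chr_gm (Φ x : ℝ → ℝ) {J : Mat n} (hΦ : ContDiff ℝ ∞ Φ) (hx : ContDiff ℝ ∞ x)
    (hJ : IsCx J) {y : Pt n} (hy : y ≠ 0) (k i j : Fin n) :
    chr (gm Φ x J) k i j y = Gam Φ x J k i j y := by
  obtain ⟨E, hE⟩ : ∃ E, E = Real.exp (2 * Φ (ls y)) := ⟨_, rfl⟩
  obtain ⟨A, hA⟩ : ∃ A, A = cA (x (ls y)) := ⟨_, rfl⟩
  obtain ⟨B, hB⟩ : ∃ B, B = cB n (x (ls y)) := ⟨_, rfl⟩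
  obtain ⟨f, hf⟩ : ∃ f, f = deriv Φ (ls y) := ⟨_, rfl⟩
  obtain ⟨t, ht⟩ : ∃ t, t = deriv x (ls y) := ⟨_, rfl⟩
  obtain ⟨P1, hP1⟩ : ∃ P1, P1 = E / sg y ^ 2 * A * (2 * f + 2 * t - 2) := ⟨_, rfl⟩
  obtain ⟨Q1, hQ1⟩ : ∃ Q1, Q1 = E / sg y ^ 3 * ((2 * f - 4) * (1 - A) - 2 * t * A) := ⟨_, rfl⟩
  obtain ⟨Q, hQ⟩ : ∃ Q, Q = E / sg y ^ 2 * (1 - A) := ⟨_, rfl⟩
  obtain ⟨S1, hS1⟩ : ∃ S1, S1 = E / sg y ^ 3 *
    ((2 * f - 4) * (B - A) - 2 * ((n : ℝ) - 2) * t * B - 2 * t * A) := ⟨_, rfl⟩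
  obtain ⟨S, hS⟩ : ∃ S, S = E / sg y ^ 2 * (B - A) := ⟨_, rfl⟩
  have hV : ∀ l, pd i (fun z => gm Φ x J z j l) y + pd j (fun z => gm Φ x J z i l) y -
      pd l (fun z => gm Φ x J z i j) y =
      (P1 * y i) * (1 : Mat n) l j + (P1 * y j) * (1 : Mat n) l i +
        ((2 * Q - P1) * (1 : Mat n) i j + Q1 * (y i * y j) - S1 * ((J *ᵥ y) i * (J *ᵥ y) j)) * y l +
        (S1 * (y i * (J *ᵥ y) j + y j * (J *ᵥ y) i)) * (J *ᵥ y) l +
        (2 * S * (J *ᵥ y) j) * J l i + (2 * S * (J *ᵥ y) i) * J l j := by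
    intro l
    rw [pd_gm Φ x J hΦ hx hy, pd_gm Φ x J hΦ hx hy, pd_gm Φ x J hΦ hx hy, ← hE, ← hA, ← hB, ← hf,
      ← ht, ← hP1, ← hQ1, ← hQ, ← hS1, ← hS, one_symm j l, one_symm i l, one_symm j i,
      J_anti hJ l i, J_anti hJ l j, J_anti hJ i j]
    ring
  unfold chr
  rw [inv_gm Φ x hJ hy]
  simp only [hV, ginv_apply]
  rw [sum_E3, sum_yV hJ, sum_wV hJ]
  unfold Gam c1 c2 c3 c4 c5 c6
  rw [← hE, ← hA, ← hB, ← hf, ← ht, hP1, hQ1, hQ, hS1, hS]
  have h1 := (sg_pos hy).ne'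
  have h2 : A ≠ 0 := hA ▸ (cA_pos (x (ls y))).ne'
  have h3 : B ≠ 0 := hB ▸ (cB_pos (n := n) (x (ls y))).ne'
  have h4 : E ≠ 0 := hE ▸ (Real.exp_pos (2 * Φ (ls y))).ne'
  field_simp
  ring

end Chr

theorem chrStmt : ChrStmt := fun _ Φ x _ hΦ hx hJ _ hy =>
  ⟨Chr.posDef_gm Φ x hJ hy, Chr.inv_gm Φ x hJ hy, fun k i j => Chr.chr_gm Φ x hΦ hx hJ hy k i j⟩

end Vale.Agent.P225
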