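import Vale.Agent.P225.RDefs

/-! Matrix and derivation algebra in null coordinates. -/

namespace Vale.Agent.P225

open scoped ContDiff Topology Matrix ComplexConjugate Nat
open Filter MvPolynomial

namespace Cx

variable {m : ℕ}

theorem sum_swap' {A : Type} [AddCommMonoid A] (f : Ix m → A) :
    ∑ s, f (Sum.swap s) = ∑ s, f s :=
  (Equiv.sumComm (Fin m) (Fin m)).sum_comp f

theorem swap_inj : Function.Injective (Sum.swap : Ix m → Ix m) :=
  (Equiv.sumComm (Fin m) (Fin m)).injective

theorem e_ne (s : Ix m) : finSumFinEquiv s ≠ finSumFinEquiv (Sum.swap s) := fun h =>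
  swap_ne s (finSumFinEquiv.injective h).symm

theorem Cm_eq (s : Ix m) (a : Fin (m + m)) : Cm m s a =
    (if a = finSumFinEquiv s then (1 + Complex.I) / 2 else 0) +
      (if a = finSumFinEquiv (Sum.swap s) then (1 - Complex.I) / 2 else 0) := by
  unfold Cm
  by_cases h : a = finSumFinEquiv s
  · have h' : a ≠ finSumFinEquiv (Sum.swap s) := h ▸ e_ne s
    rw [if_pos h, if_pos h, if_neg h', add_zero]
  · rw [if_neg h, if_neg h, zero_add]

theorem conj_Cm (s : Ix m) (a : Fin (m + m)) : conj (Cm m s a) = Cm m (Sum.swap s) a := by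
  rw [Cm_eq, Cm_eq, Sum.swap_swap, map_add, add_comm]
  congr 1
  · split_ifs
    · simp [map_div₀, map_ofNat]
    · simp
  · split_ifs
    · simp [map_div₀, map_ofNat, sub_eq_add_neg]
    · simp

theorem Cm_mul_CH : Cm m * (Cm m)ᴴ = 1 := by
  ext s t
  rw [Matrix.mul_apply]
  simp only [Matrix.conjTranspose_apply, Complex.star_def, conj_Cm]
  simp only [Cm_eq s, add_mul, Finset.sum_add_distrib, ite_mul, zero_mul, Finset.sum_ite_eq',
    Finset.mem_univ, if_true]
  simp only [Cm_eq, Sum.swap_swap, EmbeddingLike.apply_eq_iff_eq, swap_inj.eq_iff, Matrix.one_apply]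
  have e : Sum.swap s = t ↔ s = Sum.swap t := by
    constructor <;> rintro rfl <;> simp
  simp only [e]
  by_cases h : s = t
  · subst h
    have h' : ¬s = Sum.swap s := (swap_ne s).symm
    simp only [if_true, if_neg h']
    have := Complex.I_mul_I
    linear_combination (-1 / 2 : ℂ) * this
  · simp only [if_neg h]
    split_ifs
    · have := Complex.I_mul_I
      linear_combination (1 / 2 : ℂ) * this
    · simp

theorem CH_mul_Cm : (Cm m)ᴴ * Cm m = 1 :=
  (Matrix.mul_eq_one_comm_of_equiv finSumFinEquiv).mp Cm_mul_CH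

theorem cx_apply (Y : Mat (m + m)) (s t : Ix m) :
    cx Y s t = ∑ a, ∑ b, Cm m s a * (Y a b : ℂ) * Cm m (Sum.swap t) b := by
  unfold cx
  simp only [Matrix.mul_apply, Matrix.conjTranspose_apply, Complex.star_def, conj_Cm,
    Matrix.map_apply, Finset.sum_mul]
  rw [Finset.sum_comm]

theorem skew_apply {Y : Mat (m + m)} (h : Yᵀ = -Y) (a b : Fin (m + m)) : Y b a = -Y a b := by
  have := congrFun (congrFun h a) b
  simpa [Matrix.transpose_apply] using this

theorem isSo_cx {Y : Mat (m + m)} (h : Yᵀ = -Y) : IsSo (cx Y) := by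
  intro s t
  rw [cx_apply, cx_apply, Sum.swap_swap, Finset.sum_comm, ← Finset.sum_neg_distrib]
  refine Finset.sum_congr rfl fun a _ => ?_
  rw [← Finset.sum_neg_distrib]
  refine Finset.sum_congr rfl fun b _ => ?_
  rw [skew_apply h a b]
  push_cast; ring

theorem conj_cx (Y : Mat (m + m)) (s t : Ix m) :
    conj (cx Y (Sum.swap s) (Sum.swap t)) = cx Y s t := by
  rw [cx_apply, cx_apply]
  simp only [map_sum, map_mul, conj_Cm, Complex.conj_ofReal, Sum.swap_swap]

theorem cx_conjT {Y : Mat (m + m)} (h : Yᵀ = -Y) : (cx Y)ᴴ = -cx Y := by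
  ext s t
  rw [Matrix.conjTranspose_apply, Complex.star_def, Matrix.neg_apply, isSo_cx h t s, map_neg,
    conj_cx]

theorem map_mul' (Y Z : Mat (m + m)) :
    (Y * Z).map ((↑) : ℝ → ℂ) = Y.map ((↑) : ℝ → ℂ) * Z.map ((↑) : ℝ → ℂ) := by
  ext a b
  simp [Matrix.mul_apply]

theorem cx_mul (Y Z : Mat (m + m)) : cx (Y * Z) = cx Y * cx Z := by
  unfold cx
  rw [map_mul']
  simp only [Matrix.mul_assoc]
  rw [← Matrix.mul_assoc (Cm m)ᴴ (Cm m), CH_mul_Cm, Matrix.one_mul]

/-- the matrix in real coordinates -/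
noncomputable def back (M : CM m) : Matrix (Fin (m + m)) (Fin (m + m)) ℂ := (Cm m)ᴴ * M * Cm m

theorem back_apply (M : CM m) (a b : Fin (m + m)) :
    back M a b = ∑ s, ∑ t, Cm m (Sum.swap s) a * M s t * Cm m t b := by
  unfold back
  simp only [Matrix.mul_apply, Matrix.conjTranspose_apply, Complex.star_def, conj_Cm,
    Finset.sum_mul]
  rw [Finset.sum_comm]

theorem fwd_back (M : CM m) : Cm m * back M * (Cm m)ᴴ = M := by
  unfold back
  calc Cm m * ((Cm m)ᴴ * M * Cm m) * (Cm m)ᴴ
      = (Cm m * (Cm m)ᴴ) * M * (Cm m * (Cm m)ᴴ) := by simp only [Matrix.mul_assoc]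
    _ = M := by rw [Cm_mul_CH, Matrix.one_mul, Matrix.mul_one]

theorem back_mul (M N : CM m) : back (M * N) = back M * back N := by
  unfold back
  simp only [Matrix.mul_assoc]
  rw [← Matrix.mul_assoc (Cm m) (Cm m)ᴴ, Cm_mul_CH, Matrix.one_mul]

theorem back_skew {M : CM m} (h : IsSo M) (a b : Fin (m + m)) : back M b a = -back M a b := by
  rw [back_apply, back_apply, Finset.sum_comm, ← sum_swap', ← Finset.sum_neg_distrib]
  refine Finset.sum_congr rfl fun s _ => ?_
  rw [← sum_swap', ← Finset.sum_neg_distrib]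
  refine Finset.sum_congr rfl fun t _ => ?_
  rw [h s t, Sum.swap_swap]
  ring

theorem back_real {M : CM m} (h : ∀ s t, conj (M (Sum.swap s) (Sum.swap t)) = M s t)
    (a b : Fin (m + m)) : ((back M a b).re : ℂ) = back M a b := by
  rw [← Complex.conj_eq_iff_re, back_apply]
  simp only [map_sum, map_mul, conj_Cm, Sum.swap_swap]
  rw [← sum_swap']
  refine Finset.sum_congr rfl fun s _ => ?_
  rw [← sum_swap']
  refine Finset.sum_congr rfl fun t _ => ?_
  rw [h, Sum.swap_swap]

theorem so_split {M : CM m} (h : IsSo M) : ∃ Y Z : Mat (m + m), Yᵀ = -Y ∧ Zᵀ = -Z ∧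
    M = cx Y + Complex.I • cx Z := by
  refine ⟨(back M).map Complex.re, (back M).map Complex.im, ?_, ?_, ?_⟩
  · ext a b
    simp [Matrix.transpose_apply, back_skew h a b]
  · ext a b
    simp [Matrix.transpose_apply, back_skew h a b]
  · unfold cx
    rw [← Matrix.smul_mul, ← Matrix.mul_smul, ← Matrix.add_mul, ← Matrix.mul_add]
    conv_lhs => rw [← fwd_back M]
    congr 2
    ext a b
    simp only [Matrix.add_apply, Matrix.smul_apply, Matrix.map_apply, smul_eq_mul]
    rw [mul_comm, Complex.re_add_im]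

theorem sum_Hm (ε : Fin m → ℂ) :
    ∑ a, ε a • Hm a = Matrix.diagonal (Sum.elim ε fun a => -ε a) := by
  ext s t
  simp only [Matrix.sum_apply, Matrix.smul_apply, Hm, Rm, Matrix.sub_apply, Matrix.single_apply,
    Sum.swap_inl, Sum.swap_inr, Matrix.diagonal_apply, smul_eq_mul]
  rcases s with s | s <;> rcases t with t | t
  · by_cases h : s = t
    · subst h; simp
    · simp [h]
      exact Finset.sum_eq_zero fun a _ => by
        rw [if_neg]; rintro ⟨rfl, rfl⟩; exact h rfl
  · simp
  · simp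
  · by_cases h : s = t
    · subst h; simp
    · simp [h]
      exact Finset.sum_eq_zero fun a _ => by
        rw [if_neg]; rintro ⟨rfl, rfl⟩; exact h rfl

theorem exists_J (ε : Fin m → ℝ) (hε : ∀ a, ε a = 1 ∨ ε a = -1) : ∃ J : Mat (m + m), IsCx J ∧
    cx J = Complex.I • ∑ a, (ε a : ℂ) • Hm a := by
  rw [sum_Hm]
  set N : CM m := Complex.I • Matrix.diagonal (Sum.elim (fun a => (ε a : ℂ)) fun a => -(ε a : ℂ))
    with hN
  have hso : IsSo N := by
    intro s t
    simp only [hN, Matrix.smul_apply, Matrix.diagonal_apply, swap_inj.eq_iff, smul_eq_mul]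
    by_cases h : s = t
    · subst h; rcases s with s | s <;> simp
    · rw [if_neg h, if_neg (Ne.symm h)]; simp
  have hre : ∀ s t, conj (N (Sum.swap s) (Sum.swap t)) = N s t := by
    intro s t
    simp only [hN, Matrix.smul_apply, Matrix.diagonal_apply, swap_inj.eq_iff, smul_eq_mul]
    by_cases h : s = t
    · subst h; rcases s with s | s <;> simp
    · rw [if_neg h, if_neg h]; simp
  have hsq : N * N = -1 := by
    rw [hN, Matrix.smul_mul, Matrix.mul_smul, smul_smul, Complex.I_mul_I,
      Matrix.diagonal_mul_diagonal, neg_smul, one_smul]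
    congr 1
    rw [← Matrix.diagonal_one]
    congr 1
    ext s
    rcases s with s | s <;> rcases hε s with h | h <;> simp [h]
  have hmap : ((back N).map Complex.re).map ((↑) : ℝ → ℂ) = back N := by
    ext a b
    exact back_real hre a b
  refine ⟨(back N).map Complex.re, ⟨?_, ?_⟩, ?_⟩
  · ext a b
    simp [Matrix.transpose_apply, back_skew hso a b]
  · have h1 := map_mul' ((back N).map Complex.re) ((back N).map Complex.re)
    rw [hmap, ← back_mul, hsq] at h1
    have h2 : back (-1 : CM m) = -1 := by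
      unfold back
      rw [Matrix.mul_neg, Matrix.mul_one, Matrix.neg_mul, CH_mul_Cm]
    rw [h2] at h1
    ext a b
    have h3 := congrFun (congrFun h1 a) b
    rw [Matrix.map_apply] at h3
    apply Complex.ofReal_injective
    rw [h3]
    simp only [Matrix.neg_apply, Matrix.one_apply]
    split_ifs <;> simp
  · unfold cx
    rw [hmap, fwd_back]

/-! ### derivations -/

theorem DM_mul (M : CM m) (P Q : Pol m) : DM M (P * Q) = DM M P * Q + P * DM M Q := by
  simp only [DM_apply, Finset.sum_mul, Finset.mul_sum, ← Finset.sum_add_distrib]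
  refine Finset.sum_congr rfl fun a _ => Finset.sum_congr rfl fun b _ => ?_
  simp only [Derivation.leibniz, smul_eq_mul, smul_eq_C_mul]
  ring

theorem DM_X (M : CM m) (c : Ix m) : DM M (X c) = ∑ b, M c b • X b := by
  classical
  rw [DM_apply, Finset.sum_eq_single c]
  · simp
  · intro a _ ha
    simp [pderiv_X, Ne.symm ha]
  · simp

theorem DM_C (M : CM m) (z : ℂ) : DM M (C z) = 0 := by simp [DM_apply]

theorem DM_DM_X (M M' : CM m) (c : Ix m) : DM M (DM M' (X c)) = ∑ d, (M' * M) c d • X d := by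
  simp only [DM_X, map_sum, map_smul, Finset.smul_sum, smul_smul, Matrix.mul_apply, Finset.sum_smul]
  rw [Finset.sum_comm]

theorem DM_comm (M M' : CM m) : DM M * DM M' - DM M' * DM M = DM (M' * M - M * M') := by
  refine LinearMap.ext fun P => ?_
  simp only [LinearMap.sub_apply, Module.End.mul_apply]
  induction P using MvPolynomial.induction_on with
  | C c => simp [DM_C]
  | add p q hp hq => simp only [map_add, ← hp, ← hq]; ring
  | mul_X p c hp =>
    have h : DM (M' * M - M * M') (X c) = DM M (DM M' (X c)) - DM M' (DM M (X c)) := by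
      rw [DM_DM_X, DM_DM_X, DM_X, ← Finset.sum_sub_distrib]
      simp only [Matrix.sub_apply, sub_smul]
    simp only [DM_mul, map_add, ← hp, h]
    ring

theorem DM_lin (z : ℂ) (M M' : CM m) : DM (z • M + M') = z • DM M + DM M' := by
  refine LinearMap.ext fun P => ?_
  simp only [LinearMap.add_apply, LinearMap.smul_apply, DM_apply, Matrix.add_apply,
    Matrix.smul_apply, add_smul, Finset.sum_add_distrib, Finset.smul_sum, smul_eq_mul, mul_smul]

/-! ### conjugation -/

theorem kap_apply (P : Pol m) : kap P = rename Sum.swap (MvPolynomial.map (starRingEnd ℂ) P) := rfl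

theorem kap_X (a : Ix m) : kap (X a : Pol m) = X (Sum.swap a) := by simp [kap_apply]

theorem kap_C (z : ℂ) : kap (C z : Pol m) = C (conj z) := by simp [kap_apply]

theorem kap_smul (z : ℂ) (P : Pol m) : kap (z • P) = conj z • kap P := by
  rw [smul_eq_C_mul, smul_eq_C_mul, map_mul, kap_C]

theorem kap_pderiv (a : Ix m) (P : Pol m) : kap (pderiv a P) = pderiv (Sum.swap a) (kap P) := by
  rw [kap_apply, kap_apply, pderiv_rename swap_inj, pderiv_map]

theorem kap_kap (P : Pol m) : kap (kap P) = P := by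
  induction P using MvPolynomial.induction_on with
  | C c => simp [kap_C]
  | add p q hp hq => simp only [map_add, hp, hq]
  | mul_X p c hp => simp only [map_mul, hp, kap_X, Sum.swap_swap]

theorem kap_DM (Y : Mat (m + m)) (P : Pol m) : kap (DM (cx Y) P) = DM (cx Y) (kap P) := by
  simp only [DM_apply, map_sum, kap_smul, map_mul, kap_X, kap_pderiv]
  rw [← sum_swap']
  refine Finset.sum_congr rfl fun s _ => ?_
  rw [← sum_swap']
  refine Finset.sum_congr rfl fun t _ => ?_
  rw [conj_cx, Sum.swap_swap, Sum.swap_swap]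

theorem kap_Lp (P : Pol m) : kap (Lp P) = Lp (kap P) := by
  simp only [Lp_apply, map_sum, kap_pderiv]
  rw [← sum_swap']
  simp only [Sum.swap_swap]

theorem kap_mem {l : ℕ} {P : Pol m} (h : P ∈ HV m l) : kap P ∈ HV m l := by
  refine ⟨(h.1.map (starRingEnd ℂ)).rename_isHomogeneous, ?_⟩
  have h2 : Lp P = 0 := h.2
  show Lp (kap P) = 0
  rw [← kap_Lp, h2, map_zero]

theorem wt_swap (s : Ix m) : wt m (Sum.swap s) = -wt m s := by
  rcases s with s | s <;> simp [wt]

theorem weight_eq (d : Ix m →₀ ℕ) : Finsupp.weight (wt m) d = ∑ s, (d s : ℤ) * wt m s := by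
  rw [Finsupp.weight_apply, Finsupp.sum_fintype]
  · simp
  · intro; simp

theorem kap_wt {μ : ℤ} {P : Pol m} (h : IsWeightedHomogeneous (wt m) P μ) :
    IsWeightedHomogeneous (wt m) (kap P) (-μ) := by
  intro d hd
  rw [kap_apply] at hd
  obtain ⟨u, rfl, hu⟩ := coeff_rename_ne_zero _ _ _ hd
  rw [coeff_map] at hu
  have h1 : Finsupp.weight (wt m) u = μ := h fun h' => hu (by rw [h', map_zero])
  rw [← h1, weight_eq, weight_eq, ← sum_swap', ← Finset.sum_neg_distrib]
  refine Finset.sum_congr rfl fun s _ => ?_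
  rw [Finsupp.mapDomain_apply swap_inj, wt_swap, mul_neg]

theorem DM_wt {μ : ℤ} {P : Pol m} (h : IsWeightedHomogeneous (wt m) P μ) :
    DM (∑ a, Hm a) P = (μ : ℂ) • P := by
  have e : (∑ a, Hm a : CM m) = Matrix.diagonal fun s => (wt m s : ℂ) := by
    have := sum_Hm (m := m) fun _ => 1
    simp only [one_smul] at this
    rw [this]
    congr 1
    ext s
    rcases s with s | s <;> simp [wt]
  rw [e]
  conv_lhs => rw [P.as_sum]
  conv_rhs => rw [P.as_sum]
  rw [map_sum, Finset.smul_sum]
  refine Finset.sum_congr rfl fun d hd => ?_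
  have h1 : Finsupp.weight (wt m) d = μ := h (mem_support_iff.mp hd)
  rw [DM_apply, ← h1, weight_eq]
  push_cast
  rw [Finset.sum_smul]
  refine Finset.sum_congr rfl fun s _ => ?_
  rw [Finset.sum_eq_single s]
  · rw [Matrix.diagonal_apply_eq, X_mul_pderiv_monomial, mul_comm, mul_smul, Nat.cast_smul_eq_nsmul]
  · intro b _ hb
    rw [Matrix.diagonal_apply_ne _ (Ne.symm hb), zero_smul]
  · simp

end Cx

theorem cxStmt : CxStmt := fun _ =>
  ⟨fun _ h => ⟨Cx.isSo_cx h, Cx.cx_conjT h⟩, Cx.kap_DM, Cx.cx_mul, fun _ h => Cx.so_split h,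
    Cx.exists_J, Cx.DM_comm, Cx.DM_lin, fun _ _ h => Cx.kap_mem h, Cx.kap_kap, Cx.kap_smul,
    fun _ _ h => ⟨Cx.kap_wt h, Cx.DM_wt h⟩⟩

end Vale.Agent.P225
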