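import Vale.Agent.P225.RDefs

/-! The highest weight vector generates the harmonic polynomials. -/

namespace Vale.Agent.P225

open scoped Matrix ComplexConjugate Nat
open MvPolynomial

namespace Cyc

variable {m : ℕ}

theorem coeff_X_pderiv (k : Ix m) (w : Pol m) (d : Ix m →₀ ℕ) :
    coeff d (X k * pderiv k w) = (d k : ℂ) * coeff d w := by
  rw [coeff_X_mul']
  split_ifs with h
  · have h1 : 1 ≤ d k := Nat.one_le_iff_ne_zero.2 (Finsupp.mem_support_iff.1 h)
    rw [coeff_pderiv, tsub_add_cancel_of_le (Finsupp.single_le_iff.2 h1), Finsupp.tsub_apply,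
      Finsupp.single_eq_same, Nat.cast_sub h1]
    push_cast
    ring
  · rw [Finsupp.notMem_support_iff.1 h]
    simp

theorem exists_of_coeff {b s : Ix m} {P : Pol m} {d : Ix m →₀ ℕ}
    (h : coeff d (X b * pderiv s P) ≠ 0) :
    ∃ e, d = e + Finsupp.single b 1 ∧ coeff (e + Finsupp.single s 1) P ≠ 0 := by
  rw [coeff_X_mul'] at h
  split_ifs at h with h1
  · rw [coeff_pderiv] at h
    exact ⟨_, (tsub_add_cancel_of_le (Finsupp.single_le_iff.2
      (Nat.one_le_iff_ne_zero.2 (Finsupp.mem_support_iff.1 h1)))).symm, left_ne_zero_of_mul h⟩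
  · exact absurd rfl h

theorem swap_eq_iff {x y : Ix m} : Sum.swap x = y ↔ x = Sum.swap y := by
  constructor <;> rintro rfl <;> simp

theorem Rm_adj (a k : Ix m) : (Rm a k)ᴴ = Rm (Sum.swap k) (Sum.swap a) := by
  simp [Rm, Matrix.conjTranspose_sub, Matrix.conjTranspose_single]

/-- A harmonic polynomial killed by the raising operators only depends on `X a`. -/
theorem pderiv_eq_zero (hm : 2 ≤ m) (a : Ix m) {u : Pol m} (hu : Lp u = 0)
    (h : ∀ k, k ≠ a → k ≠ Sum.swap a → DM (Rm a k) u = 0) (s : Ix m) (hs : s ≠ a) :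
    pderiv s u = 0 := by
  classical
  simp only [DM_Rm, sub_eq_zero] at h
  set w := pderiv (Sum.swap a) u with hw
  let T : Finset (Ix m) := (Finset.univ.erase a).erase (Sum.swap a)
  have hT : ∀ k ∈ T, k ≠ a ∧ k ≠ Sum.swap a := fun k hk =>
    ⟨Finset.ne_of_mem_erase (Finset.mem_of_mem_erase hk), Finset.ne_of_mem_erase hk⟩
  have ha : Sum.swap a ∈ Finset.univ.erase a := Finset.mem_erase.2 ⟨swap_ne a, Finset.mem_univ _⟩
  have hTc : 0 < T.card := by
    rw [Finset.card_erase_of_mem ha, Finset.card_erase_of_mem (Finset.mem_univ _),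
      Finset.card_univ, Fintype.card_sum, Fintype.card_fin]
    omega
  have h1 : ∀ k ∈ T, X a * pderiv k (pderiv (Sum.swap k) u) = w + X k * pderiv k w := by
    intro k hk
    have := congrArg (pderiv k) (h k (hT k hk).1 (hT k hk).2)
    simp only [Derivation.leibniz, pderiv_X, smul_eq_mul, Pi.single_apply,
      if_neg (hT k hk).1.symm, if_true, mul_zero, add_zero, mul_one] at this
    rw [this, add_comm]
  have h2 : X a * pderiv a w + (X a * pderiv a w + ∑ k ∈ T, (w + X k * pderiv k w)) = 0 := by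
    rw [Lp_apply, ← Finset.add_sum_erase _ _ (Finset.mem_univ a), ← Finset.add_sum_erase _ _ ha,
      Sum.swap_swap, pderiv_comm (Sum.swap a) a, ← hw] at hu
    rw [← Finset.sum_congr rfl h1, ← Finset.mul_sum, ← mul_add, ← mul_add, hu, mul_zero]
  have h3 : w = 0 := by
    ext d
    have := congrArg (coeff d) h2
    simp only [coeff_add, coeff_sum, coeff_X_pderiv, coeff_zero] at this
    have e : ((d a + (d a + ∑ k ∈ T, (1 + d k)) : ℕ) : ℂ) * coeff d w = 0 := by
      rw [← this]
      push_cast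
      simp only [add_mul, Finset.sum_mul, one_mul]
    refine (mul_eq_zero.1 e).resolve_left (Nat.cast_ne_zero.2 ?_)
    rw [Finset.sum_add_distrib, Finset.sum_const, smul_eq_mul]
    omega
  by_cases hs' : s = Sum.swap a
  · rw [hs', ← hw, h3]
  · have := h (Sum.swap s) (fun e => hs' (swap_eq_iff.1 e))
      fun e => hs (by simpa using swap_eq_iff.1 e)
    rw [h3, mul_zero, Sum.swap_swap] at this
    exact (mul_eq_zero.1 this).resolve_left (X_ne_zero a)

theorem eq_zero_of_pderiv {l : ℕ} (a : Ix m) {u : Pol m} (hu : u.IsHomogeneous l)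
    (h : ∀ s, s ≠ a → pderiv s u = 0) (h0 : coeff (Finsupp.single a l) u = 0) : u = 0 := by
  ext d
  by_contra hd
  have h1 : ∀ s, s ≠ a → d s = 0 := fun s hs => by
    have := coeff_X_pderiv s u d
    rw [h s hs, mul_zero, coeff_zero] at this
    exact Nat.cast_eq_zero.1 ((mul_eq_zero.1 this.symm).resolve_right hd)
  have h2 : d = Finsupp.single a (d a) := by
    ext s
    by_cases hs : s = a
    · rw [hs, Finsupp.single_eq_same]
    · rw [h1 s hs, Finsupp.single_eq_of_ne hs]
  have h3 : d.degree = l := by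
    by_contra hc
    exact hd (hu.coeff_eq_zero hc)
  rw [h2, Finsupp.degree_single] at h3
  rw [h2, h3] at hd
  exact hd h0

theorem le_of_coeff {l : ℕ} {u : Pol m} (hu : u.IsHomogeneous l) {d : Ix m →₀ ℕ}
    (hd : coeff d u ≠ 0) (s : Ix m) : d s ≤ l := by
  have h3 : d.degree = l := by
    by_contra hc
    exact hd (hu.coeff_eq_zero hc)
  rw [← h3]
  exact Finsupp.le_degree s d

theorem bound_Rm {l n : ℕ} {a k : Ix m} (h1 : k ≠ a) (h2 : k ≠ Sum.swap a) {u : Pol m}
    (h : ∀ d, coeff d u ≠ 0 → l + d (Sum.swap a) < n + 1 + d a) (d : Ix m →₀ ℕ)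
    (hd : coeff d (DM (Rm a k) u) ≠ 0) : l + d (Sum.swap a) < n + d a := by
  have h3 : a ≠ Sum.swap k := fun e => h2 (swap_eq_iff.1 e.symm)
  have h4 : Sum.swap a ≠ Sum.swap k := fun e => h1 (by simpa using swap_eq_iff.1 e.symm)
  rw [DM_Rm, coeff_sub] at hd
  by_cases h5 : coeff d (X a * pderiv (Sum.swap k) u) = 0
  · rw [h5, zero_sub, neg_ne_zero] at hd
    obtain ⟨e, rfl, he⟩ := exists_of_coeff hd
    have := h _ he
    simp only [Finsupp.add_apply, Finsupp.single_eq_same, Finsupp.single_eq_of_ne h1.symm,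
      Finsupp.single_eq_of_ne h2.symm, Finsupp.single_eq_of_ne (swap_ne a).symm] at this ⊢
    omega
  · obtain ⟨e, rfl, he⟩ := exists_of_coeff h5
    have := h _ he
    simp only [Finsupp.add_apply, Finsupp.single_eq_same, Finsupp.single_eq_of_ne h3,
      Finsupp.single_eq_of_ne h4, Finsupp.single_eq_of_ne (swap_ne a)] at this ⊢
    omega

end Cyc

open Cyc in
theorem cycStmt (h : FisStmt) : CycStmt := by
  intro m l a B hm hv hB
  obtain ⟨-, -, hconj, -, hadj, htop, -, hR⟩ := h m
  have key : ∀ (n : ℕ) (u : HV m l), (∀ w ∈ B, fis (u : Pol m) (w : Pol m) = 0) →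
      (∀ d, coeff d (u : Pol m) ≠ 0 → l + d (Sum.swap a) < n + d a) → (u : Pol m) = 0 := by
    intro n
    induction n with
    | zero =>
      intro u _ hd
      ext d
      by_contra hc
      have h1 := hd d hc
      have h2 := le_of_coeff u.2.1 hc a
      omega
    | succ n ih =>
      intro u hu hd
      refine eq_zero_of_pderiv a u.2.1 (pderiv_eq_zero hm a u.2.2 fun k h1 h2 => ?_) ?_
      · rw [← dV_coe (isSo_Rm a k)]
        refine ih _ (fun w hw => ?_) ?_
        · rw [dV_coe (isSo_Rm a k), hadj, Rm_adj, ← dV_coe (isSo_Rm _ _)]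
          exact hu _ (hB _ _ (fun e => h2 (swap_eq_iff.1 e)) (swap_ne a) w hw)
        · rw [dV_coe (isSo_Rm a k)]
          exact bound_Rm h1 h2 hd
      · have h1 := hu _ hv
        rw [hconj, map_eq_zero] at h1
        have h2 := (htop a l u).symm.trans h1
        exact (mul_eq_zero.1 h2).resolve_left (Nat.cast_ne_zero.2 l.factorial_ne_zero)
  by_contra hne
  obtain ⟨ψ, h0, hψ⟩ := B.exists_le_ker_of_lt_top (lt_top_iff_ne_top.2 hne)
  obtain ⟨u, hu⟩ := hR l ψ
  have h1 := key (l + l + 1) u (fun w hw => (hu w).symm.trans (hψ hw)) fun d hd => by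
    have := le_of_coeff u.2.1 hd (Sum.swap a)
    omega
  refine h0 (LinearMap.ext fun w => ?_)
  rw [hu, h1]
  simp [fis]

end Vale.Agent.P225
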