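import Mathlib

/-! Riemannian geometry on `ℝ^n` in the standard coordinates. -/

namespace Vale.Agent.P225

open scoped ContDiff Topology
open Filter

/-- Points of `ℝ^n`. -/
abbrev Pt (n : ℕ) := Fin n → ℝ

/-- A field of matrices `g_{ij}(x)` on `ℝ^n`. -/
abbrev Met (n : ℕ) := Pt n → Matrix (Fin n) (Fin n) ℝ

variable {n : ℕ}

/-- The coordinate derivative `∂_i f`. -/
noncomputable def pd (i : Fin n) (f : Pt n → ℝ) (x : Pt n) : ℝ :=
  fderiv ℝ f x (Pi.single i 1)

/-- `g` is a smooth Riemannian metric: smooth entries, symmetric positive definite values. -/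
def IsMetric (g : Met n) : Prop :=
  (∀ i j, ContDiff ℝ ∞ fun x => g x i j) ∧ ∀ x, (g x).PosDef

/-- The Christoffel symbol `Γ^k_{ij}`. -/
noncomputable def chr (g : Met n) (k i j : Fin n) (x : Pt n) : ℝ :=
  (1 / 2) * ∑ l, (g x)⁻¹ k l *
    (pd i (fun y => g y j l) x + pd j (fun y => g y i l) x - pd l (fun y => g y i j) x)

/-- The Ricci tensor `R_{ij}`. -/
noncomputable def ric (g : Met n) (i j : Fin n) (x : Pt n) : ℝ :=
  ∑ k, (pd k (chr g k i j) x - pd j (chr g k i k) x +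
    ∑ l, (chr g k k l x * chr g l i j x - chr g k j l x * chr g l i k x))

/-- Nonnegative Ricci curvature. -/
def RicNonneg (g : Met n) : Prop :=
  ∀ x v : Pt n, 0 ≤ ∑ i, ∑ j, ric g i j x * v i * v j

/-- The Laplace-Beltrami operator. -/
noncomputable def lap (g : Met n) (u : Pt n → ℝ) (x : Pt n) : ℝ :=
  ∑ i, ∑ j, (g x)⁻¹ i j * (pd i (pd j u) x - ∑ k, chr g k i j x * pd k u x)

/-- The length of a curve on `[0,1]`. -/
noncomputable def len (g : Met n) (γ : ℝ → Pt n) : ℝ :=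
  ∫ t in (0 : ℝ)..1, √(∑ i, ∑ j, g (γ t) i j * deriv γ t i * deriv γ t j)

/-- The Riemannian distance: the infimum of the lengths of `C¹` curves from `x` to `y`. -/
noncomputable def rdist (g : Met n) (x y : Pt n) : ℝ :=
  sInf {L | ∃ γ : ℝ → Pt n, ContDiff ℝ 1 γ ∧ γ 0 = x ∧ γ 1 = y ∧ L = len g γ}

/-- Completeness: every Cauchy sequence for the Riemannian distance converges. -/
def Complete (g : Met n) : Prop :=
  ∀ x : ℕ → Pt n, (∀ ε > 0, ∃ N, ∀ a ≥ N, ∀ b ≥ N, rdist g (x a) (x b) < ε) →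
    ∃ p, Tendsto (fun a => rdist g (x a) p) atTop (𝓝 0)

/-- `u` is harmonic and of polynomial growth of order at most `k`. -/
def HarmGrowth (g : Met n) (k : ℕ) (u : Pt n → ℝ) : Prop :=
  ContDiff ℝ ∞ u ∧ (∀ x, lap g u x = 0) ∧ ∃ C : ℝ, ∀ x, |u x| ≤ C * (1 + rdist g 0 x) ^ k

end Vale.Agent.P225
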