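import Vale.Agent.P225.Iface

/-! Completeness and a lower bound for the distance. -/

namespace Vale.Agent.P225

open scoped ContDiff Topology Matrix
open Filter Set

namespace Dist

variable {n : ℕ} {g : Met n}

/-- the quadratic form of the metric -/
def QQ (g : Met n) (y v : Pt n) : ℝ := ∑ i, ∑ j, g y i j * v i * v j

theorem QQ_eq (y v : Pt n) : QQ g y v = v ⬝ᵥ (g y *ᵥ v) := by
  simp only [QQ, dotProduct, Matrix.mulVec, Finset.mul_sum]
  exact Finset.sum_congr rfl fun i _ => Finset.sum_congr rfl fun j _ => by ring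

theorem QQ_smul (y v : Pt n) (t : ℝ) : QQ g y (t • v) = t ^ 2 * QQ g y v := by
  simp only [QQ, Finset.mul_sum, Pi.smul_apply, smul_eq_mul]
  exact Finset.sum_congr rfl fun i _ => Finset.sum_congr rfl fun j _ => by ring

theorem QQ_cont (hg : IsMetric g) : Continuous fun p : Pt n × Pt n => QQ g p.1 p.2 := by
  refine continuous_finsetSum _ fun i _ => continuous_finsetSum _ fun j _ => ?_
  have h := (hg.1 i j).continuous
  fun_prop

theorem speed_cont (hg : IsMetric g) {γ : ℝ → Pt n} (hγ : ContDiff ℝ 1 γ) :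
    Continuous fun t => √(QQ g (γ t) (deriv γ t)) :=
  ((QQ_cont hg).comp (hγ.continuous.prodMk (hγ.continuous_deriv le_rfl))).sqrt

theorem curve_bound (hg : IsMetric g) {γ : ℝ → Pt n} (hγ : ContDiff ℝ 1 γ) {h : ℝ → ℝ}
    (hh : ContDiff ℝ 1 h) (hb : ∀ s ∈ Icc (0 : ℝ) 1, deriv h s ^ 2 ≤ QQ g (γ s) (deriv γ s))
    {t : ℝ} (ht : t ∈ Icc (0 : ℝ) 1) : |h t - h 0| ≤ len g γ := by
  have hc := speed_cont hg hγ
  rw [← intervalIntegral.integral_eq_sub_of_hasDerivAt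
    (fun s _ => (hh.differentiable one_ne_zero s).hasDerivAt)
    ((hh.continuous_deriv le_rfl).intervalIntegrable _ _), ← Real.norm_eq_abs]
  refine (intervalIntegral.norm_integral_le_of_norm_le ht.1 (Eventually.of_forall fun s hs => ?_)
    (hc.intervalIntegrable _ _)).trans (intervalIntegral.integral_mono_interval le_rfl ht.1 ht.2
      (Eventually.of_forall fun s => Real.sqrt_nonneg _) (hc.intervalIntegrable _ _))
  exact Real.abs_le_sqrt (hb s ⟨hs.1.le, hs.2.trans ht.2⟩)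

theorem seg_smooth (x y : Pt n) : ContDiff ℝ 1 fun t : ℝ => x + t • (y - x) := by fun_prop

theorem seg_deriv (x y : Pt n) (t : ℝ) : deriv (fun t : ℝ => x + t • (y - x)) t = y - x := by
  have := ((hasDerivAt_id t).smul_const (y - x)).const_add x
  simpa using this.deriv

theorem set_nonempty (x y : Pt n) :
    {L | ∃ γ : ℝ → Pt n, ContDiff ℝ 1 γ ∧ γ 0 = x ∧ γ 1 = y ∧ L = len g γ}.Nonempty :=
  ⟨_, fun t => x + t • (y - x), seg_smooth x y, by simp, by simp, rfl⟩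

theorem len_nonneg (γ : ℝ → Pt n) : 0 ≤ len g γ :=
  intervalIntegral.integral_nonneg zero_le_one fun _ _ => Real.sqrt_nonneg _

theorem le_rdist {x y : Pt n} {c : ℝ}
    (h : ∀ γ : ℝ → Pt n, ContDiff ℝ 1 γ → γ 0 = x → γ 1 = y → c ≤ len g γ) : c ≤ rdist g x y :=
  le_csInf (set_nonempty x y) (by rintro _ ⟨γ, h1, h2, h3, rfl⟩; exact h γ h1 h2 h3)

theorem rdist_le_seg (x y : Pt n) : rdist g x y ≤ len g fun t => x + t • (y - x) :=
  csInf_le ⟨0, by rintro _ ⟨γ, -, -, -, rfl⟩; exact len_nonneg γ⟩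
    ⟨_, seg_smooth x y, by simp, by simp, rfl⟩

theorem exists_short {x y : Pt n} {c : ℝ} (h : rdist g x y < c) :
    ∃ γ : ℝ → Pt n, ContDiff ℝ 1 γ ∧ γ 0 = x ∧ γ 1 = y ∧ len g γ < c := by
  obtain ⟨_, ⟨γ, h1, h2, h3, rfl⟩, h4⟩ := exists_lt_of_csInf_lt (set_nonempty x y) h
  exact ⟨γ, h1, h2, h3, h4⟩

theorem compact_bounds (hg : IsMetric g) {K : Set (Pt n)} (hK : IsCompact K) :
    ∃ c C : ℝ, 0 < c ∧ 0 ≤ C ∧ ∀ y ∈ K, ∀ v, c * ‖v‖ ^ 2 ≤ QQ g y v ∧ QQ g y v ≤ C * ‖v‖ ^ 2 := by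
  have hS := hK.prod (isCompact_sphere (0 : Pt n) 1)
  obtain ⟨c, hc, h1⟩ := hS.exists_forall_le' (a := 0) (QQ_cont hg).continuousOn fun p hp => by
    have h0 : p.2 ≠ 0 := by
      intro h0
      have := hp.2
      rw [h0] at this
      simp at this
    rw [QQ_eq]
    exact (hg.2 p.1).dotProduct_mulVec_pos h0
  obtain ⟨C, h2⟩ := hS.bddAbove_image (QQ_cont hg).continuousOn
  refine ⟨c, max C 0, hc, le_max_right _ _, fun y hy v => ?_⟩
  by_cases hv : v = 0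
  · simp [hv, QQ]
  have hn : ‖v‖ ≠ 0 := norm_ne_zero_iff.2 hv
  have hw : (y, ‖v‖⁻¹ • v) ∈ K ×ˢ Metric.sphere (0 : Pt n) 1 :=
    ⟨hy, by simp [norm_smul, hn]⟩
  have h3 : QQ g y v = ‖v‖ ^ 2 * QQ g y (‖v‖⁻¹ • v) := by
    rw [← QQ_smul, smul_inv_smul₀ hn]
  rw [h3, mul_comm c, mul_comm (max C 0)]
  exact ⟨mul_le_mul_of_nonneg_left (h1 _ hw) (sq_nonneg _),
    mul_le_mul_of_nonneg_left ((h2 ⟨_, hw, rfl⟩).trans (le_max_left _ _)) (sq_nonneg _)⟩

theorem complete_of_proper (hg : IsMetric g) {f : Pt n → ℝ}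
    (hf : ∀ γ : ℝ → Pt n, ContDiff ℝ 1 γ → ∀ t ∈ Icc (0 : ℝ) 1, |f (γ t) - f (γ 0)| ≤ len g γ)
    (hK : ∀ R, IsCompact {y | f y ≤ R}) : Complete g := by
  intro x hx
  obtain ⟨N, hN⟩ := hx 1 one_pos
  obtain ⟨c, C₀, hc, -, hb⟩ := compact_bounds hg (hK (f (x N) + 2))
  have h1 : ∀ a ≥ N, f (x a) ≤ f (x N) + 1 := by
    intro a ha
    obtain ⟨γ, h1, h2, h3, h4⟩ := exists_short (hN N le_rfl a ha)
    have := hf γ h1 1 ⟨zero_le_one, le_rfl⟩
    rw [h2, h3] at this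
    linarith [le_abs_self (f (x a) - f (x N))]
  have hsc : 0 < √c := Real.sqrt_pos.2 hc
  have h2 : ∀ a ≥ N, ∀ b, ∀ ε, 0 < ε → ε ≤ 1 → rdist g (x a) (x b) < ε →
      dist (x a) (x b) ≤ ε / √c := by
    intro a ha b ε hε hε1 hd
    obtain ⟨γ, h2, h3, h4, h5⟩ := exists_short hd
    refine (dist_pi_le_iff (div_pos hε hsc).le).2 fun i => ?_
    have hd1 : ∀ s, HasDerivAt (fun s => √c * γ s i) (√c * deriv γ s i) s := fun s =>
      (hasDerivAt_pi.1 (h2.differentiable one_ne_zero s).hasDerivAt i).const_mul _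
    have h6 := curve_bound hg h2 (h := fun s => √c * γ s i) (by fun_prop) (fun s hs => by
      have h7 := hf γ h2 s hs
      rw [h3] at h7
      have h8 : f (γ s) ≤ f (x N) + 2 := by
        linarith [le_abs_self (f (γ s) - f (x a)), h1 a ha]
      rw [(hd1 s).deriv, mul_pow, Real.sq_sqrt hc.le]
      refine le_trans (mul_le_mul_of_nonneg_left ?_ hc.le) (hb _ h8 _).1
      rw [← sq_abs]
      exact pow_le_pow_left₀ (abs_nonneg _) (norm_le_pi_norm (deriv γ s) i) 2)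
      ⟨zero_le_one, le_rfl⟩
    simp only [h3, h4] at h6
    rw [← mul_sub, abs_mul, abs_of_pos hsc, abs_sub_comm] at h6
    rw [Real.dist_eq, le_div_iff₀ hsc]
    linarith
  have hC : CauchySeq x := by
    rw [Metric.cauchySeq_iff]
    intro ε hε
    have h3 : 0 < min 1 (ε * √c / 2) := lt_min one_pos (by positivity)
    obtain ⟨M, hM⟩ := hx _ h3
    refine ⟨max M N, fun a ha b hb => ?_⟩
    refine (h2 a (le_of_max_le_right ha) b _ h3 (min_le_left _ _)
      (hM a (le_of_max_le_left ha) b (le_of_max_le_left hb))).trans_lt ?_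
    rw [div_lt_iff₀ hsc]
    refine (min_le_right _ _).trans_lt ?_
    have : 0 < ε * √c := by positivity
    linarith
  obtain ⟨p, hp⟩ := cauchySeq_tendsto_of_complete hC
  obtain ⟨c₀, C, -, hC0, hb'⟩ := compact_bounds hg (isCompact_closedBall p 1)
  refine ⟨p, squeeze_zero' (g := fun a => √C * ‖p - x a‖)
    (Eventually.of_forall fun a => le_rdist fun γ _ _ _ => len_nonneg γ) ?_ ?_⟩
  · filter_upwards [hp.eventually (Metric.closedBall_mem_nhds p one_pos)] with a ha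
    refine (rdist_le_seg _ _).trans ?_
    have h3 : ∫ _ in (0 : ℝ)..1, √C * ‖p - x a‖ = √C * ‖p - x a‖ := by simp
    rw [← h3]
    refine intervalIntegral.integral_mono_on zero_le_one
      ((speed_cont hg (seg_smooth _ _)).intervalIntegrable _ _) (by simp) fun t ht => ?_
    have h4 : x a + t • (p - x a) ∈ Metric.closedBall p 1 :=
      (convex_closedBall p 1).add_smul_sub_mem ha (Metric.mem_closedBall_self zero_le_one) ht
    have h5 := (hb' _ h4 (p - x a)).2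
    show √(QQ g _ _) ≤ _
    rw [seg_deriv, Real.sqrt_le_left (by positivity), mul_pow, Real.sq_sqrt hC0]
    exact h5
  · have h3 : Tendsto (fun a => √C * ‖p - x a‖) atTop (𝓝 (√C * ‖p - p‖)) :=
      ((tendsto_const_nhds.sub hp).norm).const_mul _
    simpa using h3

theorem sg_nonneg (y : Pt n) : 0 ≤ sg y :=
  Finset.sum_nonneg (s := Finset.univ) (f := fun i => y i * y i) fun _ _ => mul_self_nonneg _

theorem bessel {J : Mat n} (hJ : IsCx J) {y : Pt n} (hy : 0 < sg y) (v : Pt n) :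
    (y ⬝ᵥ v) ^ 2 + ((J *ᵥ y) ⬝ᵥ v) ^ 2 ≤ sg y * (v ⬝ᵥ v) := by
  have h0 : ∀ z, (J *ᵥ y) ⬝ᵥ z = -(y ⬝ᵥ (J *ᵥ z)) := by
    intro z
    rw [← Matrix.vecMul_transpose, ← Matrix.dotProduct_mulVec, hJ.1, Matrix.neg_mulVec,
      dotProduct_neg]
  have h1 : y ⬝ᵥ (J *ᵥ y) = 0 := by
    have := h0 y
    rw [dotProduct_comm] at this
    linarith
  have h2 : (J *ᵥ y) ⬝ᵥ (J *ᵥ y) = sg y := by
    rw [h0, Matrix.mulVec_mulVec, hJ.2, Matrix.neg_mulVec, Matrix.one_mulVec, dotProduct_neg,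
      neg_neg, sg]
  have h3 := sg_nonneg (sg y • v - (y ⬝ᵥ v) • y - ((J *ᵥ y) ⬝ᵥ v) • (J *ᵥ y))
  have h4 : y ⬝ᵥ y = sg y := rfl
  unfold sg at h3
  simp only [sub_dotProduct, dotProduct_sub, smul_dotProduct, dotProduct_smul, smul_eq_mul,
    dotProduct_comm v y, dotProduct_comm v (J *ᵥ y), dotProduct_comm (J *ᵥ y) y, h1, h2, h4] at h3
  refine le_of_mul_le_mul_left ?_ hy
  nlinarith

theorem gm_lower (Φ x : ℝ → ℝ) {J : Mat n} (hJ : IsCx J) {y : Pt n} (hy : 0 < sg y) (v : Pt n) :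
    Real.exp (2 * Φ (ls y)) / sg y ^ 2 * (y ⬝ᵥ v) ^ 2 ≤ v ⬝ᵥ (gm Φ x J y *ᵥ v) := by
  have h1 := bessel hJ hy v
  have hA : 0 < cA (x (ls y)) := Real.exp_pos _
  have hB : 0 < cB n (x (ls y)) := Real.exp_pos _
  have hE : 0 < Real.exp (2 * Φ (ls y)) := Real.exp_pos _
  have h2 : v ⬝ᵥ (gm Φ x J y *ᵥ v) = Real.exp (2 * Φ (ls y)) / sg y ^ 2 *
      ((y ⬝ᵥ v) ^ 2 + (cA (x (ls y)) * (sg y * (v ⬝ᵥ v) - ((y ⬝ᵥ v) ^ 2 + ((J *ᵥ y) ⬝ᵥ v) ^ 2)) +
        cB n (x (ls y)) * ((J *ᵥ y) ⬝ᵥ v) ^ 2)) := by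
    simp only [gm, Matrix.smul_mulVec, Matrix.add_mulVec, Matrix.one_mulVec,
      Matrix.vecMulVec_mulVec, dotProduct_add, dotProduct_smul, smul_eq_mul, op_smul_eq_smul,
      dotProduct_comm v y, dotProduct_comm v (J *ᵥ y)]
    field_simp
    ring
  rw [h2]
  refine mul_le_mul_of_nonneg_left (le_add_of_nonneg_right ?_) (by positivity)
  exact add_nonneg (mul_nonneg hA.le (sub_nonneg.2 h1)) (by positivity)

theorem grad_le (h : LocStmt) {Φ x : ℝ → ℝ} {J : ℝ → Mat n} {r : ℝ} (hP : Prof Φ x J)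
    (hr0 : 0 < r) (hr1 : r ≤ 1) (hΦ : ∀ s ≥ 0, r * s ≤ Φ s) (y v : Pt n) :
    (r * (1 + sg y) ^ (r / 2 - 1) * (y ⬝ᵥ v)) ^ 2 ≤ QQ (met Φ x J) y v := by
  have hs := sg_nonneg y
  have h1 : (r * (1 + sg y) ^ (r / 2 - 1) * (y ⬝ᵥ v)) ^ 2 ≤ (1 + sg y) ^ (r - 2) * (y ⬝ᵥ v) ^ 2 := by
    have h2 : ((1 + sg y) ^ (r / 2 - 1)) ^ 2 = (1 + sg y) ^ (r - 2) := by
      rw [← Real.rpow_natCast, ← Real.rpow_mul (by linarith)]
      congr 1
      push_cast
      ring
    rw [mul_pow, mul_pow, h2]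
    refine mul_le_mul_of_nonneg_right (mul_le_of_le_one_left (by positivity) ?_) (sq_nonneg _)
    nlinarith
  refine h1.trans ?_
  rw [QQ_eq]
  rcases le_or_gt (sg y) 1 with h3 | h3
  · rw [(h n Φ x J hP).1 y h3, Matrix.one_mulVec]
    have h4 : (1 + sg y) ^ (r - 2) ≤ 1 :=
      Real.rpow_le_one_of_one_le_of_nonpos (by linarith) (by linarith)
    have h5 : (y ⬝ᵥ v) ^ 2 ≤ sg y * (v ⬝ᵥ v) := by
      have := Finset.sum_mul_sq_le_sq_mul_sq Finset.univ y v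
      simp only [sq] at this ⊢
      exact this
    have h6 : 0 ≤ v ⬝ᵥ v := sg_nonneg v
    calc _ ≤ 1 * (y ⬝ᵥ v) ^ 2 := mul_le_mul_of_nonneg_right h4 (sq_nonneg _)
      _ ≤ v ⬝ᵥ v := by nlinarith
  · have hy : 0 < sg y := by linarith
    have hy0 : y ≠ 0 := by
      rintro rfl
      simp [sg] at hy
    have h4 : met Φ x J y = gm Φ x (J (ls y)) y := if_neg hy0
    rw [h4]
    refine le_trans (mul_le_mul_of_nonneg_right ?_ (sq_nonneg _)) (gm_lower Φ x (hP.cx _) hy v)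
    have h5 : 0 ≤ ls y := div_nonneg (Real.log_nonneg h3.le) two_pos.le
    have h6 : sg y ^ r ≤ Real.exp (2 * Φ (ls y)) := by
      rw [Real.rpow_def_of_pos hy, Real.exp_le_exp]
      have := hΦ _ h5
      unfold ls at this ⊢
      linarith
    calc (1 + sg y) ^ (r - 2) ≤ sg y ^ (r - 2) :=
          Real.rpow_le_rpow_of_nonpos hy (by linarith) (by linarith)
      _ = sg y ^ r / sg y ^ 2 := by rw [Real.rpow_sub hy, Real.rpow_two]
      _ ≤ _ := div_le_div_of_nonneg_right h6 (by positivity)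

theorem sg_smooth : ContDiff ℝ 1 (sg : Pt n → ℝ) := by
  unfold sg dotProduct
  fun_prop

theorem f_deriv {γ : ℝ → Pt n} (hγ : ContDiff ℝ 1 γ) (r s : ℝ) :
    HasDerivAt (fun s => (1 + sg (γ s)) ^ (r / 2))
      (r * (1 + sg (γ s)) ^ (r / 2 - 1) * (γ s ⬝ᵥ deriv γ s)) s := by
  have h1 := hasDerivAt_pi.1 (hγ.differentiable one_ne_zero s).hasDerivAt
  have h2 : HasDerivAt (fun s => sg (γ s)) (2 * (γ s ⬝ᵥ deriv γ s)) s := by
    have h3 := HasDerivAt.fun_sum (u := Finset.univ) fun i _ => (h1 i).mul (h1 i)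
    refine HasDerivAt.congr_deriv h3 ?_
    simp only [dotProduct, Finset.mul_sum]
    exact Finset.sum_congr rfl fun i _ => by ring
  have h4 := (h2.const_add 1).rpow_const (p := r / 2)
    (Or.inl (by linarith [sg_nonneg (γ s)]))
  exact h4.congr_deriv (by ring)

end Dist

open Vale.Agent.P225.Dist in
theorem distStmt (h : LocStmt) : DistStmt := by
  intro n Φ x J r hP hg hr0 hr1 hΦ
  have hpos : ∀ y : Pt n, 0 < 1 + sg y := fun y => by linarith [sg_nonneg y]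
  have hsm : ContDiff ℝ 1 fun y : Pt n => (1 + sg y) ^ (r / 2) :=
    (contDiff_const.add sg_smooth).rpow_const_of_ne fun y => (hpos y).ne'
  have hf : ∀ γ : ℝ → Pt n, ContDiff ℝ 1 γ → ∀ t ∈ Icc (0 : ℝ) 1,
      |(1 + sg (γ t)) ^ (r / 2) - (1 + sg (γ 0)) ^ (r / 2)| ≤ len (met Φ x J) γ := by
    intro γ hγ t ht
    refine curve_bound hg hγ (h := fun s => (1 + sg (γ s)) ^ (r / 2)) (hsm.comp hγ)
      (fun s _ => ?_) ht
    rw [(f_deriv hγ r s).deriv]
    exact grad_le h hP hr0 hr1 hΦ _ _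
  refine ⟨complete_of_proper hg (f := fun y => (1 + sg y) ^ (r / 2)) hf fun R => ?_, fun y => ?_⟩
  · refine Metric.isCompact_of_isClosed_isBounded (isClosed_le hsm.continuous continuous_const)
      ((Metric.isBounded_closedBall (x := 0) (r := |R| ^ (r / 2)⁻¹)).subset fun y hy => ?_)
    have h1 : 1 + sg y ≤ |R| ^ (r / 2)⁻¹ :=
      (Real.le_rpow_inv_iff_of_pos (hpos y).le (abs_nonneg R) (by linarith)).2
        (le_trans hy (le_abs_self R))
    rw [mem_closedBall_zero_iff]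
    refine (pi_norm_le_iff_of_nonneg ((hpos y).le.trans h1)).2 fun i => le_trans ?_ h1
    have h2 : y i * y i ≤ sg y :=
      Finset.single_le_sum (f := fun i => y i * y i) (fun _ _ => mul_self_nonneg _)
        (Finset.mem_univ i)
    rw [Real.norm_eq_abs, abs_le]
    constructor <;> nlinarith [sq_nonneg (y i - 1), sq_nonneg (y i + 1)]
  · rw [← sub_le_iff_le_add']
    refine le_rdist fun γ h1 h2 h3 => ?_
    have h4 := hf γ h1 1 ⟨zero_le_one, le_rfl⟩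
    have h5 : sg (0 : Pt n) = 0 := by simp [sg]
    rw [h2, h3, h5, add_zero, Real.one_rpow] at h4
    exact (le_abs_self _).trans h4

end Vale.Agent.P225
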