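import Vale.Agent.P225.RDefs

/-! Evaluation of polynomials in null coordinates. -/

namespace Vale.Agent.P225

open scoped ContDiff Topology Matrix ComplexConjugate
open Filter MvPolynomial

namespace Ev

variable {m : ℕ}

theorem Cm_e (s t : Ix m) : Cm m s (finSumFinEquiv t) =
    if t = s then (1 + Complex.I) / 2 else if t = Sum.swap s then (1 - Complex.I) / 2 else 0 := by
  simp only [Cm, EmbeddingLike.apply_eq_iff_eq]

theorem Cm_sum (s : Ix m) (f : Fin (m + m) → ℂ) : ∑ a, Cm m s a * f a =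
    (1 + Complex.I) / 2 * f (finSumFinEquiv s) +
      (1 - Complex.I) / 2 * f (finSumFinEquiv (Sum.swap s)) := by
  rw [← finSumFinEquiv.sum_comp, Finset.sum_eq_add s (Sum.swap s) (swap_ne s).symm]
  · rw [Cm_e, Cm_e, if_pos rfl, if_neg (swap_ne s), if_pos rfl]
  · intro c _ hc
    rw [Cm_e, if_neg hc.1, if_neg hc.2, zero_mul]
  · simp
  · simp

theorem Cm_conj (s : Ix m) (a : Fin (m + m)) : conj (Cm m s a) = Cm m (Sum.swap s) a := by
  obtain ⟨t, rfl⟩ := finSumFinEquiv.surjective a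
  rw [Cm_e, Cm_e, Sum.swap_swap]
  by_cases h : t = s
  · subst h
    rw [if_pos rfl, if_neg (swap_ne t).symm, if_pos rfl]
    rw [map_div₀, map_add, map_one, Complex.conj_I, map_ofNat, sub_eq_add_neg]
  · by_cases h' : t = Sum.swap s
    · rw [if_neg h, if_pos h', if_pos h', map_div₀, map_sub, map_one, Complex.conj_I, map_ofNat,
        sub_neg_eq_add]
    · rw [if_neg h, if_neg h', if_neg h', if_neg h, map_zero]

theorem Cm_Cm (s t : Ix m) : ∑ a, Cm m s a * Cm m t a = if t = Sum.swap s then 1 else 0 := by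
  rw [Cm_sum, Cm_e, Cm_e]
  by_cases h : s = t
  · subst h
    rw [if_pos rfl, if_neg (swap_ne s), if_pos rfl, if_neg (swap_ne s).symm]
    simp [Complex.ext_iff]
    norm_num
  · by_cases h' : t = Sum.swap s
    · subst h'
      rw [if_neg h, Sum.swap_swap, if_pos rfl, if_pos rfl, if_pos rfl]
      simp [Complex.ext_iff]
      norm_num
    · have h1 : s ≠ Sum.swap t := fun e => h' (by rw [e, Sum.swap_swap])
      have h2 : Sum.swap s ≠ Sum.swap t := fun e => h (Sum.swap_leftInverse.injective e)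
      rw [if_neg h, if_neg h1, if_neg (Ne.symm h'), if_neg h2, if_neg h']
      simp

theorem Cm_mul_H : Cm m * (Cm m)ᴴ = 1 := by
  ext s t
  rw [Matrix.mul_apply, Matrix.one_apply]
  simp only [Matrix.conjTranspose_apply, RCLike.star_def, Cm_conj]
  rw [Cm_Cm]
  simp only [Sum.swap_leftInverse.injective.eq_iff, eq_comm]

theorem H_mul_Cm : (Cm m)ᴴ * Cm m = 1 :=
  (Matrix.mul_eq_one_comm_of_equiv finSumFinEquiv).1 Cm_mul_H

/-- the null coordinate as a continuous linear map -/
noncomputable def L (s : Ix m) : Pt (m + m) →L[ℝ] ℂ :=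
  ∑ a, (ContinuousLinearMap.proj a : Pt (m + m) →L[ℝ] ℝ).smulRight (Cm m s a)

theorem L_apply (s : Ix m) (y : Pt (m + m)) : L s y = ∑ a, Cm m s a * (y a : ℂ) := by
  simp [L, mul_comm]

theorem ev_eq (P : Pol m) (y : Pt (m + m)) : ev P y = eval (fun s => L s y) P := by
  simp only [ev, L_apply]

theorem ev_C (c : ℂ) : ev (C c : Pol m) = fun _ => c := by
  funext y
  simp [ev]

theorem ev_add (P Q : Pol m) : ev (P + Q) = fun y => ev P y + ev Q y := by
  funext y
  simp [ev]

theorem ev_mul_X (P : Pol m) (s : Ix m) : ev (P * X s) = fun y => ev P y * L s y := by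
  funext y
  simp [ev_eq]

theorem ev_smooth (P : Pol m) : ContDiff ℝ ∞ (ev P) := by
  induction P using MvPolynomial.induction_on with
  | C c => rw [ev_C]; exact contDiff_const
  | add p q hp hq => rw [ev_add]; exact hp.add hq
  | mul_X p s hp => rw [ev_mul_X]; exact hp.mul (L s).contDiff

theorem ev_diff (P : Pol m) (y : Pt (m + m)) : DifferentiableAt ℝ (ev P) y :=
  ((ev_smooth P).differentiable (by simp)) y

theorem ev_fderiv (P : Pol m) (y v : Pt (m + m)) :
    fderiv ℝ (ev P) y v = ∑ s, ev (pderiv s P) y * L s v := by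
  classical
  induction P using MvPolynomial.induction_on with
  | C c => rw [ev_C]; simp [ev]
  | add p q hp hq =>
    rw [ev_add, fderiv_fun_add (ev_diff p y) (ev_diff q y), add_apply, hp, hq,
      ← Finset.sum_add_distrib]
    refine Finset.sum_congr rfl fun s _ => ?_
    rw [map_add, ev_add, add_mul]
  | mul_X p t hp =>
    rw [ev_mul_X, fderiv_fun_mul (ev_diff p y) (L t).differentiableAt,
      add_apply, smul_apply,
      smul_apply, hp, (L t).fderiv, smul_eq_mul, smul_eq_mul]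
    have h : ∀ s, ev (pderiv s (p * X t)) y * L s v =
        (if s = t then ev p y * L t v else 0) + L t y * (ev (pderiv s p) y * L s v) := by
      intro s
      rw [Derivation.leibniz, pderiv_X, Pi.single_apply]
      by_cases hs : s = t
      · subst hs
        simp [ev_eq]
        ring
      · simp [ev_eq, hs, Ne.symm hs]
        ring
    rw [Finset.sum_congr rfl fun s _ => h s, Finset.sum_add_distrib, Finset.mul_sum]
    simp

theorem L_mulVec (Y : Mat (m + m)) (y : Pt (m + m)) (s : Ix m) :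
    L s (Y *ᵥ y) = ∑ t, cx Y s t * L t y := by
  have h1 : ∀ z : Pt (m + m), (fun s => L s z) = Cm m *ᵥ fun a => (z a : ℂ) := by
    intro z
    funext s
    rw [L_apply]
    rfl
  have h2 : (fun a => ((Y *ᵥ y) a : ℂ)) = Y.map ((↑) : ℝ → ℂ) *ᵥ fun a => (y a : ℂ) := by
    funext a
    simp [Matrix.mulVec, dotProduct]
  have h3 : (fun s => L s (Y *ᵥ y)) = cx Y *ᵥ fun t => L t y := by
    rw [h1, h1, h2, cx, Matrix.mulVec_mulVec, Matrix.mulVec_mulVec, Matrix.mul_assoc, H_mul_Cm,
      Matrix.mul_one]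
  exact congrFun h3 s

theorem ev_DM (P : Pol m) (Y : Mat (m + m)) (y : Pt (m + m)) :
    fderiv ℝ (ev P) y (Y *ᵥ y) = ev (DM (cx Y) P) y := by
  rw [ev_fderiv, DM_apply, ev_eq, map_sum]
  refine Finset.sum_congr rfl fun s _ => ?_
  rw [L_mulVec, map_sum, Finset.mul_sum]
  refine Finset.sum_congr rfl fun t _ => ?_
  rw [smul_eval, map_mul, eval_X, ev_eq]
  ring

theorem ev_euler {P : Pol m} {l : ℕ} (h : P.IsHomogeneous l) (y : Pt (m + m)) :
    fderiv ℝ (ev P) y y = (l : ℂ) * ev P y := by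
  have h1 := congrArg (eval fun s => L s y) h.sum_X_mul_pderiv
  rw [map_sum, nsmul_eq_mul, map_mul, map_natCast, ← ev_eq] at h1
  rw [ev_fderiv, ← h1]
  refine Finset.sum_congr rfl fun s _ => ?_
  rw [map_mul, eval_X, ev_eq, mul_comm]

theorem ev_bound {P : Pol m} {l : ℕ} (h : P.IsHomogeneous l) :
    ∃ C : ℝ, ∀ y, ‖ev P y‖ ≤ C * ‖y‖ ^ l := by
  refine ⟨∑ d ∈ P.support, ‖coeff d P‖ * ∏ s, ‖L (m := m) s‖ ^ d s, fun y => ?_⟩
  rw [ev_eq, eval_eq', Finset.sum_mul]
  refine (norm_sum_le _ _).trans (Finset.sum_le_sum fun d hd => ?_)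
  have hl : ∑ s, d s = l := by
    by_contra hne
    refine mem_support_iff.1 hd (h.coeff_eq_zero ?_)
    rwa [Finsupp.degree_eq_sum]
  rw [norm_mul, mul_assoc, norm_prod, ← hl, ← Finset.prod_pow_eq_pow_sum, ← Finset.prod_mul_distrib]
  refine mul_le_mul_of_nonneg_left (Finset.prod_le_prod (fun _ _ => norm_nonneg _) fun s _ => ?_)
    (norm_nonneg _)
  rw [norm_pow, ← mul_pow]
  exact pow_le_pow_left₀ (norm_nonneg _) ((L s).le_opNorm y) _

theorem ev_single (P : Pol m) (a : Fin (m + m)) :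
    (fun z => fderiv ℝ (ev P) z (Pi.single a 1)) = ev (∑ s, Cm m s a • pderiv s P) := by
  funext z
  rw [ev_fderiv, ev_eq, map_sum]
  refine Finset.sum_congr rfl fun s _ => ?_
  rw [smul_eval, ← ev_eq, L_apply, Finset.sum_eq_single a]
  · simp [mul_comm]
  · intro b _ hb
    simp [hb]
  · simp

theorem ev_lap (P : Pol m) (y : Pt (m + m)) :
    ∑ a, fderiv ℝ (fun z => fderiv ℝ (ev P) z (Pi.single a 1)) y (Pi.single a 1) =
      ev (Lp P) y := by
  have h1 : ∀ a, fderiv ℝ (fun z => fderiv ℝ (ev P) z (Pi.single a 1)) y (Pi.single a 1) =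
      ev (∑ t, Cm m t a • pderiv t (∑ s, Cm m s a • pderiv s P)) y := by
    intro a
    rw [ev_single]
    exact congrFun (ev_single _ a) y
  have h2 : ∑ a, ∑ t, Cm m t a • pderiv t (∑ s, Cm m s a • pderiv s P) = Lp P := by
    rw [Lp_apply, Finset.sum_comm]
    refine Finset.sum_congr rfl fun t _ => ?_
    simp only [map_sum, Derivation.map_smul, Finset.smul_sum, smul_smul]
    rw [Finset.sum_comm]
    simp only [← Finset.sum_smul, Cm_Cm]
    simp
  rw [← h2, ev_eq, map_sum]
  exact Finset.sum_congr rfl fun a _ => by rw [h1, ev_eq]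

theorem ev_conj (P : Pol m) (y : Pt (m + m)) : conj (ev P y) = ev (kap P) y := by
  have h : (starRingEnd ℂ).comp (eval fun s => L s y) = (eval fun s => L s y).comp kap := by
    refine MvPolynomial.ringHom_ext (fun c => ?_) fun s => ?_
    · simp [kap]
    · simp [kap, L_apply, Cm_conj]
  rw [ev_eq, ev_eq]
  exact DFunLike.congr_fun h P

theorem ev_inj (P : Pol m) (h : ∀ᶠ y in 𝓝 0, ev P y = 0) : P = 0 := by
  set Q : MvPolynomial (Fin (m + m)) ℂ := bind₁ (fun s => ∑ a, C (Cm m s a) * X a) P with hQ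
  have h1 : ∀ x, eval x Q = eval (Cm m *ᵥ x) P := by
    intro x
    have h2 := eval₂Hom_bind₁ (RingHom.id ℂ) x (fun s => ∑ a, C (Cm m s a) * X a) P
    refine h2.trans ?_
    change eval _ P = _
    congr 2
    funext s
    simp [Matrix.mulVec, dotProduct]
  obtain ⟨ε, hε, hb⟩ := Metric.eventually_nhds_iff.1 h
  have hQ0 : Q = 0 := by
    refine funext_set (fun _ => ((↑) : ℝ → ℂ) '' Set.Ioo (-ε) ε)
      (fun _ => (Set.Ioo_infinite (by linarith)).image Complex.ofReal_injective.injOn) ?_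
    intro x hx
    choose y hy hyx using fun a => hx a (Set.mem_univ a)
    have h3 : ev P y = 0 := by
      refine hb ?_
      rw [dist_zero_right, pi_norm_lt_iff hε]
      exact fun a => abs_lt.2 (hy a)
    rw [h1, map_zero, ← h3, ev, ← funext hyx]
    rfl
  refine MvPolynomial.funext fun z => ?_
  have h4 := h1 ((Cm m)ᴴ *ᵥ z)
  rw [hQ0, Matrix.mulVec_mulVec, Cm_mul_H, Matrix.one_mulVec] at h4
  rw [← h4, map_zero, map_zero]

end Ev

theorem evStmt : EvStmt := fun _ P =>
  ⟨Ev.ev_smooth P, Ev.ev_DM P, fun _ h => ⟨Ev.ev_euler h, Ev.ev_bound h⟩, Ev.ev_lap P,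
    Ev.ev_conj P, Ev.ev_inj P⟩

end Vale.Agent.P225
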