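import Vale.Agent.P225.RDefs

/-! The Fischer inner product. -/

namespace Vale.Agent.P225

open scoped Matrix ComplexConjugate Nat
open MvPolynomial

namespace Fis

theorem riesz {V : Type*} [AddCommGroup V] [Module ℂ V] [FiniteDimensional ℂ V]
    (cd : InnerProductSpace.Core ℂ V) (ψ : Module.Dual ℂ V) :
    ∃ u, ∀ w, ψ w = cd.inner u w := by
  let : NormedAddCommGroup V := cd.toNormedAddCommGroup
  let : InnerProductSpace ℂ V := InnerProductSpace.ofCore cd.toCore
  have : CompleteSpace V := FiniteDimensional.complete ℂ V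
  obtain ⟨u, hu⟩ := (InnerProductSpace.toDual ℂ V).surjective (LinearMap.toContinuousLinearMap ψ)
  exact ⟨u, fun w => (DFunLike.congr_fun hu w).symm⟩

variable {m : ℕ}

/-- the weight of a monomial -/
def fw (d : Ix m →₀ ℕ) : ℕ := ∏ a, (d a)!

theorem fw_pos (d : Ix m →₀ ℕ) : 0 < fw d := Finset.prod_pos fun _ _ => Nat.factorial_pos _

theorem fw_add (d : Ix m →₀ ℕ) (b : Ix m) : fw (Finsupp.single b 1 + d) = fw d * (d b + 1) := by
  unfold fw
  rw [← Finset.mul_prod_erase _ _ (Finset.mem_univ b),
    ← Finset.mul_prod_erase _ (fun a => (d a)!) (Finset.mem_univ b)]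
  rw [Finset.prod_congr rfl fun a ha => (by
    rw [Finsupp.add_apply, Finsupp.single_eq_of_ne (Finset.ne_of_mem_erase ha), zero_add] :
      ((Finsupp.single b 1 + d : Ix m →₀ ℕ) a)! = (d a)!)]
  rw [Finsupp.add_apply, Finsupp.single_eq_same, add_comm 1, Nat.factorial_succ]
  ring

theorem fw_single (a : Ix m) (l : ℕ) : fw (Finsupp.single a l) = l ! := by
  unfold fw
  rw [Finset.prod_eq_single a, Finsupp.single_eq_same]
  · intro b _ hb
    rw [Finsupp.single_eq_of_ne hb, Nat.factorial_zero]
  · simp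

theorem fis_eq {P : Pol m} (Q : Pol m) {S : Finset (Ix m →₀ ℕ)} (h : P.support ⊆ S) :
    fis P Q = ∑ d ∈ S, conj (coeff d P) * (fw d : ℂ) * coeff d Q :=
  Finset.sum_subset h fun d _ hd => by simp [notMem_support_iff.1 hd]

theorem fis_add_right (P Q R : Pol m) : fis P (Q + R) = fis P Q + fis P R := by
  simp only [fis, coeff_add, mul_add, Finset.sum_add_distrib]

theorem fis_smul_right (z : ℂ) (P Q : Pol m) : fis P (z • Q) = z * fis P Q := by
  simp only [fis, coeff_smul, smul_eq_mul, Finset.mul_sum]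
  exact Finset.sum_congr rfl fun d _ => by ring

theorem fis_symm (P Q : Pol m) : fis P Q = conj (fis Q P) := by
  classical
  rw [fis_eq Q (Finset.subset_union_left (s₂ := Q.support)),
    fis_eq P (Finset.subset_union_right (s₁ := P.support)), map_sum]
  refine Finset.sum_congr rfl fun d _ => ?_
  simp only [map_mul, Complex.conj_conj, map_natCast]
  ring

theorem fis_add_left (P Q R : Pol m) : fis (P + Q) R = fis P R + fis Q R := by
  rw [fis_symm, fis_add_right, map_add, ← fis_symm, ← fis_symm]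

theorem fis_smul_left (z : ℂ) (P Q : Pol m) : fis (z • P) Q = conj z * fis P Q := by
  rw [fis_symm, fis_smul_right, map_mul, ← fis_symm]

theorem fis_sum_right {ι : Type*} (s : Finset ι) (P : Pol m) (Q : ι → Pol m) :
    fis P (∑ i ∈ s, Q i) = ∑ i ∈ s, fis P (Q i) := by
  simp only [fis, coeff_sum, Finset.mul_sum]
  exact Finset.sum_comm

theorem fis_sum_left {ι : Type*} (s : Finset ι) (P : ι → Pol m) (Q : Pol m) :
    fis (∑ i ∈ s, P i) Q = ∑ i ∈ s, fis (P i) Q := by
  rw [fis_symm, fis_sum_right, map_sum]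
  exact Finset.sum_congr rfl fun i _ => (fis_symm _ _).symm

theorem fis_self (P : Pol m) :
    fis P P = ((∑ d ∈ P.support, Complex.normSq (coeff d P) * (fw d : ℝ) : ℝ) : ℂ) := by
  rw [fis_eq P subset_rfl, Complex.ofReal_sum]
  refine Finset.sum_congr rfl fun d _ => ?_
  rw [Complex.ofReal_mul, Complex.normSq_eq_conj_mul_self, Complex.ofReal_natCast]
  ring

theorem fis_def (P : Pol m) (h : fis P P = 0) : P = 0 := by
  rw [fis_self, Complex.ofReal_eq_zero, Finset.sum_eq_zero_iff_of_nonneg fun d _ =>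
    mul_nonneg (Complex.normSq_nonneg _) (Nat.cast_nonneg _)] at h
  by_contra hP
  obtain ⟨d, hd⟩ := support_nonempty.2 hP
  rcases mul_eq_zero.1 (h d hd) with h1 | h1
  · exact mem_support_iff.1 hd (Complex.normSq_eq_zero.1 h1)
  · exact (fw_pos d).ne' (by exact_mod_cast h1)

theorem fis_X_mul (b : Ix m) (R Q : Pol m) : fis (X b * R) Q = fis R (pderiv b Q) := by
  rw [fis_eq Q subset_rfl, fis_eq _ subset_rfl, support_X_mul, Finset.sum_map]
  refine Finset.sum_congr rfl fun d _ => ?_
  rw [addLeftEmbedding_apply, coeff_X_mul, coeff_pderiv, fw_add, add_comm d]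
  push_cast
  ring

theorem fis_pderiv (a : Ix m) (P R : Pol m) : fis (pderiv a P) R = fis P (X a * R) := by
  rw [fis_symm, ← fis_X_mul, ← fis_symm]

theorem fis_DM (M : CM m) (P Q : Pol m) : fis (DM M P) Q = fis P (DM Mᴴ Q) := by
  rw [DM_apply, DM_apply, Finset.sum_comm]
  simp only [fis_sum_left, fis_sum_right, fis_smul_left, fis_smul_right, fis_X_mul, fis_pderiv,
    Matrix.conjTranspose_apply, Complex.star_def]

theorem fis_X_pow (a : Ix m) (l : ℕ) (P : Pol m) :
    fis (X a ^ l) P = (l ! : ℂ) * coeff (Finsupp.single a l) P := by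
  classical
  rw [X_pow_eq_monomial, fis_eq P support_monomial_subset, Finset.sum_singleton, coeff_monomial,
    if_pos rfl, map_one, one_mul, fw_single]

theorem fin_HV (l : ℕ) : FiniteDimensional ℂ (HV m l) :=
  Submodule.finiteDimensional_of_le (S₂ := restrictTotalDegree (Ix m) ℂ l) fun _ hP =>
    (mem_restrictTotalDegree _ _ _).2 hP.1.totalDegree_le

/-- the Fischer inner product on harmonic polynomials -/
@[reducible] noncomputable def core (m l : ℕ) : InnerProductSpace.Core ℂ (HV m l) where
  inner u w := fis (u : Pol m) w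
  conj_inner_symm _ _ := (fis_symm _ _).symm
  re_inner_nonneg u := by
    rw [fis_self]
    exact Finset.sum_nonneg fun d _ => mul_nonneg (Complex.normSq_nonneg _) (Nat.cast_nonneg _)
  add_left _ _ _ := fis_add_left _ _ _
  smul_left _ _ _ := fis_smul_left _ _ _
  definite u h := Subtype.ext (fis_def _ h)

end Fis

open Fis

theorem fisStmt : FisStmt := fun m =>
  ⟨fis_add_right, fis_smul_right, fis_symm, fis_def, fis_DM, fis_X_pow, fin_HV, fun l ψ =>
    haveI := fin_HV (m := m) l
    riesz (core m l) ψ⟩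

end Vale.Agent.P225
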