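import Vale.Agent.P225.RDefs

/-! The Lie algebra generated by the squares of the complex structures. -/

namespace Vale.Agent.P225

open scoped Topology Matrix ComplexConjugate
open Filter MvPolynomial

namespace Gen

/-- The complex Lie algebra generated by a set. -/
inductive InH {A : Type} [Ring A] [Algebra ℂ A] (T : Set A) : A → Prop
  | gen {Y : A} : Y ∈ T → InH T Y
  | zero : InH T 0
  | add {Y Z : A} : InH T Y → InH T Z → InH T (Y + Z)
  | smul (z : ℂ) {Y : A} : InH T Y → InH T (z • Y)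
  | br {Y Z : A} : InH T Y → InH T Z → InH T (Y * Z - Z * Y)

/-- The same as a submodule. -/
def HH {A : Type} [Ring A] [Algebra ℂ A] (T : Set A) : Submodule ℂ A where
  carrier := {Y | InH T Y}
  add_mem' := InH.add
  zero_mem' := InH.zero
  smul_mem' z _ := InH.smul z

theorem tangent {n : ℕ} (B : Mat n →ₗ[ℝ] Mat n →ₗ[ℝ] ℝ) (hB : ∀ J, IsCx J → B J J = 0)
    {J Y : Mat n} (hJ : IsCx J) (hY : Yᵀ = -Y) (h3 : Y * Y * Y = -Y) :
    B (J * Y - Y * J) J + B J (J * Y - Y * J) = 0 := by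
  obtain ⟨Q, hQ⟩ : ∃ Q : Mat n, Q = 1 + (2 : ℝ) • (Y * Y) := ⟨_, rfl⟩
  let U : ℝ → Mat n := fun s => (2 : ℝ) • Y + s • Q
  let K : ℝ → Mat n := fun s => U s * J - J * U (-s) - s • (U s * J * U (-s))
  have hR : ∀ s : ℝ, (1 + s • U s) * (1 + (-s) • U (-s)) = ((1 + s ^ 2) ^ 2) • (1 : Mat n) := by
    intro s
    have h4 : Y * (Y * Y) = -Y := by rw [← mul_assoc, h3]
    have h5 : Y * Y * (Y * Y) = -(Y * Y) := by rw [← mul_assoc, h3, neg_mul]
    simp only [U, hQ, mul_add, add_mul, smul_add, smul_mul_assoc, mul_smul_comm, one_mul, mul_one,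
      h3, h4, h5]
    module
  have hT : ∀ s : ℝ, (1 + s • U s)ᵀ = 1 + (-s) • U (-s) := by
    intro s
    simp only [U, hQ, Matrix.transpose_add, Matrix.transpose_smul, Matrix.transpose_one,
      Matrix.transpose_mul, hY, neg_mul_neg]
    module
  have h0 : ∀ s : ℝ, B (J + s • K s) (J + s • K s) = 0 := by
    intro s
    have hp : (1 + s ^ 2) ^ 2 ≠ 0 := by positivity
    have e : J + s • K s = (1 + s • U s) * J * (1 + (-s) • U (-s)) := by
      simp only [K, mul_add, add_mul, smul_mul_assoc, mul_smul_comm, one_mul, mul_one]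
      module
    have h1 := hR (-s)
    have h2 := hT (-s)
    rw [neg_neg] at h1 h2
    rw [neg_sq] at h1
    have hc : IsCx (((1 + s ^ 2) ^ 2)⁻¹ • ((1 + s • U s) * J * (1 + (-s) • U (-s)))) := by
      constructor
      · rw [Matrix.transpose_smul, Matrix.transpose_mul, Matrix.transpose_mul, h2, hT, hJ.1,
          neg_mul, mul_neg, smul_neg, mul_assoc]
      · rw [smul_mul_assoc, mul_smul_comm, mul_assoc, ← mul_assoc (1 + (-s) • U (-s)),
          ← mul_assoc (1 + (-s) • U (-s)), h1, smul_mul_assoc, smul_mul_assoc, one_mul,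
          mul_smul_comm, mul_assoc, ← mul_assoc J, hJ.2, neg_mul, one_mul, mul_neg, hR,
          inv_smul_smul₀ hp, smul_neg, inv_smul_smul₀ hp]
    have h6 := hB _ hc
    simp only [map_smul, LinearMap.smul_apply, smul_eq_zero, inv_eq_zero, hp, false_or] at h6
    rw [e, h6]
  have hc : Continuous fun s : ℝ => B (K s) J + B J (K s) + s * B (K s) (K s) := by
    simp only [K, U, mul_add, add_mul, smul_mul_assoc, mul_smul_comm, map_add, map_sub, map_smul,
      LinearMap.add_apply, LinearMap.sub_apply, LinearMap.smul_apply, smul_eq_mul]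
    fun_prop
  have h7 : (fun s : ℝ => B (K s) J + B J (K s) + s * B (K s) (K s)) = fun _ => 0 := by
    refine Continuous.ext_on (dense_compl_singleton 0) hc continuous_const fun s hs => ?_
    have h8 := h0 s
    simp only [map_add, map_smul, LinearMap.add_apply, LinearMap.smul_apply, smul_eq_mul,
      hB J hJ] at h8
    exact mul_left_cancel₀ hs (by linear_combination h8)
  have h9 := congrFun h7 0
  have e : K 0 = (-2 : ℝ) • (J * Y - Y * J) := by
    simp only [K, U, neg_zero, zero_smul, add_zero, sub_zero, smul_mul_assoc, mul_smul_comm]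
    module
  simp only [e, map_smul, LinearMap.smul_apply, smul_eq_mul] at h9
  linarith

theorem tangent' {n : ℕ} (B : Mat n →ₗ[ℝ] Mat n →ₗ[ℝ] ℝ) (hB : ∀ J, IsCx J → B J J = 0)
    {J Y : Mat n} (hJ : IsCx J) (hY : Yᵀ = -Y) :
    B (J * Y - Y * J) J + B J (J * Y - Y * J) = 0 := by
  let L : Mat n →ₗ[ℝ] ℝ := (B.flip J + B J) ∘ₗ (LinearMap.mulLeft ℝ J - LinearMap.mulRight ℝ J)
  have hL : ∀ i j, L (Matrix.single i j 1) = L (Matrix.single j i 1) := fun i j => by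
    rw [← sub_eq_zero, ← map_sub]
    refine tangent B hB hJ (by simp) ?_
    by_cases h : i = j
    · simp [h]
    · simp [mul_sub, sub_mul, Matrix.single_mul_single_of_ne, h, Ne.symm h, neg_add_eq_sub]
  have h1 : ∀ Z : Mat n, L Z = ∑ i, ∑ j, Z i j * L (Matrix.single i j 1) := fun Z => by
    conv_lhs => rw [Matrix.matrix_eq_sum_single Z]
    simp only [map_sum]
    refine Finset.sum_congr rfl fun i _ => Finset.sum_congr rfl fun j _ => ?_
    rw [← smul_eq_mul, ← map_smul, Matrix.smul_single, smul_eq_mul, mul_one]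
  have h2 : L Yᵀ = L Y := by
    rw [h1, h1, Finset.sum_comm]
    simp only [Matrix.transpose_apply, hL]
  rw [hY, map_neg] at h2
  have h3 : L Y = 0 := by linarith
  exact h3

variable {m : ℕ} {Λ : Type}

theorem cx_add (Y Z : Mat (m + m)) : cx (Y + Z) = cx Y + cx Z := by
  simp only [cx, Matrix.map_add _ Complex.ofReal_add, Matrix.mul_add, Matrix.add_mul]

theorem cx_smul (r : ℝ) (Y : Mat (m + m)) : cx (r • Y) = (r : ℂ) • cx Y := by
  have : (r • Y).map ((↑) : ℝ → ℂ) = (r : ℂ) • Y.map ((↑) : ℝ → ℂ) := by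
    ext i j; simp
  simp only [cx, this, Matrix.mul_smul, Matrix.smul_mul]

theorem cx_sub (Y Z : Mat (m + m)) : cx (Y - Z) = cx Y - cx Z := by
  simp only [cx, Matrix.map_sub _ Complex.ofReal_sub, Matrix.mul_sub, Matrix.sub_mul]

theorem so_add {M M' : CM m} (h : IsSo M) (h' : IsSo M') : IsSo (M + M') := fun a b => by
  rw [Matrix.add_apply, Matrix.add_apply, h a b, h' a b, neg_add]

theorem so_smul (z : ℂ) {M : CM m} (h : IsSo M) : IsSo (z • M) := fun a b => by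
  rw [Matrix.smul_apply, Matrix.smul_apply, h a b, smul_neg]

theorem so_zero : IsSo (0 : CM m) := fun a b => by simp

theorem DM_zero : DM (0 : CM m) = 0 := by simp [DM]

theorem DM_neg (M : CM m) (P : Pol m) : DM (-M) P = -DM M P := by
  simp only [DM_apply, Matrix.neg_apply, neg_smul, Finset.sum_neg_distrib]

section abs
variable {A : Type} [Ring A] [Algebra ℂ A]

/-- An abstract representation together with a central element. -/
structure Data (D : CM m → A) (κ : A) : Prop where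
  zero : D 0 = 0
  lin : ∀ (z : ℂ) M M', IsSo M → IsSo M' → D (z • M + M') = z • D M + D M'
  br : ∀ M M', IsSo M → IsSo M' → IsSo (M' * M - M * M') →
    D M * D M' - D M' * D M = D (M' * M - M * M')
  comm : ∀ X Y, X * (κ * Y) = κ * (X * Y)

variable {D : CM m → A} {κ : A} (h1 : CxStmt) (hD : Data D κ)
include hD

theorem Data.add {M M' : CM m} (h : IsSo M) (h' : IsSo M') : D (M + M') = D M + D M' := by
  simpa using hD.lin 1 M M' h h'

theorem Data.smul (z : ℂ) {M : CM m} (h : IsSo M) : D (z • M) = z • D M := by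
  simpa [hD.zero] using hD.lin z M 0 h so_zero

theorem Data.sum {ι : Type} (s : Finset ι) (M : ι → CM m) (h : ∀ i, IsSo (M i)) :
    IsSo (∑ i ∈ s, M i) ∧ D (∑ i ∈ s, M i) = ∑ i ∈ s, D (M i) := by
  classical
  induction s using Finset.induction_on with
  | empty => exact ⟨so_zero, hD.zero⟩
  | insert a s ha ih =>
    rw [Finset.sum_insert ha, Finset.sum_insert ha, hD.add (h a) ih.1, ih.2]
    exact ⟨so_add (h a) ih.1, rfl⟩

include h1

omit hD in
theorem so_half (Y : Mat (m + m)) : IsSo (cx ((1 / 2 : ℝ) • (Y - Yᵀ))) :=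
  ((h1 m).1 _ (by simp [← smul_neg])).1

theorem exists_dl : ∃ dl : Mat (m + m) →ₗ[ℝ] A, ∀ Y, Yᵀ = -Y → dl Y = D (cx Y) := by
  refine ⟨⟨⟨fun Y => D (cx ((1 / 2 : ℝ) • (Y - Yᵀ))), fun Y Z => ?_⟩, fun r Y => ?_⟩,
    fun Y hY => ?_⟩
  · rw [← hD.add (so_half h1 Y) (so_half h1 Z), ← cx_add, ← smul_add, Matrix.transpose_add,
      add_sub_add_comm]
  · simp only [RingHom.id_apply]
    rw [Matrix.transpose_smul, ← smul_sub, smul_comm, cx_smul, hD.smul _ (so_half h1 Y),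
      Complex.coe_smul]
  · have : (1 / 2 : ℝ) • (Y - Yᵀ) = Y := by rw [hY]; module
    change D (cx ((1 / 2 : ℝ) • (Y - Yᵀ))) = _
    rw [this]

theorem ad_gen (H : Submodule ℂ A) (hH : ∀ J, IsCx J → κ * (D (cx J) * D (cx J)) ∈ H)
    {J Y : Mat (m + m)} (hJ : IsCx J) (hY : Yᵀ = -Y) :
    D (cx Y) * (κ * (D (cx J) * D (cx J))) - κ * (D (cx J) * D (cx J)) * D (cx Y) ∈ H := by
  by_contra hc
  obtain ⟨dl, hdl⟩ := exists_dl h1 hD
  obtain ⟨φ, h2, h3⟩ := Submodule.exists_dual_map_eq_bot_of_notMem (p := H.restrictScalars ℝ) hc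
    inferInstance
  have h4 : ∀ x ∈ H, φ x = 0 := fun x hx =>
    (Submodule.eq_bot_iff _).1 h3 _ (Submodule.mem_map_of_mem hx)
  have hs : (J * Y - Y * J)ᵀ = -(J * Y - Y * J) := by
    simp [Matrix.transpose_mul, hY, hJ.1]
  have h5 := tangent' (((LinearMap.mul ℝ A).compl₁₂ dl dl).compr₂
    (φ ∘ₗ LinearMap.mulLeft ℝ κ)) (fun J hJ => by
      have := h4 _ (hH J hJ)
      rwa [← hdl J hJ.1] at this) hJ hY
  simp only [LinearMap.compr₂_apply, LinearMap.compl₁₂_apply, LinearMap.mul_apply',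
    LinearMap.comp_apply, LinearMap.mulLeft_apply, hdl _ hJ.1, hdl _ hs] at h5
  have h6 := ((h1 m).1 _ hs).1
  rw [cx_sub, (h1 m).2.2.1, (h1 m).2.2.1] at h5 h6
  rw [← hD.br _ _ ((h1 m).1 _ hY).1 ((h1 m).1 _ hJ.1).1 h6, ← map_add] at h5
  apply h2
  rw [← h5, hD.comm]
  refine congrArg φ ?_
  noncomm_ring

theorem hh_mem (H : Submodule ℂ A) (hH : ∀ J, IsCx J → κ * (D (cx J) * D (cx J)) ∈ H)
    {a b : Fin m} (hab : a ≠ b) : κ * (D (Hm a) * D (Hm b)) ∈ H := by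
  classical
  obtain ⟨z, hz⟩ : ∃ z, z = ∑ i ∈ (Finset.univ.erase a).erase b, D (Hm i) := ⟨_, rfl⟩
  have hso : ∀ i : Fin m, IsSo (Hm i) := fun i => isSo_Rm _ _
  have key : ∀ s t : ℝ, (s = 1 ∨ s = -1) → (t = 1 ∨ t = -1) →
      κ * (((s : ℂ) • D (Hm a) + ((t : ℂ) • D (Hm b) + z)) *
        ((s : ℂ) • D (Hm a) + ((t : ℂ) • D (Hm b) + z))) ∈ H := by
    intro s t hs ht
    obtain ⟨J, hJ, e⟩ := (h1 m).2.2.2.2.1 (fun i => if i = a then s else if i = b then t else 1)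
      fun i => by split_ifs; exacts [hs, ht, Or.inl rfl]
    obtain ⟨k1, k2⟩ := hD.sum Finset.univ
      (fun i => ((if i = a then s else if i = b then t else 1 : ℝ) : ℂ) • Hm i)
      fun i => so_smul _ (hso i)
    have h2 := H.neg_mem (hH J hJ)
    rw [e, hD.smul _ k1, k2, smul_mul_smul_comm, Complex.I_mul_I, neg_one_smul, mul_neg, neg_neg,
      ← Finset.add_sum_erase _ _ (Finset.mem_univ a),
      ← Finset.add_sum_erase _ _ (Finset.mem_erase.2 ⟨hab.symm, Finset.mem_univ b⟩), if_pos rfl,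
      if_neg hab.symm, if_pos rfl, hD.smul _ (hso a), hD.smul _ (hso b),
      Finset.sum_congr rfl (g := fun i => D (Hm i)) fun i hi => by
        rw [if_neg (Finset.mem_erase.1 (Finset.mem_erase.1 hi).2).1,
          if_neg (Finset.mem_erase.1 hi).1, Complex.ofReal_one, one_smul], ← hz] at h2
    exact h2
  have hcm : Hm a * Hm b - Hm b * Hm a = 0 := by
    simp [Hm, Rm, mul_sub, sub_mul, Matrix.single_mul_single_of_ne, hab, hab.symm]
  have h3 := hD.br _ _ (hso b) (hso a) (hcm.symm ▸ so_zero)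
  rw [hcm, hD.zero, sub_eq_zero] at h3
  have h4 := H.smul_mem (1 / 8) (H.add_mem (H.sub_mem (H.sub_mem (key 1 1 (by simp) (by simp))
    (key (-1) 1 (by simp) (by simp))) (key 1 (-1) (by simp) (by simp)))
    (key (-1) (-1) (by simp) (by simp)))
  simp only [mul_add, add_mul, smul_mul_assoc, mul_smul_comm, h3, Complex.ofReal_one,
    Complex.ofReal_neg] at h4
  refine (congrArg (· ∈ H) ?_).mp h4
  module

theorem main (Adj : A → A → Prop) (S : A → Prop)
    (a1 : ∀ Y Z Y' Z', Adj Y Z → Adj Y' Z' → Adj (Y * Y') (Z' * Z))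
    (a2 : ∀ Y Z Y' Z', Adj Y Z → Adj Y' Z' → Adj (Y + Y') (Z + Z'))
    (a3 : ∀ (z : ℂ) Y Z, Adj Y Z → Adj (z • Y) (conj z • Z)) (a4 : Adj κ κ)
    (a5 : ∀ Y, Yᵀ = -Y → Adj (D (cx Y)) ((-1 : ℂ) • D (cx Y)))
    (s1 : ∀ J, IsCx J → S (κ * (D (cx J) * D (cx J)))) (s2 : ∀ Y Z, S Y → S Z → S (Y + Z))
    (s3 : ∀ (r : ℝ) Y, S Y → S ((r : ℂ) • Y)) (s4 : ∀ Y Z, S Y → S Z → S (Y * Z - Z * Y))
    (s5 : S 0) :
    ∃ H : Submodule ℂ A, (∀ Y ∈ H, ∀ Z ∈ H, Y * Z - Z * Y ∈ H) ∧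
      (∀ M, IsSo M → ∀ Y ∈ H, D M * Y - Y * D M ∈ H) ∧ (∀ Y ∈ H, ∃ Z ∈ H, Adj Y Z) ∧
      (∀ a b : Fin m, a ≠ b → κ * (D (Hm a) * D (Hm b)) ∈ H) ∧
      ∀ Y ∈ H, ∃ Y₁ Y₂, S Y₁ ∧ S Y₂ ∧ Y = Y₁ + Complex.I • Y₂ := by
  let T : Set A := {Y | ∃ J, IsCx J ∧ Y = κ * (D (cx J) * D (cx J))}
  have hT : ∀ J, IsCx J → κ * (D (cx J) * D (cx J)) ∈ HH T := fun J hJ => InH.gen ⟨J, hJ, rfl⟩
  refine ⟨HH T, fun Y hY Z hZ => InH.br hY hZ, fun M hM Y hY => ?_, fun Y hY => ?_,
    fun a b hab => hh_mem h1 hD _ hT hab, fun Y hY => ?_⟩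
  · induction hY with
    | gen h =>
      obtain ⟨J, hJ, rfl⟩ := h
      obtain ⟨Y, Z, hY, hZ, rfl⟩ := (h1 m).2.2.2.1 M hM
      have := (HH T).add_mem (ad_gen h1 hD _ hT hJ hY)
        ((HH T).smul_mem Complex.I (ad_gen h1 hD _ hT hJ hZ))
      rw [hD.add ((h1 m).1 Y hY).1 (so_smul _ ((h1 m).1 Z hZ).1),
        hD.smul _ ((h1 m).1 Z hZ).1, add_mul, mul_add, smul_mul_assoc, mul_smul_comm,
        add_sub_add_comm, ← smul_sub]
      exact this
    | zero => simp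
    | add _ _ i1 i2 =>
      rw [mul_add, add_mul, add_sub_add_comm]
      exact (HH T).add_mem i1 i2
    | smul z _ i1 =>
      rw [smul_mul_assoc, mul_smul_comm, ← smul_sub]
      exact (HH T).smul_mem z i1
    | br k1 k2 i1 i2 =>
      refine (congrArg (· ∈ HH T) ?_).mp ((HH T).add_mem (InH.br i1 k2) (InH.br k1 i2))
      noncomm_ring
  · induction hY with
    | gen h =>
      obtain ⟨J, hJ, rfl⟩ := h
      refine ⟨_, hT J hJ, ?_⟩
      have := a1 _ _ _ _ a4 (a1 _ _ _ _ (a5 J hJ.1) (a5 J hJ.1))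
      rwa [neg_one_smul, neg_mul_neg, ← mul_one (_ * _ * κ), mul_assoc, hD.comm (D _ * D _),
        mul_one] at this
    | zero => exact ⟨0, zero_mem _, by simpa using a3 0 _ _ a4⟩
    | add _ _ i1 i2 =>
      obtain ⟨Z, k1, k2⟩ := i1
      obtain ⟨Z', k1', k2'⟩ := i2
      exact ⟨_, (HH T).add_mem k1 k1', a2 _ _ _ _ k2 k2'⟩
    | smul z _ i1 =>
      obtain ⟨Z, k1, k2⟩ := i1
      exact ⟨_, (HH T).smul_mem _ k1, a3 z _ _ k2⟩
    | br _ _ i1 i2 =>
      obtain ⟨Z, k1, k2⟩ := i1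
      obtain ⟨Z', k1', k2'⟩ := i2
      refine ⟨_, InH.br k1' k1, ?_⟩
      simpa [sub_eq_add_neg] using
        a2 _ _ _ _ (a1 _ _ _ _ k2 k2') (a3 (-1) _ _ (a1 _ _ _ _ k2' k2))
  · have s6 : ∀ Y Z, S Y → S Z → S (Y - Z) := fun Y Z hY hZ => by
      simpa [sub_eq_add_neg] using s2 _ _ hY (s3 (-1) _ hZ)
    induction hY with
    | gen h =>
      obtain ⟨J, hJ, rfl⟩ := h
      exact ⟨_, 0, s1 J hJ, s5, by rw [smul_zero, add_zero]⟩
    | zero => exact ⟨0, 0, s5, s5, by simp⟩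
    | add _ _ i1 i2 =>
      obtain ⟨A, B, a, b, rfl⟩ := i1
      obtain ⟨A', B', a', b', rfl⟩ := i2
      exact ⟨A + A', B + B', s2 _ _ a a', s2 _ _ b b', by module⟩
    | smul z _ i1 =>
      obtain ⟨A, B, a, b, rfl⟩ := i1
      refine ⟨(z.re : ℂ) • A - (z.im : ℂ) • B, (z.re : ℂ) • B + (z.im : ℂ) • A,
        s6 _ _ (s3 _ _ a) (s3 _ _ b), s2 _ _ (s3 _ _ b) (s3 _ _ a), ?_⟩
      have e := Complex.re_add_im z
      match_scalars
      · linear_combination -e
      · linear_combination -Complex.I * e + z.im * Complex.I_mul_I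
    | br _ _ i1 i2 =>
      obtain ⟨A, B, a, b, rfl⟩ := i1
      obtain ⟨A', B', a', b', rfl⟩ := i2
      refine ⟨(A * A' - A' * A) - (B * B' - B' * B), (A * B' - B' * A) + (B * A' - A' * B),
        s6 _ _ (s4 _ _ a a') (s4 _ _ b b'), s2 _ _ (s4 _ _ a b') (s4 _ _ b a'), ?_⟩
      simp only [mul_add, add_mul, smul_mul_assoc, mul_smul_comm, smul_smul, Complex.I_mul_I,
        smul_add]
      module

end abs

/-- The diagonal action. -/
noncomputable def DD (lev : Λ → ℕ) (M : CM m) : ∀ l, Module.End ℂ (HV m (lev l)) :=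
  fun l => dV (lev l) M

/-- The scales. -/
noncomputable def cc (m : ℕ) (lev : Λ → ℕ) (c : Λ → ℝ) : ∀ l, Module.End ℂ (HV m (lev l)) :=
  fun l => (c l : ℂ) • 1

variable {lev : Λ → ℕ} {c : Λ → ℝ}

theorem cc_mul (Y : ∀ l, Module.End ℂ (HV m (lev l))) :
    cc m lev c * Y = fun l => (c l : ℂ) • Y l := by
  funext l; simp [cc]

theorem data (h1 : CxStmt) : Data (DD lev) (cc m lev c) := by
  refine ⟨?_, fun z M M' h h' => ?_, fun M M' h h' h'' => ?_, fun X Y => ?_⟩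
  · funext l; ext1 u; ext1
    rw [DD, dV_coe so_zero, DM_zero]; rfl
  · funext l; ext1 u; ext1
    change (dV _ _ u : Pol m) = z • (dV _ _ u : Pol m) + (dV _ _ u : Pol m)
    rw [dV_coe h, dV_coe h', dV_coe (so_add (so_smul z h) h'), (h1 m).2.2.2.2.2.2.1]
    rfl
  · funext l; ext1 u; ext1
    change (dV _ M (dV _ M' u) : Pol m) - (dV _ M' (dV _ M u) : Pol m) = (dV _ _ u : Pol m)
    rw [dV_coe h, dV_coe h', dV_coe h', dV_coe h, dV_coe h'', ← (h1 m).2.2.2.2.2.1]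
    rfl
  · funext l; ext1 u
    exact (X l).map_smul _ _

/-- Adjoint pairs. -/
def Adj (Y Z : ∀ l, Module.End ℂ (HV m (lev l))) : Prop :=
  ∀ (l : Λ) (u w : HV m (lev l)), fis (Y l u : Pol m) w = fis (u : Pol m) (Z l w : Pol m)

/-- Operators commuting with conjugation. -/
def Re (Y : ∀ l, Module.End ℂ (HV m (lev l))) : Prop :=
  ∀ (l : Λ) (u u' : HV m (lev l)), (u' : Pol m) = kap (u : Pol m) →
    (Y l u' : Pol m) = kap (Y l u : Pol m)

theorem Re.mul {Y Z : ∀ l, Module.End ℂ (HV m (lev l))} (h : Re Y) (h' : Re Z) : Re (Y * Z) :=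
  fun l u u' e => h l _ _ (h' l u u' e)

end Gen

open Gen in
theorem genStmt (h1 : CxStmt) (h2 : FisStmt) : GenStmt := by
  intro m Λ _ lev c S hS hbr
  obtain ⟨f1, f2, f3, -, f4, -⟩ := h2 m
  obtain ⟨k1, k2, -, -, -, -, -, -, k3, k4, -⟩ := h1 m
  have re_DD : ∀ Y : Mat (m + m), Yᵀ = -Y → Re (DD lev (cx Y)) := fun Y hY l u u' e => by
    rw [DD, dV_coe (k1 Y hY).1, dV_coe (k1 Y hY).1, e, k2]
  have re_cc : Re (cc m lev c) := fun l u u' e => by
    change (c l : ℂ) • (u' : Pol m) = kap ((c l : ℂ) • (u : Pol m))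
    rw [k4, Complex.conj_ofReal, e]
  obtain ⟨H, g1, g2, g3, g4, g5⟩ := main h1 (data (lev := lev) (c := c) h1) Adj
    (fun Y => Y ∈ S ∧ Re Y) (fun Y Z Y' Z' h h' l u w => (h l _ w).trans (h' l u _))
    (fun Y Z Y' Z' h h' l u w => by
      change fis ((Y l u : Pol m) + (Y' l u : Pol m)) w =
        fis (u : Pol m) ((Z l w : Pol m) + (Z' l w : Pol m))
      rw [f3, f1, f1, map_add, ← f3, ← f3, h, h'])
    (fun z Y Z h l u w => by
      change fis (z • (Y l u : Pol m)) w = fis (u : Pol m) (conj z • (Z l w : Pol m))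
      rw [f3, f2, f2, map_mul, ← f3, h])
    (fun l u w => by
      change fis ((c l : ℂ) • (u : Pol m)) w = fis (u : Pol m) ((c l : ℂ) • (w : Pol m))
      rw [f3, f2, f2, map_mul, ← f3, Complex.conj_ofReal])
    (fun Y hY l u w => by
      change fis (dV _ _ u : Pol m) w = fis (u : Pol m) ((-1 : ℂ) • (dV _ _ w : Pol m))
      rw [dV_coe (k1 Y hY).1, dV_coe (k1 Y hY).1, f4, (k1 Y hY).2, DM_neg, neg_one_smul])
    (fun J hJ => ⟨(congrArg (· ∈ S) (cc_mul _)).mpr (hS J hJ),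
      re_cc.mul ((re_DD J hJ.1).mul (re_DD J hJ.1))⟩)
    (fun Y Z h h' => ⟨add_mem h.1 h'.1, fun l u u' e => by
      change (Y l u' : Pol m) + (Z l u' : Pol m) = kap ((Y l u : Pol m) + (Z l u : Pol m))
      rw [map_add, h.2 l u u' e, h'.2 l u u' e]⟩)
    (fun r Y h => ⟨by
      have e : (r : ℂ) • Y = r • Y := IsScalarTower.algebraMap_smul ℂ r Y
      exact (congrArg (· ∈ S) e).mpr (S.smul_mem r h.1), fun l u u' e => by
      change (r : ℂ) • (Y l u' : Pol m) = kap ((r : ℂ) • (Y l u : Pol m))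
      rw [k4, Complex.conj_ofReal, h.2 l u u' e]⟩)
    (fun Y Z h h' => ⟨hbr _ h.1 _ h'.1, fun l u u' e => by
      change ((Y * Z) l u' : Pol m) - ((Z * Y) l u' : Pol m) =
        kap (((Y * Z) l u : Pol m) - ((Z * Y) l u : Pol m))
      rw [map_sub, (h.2.mul h'.2) l u u' e, (h'.2.mul h.2) l u u' e]⟩)
    ⟨zero_mem _, fun l u u' _ => (map_zero kap).symm⟩
  refine ⟨H, ⟨g1, g2, g3, fun a b hab => (congrArg (· ∈ H) (cc_mul _)).mp (g4 a b hab)⟩,
    fun Y hY => ?_⟩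
  obtain ⟨A, B, a, b, rfl⟩ := g5 Y hY
  refine ⟨A + A, add_mem a.1 a.1, fun l u u' e => ?_⟩
  change (A l u : Pol m) + (A l u : Pol m) = (A l u : Pol m) + Complex.I • (B l u : Pol m) +
    kap ((A l u' : Pol m) + Complex.I • (B l u' : Pol m))
  rw [map_add, k4, a.2 l u u' e, b.2 l u u' e, k3, k3, Complex.conj_I]
  module

end Vale.Agent.P225
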