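import Vale.Agent.P225.Iface

/-! Locality, smoothness and nonnegative Ricci curvature of the global metric. -/

namespace Vale.Agent.P225

open scoped ContDiff Topology Matrix
open Filter Set

namespace Geo

variable {n : ℕ}

theorem sg_nonneg (y : Pt n) : 0 ≤ sg y := by
  unfold sg dotProduct
  exact Finset.sum_nonneg fun i _ => mul_self_nonneg _

theorem sg_pos {y : Pt n} (hy : y ≠ 0) : 0 < sg y := by
  refine lt_of_le_of_ne (sg_nonneg y) fun h => hy ?_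
  exact dotProduct_self_eq_zero.mp h.symm

theorem sg_contDiff : ContDiff ℝ ∞ (sg : Pt n → ℝ) := by
  unfold sg dotProduct
  exact ContDiff.sum fun i _ => (contDiff_apply ℝ ℝ i).mul (contDiff_apply ℝ ℝ i)

theorem ls_contDiffAt {y : Pt n} (hy : y ≠ 0) : ContDiffAt ℝ ∞ (ls : Pt n → ℝ) y := by
  unfold ls
  exact (sg_contDiff.contDiffAt.log (sg_pos hy).ne').div_const 2

theorem exp_ls {y : Pt n} (hy : y ≠ 0) : Real.exp (2 * ls y) = sg y := by
  unfold ls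
  rw [show 2 * (Real.log (sg y) / 2) = Real.log (sg y) by ring, Real.exp_log (sg_pos hy)]

theorem cA_zero : cA 0 = 1 := by simp [cA]

theorem cB_zero (m : ℕ) : cB m 0 = 1 := by simp [cB]

theorem gm_indep {Φ x : ℝ → ℝ} (J J' : Mat n) {y : Pt n} (h : x (ls y) = 0) :
    gm Φ x J y = gm Φ x J' y := by
  unfold gm
  rw [h, cA_zero, cB_zero]
  simp

theorem loc1 {Φ x : ℝ → ℝ} {J : ℝ → Mat n} (hP : Prof Φ x J) (y : Pt n) (hy : sg y ≤ 1) :
    met Φ x J y = 1 := by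
  unfold met
  split_ifs with h0
  · rfl
  have hl : ls y ≤ 0 := by
    unfold ls
    have := Real.log_nonpos (sg_nonneg y) hy
    linarith
  unfold gm
  rw [hP.Φ0 _ hl, hP.x0 _ hl, cA_zero, cB_zero, exp_ls h0, div_self (sg_pos h0).ne']
  simp

theorem loc2 {Φ x : ℝ → ℝ} {J : ℝ → Mat n} (hP : Prof Φ x J) (y : Pt n) (hy : y ≠ 0) :
    ∃ J₀, IsCx J₀ ∧ (x (ls y) = 0 ∨ J (ls y) = J₀) ∧ met Φ x J =ᶠ[𝓝 y] gm Φ x J₀ := by
  obtain ⟨J₀, hJ, hev⟩ := hP.loc (ls y)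
  refine ⟨J₀, hJ, hev.self_of_nhds, ?_⟩
  have h1 := (ls_contDiffAt hy).continuousAt.tendsto.eventually hev
  have h2 : ∀ᶠ z in 𝓝 y, z ≠ 0 := eventually_ne_nhds hy
  filter_upwards [h1, h2] with z hz hz0
  unfold met
  rw [if_neg hz0]
  rcases hz with hz | hz
  · exact gm_indep _ _ hz
  · rw [hz]

theorem pd_congr {f f' : Pt n → ℝ} {y : Pt n} (h : f =ᶠ[𝓝 y] f') (i : Fin n) :
    pd i f y = pd i f' y := by
  unfold pd
  rw [h.fderiv_eq]

theorem chr_congr {g g' : Met n} {y : Pt n} (h : g =ᶠ[𝓝 y] g') (k i j : Fin n) :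
    chr g k i j y = chr g' k i j y := by
  have he : ∀ a b, (fun z => g z a b) =ᶠ[𝓝 y] fun z => g' z a b := fun a b => by
    filter_upwards [h] with z hz
    rw [hz]
  unfold chr
  rw [h.self_of_nhds]
  refine congrArg _ (Finset.sum_congr rfl fun l _ => ?_)
  rw [pd_congr (he j l), pd_congr (he i l), pd_congr (he i j)]

theorem loc3 (g g' : Met n) (y : Pt n) (h : g =ᶠ[𝓝 y] g') :
    (∀ k i j, chr g k i j =ᶠ[𝓝 y] chr g' k i j) ∧ ∀ i j, ric g i j y = ric g' i j y := by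
  have h1 : ∀ k i j, chr g k i j =ᶠ[𝓝 y] chr g' k i j := fun k i j => by
    filter_upwards [h.eventuallyEq_nhds] with z hz
    exact chr_congr hz k i j
  refine ⟨h1, fun i j => ?_⟩
  unfold ric
  refine Finset.sum_congr rfl fun k _ => ?_
  rw [pd_congr (h1 k i j), pd_congr (h1 k i k)]
  refine congrArg _ (Finset.sum_congr rfl fun l _ => ?_)
  rw [chr_congr h, chr_congr h, chr_congr h k j l, chr_congr h l i k]

theorem near_zero {Φ x : ℝ → ℝ} {J : ℝ → Mat n} (hP : Prof Φ x J) :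
    met Φ x J =ᶠ[𝓝 0] fun _ => (1 : Mat n) := by
  have h0 : sg (0 : Pt n) < 1 := by simp [sg]
  have h1 : ∀ᶠ z in 𝓝 (0 : Pt n), sg z < 1 :=
    sg_contDiff.continuous.continuousAt.eventually_lt continuousAt_const h0
  filter_upwards [h1] with z hz
  exact loc1 hP z hz.le

theorem mulVec_contDiff (J : Mat n) (i : Fin n) : ContDiff ℝ ∞ fun y : Pt n => (J *ᵥ y) i := by
  unfold Matrix.mulVec dotProduct
  exact ContDiff.sum fun k _ => contDiff_const.mul (contDiff_apply ℝ ℝ k)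

theorem gm_contDiffAt {Φ x : ℝ → ℝ} (hΦ : ContDiff ℝ ∞ Φ) (hx : ContDiff ℝ ∞ x) (J : Mat n)
    {y : Pt n} (hy : y ≠ 0) (i j : Fin n) : ContDiffAt ℝ ∞ (fun z => gm Φ x J z i j) y := by
  have hs : ContDiffAt ℝ ∞ (sg : Pt n → ℝ) y := sg_contDiff.contDiffAt
  have hs0 := (sg_pos hy).ne'
  have hl := ls_contDiffAt hy
  have h1 : ContDiffAt ℝ ∞ (fun z : Pt n => Φ (ls z)) y := hΦ.contDiffAt.comp y hl
  have h2 : ContDiffAt ℝ ∞ (fun z : Pt n => x (ls z)) y := hx.contDiffAt.comp y hl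
  have hA : ContDiffAt ℝ ∞ (fun z : Pt n => cA (x (ls z))) y := by
    unfold cA
    exact (contDiffAt_const.mul h2).exp
  have hB : ContDiffAt ℝ ∞ (fun z : Pt n => cB n (x (ls z))) y := by
    unfold cB
    exact (contDiffAt_const.mul h2).exp
  have he : (fun z => gm Φ x J z i j) = fun z : Pt n => (Real.exp (2 * Φ (ls z)) / sg z) *
      (cA (x (ls z)) * (1 : Mat n) i j + ((1 - cA (x (ls z))) / sg z) * (z i * z j) +
        ((cB n (x (ls z)) - cA (x (ls z))) / sg z) * ((J *ᵥ z) i * (J *ᵥ z) j)) := by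
    funext z
    simp only [gm, Matrix.smul_apply, Matrix.add_apply, Matrix.vecMulVec_apply, smul_eq_mul]
  rw [he]
  refine (((contDiffAt_const.mul h1).exp).div hs hs0).mul (((hA.mul contDiffAt_const).add
    (((contDiffAt_const.sub hA).div hs hs0).mul ?_)).add (((hB.sub hA).div hs hs0).mul ?_))
  · exact ((contDiff_apply ℝ ℝ i).mul (contDiff_apply ℝ ℝ j)).contDiffAt
  · exact ((mulVec_contDiff J i).mul (mulVec_contDiff J j)).contDiffAt

theorem chr_const (k i j : Fin n) : chr (fun _ : Pt n => (1 : Mat n)) k i j = fun _ => 0 := by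
  funext z
  simp [chr, pd]

theorem ric_const (i j : Fin n) (y : Pt n) : ric (fun _ : Pt n => (1 : Mat n)) i j y = 0 := by
  simp [ric, chr_const, pd]

theorem cx_orth {J : Mat n} (hJ : IsCx J) (y : Pt n) : y ⬝ᵥ (J *ᵥ y) = 0 := by
  have h1 : y ⬝ᵥ (J *ᵥ y) = (Jᵀ *ᵥ y) ⬝ᵥ y := by
    rw [Matrix.dotProduct_mulVec, Matrix.mulVec_transpose]
  rw [hJ.1, Matrix.neg_mulVec, neg_dotProduct, dotProduct_comm (J *ᵥ y) y] at h1
  linarith

theorem cx_norm {J : Mat n} (hJ : IsCx J) (y : Pt n) : (J *ᵥ y) ⬝ᵥ (J *ᵥ y) = sg y := by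
  have h1 : (J *ᵥ y) ⬝ᵥ (J *ᵥ y) = (Jᵀ *ᵥ (J *ᵥ y)) ⬝ᵥ y := by
    rw [Matrix.dotProduct_mulVec, Matrix.mulVec_transpose]
  rw [h1, Matrix.mulVec_mulVec, hJ.1, Matrix.neg_mul, hJ.2, neg_neg, Matrix.one_mulVec]
  rfl

theorem bessel (y w v : Pt n) (σ : ℝ) (hσ : 0 < σ) (hy : y ⬝ᵥ y = σ) (hw : w ⬝ᵥ w = σ)
    (hyw : y ⬝ᵥ w = 0) : 0 ≤ v ⬝ᵥ v - (y ⬝ᵥ v) ^ 2 / σ - (w ⬝ᵥ v) ^ 2 / σ := by
  have h := sg_nonneg (v - ((y ⬝ᵥ v) / σ) • y - ((w ⬝ᵥ v) / σ) • w)
  unfold sg at h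
  have hwy : w ⬝ᵥ y = 0 := by rw [dotProduct_comm, hyw]
  simp only [sub_dotProduct, dotProduct_sub, smul_dotProduct, dotProduct_smul, smul_eq_mul,
    hy, hw, hyw, hwy, dotProduct_comm v y, dotProduct_comm v w] at h
  refine h.trans_eq ?_
  field_simp
  ring

theorem quad (A B C σ : ℝ) (y w v : Pt n) :
    ∑ i, ∑ j, (A * ((1 : Mat n) i j - y i * y j / σ - w i * w j / σ) + B * (y i * y j / σ) +
      C * (w i * w j / σ)) / σ * v i * v j =
    (A * (v ⬝ᵥ v - (y ⬝ᵥ v) ^ 2 / σ - (w ⬝ᵥ v) ^ 2 / σ) + B * ((y ⬝ᵥ v) ^ 2 / σ) +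
      C * ((w ⬝ᵥ v) ^ 2 / σ)) / σ := by
  have h1 : v ⬝ᵥ v = ∑ i, ∑ j, (1 : Mat n) i j * v i * v j := by
    simp [dotProduct, Matrix.one_apply]
  have h2 : ∀ u : Pt n, (u ⬝ᵥ v) ^ 2 = ∑ i, ∑ j, u i * u j * v i * v j := fun u => by
    rw [sq, dotProduct, Finset.sum_mul_sum]
    exact Finset.sum_congr rfl fun i _ => Finset.sum_congr rfl fun j _ => by ring
  rw [h1, h2 y, h2 w]
  simp only [Finset.sum_div, Finset.mul_sum, ← Finset.sum_sub_distrib, ← Finset.sum_add_distrib]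
  exact Finset.sum_congr rfl fun i _ => Finset.sum_congr rfl fun j _ => by ring

end Geo

open Geo

theorem locStmt : LocStmt := fun _ _ _ _ hP => ⟨loc1 hP, loc2 hP, loc3⟩

theorem geoStmt (h1 : ChrStmt) (h2 : RicStmt) : GeoStmt := by
  intro n Φ x J hP
  refine ⟨⟨fun i j => contDiff_iff_contDiffAt.mpr fun y => ?_, fun y => ?_⟩, fun hpos y v => ?_⟩
  · by_cases hy : y = 0
    · subst hy
      refine (contDiffAt_const (c := (1 : Mat n) i j)).congr_of_eventuallyEq ?_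
      filter_upwards [near_zero hP] with z hz
      rw [hz]
    · obtain ⟨J₀, -, -, hev⟩ := loc2 hP y hy
      refine (gm_contDiffAt hP.sΦ hP.sx J₀ hy i j).congr_of_eventuallyEq ?_
      filter_upwards [hev] with z hz
      rw [hz]
  · unfold met
    split_ifs with hy
    · exact Matrix.PosDef.one
    · exact (h1 n Φ x _ hP.sΦ hP.sx (hP.cx _) y hy).1
  · by_cases hy : y = 0
    · subst hy
      simp only [(loc3 _ _ _ (near_zero hP)).2, ric_const]
      simp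
    · obtain ⟨J₀, hJ, -, hev⟩ := loc2 hP y hy
      simp only [(loc3 _ _ _ hev).2, h2 n Φ x J₀ hP.sΦ hP.sx hJ y hy, RicF]
      rw [quad]
      have hσ := sg_pos hy
      obtain ⟨ha, hb, hc⟩ := hpos (ls y)
      have hA : 0 < cA (x (ls y)) := Real.exp_pos _
      have hB : 0 < cB n (x (ls y)) := Real.exp_pos _
      have hbes := bessel y (J₀ *ᵥ y) v (sg y) hσ rfl (cx_norm hJ y) (cx_orth hJ y)
      positivity

end Vale.Agent.P225
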