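import Vale.Agent.P225.GlobA

namespace Vale.Agent.P225

open scoped ContDiff Topology
open Filter Set Glob

theorem Glob.Q_smooth {D : ℕ} (lam N : ℝ) {x : ℝ → ℝ} {ix : ℝ → ℕ} (K : ℕ → Op D)
    (hx : ContDiff ℝ ∞ x) (hl : ∀ s₁, ∃ i, ∀ᶠ s in 𝓝 s₁, x s = 0 ∨ ix s = i) :
    ContDiff ℝ ∞ fun s => Qf lam N (x s) (K (ix s)) := by
  rw [contDiff_iff_contDiffAt]
  intro s₁
  obtain ⟨i, hi⟩ := hl s₁
  refine (((Qf_smooth lam N (K i)).comp hx).contDiffAt (x := s₁)).congr_of_eventuallyEq ?_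
  filter_upwards [hi] with s hs
  rcases hs with hs | hs
  · simp only [Function.comp_apply, hs, Qf_zero]
  · simp only [Function.comp_apply, hs]

theorem Glob.Q_bound {D : ℕ} (lam N' a b : ℝ) (K : ℕ → Op D) (N : ℕ)
    (hK : ∀ i, K i = K (min i N)) :
    ∃ C, 0 ≤ C ∧ ∀ t ∈ Icc a b, ∀ i, ‖Qf lam N' t (K i)‖ ≤ C := by
  choose Cf hCf using fun i => (isCompact_Icc (a := a) (b := b)).exists_bound_of_continuousOn
    (Qf_smooth lam N' (K i)).continuous.continuousOn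
  refine ⟨∑ i ∈ Finset.range (N + 1), |Cf i|, Finset.sum_nonneg fun _ _ => abs_nonneg _,
    fun t ht i => ?_⟩
  rw [hK i]
  exact ((hCf _ t ht).trans (le_abs_self _)).trans
    (Finset.single_le_sum (f := fun i => |Cf i|) (fun _ _ => abs_nonneg _)
      (Finset.mem_range.2 (by omega)))

theorem globStmt (h1 : OdeStmt) (h2 : StartStmt) (h3 : ProfStmt) : GlobStmt := by
  intro Λ _ _ dim ι S π p q lev β N' ξ κ δ K j₀ βs θ hp hps hpN hp0 hβ hξ hκ hδ hπ hθ hpot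
    ⟨N, js, Y₀, C₁, ε₀, hY₀, hε₀, hstep⟩ ε hε s₀
  classical
  set lam : Λ → ℝ := fun l => lev l * (lev l + N') with hlam
  obtain ⟨R, hR, hRδ⟩ : ∃ R : ℝ, 0 ≤ R ∧ C₁ + 1 ≤ R * δ := by
    refine ⟨max 0 ((C₁ + 1) / δ), le_max_left _ _, ?_⟩
    rw [← div_le_iff₀ hδ]; exact le_max_right _ _
  obtain ⟨a₀, hstep⟩ := hstep R hR
  obtain ⟨K₀, h3⟩ := h3 N R ξ Y₀ ε hR hξ hY₀ hε
  choose a₁ hst using fun l => h2 p q (lam l) (β l) (lev l) hp (hβ l).1 (hβ l).2
    (Nat.cast_nonneg _) ε₀ hε₀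
  obtain ⟨M, hM⟩ : ∃ M : ℕ, a₀ ≤ M ∧ s₀ ≤ M ∧ ∀ l, a₁ l ≤ M := by
    obtain ⟨B, hB⟩ := (Set.finite_range a₁).bddAbove
    obtain ⟨M, hM⟩ := exists_nat_ge (max (max a₀ s₀) B)
    exact ⟨M, (le_max_of_le_left (le_max_left _ _)).trans hM,
      (le_max_of_le_left (le_max_right _ _)).trans hM,
      fun l => ((hB ⟨l, rfl⟩).trans (le_max_right _ _)).trans hM⟩
  set k₀ := max K₀ M with hk₀
  obtain ⟨X, ix, hXs, hX0, hXP, hXW, hXl, hXc, hXb⟩ := h3 k₀ (le_max_left _ _)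
  set R' : ℝ := N + R + 2 with hR'
  have hN0 : (0 : ℝ) ≤ N := Nat.cast_nonneg N
  have hR1 : 1 ≤ R' := by rw [hR']; linarith
  have hMk : ∀ j, (M : ℝ) ≤ (k₀ + j : ℕ) := fun j => by
    exact_mod_cast (le_max_right K₀ M).trans (Nat.le_add_right _ _)
  have ht0 : ∀ k, 0 ≤ tk R' k := fun k => (Nat.cast_nonneg k).trans (le_tk hR1 k)
  let js' : ℕ → ι := fun i => if i < N then js i else j₀
  let Q : (ℕ → ℕ → ℝ) → ∀ l, ℝ → Op (dim l) := fun y l s =>
    Qf (lam l) N' (X y s) (K (js' (ix s)) l)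
  have hQs : ∀ y l, ContDiff ℝ ∞ (Q y l) := fun y l =>
    Q_smooth (lam l) N' (fun i => K (js' i) l) (hXs y) (hXl y)
  choose U V hU0 hV0 hUV using fun y l (τ : Fin (dim l)) =>
    (h1 (dim l)).1 p (Q y l) hp.cont (hQs y l).continuous 0 (ee τ) ((lev l : ℝ) • ee τ)
  have huniq : ∀ y l τ (a b : ℝ) (u v : ℝ → Vc (dim l)), Sol p (Q y l) u v (Icc a b) →
      (0 : ℝ) ∈ Icc a b → u 0 = ee τ → v 0 = (lev l : ℝ) • ee τ →
      ∀ s ∈ Icc a b, U y l τ s = u s ∧ V y l τ s = v s := by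
    intro y l τ a b u v hs h0 hu hv
    exact (h1 (dim l)).2.1 p (Q y l) a b _ _ u v hp.cont.continuousOn
      (hQs y l).continuous.continuousOn (Sol.mono (hUV y l τ) (subset_univ _)) hs 0 h0
      (by rw [hU0, hu]) (by rw [hV0, hv])
  have hQ0 : ∀ y l, ∀ s ≤ tk R' k₀, Q y l s = lam l • (1 : Op (dim l)) := by
    intro y l s hs
    simp only [Q, hX0 y s hs, Qf_zero]
  have hπS : ∀ l, ∀ τ ∈ S l, π l τ ∈ S l := by
    intro l τ hτ
    by_contra h
    have := (π l).injective (hπ l _ h)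
    exact h (this.symm ▸ hτ)
  have hπS' : ∀ l (j : ℕ), ∀ τ, τ ∈ S l ↔ (π l ^ j) τ ∈ S l := by
    intro l j τ
    induction j with
    | zero => simp
    | succ j ih =>
      rw [pow_succ', Equiv.Perm.mul_apply, ih]
      refine ⟨hπS l _, fun h => ?_⟩
      by_contra h'
      rw [hπ l _ h'] at h
      exact h' h
  -- the invariant
  let Yt := {η : ℕ → ℝ // ∀ i, |η i| ≤ Y₀}
  let P : ℕ → (ℕ → Yt) → Prop := fun j y => ∀ l, ∀ τ ∈ S l,
    (∃ z : ℂ, z ≠ 0 ∧ U (fun k => (y k).1) l τ (tk R' (k₀ + j)) = z • ee ((π l ^ j) τ) ∧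
      ‖V (fun k => (y k).1) l τ (tk R' (k₀ + j)) -
        β l • U (fun k => (y k).1) l τ (tk R' (k₀ + j))‖ ≤ ε₀ * ‖z‖) ∧
    ∀ i, i + 1 = j → ‖U (fun k => (y k).1) l τ (tk R' (k₀ + (i + 1)))‖ ≤
      ‖U (fun k => (y k).1) l τ (tk R' (k₀ + i))‖ *
        Real.exp (Tk (k₀ + i) * (C₁ + R * βs l ((π l ^ (i + 1)) τ)))
  obtain ⟨y, hy⟩ : ∃ y, ∀ j, P j y := by
    refine causal (Y := Yt) ⟨fun _ => 0, fun _ => by simpa using hY₀⟩ k₀ P ?_ ?_
    · intro y l τ _
      refine ⟨?_, fun i hi => absurd hi (by omega)⟩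
      obtain ⟨φ, ψ, e1, e2, e3, e4, e5⟩ := hst l (tk R' k₀)
        (((hM.2.2 l).trans (hMk 0)).trans (le_tk hR1 _))
      have hs := huniq (fun k => (y k).1) l τ 0 (tk R' k₀) _ _
        (Sol.congr (sol_smul (ee τ) e3) fun s hs => hQ0 _ l s hs.2) ⟨le_rfl, ht0 _⟩
        (by simp [e1]) (by simp [e2]) (tk R' k₀) ⟨ht0 _, le_rfl⟩
      refine ⟨(φ (tk R' k₀) : ℂ), by exact_mod_cast (by linarith : φ (tk R' k₀) ≠ 0), ?_, ?_⟩
      · rw [add_zero, hs.1]; ext i; simp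
      · rw [add_zero, hs.1, hs.2, smul_smul, ← sub_smul, norm_smul, norm_ee, mul_one,
          Complex.norm_real, Real.norm_eq_abs, Real.norm_eq_abs,
          abs_of_nonneg (by linarith : 0 ≤ φ (tk R' k₀))]
        exact e5
    · intro j y hP
      choose! z hz using fun l τ hτ => (hP l τ hτ).1
      obtain ⟨η, hη, hst'⟩ := hstep (tk R' (k₀ + j)) ((hM.1.trans (hMk j)).trans (le_tk hR1 _))
        (Tk (k₀ + j)) ((hM.1.trans (hMk j)).trans (le_Tk _))
        (fun l τ => U (fun k => (y k).1) l ((π l ^ j).symm τ) (tk R' (k₀ + j)))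
        (fun l τ => V (fun k => (y k).1) l ((π l ^ j).symm τ) (tk R' (k₀ + j)))
        (fun l τ => z l ((π l ^ j).symm τ)) (fun l τ hτ => by
          have := hz l ((π l ^ j).symm τ) ((hπS' l j _).2 (by simpa using hτ))
          simpa using this)
      refine ⟨⟨η, hη⟩, fun y' hy' hy'' l τ hτ => ?_⟩
      have hc := huniq (fun k => (y' k).1) l τ 0 (tk R' (k₀ + j)) _ _
        (Sol.congr (Sol.mono (hUV (fun k => (y k).1) l τ) (subset_univ _)) fun s hs => by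
          simp only [Q]
          rw [hXc (fun k => (y' k).1) (fun k => (y k).1) (k₀ + j)
            (fun i hi => by rw [hy' i hi]) s hs.2]) ⟨le_rfl, ht0 _⟩
        (hU0 _ _ _) (hV0 _ _ _) (tk R' (k₀ + j)) ⟨ht0 _, le_rfl⟩
      obtain ⟨z', e1, e2, e3, e4⟩ := hst' l ((π l ^ j) τ) ((hπS' l j τ).1 hτ)
        (Q (fun k => (y' k).1) l) (U (fun k => (y' k).1) l τ) (V (fun k => (y' k).1) l τ)
        (fun i hi s hs => by
          obtain ⟨a1, a2⟩ := hXP (fun k => (y' k).1) (k₀ + j) (Nat.le_add_right _ _) i hi s hs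
          simp only [hy''] at a1
          simp only [Q]
          rw [← a1]
          rcases a2 with a2 | a2
          · rw [a2, Qf_zero, Qf_zero]
          · simp only [a2, js', if_pos hi])
        (fun s hs => by
          obtain ⟨a1, a2⟩ := hXW (fun k => (y' k).1) (k₀ + j) (Nat.le_add_right _ _) s hs
          simp only [Q]
          rw [← a1]
          rcases a2 with a2 | a2
          · rw [a2, Qf_zero, Qf_zero]
          · simp only [a2, js', lt_self_iff_false, if_false])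
        (Sol.mono (hUV _ l τ) (subset_univ _)) (by simp [hc.1]) (by simp [hc.2])
      have ht : tk R' (k₀ + (j + 1)) = tk R' (k₀ + j) + (N + R + 2) * Tk (k₀ + j) :=
        tk_succ R' (k₀ + j)
      have hpw : (π l ^ (j + 1)) τ = π l ((π l ^ j) τ) := by rw [pow_succ', Equiv.Perm.mul_apply]
      refine ⟨⟨z', e1, by rw [ht, e2, hpw], by rw [ht]; exact e3⟩, fun i hi => ?_⟩
      obtain rfl : i = j := by omega
      rw [ht, e2, hc.1, (hz l τ hτ).2.1, norm_smul, norm_smul, norm_ee, norm_ee, mul_one, mul_one,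
        hpw]
      simpa using e4
  set yy : ℕ → ℕ → ℝ := fun k => (y k).1 with hyy
  have hb := hXb yy fun k i => (y k).2 i
  refine ⟨X yy, fun s => js' (ix s), hXs yy,
    fun s hs => hX0 yy s (hs.trans ((hM.2.1.trans (hMk 0)).trans (le_tk hR1 _))), fun s₁ => ?_,
    hb, fun l τ hτ => ⟨U yy l τ, V yy l τ,
      (h1 (dim l)).2.2.2.2 p (Q yy l) _ _ hps (hQs yy l) (hUV yy l τ), hUV yy l τ, ?_, ?_⟩⟩
  · obtain ⟨i, hi⟩ := hXl yy s₁
    refine ⟨js' i, hi.mono fun s hs => hs.imp id fun h => congrArg js' h⟩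
  · intro s hs
    have hsol : Sol p (fun _ => lam l • (1 : Op (dim l)))
        (fun t => Real.exp (lev l * t) • ee τ) (fun t => (lev l * Real.exp (lev l * t)) • ee τ)
        (Icc s 0) := by
      refine sol_smul (ee τ) fun t ht => ?_
      have hd : HasDerivAt (fun t : ℝ => Real.exp (lev l * t)) (lev l * Real.exp (lev l * t)) t := by
        have := ((hasDerivAt_id t).const_mul (lev l : ℝ)).exp
        simpa [mul_comm] using this
      refine ⟨hd, ?_⟩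
      have e1 : lam l * Real.exp (lev l * t) - p t * (lev l * Real.exp (lev l * t)) =
          lev l * (lev l * Real.exp (lev l * t)) := by
        rw [hp0 t ht.2]; simp only [hlam]; ring
      rw [e1]
      exact hd.const_mul (lev l : ℝ)
    exact (huniq yy l τ s 0 _ _ (Sol.congr hsol fun t ht => hQ0 _ l t (ht.2.trans (ht0 _)))
      ⟨hs, le_rfl⟩ (by simp) (by simp) s ⟨le_rfl, hs⟩).1
  · obtain ⟨C, hC0, hC⟩ := Q_bound (lam l) N' (-ξ) ε (fun i => K (js' i) l) N (fun i => by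
      by_cases h : i < N
      · rw [min_eq_left h.le]
      · simp only [js', if_neg h, min_eq_right (not_lt.1 h), lt_self_iff_false, if_false])
    have hq := hp.pos
    have hN' : 0 ≤ N' := (hq.le.trans (hp.le 0)).trans (hpN 0)
    have hcr : ∀ a, ∀ s ≥ a, ‖U yy l τ s‖ ≤
        Real.exp ((2 * (C + N') + 1) * (s - a)) * (‖U yy l τ a‖ + ‖V yy l τ a‖) := by
      intro a s hs
      refine (h1 (dim l)).2.2.2.1 p (Q yy l) a s (C + N') _ _ (by linarith) (fun t _ => ⟨?_, ?_⟩)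
        (Sol.mono (hUV yy l τ) (subset_univ _)) s ⟨hs, le_rfl⟩
      · rw [abs_of_nonneg (hq.le.trans (hp.le t))]; linarith [hpN t]
      · exact (hC _ ⟨(hb t).1, (hb t).2.1⟩ _).trans (by linarith)
    obtain ⟨Θ, hΘ⟩ := (Set.finite_range (θ l)).bddAbove
    have hβ0 := (hβ l).1
    refine fin_growth (f := fun s => ‖U yy l τ s‖) (g := fun s => ‖V yy l τ s‖)
      (θ := fun j => θ l ((π l ^ j) τ)) (b := fun j => βs l ((π l ^ j) τ)) (C₁ := C₁) (δ := δ)
      (k₀ := k₀) (Θ := Θ) (B := β l + ε₀) hR hR1 (fun _ => norm_nonneg _) (fun _ => norm_nonneg _)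
      (add_nonneg (mul_nonneg zero_le_two (add_nonneg hC0 hN')) zero_le_one)
      (add_pos hβ0 hε₀).le hκ hcr (fun _ => ⟨hθ _ _, hΘ ⟨_, rfl⟩⟩) (fun j => ?_)
      (fun j => (hy (j + 1) l τ hτ).2 j rfl) (fun j => ?_) ?_
    · simp only [pow_succ', Equiv.Perm.mul_apply]
      exact hpot l _ ((hπS' l j τ).1 hτ)
    · obtain ⟨z, -, z2, z3⟩ := (hy j l τ hτ).1
      have hz : ‖U yy l τ (tk R' (k₀ + j))‖ = ‖z‖ := by rw [z2, norm_smul, norm_ee, mul_one]
      have := norm_sub_norm_le (V yy l τ (tk R' (k₀ + j))) (β l • U yy l τ (tk R' (k₀ + j)))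
      rw [norm_smul, Real.norm_eq_abs, abs_of_pos hβ0] at this
      rw [← hz] at z3
      show ‖V yy l τ (tk R' (k₀ + j))‖ ≤ (β l + ε₀) * ‖U yy l τ (tk R' (k₀ + j))‖
      linarith
    · have : 0 ≤ κ * (N + 2) := by positivity
      rw [hR']; linarith

end Vale.Agent.P225
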