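import Vale.Agent.P225.Iface

namespace Vale.Agent.P225.Glob

open scoped ContDiff Topology
open Filter Set

theorem causal {Y : Type} (y₀ : Y) (k₀ : ℕ) (P : ℕ → (ℕ → Y) → Prop) (h0 : ∀ y, P 0 y)
    (hs : ∀ j y, P j y → ∃ η, ∀ y', (∀ i < k₀ + j, y' i = y i) → y' (k₀ + j) = η →
      P (j + 1) y') : ∃ y, ∀ j, P j y := by
  classical
  have : Nonempty Y := ⟨y₀⟩
  choose! η hη using hs
  let seq : ℕ → ℕ → Y := fun j => Nat.rec (fun _ => y₀)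
    (fun j s => Function.update s (k₀ + j) (η j s)) j
  have hseq : ∀ j, seq (j + 1) = Function.update (seq j) (k₀ + j) (η j (seq j)) := fun _ => rfl
  have hP : ∀ j, P j (seq j) := by
    intro j
    induction j with
    | zero => exact h0 _
    | succ j ih =>
      refine hη j _ ih _ (fun i hi => ?_) ?_
      · rw [hseq, Function.update_of_ne hi.ne]
      · rw [hseq, Function.update_self]
  have hst : ∀ j i, i < k₀ + j → ∀ j', j ≤ j' → seq j' i = seq j i := by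
    intro j i hi j' hj
    induction j', hj using Nat.le_induction with
    | base => rfl
    | succ j' hj ih => rw [hseq, Function.update_of_ne (by omega), ih]
  have hag : ∀ j i, i < k₀ + j → seq (i + 1) i = seq j i := by
    intro j i hi
    rw [← hst (i + 1) i (by omega) (max j (i + 1)) (le_max_right _ _),
      hst j i hi _ (le_max_left _ _)]
  refine ⟨fun i => seq (i + 1) i, fun j => ?_⟩
  rcases j with _ | j
  · exact h0 _
  · refine hη j _ (hP j) _ (fun i hi => hag j i hi) ?_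
    show seq (k₀ + j + 1) (k₀ + j) = _
    rw [hag (j + 1) _ (by omega), hseq, Function.update_self]

theorem Qf_zero {D : ℕ} (lam N : ℝ) (K : Op D) : Qf lam N 0 K = lam • (1 : Op D) := by
  ext; simp [Qf, aa, bb]

theorem Qf_smooth {D : ℕ} (lam N : ℝ) (K : Op D) : ContDiff ℝ ∞ fun t => Qf lam N t K := by
  unfold Qf aa bb
  fun_prop

theorem norm_ee {D : ℕ} (i : Fin D) : ‖ee i‖ = 1 := by
  simp [ee, Pi.norm_single]

theorem le_tk {R' : ℝ} (hR : 1 ≤ R') (k : ℕ) : (k : ℝ) ≤ tk R' k := by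
  have h1 : (k : ℝ) ≤ (k : ℝ) ^ 5 := by
    exact_mod_cast Nat.le_self_pow (by norm_num) k
  have h2 : (0 : ℝ) ≤ (k : ℝ) ^ 5 := by positivity
  unfold tk; nlinarith

theorem Tk_eq (k : ℕ) : Tk k = 5 * (k : ℝ) ^ 4 + 10 * k ^ 3 + 10 * k ^ 2 + 5 * k + 1 := by
  unfold Tk; ring

theorem le_Tk (k : ℕ) : (k : ℝ) ≤ Tk k := by
  rw [Tk_eq]
  have : (0 : ℝ) ≤ k := Nat.cast_nonneg k
  nlinarith [pow_nonneg this 4, pow_nonneg this 3, pow_nonneg this 2]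

theorem Tk_pos (k : ℕ) : 0 < Tk k := by rw [Tk_eq]; positivity

theorem Tk_mono (k : ℕ) : Tk k ≤ Tk (k + 1) := by
  rw [Tk_eq, Tk_eq]; push_cast
  have : (0 : ℝ) ≤ k := Nat.cast_nonneg k
  gcongr <;> linarith

theorem tk_succ (R' : ℝ) (k : ℕ) : tk R' (k + 1) = tk R' k + R' * Tk k := by
  unfold tk Tk; push_cast; ring

theorem Tk_small {C : ℝ} (hC : 0 ≤ C) : ∃ C', ∀ k : ℕ, C * Tk k ≤ (k : ℝ) ^ 5 + C' := by
  refine ⟨(31 * C) ^ 5 + C, fun k => ?_⟩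
  rcases Nat.eq_zero_or_pos k with rfl | hk
  · simp [Tk]; positivity
  have h1 : (1 : ℝ) ≤ k := by exact_mod_cast hk
  have h2 : Tk k ≤ 31 * (k : ℝ) ^ 4 := by
    rw [Tk_eq]
    have a1 : (k : ℝ) ^ 3 ≤ k ^ 4 := pow_le_pow_right₀ h1 (by norm_num)
    have a2 : (k : ℝ) ^ 2 ≤ k ^ 4 := pow_le_pow_right₀ h1 (by norm_num)
    have a3 : (k : ℝ) ≤ k ^ 4 := le_self_pow₀ h1 (by norm_num)
    have a4 : (1 : ℝ) ≤ k ^ 4 := one_le_pow₀ h1
    linarith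
  have h3 : C * Tk k ≤ 31 * C * (k : ℝ) ^ 4 := by nlinarith
  have h5 : (0 : ℝ) ≤ (31 * C) ^ 5 := by positivity
  have h6 : (0 : ℝ) ≤ (k : ℝ) ^ 5 := by positivity
  rcases le_total (31 * C) k with h | h
  · have : 31 * C * (k : ℝ) ^ 4 ≤ k * (k : ℝ) ^ 4 := by gcongr
    nlinarith
  · have : 31 * C * (k : ℝ) ^ 4 ≤ 31 * C * (31 * C) ^ 4 := by gcongr
    nlinarith

theorem exists_window {R' : ℝ} (hR : 1 ≤ R') (k₀ : ℕ) {s : ℝ} (hs : tk R' k₀ ≤ s) :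
    ∃ j, tk R' (k₀ + j) ≤ s ∧ s ≤ tk R' (k₀ + j + 1) := by
  classical
  have hex : ∃ j, s < tk R' (k₀ + j) := by
    obtain ⟨j, hj⟩ := exists_nat_gt s
    refine ⟨j, hj.trans_le (le_trans ?_ (le_tk hR _))⟩
    exact_mod_cast Nat.le_add_left j k₀
  have h1 := Nat.find_spec hex
  rcases h : Nat.find hex with _ | j
  · rw [h] at h1; exact absurd hs (not_le.2 h1)
  · rw [h] at h1
    exact ⟨j, not_lt.1 (Nat.find_min hex (by omega)), h1.le⟩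

theorem Sol.mono {D : ℕ} {p : ℝ → ℝ} {Q : ℝ → Op D} {u v : ℝ → Vc D} {S S' : Set ℝ}
    (h : Sol p Q u v S) (hS : S' ⊆ S) : Sol p Q u v S' := fun s hs => h s (hS hs)

theorem Sol.congr {D : ℕ} {p : ℝ → ℝ} {Q Q' : ℝ → Op D} {u v : ℝ → Vc D} {S : Set ℝ}
    (h : Sol p Q u v S) (hQ : ∀ s ∈ S, Q' s = Q s) : Sol p Q' u v S := fun s hs => by
  rw [hQ s hs]; exact h s hs

theorem sol_smul {D : ℕ} {p φ ψ : ℝ → ℝ} {lam : ℝ} {S : Set ℝ} (e : Vc D)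
    (h : ∀ s ∈ S, HasDerivAt φ (ψ s) s ∧ HasDerivAt ψ (lam * φ s - p s * ψ s) s) :
    Sol p (fun _ => lam • (1 : Op D)) (fun s => φ s • e) (fun s => ψ s • e) S := by
  intro s hs
  refine ⟨(h s hs).1.smul_const e, ?_⟩
  have e1 : (lam • (1 : Op D)) (φ s • e) - p s • ψ s • e = (lam * φ s - p s * ψ s) • e := by
    rw [sub_smul, mul_smul, mul_smul]; rfl
  rw [e1]
  exact (h s hs).2.smul_const e

/-- growth from the step inequality -/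
theorem growth {L θ b : ℕ → ℝ} {C₁ R κ δ : ℝ} {k₀ : ℕ} (hR : 0 ≤ R) (hθ : ∀ j, 0 ≤ θ j)
    (hL : ∀ j, 0 ≤ L j) (hb : ∀ j, b (j + 1) + δ ≤ κ + θ (j + 1) - θ j)
    (hs : ∀ j, L (j + 1) ≤ L j * Real.exp (Tk (k₀ + j) * (C₁ + R * b (j + 1)))) (j : ℕ) :
    L j ≤ L 0 * Real.exp ((C₁ + R * (κ - δ)) * (((k₀ + j : ℕ) : ℝ) ^ 5 - (k₀ : ℝ) ^ 5) +
      R * Tk (k₀ + j) * θ j) := by
  induction j with
  | zero =>
    refine le_mul_of_one_le_right (hL 0) (Real.one_le_exp ?_)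
    have := Tk_pos (k₀ + 0)
    have := hθ 0
    simp only [add_zero, sub_self, mul_zero, zero_add]
    positivity
  | succ j ih =>
    refine (hs j).trans ((mul_le_mul_of_nonneg_right ih (Real.exp_pos _).le).trans ?_)
    rw [mul_assoc, ← Real.exp_add]
    refine mul_le_mul_of_nonneg_left (Real.exp_le_exp.2 ?_) (hL 0)
    have h1 : (((k₀ + (j + 1) : ℕ) : ℝ)) ^ 5 = ((k₀ + j : ℕ) : ℝ) ^ 5 + Tk (k₀ + j) := by
      unfold Tk; push_cast; ring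
    have h2 : R * Tk (k₀ + j) * θ (j + 1) ≤ R * Tk (k₀ + (j + 1)) * θ (j + 1) :=
      mul_le_mul_of_nonneg_right (mul_le_mul_of_nonneg_left (Tk_mono (k₀ + j)) hR) (hθ _)
    have h3 : R * Tk (k₀ + j) * (b (j + 1) + δ) ≤ R * Tk (k₀ + j) * (κ + θ (j + 1) - θ j) :=
      mul_le_mul_of_nonneg_left (hb j) (mul_nonneg hR (Tk_pos _).le)
    rw [h1]
    nlinarith

theorem fin_growth {f g : ℝ → ℝ} {θ b : ℕ → ℝ} {C₁ R κ δ C₂ Θ B R' : ℝ} {k₀ : ℕ} (hR : 0 ≤ R)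
    (hR1 : 1 ≤ R') (hf : ∀ s, 0 ≤ f s) (hg : ∀ s, 0 ≤ g s) (hC₂ : 0 ≤ C₂) (hB : 0 ≤ B)
    (hκ : 0 < κ) (hcr : ∀ a, ∀ s ≥ a, f s ≤ Real.exp (C₂ * (s - a)) * (f a + g a))
    (hθ : ∀ j, 0 ≤ θ j ∧ θ j ≤ Θ) (hb : ∀ j, b (j + 1) + δ ≤ κ + θ (j + 1) - θ j)
    (hs : ∀ j, f (tk R' (k₀ + (j + 1))) ≤
      f (tk R' (k₀ + j)) * Real.exp (Tk (k₀ + j) * (C₁ + R * b (j + 1))))
    (hV : ∀ j, g (tk R' (k₀ + j)) ≤ B * f (tk R' (k₀ + j)))
    (hom : C₁ + R * (κ - δ) + 1 ≤ κ * R') : ∃ C, ∀ s ≥ 0, f s ≤ C * Real.exp (κ * s) := by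
  have hΘ0 : 0 ≤ Θ := (hθ 0).1.trans (hθ 0).2
  obtain ⟨C', hC'⟩ := Tk_small (C := R * Θ + C₂ * R') (by positivity)
  have hg' := growth (L := fun j => f (tk R' (k₀ + j))) hR (fun j => (hθ j).1) (fun _ => hf _) hb hs
  set om : ℝ := C₁ + R * (κ - δ)
  have hf0 := hf 0
  have hg0 := hg 0
  have hf1 := hf (tk R' (k₀ + 0))
  set A₁ : ℝ := Real.exp (C₂ * tk R' k₀) * (f 0 + g 0) with hA₁
  set A₂ : ℝ := (1 + B) * f (tk R' (k₀ + 0)) * Real.exp (C' - om * (k₀ : ℝ) ^ 5) with hA₂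
  have hA₁0 : 0 ≤ A₁ := by positivity
  have hA₂0 : 0 ≤ A₂ := by positivity
  refine ⟨A₁ + A₂, fun s hs => ?_⟩
  have he1 : 1 ≤ Real.exp (κ * s) := Real.one_le_exp (by positivity)
  rcases le_total s (tk R' k₀) with h | h
  · have : f s ≤ A₁ := by
      refine (hcr 0 s hs).trans ?_
      rw [hA₁]; gcongr; linarith
    nlinarith
  · obtain ⟨j, w1, w2⟩ := exists_window hR1 k₀ h
    rw [tk_succ] at w2
    have hV' : f (tk R' (k₀ + j)) + g (tk R' (k₀ + j)) ≤ (1 + B) * f (tk R' (k₀ + j)) := by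
      linarith [hV j]
    have hT := Tk_pos (k₀ + j)
    have hexp : C₂ * (s - tk R' (k₀ + j)) + (om * (((k₀ + j : ℕ) : ℝ) ^ 5 - (k₀ : ℝ) ^ 5) +
        R * Tk (k₀ + j) * θ j) ≤ (C' - om * (k₀ : ℝ) ^ 5) + κ * s := by
      have a1 : C₂ * (s - tk R' (k₀ + j)) ≤ C₂ * (R' * Tk (k₀ + j)) := by gcongr; linarith
      have a2 : R * Tk (k₀ + j) * θ j ≤ R * Tk (k₀ + j) * Θ := by
        gcongr; exact (hθ j).2
      have a3 := hC' (k₀ + j)
      have a4 : κ * (R' * ((k₀ + j : ℕ) : ℝ) ^ 5) ≤ κ * s := by gcongr; exact w1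
      have a5 : (om + 1) * ((k₀ + j : ℕ) : ℝ) ^ 5 ≤ κ * R' * ((k₀ + j : ℕ) : ℝ) ^ 5 := by
        gcongr
      linarith
    have : f s ≤ A₂ * Real.exp (κ * s) := by
      refine (hcr _ s w1).trans ((mul_le_mul_of_nonneg_left (hV'.trans
        (mul_le_mul_of_nonneg_left (hg' j) (by positivity))) (Real.exp_pos _).le).trans ?_)
      have := Real.exp_le_exp.2 hexp
      rw [Real.exp_add, Real.exp_add (C' - _)] at this
      calc _ = (1 + B) * f (tk R' (k₀ + 0)) * (Real.exp (C₂ * (s - tk R' (k₀ + j))) *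
            Real.exp (om * (((k₀ + j : ℕ) : ℝ) ^ 5 - (k₀ : ℝ) ^ 5) +
              R * Tk (k₀ + j) * θ j)) := by ring
        _ ≤ (1 + B) * f (tk R' (k₀ + 0)) *
            (Real.exp (C' - om * (k₀ : ℝ) ^ 5) * Real.exp (κ * s)) := by gcongr
        _ = _ := by rw [hA₂]; ring
    nlinarith

end Vale.Agent.P225.Glob
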