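import Vale.Agent.P225.Defs

/-! Interfaces (geometry and dynamics) for the counterexample. See `skel/P225/BLUEPRINT.md`. -/

namespace Vale.Agent.P225

open scoped ContDiff Topology Matrix
open Filter Set

/-! ### Geometry -/

abbrev Mat (n : ℕ) := Matrix (Fin n) (Fin n) ℝ

/-- orthogonal complex structure -/
def IsCx {n : ℕ} (J : Mat n) : Prop := Jᵀ = -J ∧ J * J = -1

noncomputable def sg {n : ℕ} (y : Pt n) : ℝ := y ⬝ᵥ y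

/-- `s = log |y|` -/
noncomputable def ls {n : ℕ} (y : Pt n) : ℝ := Real.log (sg y) / 2

noncomputable def cA (t : ℝ) : ℝ := Real.exp (2 * t)

noncomputable def cB (n : ℕ) (t : ℝ) : ℝ := Real.exp (-2 * ((n : ℝ) - 2) * t)

/-- the Berger type metric for a fixed complex structure -/
noncomputable def gm {n : ℕ} (Φ x : ℝ → ℝ) (J : Mat n) (y : Pt n) : Mat n :=
  (Real.exp (2 * Φ (ls y)) / sg y) • (cA (x (ls y)) • (1 : Mat n) +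
    ((1 - cA (x (ls y))) / sg y) • Matrix.vecMulVec y y +
    ((cB n (x (ls y)) - cA (x (ls y))) / sg y) • Matrix.vecMulVec (J *ᵥ y) (J *ᵥ y))

/-- its inverse -/
noncomputable def ginv {n : ℕ} (Φ x : ℝ → ℝ) (J : Mat n) (y : Pt n) : Mat n :=
  (sg y / Real.exp (2 * Φ (ls y))) • ((cA (x (ls y)))⁻¹ • (1 : Mat n) +
    ((1 - (cA (x (ls y)))⁻¹) / sg y) • Matrix.vecMulVec y y +
    (((cB n (x (ls y)))⁻¹ - (cA (x (ls y)))⁻¹) / sg y) • Matrix.vecMulVec (J *ᵥ y) (J *ᵥ y))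

noncomputable def c1 (Φ x : ℝ → ℝ) (s : ℝ) : ℝ := deriv Φ s + deriv x s - 1
noncomputable def c2 (n : ℕ) (x : ℝ → ℝ) (s : ℝ) : ℝ := cB n (x s) / cA (x s) - 1
noncomputable def c3 (Φ x : ℝ → ℝ) (s : ℝ) : ℝ := 1 - cA (x s) * (deriv Φ s + deriv x s)
noncomputable def c4 (Φ x : ℝ → ℝ) (s : ℝ) : ℝ :=
  cA (x s) * (deriv Φ s + deriv x s) - deriv Φ s - 2 * deriv x s
noncomputable def c5 (n : ℕ) (Φ x : ℝ → ℝ) (s : ℝ) : ℝ :=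
  cA (x s) * (deriv Φ s + deriv x s) - cB n (x s) * (deriv Φ s - ((n : ℝ) - 2) * deriv x s) +
    2 * (cB n (x s) / cA (x s) - 1)
noncomputable def c6 (n : ℕ) (x : ℝ → ℝ) (s : ℝ) : ℝ :=
  1 - cB n (x s) / cA (x s) - ((n : ℝ) - 1) * deriv x s

/-- the Christoffel symbols of `gm` -/
noncomputable def Gam {n : ℕ} (Φ x : ℝ → ℝ) (J : Mat n) (k i j : Fin n) (y : Pt n) : ℝ :=
  c1 Φ x (ls y) / sg y * (y i * (1 : Mat n) k j + y j * (1 : Mat n) k i) +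
  c2 n x (ls y) / sg y * ((J *ᵥ y) j * J k i + (J *ᵥ y) i * J k j) +
  (c3 Φ x (ls y) / sg y * (1 : Mat n) i j + c4 Φ x (ls y) / sg y ^ 2 * (y i * y j) +
    c5 n Φ x (ls y) / sg y ^ 2 * ((J *ᵥ y) i * (J *ᵥ y) j)) * y k +
  c6 n x (ls y) / sg y ^ 2 * (y i * (J *ᵥ y) j + y j * (J *ᵥ y) i) * (J *ᵥ y) k

noncomputable def rad (n : ℕ) (Φ x : ℝ → ℝ) (s : ℝ) : ℝ :=
  -((n : ℝ) - 1) * (deriv (deriv Φ) s + ((n : ℝ) - 2) * deriv x s ^ 2)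
noncomputable def ver (n : ℕ) (Φ x : ℝ → ℝ) (s : ℝ) : ℝ :=
  -deriv (deriv Φ) s + ((n : ℝ) - 2) * (deriv (deriv x) s -
    deriv Φ s * (deriv Φ s - ((n : ℝ) - 2) * deriv x s) + Real.exp (-2 * (n : ℝ) * x s))
noncomputable def hor (n : ℕ) (Φ x : ℝ → ℝ) (s : ℝ) : ℝ :=
  -deriv (deriv Φ) s - deriv (deriv x) s - ((n : ℝ) - 2) * (deriv Φ s * (deriv Φ s + deriv x s)) +
    (n : ℝ) * Real.exp (-2 * x s) - 2 * Real.exp (-2 * (n : ℝ) * x s)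

/-- the Ricci tensor of `gm` -/
noncomputable def RicF {n : ℕ} (Φ x : ℝ → ℝ) (J : Mat n) (i j : Fin n) (y : Pt n) : ℝ :=
  (hor n Φ x (ls y) * cA (x (ls y)) *
      ((1 : Mat n) i j - y i * y j / sg y - (J *ᵥ y) i * (J *ᵥ y) j / sg y) +
    rad n Φ x (ls y) * (y i * y j / sg y) +
    ver n Φ x (ls y) * cB n (x (ls y)) * ((J *ᵥ y) i * (J *ᵥ y) j / sg y)) / sg y

/-- the global metric -/
noncomputable def met {n : ℕ} (Φ x : ℝ → ℝ) (J : ℝ → Mat n) : Met n :=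
  fun y => if y = 0 then 1 else gm Φ x (J (ls y)) y

structure Prof {n : ℕ} (Φ x : ℝ → ℝ) (J : ℝ → Mat n) : Prop where
  sΦ : ContDiff ℝ ∞ Φ
  sx : ContDiff ℝ ∞ x
  Φ0 : ∀ s ≤ 0, Φ s = s
  x0 : ∀ s ≤ 0, x s = 0
  cx : ∀ s, IsCx (J s)
  loc : ∀ s₀, ∃ J₀, IsCx J₀ ∧ ∀ᶠ s in 𝓝 s₀, x s = 0 ∨ J s = J₀

def ChrStmt : Prop :=
  ∀ (n : ℕ) (Φ x : ℝ → ℝ) (J : Mat n), ContDiff ℝ ∞ Φ → ContDiff ℝ ∞ x → IsCx J →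
    ∀ y : Pt n, y ≠ 0 → (gm Φ x J y).PosDef ∧ (gm Φ x J y)⁻¹ = ginv Φ x J y ∧
      ∀ k i j, chr (gm Φ x J) k i j y = Gam Φ x J k i j y

def RicStmt : Prop :=
  ∀ (n : ℕ) (Φ x : ℝ → ℝ) (J : Mat n), ContDiff ℝ ∞ Φ → ContDiff ℝ ∞ x → IsCx J →
    ∀ y : Pt n, y ≠ 0 → ∀ i j, ric (gm Φ x J) i j y = RicF Φ x J i j y

/-- locality of the global metric -/
def LocStmt : Prop :=
  ∀ (n : ℕ) (Φ x : ℝ → ℝ) (J : ℝ → Mat n), Prof Φ x J →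
    (∀ y : Pt n, sg y ≤ 1 → met Φ x J y = 1) ∧
    (∀ y : Pt n, y ≠ 0 → ∃ J₀, IsCx J₀ ∧ (x (ls y) = 0 ∨ J (ls y) = J₀) ∧
      met Φ x J =ᶠ[𝓝 y] gm Φ x J₀) ∧
    (∀ (g g' : Met n) (y : Pt n), g =ᶠ[𝓝 y] g' →
      (∀ k i j, chr g k i j =ᶠ[𝓝 y] chr g' k i j) ∧ ∀ i j, ric g i j y = ric g' i j y)

def GeoStmt : Prop :=
  ∀ (n : ℕ) (Φ x : ℝ → ℝ) (J : ℝ → Mat n), Prof Φ x J →
    IsMetric (met Φ x J) ∧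
    ((∀ s, 0 ≤ rad n Φ x s ∧ 0 ≤ ver n Φ x s ∧ 0 ≤ hor n Φ x s) → RicNonneg (met Φ x J))

def DistStmt : Prop :=
  ∀ (n : ℕ) (Φ x : ℝ → ℝ) (J : ℝ → Mat n) (r : ℝ), Prof Φ x J → IsMetric (met Φ x J) →
    0 < r → r ≤ 1 → (∀ s ≥ 0, r * s ≤ Φ s) →
    Complete (met Φ x J) ∧ ∀ y, (1 + sg y) ^ (r / 2) ≤ 1 + rdist (met Φ x J) 0 y

/-! ### Second order linear ODE -/

abbrev Vc (D : ℕ) := Fin D → ℂ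
abbrev Op (D : ℕ) := Vc D →L[ℂ] Vc D

/-- basis vector -/
def ee {D : ℕ} (i : Fin D) : Vc D := Pi.single i 1

noncomputable def aa (t : ℝ) : ℝ := Real.exp (-2 * t)
noncomputable def bb (N t : ℝ) : ℝ := Real.exp (-2 * t) - Real.exp (2 * N * t)

noncomputable def Qf {D : ℕ} (lam N t : ℝ) (K : Op D) : Op D :=
  (lam * aa t) • (1 : Op D) + bb N t • K

/-- `u'' + p u' = Q u`, `v = u'`, at the points of `S` -/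
def Sol {D : ℕ} (p : ℝ → ℝ) (Q : ℝ → Op D) (u v : ℝ → Vc D) (S : Set ℝ) : Prop :=
  ∀ s ∈ S, HasDerivAt u (v s) s ∧ HasDerivAt v (Q s (u s) - p s • v s) s

/-- separation of variables -/
def LapStmt : Prop :=
  ∀ (n : ℕ) (Φ x : ℝ → ℝ) (J : ℝ → Mat n), Prof Φ x J →
    ∀ (D l : ℕ) (w : Fin D → Pt n → ℂ) (d : Mat n → Op D),
    (∀ i, ContDiff ℝ ∞ (w i)) →
    (∀ i y, fderiv ℝ (w i) y y = (l : ℂ) * w i y) →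
    (∀ i y, ∑ a, fderiv ℝ (fun z => fderiv ℝ (w i) z (Pi.single a 1)) y (Pi.single a 1) = 0) →
    (∀ J₀, IsCx J₀ → ∀ i y, fderiv ℝ (w i) y (J₀ *ᵥ y) = ∑ k, d J₀ (ee i) k * w k y) →
    ∀ (u v : ℝ → Vc D) (i₀ : Fin D), ContDiff ℝ ∞ u →
    Sol (fun s => ((n : ℝ) - 2) * deriv Φ s)
      (fun s => Qf (l * (l + ((n : ℝ) - 2))) ((n : ℝ) - 2) (x s) (d (J s) * d (J s))) u v univ →
    (∀ s ≤ 0, u s = Real.exp (l * s) • ee i₀) →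
    ∀ z : ℂ,
      ContDiff ℝ ∞ (fun y : Pt n =>
        (z * ∑ i, u (ls y) i * (Real.exp (-(l * ls y)) : ℝ) * w i y).re) ∧
      ∀ y₀, lap (met Φ x J) (fun y : Pt n =>
        (z * ∑ i, u (ls y) i * (Real.exp (-(l * ls y)) : ℝ) * w i y).re) y₀ = 0

/-- the radial function `Φ` and the Ricci inequalities -/
def RhoStmt : Prop :=
  ∀ (n : ℕ) (r ξ : ℝ), 3 ≤ n → 0 < r → r < 1 → 0 < ξ →
    ((n : ℝ) - 2) * r ^ 2 < n * Real.exp (2 * ξ) - 2 * Real.exp (2 * n * ξ) →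
    ∃ Φ : ℝ → ℝ, ContDiff ℝ ∞ Φ ∧ (∀ s ≤ 0, Φ s = s) ∧ (∀ s ≤ 0, deriv Φ s = 1) ∧
      (∀ s, r ≤ deriv Φ s ∧ deriv Φ s ≤ 1) ∧ Tendsto (deriv Φ) atTop (𝓝 r) ∧
      (∀ s ≥ 0, r * s ≤ Φ s) ∧
      ∃ ε > 0, ∃ s₀ : ℝ, ∀ x : ℝ → ℝ, ContDiff ℝ ∞ x → (∀ s ≤ s₀, x s = 0) →
        (∀ s, -ξ ≤ x s ∧ x s ≤ ε ∧ deriv x s ^ 2 * √(1 + s) ^ 3 ≤ ε ∧
          |deriv (deriv x) s| ≤ ε) →
        ∀ s, 0 ≤ rad n Φ x s ∧ 0 ≤ ver n Φ x s ∧ 0 ≤ hor n Φ x s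

def OdeStmt : Prop :=
  ∀ D : ℕ,
    (∀ (p : ℝ → ℝ) (Q : ℝ → Op D), Continuous p → Continuous Q → ∀ (a : ℝ) (u₀ v₀ : Vc D),
      ∃ u v, u a = u₀ ∧ v a = v₀ ∧ Sol p Q u v univ) ∧
    (∀ (p : ℝ → ℝ) (Q : ℝ → Op D) (a b : ℝ) (u v u' v' : ℝ → Vc D), ContinuousOn p (Icc a b) →
      ContinuousOn Q (Icc a b) → Sol p Q u v (Icc a b) → Sol p Q u' v' (Icc a b) →
      ∀ t ∈ Icc a b, u t = u' t → v t = v' t → ∀ s ∈ Icc a b, u s = u' s ∧ v s = v' s) ∧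
    (∀ (P : Type) [TopologicalSpace P] [CompactSpace P] (p : ℝ → ℝ) (Q : P → ℝ → Op D)
      (u₀ v₀ : Vc D) (a b : ℝ), a ≤ b → Continuous p →
      Continuous (fun q : P × ℝ => Q q.1 q.2) →
      ∃ u v : P → ℝ → Vc D, Continuous (fun c => u c b) ∧ Continuous (fun c => v c b) ∧
        ∀ c, u c a = u₀ ∧ v c a = v₀ ∧ Sol p (Q c) (u c) (v c) (Icc a b)) ∧
    (∀ (p : ℝ → ℝ) (Q : ℝ → Op D) (a b C : ℝ) (u v : ℝ → Vc D), 0 ≤ C →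
      (∀ s ∈ Icc a b, |p s| ≤ C ∧ ‖Q s‖ ≤ C) → Sol p Q u v (Icc a b) →
      ∀ s ∈ Icc a b, ‖u s‖ ≤ Real.exp ((2 * C + 1) * (s - a)) * (‖u a‖ + ‖v a‖)) ∧
    (∀ (p : ℝ → ℝ) (Q : ℝ → Op D) (u v : ℝ → Vc D), ContDiff ℝ ∞ p → ContDiff ℝ ∞ Q →
      Sol p Q u v univ → ContDiff ℝ ∞ u)

/-- damping coefficient -/
structure Damp (p : ℝ → ℝ) (q : ℝ) : Prop where
  cont : Continuous p
  pos : 0 < q
  le : ∀ s, q ≤ p s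
  lim : Tendsto p atTop (𝓝 q)

def DecayStmt : Prop :=
  ∀ (E : Type) [NormedAddCommGroup E] [NormedSpace ℝ E] (W h : ℝ → E) (P : ℝ → ℝ)
    (a b γ H ν : ℝ), 0 < γ → 0 ≤ H → 0 ≤ ν → ContinuousOn P (Icc a b) →
    (∀ s ∈ Icc a b, γ ≤ P s ∧ ‖h s‖ ≤ H * Real.exp (ν * (s - a)) ∧
      HasDerivAt W (h s - P s • W s) s) →
    ∀ s ∈ Icc a b,
      ‖W s‖ ≤ Real.exp (-(γ * (s - a))) * ‖W a‖ + H * Real.exp (ν * (s - a)) / γ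

/-- scalar equation: existence and positivity -/
def PosStmt : Prop :=
  (∀ (p q : ℝ → ℝ) (a b u₀ v₀ : ℝ), Continuous p → Continuous q →
    ∃ u v : ℝ → ℝ, u a = u₀ ∧ v a = v₀ ∧
      ∀ s ∈ Icc a b, HasDerivAt u (v s) s ∧ HasDerivAt v (q s * u s - p s * v s) s) ∧
  ∀ (p q u v : ℝ → ℝ) (a b : ℝ), ContinuousOn p (Icc a b) →
    (∀ s ∈ Icc a b, 0 ≤ q s ∧ HasDerivAt u (v s) s ∧ HasDerivAt v (q s * u s - p s * v s) s) →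
    0 < u a → 0 ≤ v a →
    (∀ s ∈ Icc a b, u a ≤ u s ∧ 0 ≤ v s) ∧
    ∀ Y : ℝ, 0 ≤ Y → (∀ s ∈ Icc a b, q s ≤ Y * (Y + p s)) → v a ≤ Y * u a →
      ∀ s ∈ Icc a b, v s ≤ Y * u s ∧ u s ≤ u a * Real.exp (Y * (s - a))

/-- smooth bump: zero for `t ≤ 1/4` and `t ≥ R + 7/4`, one on `[1/2, R + 3/2]` -/
noncomputable def bump (R t : ℝ) : ℝ :=
  Real.smoothTransition (4 * t - 1) * Real.smoothTransition (4 * (R + 2 - t) - 1)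

/-- pulse shape, supported in `[1/4, 3/4]` -/
noncomputable def psi (t : ℝ) : ℝ := bump (-1) t

noncomputable def Ipsi : ℝ := ∫ t in (0 : ℝ)..1, psi t

def StartStmt : Prop :=
  ∀ (p : ℝ → ℝ) (q lam β l : ℝ), Damp p q → 0 < β → β ^ 2 + q * β = lam → 0 ≤ l →
    ∀ ε > 0, ∃ a₀ : ℝ, ∀ a ≥ a₀, ∃ u v : ℝ → ℝ, u 0 = 1 ∧ v 0 = l ∧
      (∀ s ∈ Icc 0 a, HasDerivAt u (v s) s ∧ HasDerivAt v (lam * u s - p s * v s) s) ∧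
      1 ≤ u a ∧ |v a - β * u a| ≤ ε * u a

def WaitStmt : Prop :=
  ∀ (p : ℝ → ℝ) (q lam β N ν ξ βs : ℝ), Damp p q → 0 < β → β ^ 2 + q * β = lam → 0 ≤ N →
    0 ≤ ν → ν ≤ lam → 0 ≤ ξ → 0 ≤ βs → lam * aa (-ξ) - ν * bb N (-ξ) ≤ βs ^ 2 + q * βs →
    ∃ Y ≥ 0, ∀ R ≥ 0, ∀ ε > 0, ∃ a₀ : ℝ, ∀ a ≥ a₀, ∀ T ≥ a₀, ∃ φ b : ℝ,
      1 ≤ φ ∧ φ ≤ Real.exp (T * (Y + R * βs)) ∧ |b| ≤ Y ∧
      ∀ u v : ℝ → ℂ, (∀ s ∈ Icc a (a + (R + 2) * T), HasDerivAt u (v s) s ∧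
        HasDerivAt v (((lam * aa (-ξ * bump R ((s - a) / T)) -
          ν * bb N (-ξ * bump R ((s - a) / T)) : ℝ) : ℂ) * u s - (p s : ℂ) * v s) s) →
        u (a + (R + 2) * T) = φ * (u a + b * (v a - β * u a)) ∧
        ‖v (a + (R + 2) * T) - β * u (a + (R + 2) * T)‖ ≤
          ε * (‖u (a + (R + 2) * T)‖ + ‖v a - β * u a‖)

def PulseStmt : Prop :=
  ∀ (D : ℕ) (K : Op D) (p : ℝ → ℝ) (q lam β N Y₀ : ℝ), Damp p q → 0 < β →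
    β ^ 2 + q * β = lam → 0 ≤ N →
    ∃ C ≥ 0, ∃ Y ≥ 0, ∀ ε > 0, ∃ a₀ : ℝ, ∀ a ≥ a₀, ∀ T ≥ a₀, ∀ y : ℝ, |y| ≤ Y₀ →
      ∃ Γ > 0, Γ ≤ Real.exp (T * Y) ∧ ∀ u v : ℝ → Vc D,
        Sol p (fun s => Qf lam N (y / T * psi ((s - a) / T)) K) u v (Icc a (a + T)) →
        ‖u (a + T) - Γ • NormedSpace.exp ((-2 * (N + 1) * Ipsi * y) • ((2 * β + q)⁻¹ • K)) (u a)‖
          ≤ Γ * (ε * ‖u a‖ + C * ‖v a - β • u a‖) ∧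
        ‖v (a + T) - β • u (a + T)‖ ≤ Γ * (ε * ‖u a‖ + C * ‖v a - β • u a‖)

/-- `F (N-1) * ⋯ * F 0` -/
def prodUp {A : Type} [Monoid A] (F : ℕ → A) : ℕ → A
  | 0 => 1
  | i + 1 => F i * prodUp F i

/-- `Q` is the coefficient of `N` pulses of length `T` starting at `a` -/
def WinP {D : ℕ} (lam N' : ℝ) (K : ℕ → Op D) (N : ℕ) (a T : ℝ) (y : ℕ → ℝ) (Q : ℝ → Op D) :
    Prop :=
  ∀ i < N, ∀ s ∈ Icc (a + i * T) (a + (i + 1) * T),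
    Q s = Qf lam N' (y i / T * psi ((s - (a + i * T)) / T)) (K i)

/-- `Q` is the coefficient of the waiting phase starting at `a` -/
def WinW {D : ℕ} (lam N' ξ R : ℝ) (K₀ : Op D) (a T : ℝ) (Q : ℝ → Op D) : Prop :=
  ∀ s ∈ Icc a (a + (R + 2) * T), Q s = Qf lam N' (-ξ * bump R ((s - a) / T)) K₀

def MultiStmt : Prop :=
  ∀ (D : ℕ) (K : ℕ → Op D) (p : ℝ → ℝ) (q lam β N' Y₀ : ℝ), Damp p q → 0 < β →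
    β ^ 2 + q * β = lam → 0 ≤ N' → ∀ N : ℕ,
    ∃ C ≥ 0, ∃ Y ≥ 0, ∀ ε > 0, ∃ a₀ : ℝ, ∀ a ≥ a₀, ∀ T ≥ a₀, ∀ y : ℕ → ℝ, (∀ i, |y i| ≤ Y₀) →
      ∃ Γ > 0, Γ ≤ Real.exp (T * Y) ∧ ∀ (Q : ℝ → Op D) (u v : ℝ → Vc D),
        WinP lam N' K N a T y Q → Sol p Q u v (Icc a (a + N * T)) →
        ‖u (a + N * T) - Γ • prodUp (fun i => NormedSpace.exp
            ((-2 * (N' + 1) * Ipsi * y i) • ((2 * β + q)⁻¹ • K i))) N (u a)‖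
          ≤ Γ * (ε * ‖u a‖ + C * ‖v a - β • u a‖) ∧
        ‖v (a + N * T) - β • u (a + N * T)‖ ≤ Γ * (ε * ‖u a‖ + C * ‖v a - β • u a‖)

/-! ### Control -/

def CtrlStmt : Prop :=
  ∀ (A : Type) [NormedRing A] [NormedAlgebra ℝ A] [CompleteSpace A]
    (X : Type) [TopologicalSpace X] [CompactSpace X] (ι : Type) [Nonempty ι] (T : ι → A),
    ‖(1 : A)‖ ≤ 1 → ∃ (S : Submodule ℝ A) (G : Submonoid (X → A)), (∀ j, T j ∈ S) ∧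
      (∀ Y ∈ S, ∀ Z ∈ S, Y * Z - Z * Y ∈ S) ∧
      (∀ (κ : Type) (F : Finset κ) (f : κ → C(X, ℝ)) (Y : κ → A), (∀ k ∈ F, Y k ∈ S) →
        (fun c => NormedSpace.exp (∑ k ∈ F, f k c • Y k)) ∈ G) ∧
      ∀ g ∈ G, ∀ ε > 0, ∃ (N : ℕ) (js : ℕ → ι) (φ : ℕ → C(X, ℝ)), ∀ c,
        ‖g c - prodUp (fun i => NormedSpace.exp (φ i c • T (js i))) N‖ ≤ ε

section
variable {Λ : Type} [Fintype Λ] [DecidableEq Λ] (dim : Λ → ℕ) {ι : Type}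

/-- the Lie algebra generated by the `T j` contains the elementary moves -/
def Ctl (pos : ∀ l, Fin (dim l) → Prop) (T : ι → ∀ l, Op (dim l)) : Prop :=
  ∀ S : Submodule ℝ (∀ l, Op (dim l)), (∀ j, T j ∈ S) →
    (∀ Y ∈ S, ∀ Z ∈ S, Y * Z - Z * Y ∈ S) →
    ∀ (l : Λ) (τ ν : Fin (dim l)) (z : ℂ), pos l τ → ν ≠ τ →
      ∃ Y ∈ S, (∀ l', l' ≠ l → Y l' = 0) ∧
        ∀ τ', pos l τ' → Y l (ee τ') = if τ' = τ then z • ee ν else 0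

abbrev Par := ∀ l, Fin (dim l) → Vc (dim l)

def Steer (S : ∀ l, Finset (Fin (dim l))) (π : ∀ l, Equiv.Perm (Fin (dim l)))
    (T : ι → ∀ l, Op (dim l)) : Prop :=
  ∃ r : ℝ, 0 < r ∧ r ≤ 1 ∧ ∃ (N : ℕ) (js : ℕ → ι)
    (φ : ℕ → C(Metric.closedBall (0 : Par dim) r, ℝ)) (z : ∀ l, Fin (dim l) → ℂ),
    (∀ l τ, ‖z l τ‖ = 1) ∧ ∀ c l, ∀ τ ∈ S l,
      ‖prodUp (fun i => NormedSpace.exp (φ i c • T (js i) l)) N (ee τ) -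
        z l τ • (ee (π l τ) + Function.update (c.1 l τ) (π l τ) 0)‖ ≤ r / 10

/-- one window: pulses, then waiting, permutes the basis vectors exactly -/
def Step (S : ∀ l, Finset (Fin (dim l))) (π : ∀ l, Equiv.Perm (Fin (dim l)))
    (p : ℝ → ℝ) (lam β : Λ → ℝ) (N' ξ : ℝ) (K : ι → ∀ l, Op (dim l)) (j₀ : ι)
    (βs : ∀ l, Fin (dim l) → ℝ) : Prop :=
  ∃ (N : ℕ) (js : ℕ → ι) (Y₀ C₁ ε₀ : ℝ), 0 ≤ Y₀ ∧ 0 < ε₀ ∧ ∀ R ≥ 0, ∃ a₀ : ℝ, ∀ a ≥ a₀, ∀ T ≥ a₀,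
    ∀ (u₀ v₀ : ∀ l, Fin (dim l) → Vc (dim l)) (z₀ : ∀ l, Fin (dim l) → ℂ),
      (∀ l, ∀ τ ∈ S l, z₀ l τ ≠ 0 ∧ u₀ l τ = z₀ l τ • ee τ ∧
        ‖v₀ l τ - β l • u₀ l τ‖ ≤ ε₀ * ‖z₀ l τ‖) →
      ∃ y : ℕ → ℝ, (∀ i, |y i| ≤ Y₀) ∧ ∀ l, ∀ τ ∈ S l,
        ∀ (Q : ℝ → Op (dim l)) (u v : ℝ → Vc (dim l)),
          WinP (lam l) N' (fun i => K (js i) l) N a T y Q →
          WinW (lam l) N' ξ R (K j₀ l) (a + N * T) T Q →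
          Sol p Q u v (Icc a (a + (N + R + 2) * T)) → u a = u₀ l τ → v a = v₀ l τ →
          ∃ z : ℂ, z ≠ 0 ∧ u (a + (N + R + 2) * T) = z • ee (π l τ) ∧
            ‖v (a + (N + R + 2) * T) - β l • u (a + (N + R + 2) * T)‖ ≤ ε₀ * ‖z‖ ∧
            ‖z‖ ≤ ‖z₀ l τ‖ * Real.exp (T * (C₁ + R * βs l (π l τ)))

/-- the output of the dynamical construction -/
def DynOut (S : ∀ l, Finset (Fin (dim l))) (p : ℝ → ℝ) (lev : Λ → ℕ) (N' ξ κ : ℝ)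
    (K : ι → ∀ l, Op (dim l)) : Prop :=
  ∀ ε > 0, ∀ s₀ : ℝ, ∃ (x : ℝ → ℝ) (J : ℝ → ι), ContDiff ℝ ∞ x ∧ (∀ s ≤ s₀, x s = 0) ∧
    (∀ s₁, ∃ j, ∀ᶠ s in 𝓝 s₁, x s = 0 ∨ J s = j) ∧
    (∀ s, -ξ ≤ x s ∧ x s ≤ ε ∧ deriv x s ^ 2 * √(1 + s) ^ 3 ≤ ε ∧ |deriv (deriv x) s| ≤ ε) ∧
    ∀ l, ∀ τ ∈ S l, ∃ u v : ℝ → Vc (dim l), ContDiff ℝ ∞ u ∧
      Sol p (fun s => Qf (lev l * (lev l + N')) N' (x s) (K (J s) l)) u v univ ∧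
      (∀ s ≤ 0, u s = Real.exp (lev l * s) • ee τ) ∧
      ∃ C : ℝ, ∀ s ≥ 0, ‖u s‖ ≤ C * Real.exp (κ * s)

end

def SteerStmt : Prop :=
  ∀ (Λ : Type) [Fintype Λ] [DecidableEq Λ] (dim : Λ → ℕ) (ι : Type) [Nonempty ι]
    (pos : ∀ l, Fin (dim l) → Prop) (T : ι → ∀ l, Op (dim l))
    (S : ∀ l, Finset (Fin (dim l))) (π : ∀ l, Equiv.Perm (Fin (dim l))),
    Ctl dim pos T → (∀ l, ∀ τ ∈ S l, pos l τ) → (∀ l τ, τ ∉ S l → π l τ = τ) →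
    Steer dim S π T

def StepStmt : Prop :=
  ∀ (Λ : Type) [Fintype Λ] [DecidableEq Λ] (dim : Λ → ℕ) (ι : Type)
    (S : ∀ l, Finset (Fin (dim l))) (π : ∀ l, Equiv.Perm (Fin (dim l)))
    (p : ℝ → ℝ) (q : ℝ) (lam β : Λ → ℝ) (N' ξ : ℝ) (K : ι → ∀ l, Op (dim l)) (j₀ : ι)
    (ν βs : ∀ l, Fin (dim l) → ℝ), Damp p q → (∀ l, 0 < β l ∧ β l ^ 2 + q * β l = lam l) →
    0 ≤ N' → 0 ≤ ξ →
    (∀ l i, K j₀ l (ee i) = -(ν l i) • ee i ∧ 0 ≤ ν l i ∧ ν l i ≤ lam l ∧ 0 ≤ βs l i ∧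
      lam l * aa (-ξ) - ν l i * bb N' (-ξ) ≤ βs l i ^ 2 + q * βs l i) →
    Steer dim S π (fun j l => (2 * β l + q)⁻¹ • K j l) →
    Step dim S π p lam β N' ξ K j₀ βs

/-- start of the `k`-th window and its time unit -/
noncomputable def tk (R' : ℝ) (k : ℕ) : ℝ := R' * (k : ℝ) ^ 5
noncomputable def Tk (k : ℕ) : ℝ := ((k : ℝ) + 1) ^ 5 - (k : ℝ) ^ 5

def ProfStmt : Prop :=
  ∀ (N : ℕ) (R ξ Y₀ ε : ℝ), 0 ≤ R → 0 < ξ → 0 ≤ Y₀ → 0 < ε → ∃ K₀ : ℕ, ∀ k₀ ≥ K₀,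
    ∃ (X : (ℕ → ℕ → ℝ) → ℝ → ℝ) (ix : ℝ → ℕ),
      (∀ y, ContDiff ℝ ∞ (X y)) ∧
      (∀ y, ∀ s ≤ tk (N + R + 2) k₀, X y s = 0) ∧
      (∀ y, ∀ k ≥ k₀, ∀ i < N,
        ∀ s ∈ Icc (tk (N + R + 2) k + i * Tk k) (tk (N + R + 2) k + (i + 1) * Tk k),
          X y s = y k i / Tk k * psi ((s - (tk (N + R + 2) k + i * Tk k)) / Tk k) ∧
          (X y s = 0 ∨ ix s = i)) ∧
      (∀ y, ∀ k ≥ k₀,
        ∀ s ∈ Icc (tk (N + R + 2) k + N * Tk k) (tk (N + R + 2) k + N * Tk k + (R + 2) * Tk k),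
          X y s = -ξ * bump R ((s - (tk (N + R + 2) k + N * Tk k)) / Tk k) ∧
          (X y s = 0 ∨ ix s = N)) ∧
      (∀ y s₁, ∃ i, ∀ᶠ s in 𝓝 s₁, X y s = 0 ∨ ix s = i) ∧
      (∀ y y' k, (∀ j < k, y j = y' j) → ∀ s ≤ tk (N + R + 2) k, X y s = X y' s) ∧
      ∀ y, (∀ k i, |y k i| ≤ Y₀) → ∀ s, -ξ ≤ X y s ∧ X y s ≤ ε ∧
        deriv (X y) s ^ 2 * √(1 + s) ^ 3 ≤ ε ∧ |deriv (deriv (X y)) s| ≤ ε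

def PotStmt : Prop :=
  ∀ (D : ℕ) (S : Finset (Fin D)) (b : Fin D → ℝ) (κ : ℝ), ∑ τ ∈ S, (b τ - κ) < 0 →
    ∃ (π : Equiv.Perm (Fin D)) (δ : ℝ) (θ : Fin D → ℝ), 0 < δ ∧ (∀ τ, τ ∉ S → π τ = τ) ∧
      (∀ τ, 0 ≤ θ τ) ∧ ∀ τ ∈ S, b (π τ) + δ ≤ κ + θ (π τ) - θ τ

def GlobStmt : Prop :=
  ∀ (Λ : Type) [Fintype Λ] [DecidableEq Λ] (dim : Λ → ℕ) (ι : Type)
    (S : ∀ l, Finset (Fin (dim l))) (π : ∀ l, Equiv.Perm (Fin (dim l)))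
    (p : ℝ → ℝ) (q : ℝ) (lev : Λ → ℕ) (β : Λ → ℝ) (N' ξ κ δ : ℝ) (K : ι → ∀ l, Op (dim l))
    (j₀ : ι) (βs θ : ∀ l, Fin (dim l) → ℝ), Damp p q → ContDiff ℝ ∞ p →
    (∀ s, p s ≤ N') → (∀ s ≤ 0, p s = N') →
    (∀ l, 0 < β l ∧ β l ^ 2 + q * β l = lev l * (lev l + N')) → 0 < ξ → 0 < κ → 0 < δ →
    (∀ l τ, τ ∉ S l → π l τ = τ) → (∀ l τ, 0 ≤ θ l τ) →
    (∀ l, ∀ τ ∈ S l, βs l (π l τ) + δ ≤ κ + θ l (π l τ) - θ l τ) →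
    Step dim S π p (fun l => lev l * (lev l + N')) β N' ξ K j₀ βs →
    DynOut dim S p lev N' ξ κ K

end Vale.Agent.P225
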