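import Vale.Agent.P225.LapA

/-! Separation of variables for the Laplacian. -/

namespace Vale.Agent.P225

open scoped ContDiff Topology Matrix
open Filter Set

namespace Lap

variable {n : ℕ}

/-- `G` has the directional derivatives `G'` at `y` -/
def HD {E : Type*} [NormedAddCommGroup E] [NormedSpace ℝ E] (G : Pt n → E) (y : Pt n)
    (G' : Pt n → E) : Prop :=
  ∃ L : Pt n →L[ℝ] E, HasFDerivAt G L y ∧ ∀ v, L v = G' v

theorem HD.fd {E : Type*} [NormedAddCommGroup E] [NormedSpace ℝ E] {G G' : Pt n → E} {y : Pt n}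
    (h : HD G y G') (v : Pt n) : fderiv ℝ G y v = G' v := by
  obtain ⟨L, h1, h2⟩ := h
  rw [h1.fderiv, h2]

theorem HD.congr {E : Type*} [NormedAddCommGroup E] [NormedSpace ℝ E] {F G G' : Pt n → E}
    {y : Pt n} (h : HD G y G') (e : F =ᶠ[𝓝 y] G) : HD F y G' := by
  obtain ⟨L, h1, h2⟩ := h
  exact ⟨L, h1.congr_of_eventuallyEq e, h2⟩

theorem HD.add {F F' G G' : Pt n → ℂ} {y : Pt n} (h : HD F y F') (k : HD G y G') :
    HD (fun z => F z + G z) y fun v => F' v + G' v := by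
  obtain ⟨L, h1, h2⟩ := h
  obtain ⟨M, k1, k2⟩ := k
  exact ⟨_, h1.add k1, fun v => by simp [h2, k2]⟩

theorem HD.mul {F F' G G' : Pt n → ℂ} {y : Pt n} (h : HD F y F') (k : HD G y G') :
    HD (fun z => F z * G z) y fun v => F' v * G y + F y * G' v := by
  obtain ⟨L, h1, h2⟩ := h
  obtain ⟨M, k1, k2⟩ := k
  exact ⟨_, h1.mul k1, fun v => by simp [h2, k2]; ring⟩

theorem HD.cmul {G G' : Pt n → ℂ} {y : Pt n} (c : ℂ) (k : HD G y G') :
    HD (fun z => c * G z) y fun v => c * G' v := by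
  obtain ⟨M, k1, k2⟩ := k
  exact ⟨_, k1.const_mul c, fun v => by simp [k2]⟩

theorem HD.sum {ι : Type*} [Fintype ι] {F F' : ι → Pt n → ℂ} {y : Pt n}
    (h : ∀ i, HD (F i) y (F' i)) : HD (fun z => ∑ i, F i z) y fun v => ∑ i, F' i v := by
  choose L h1 h2 using h
  exact ⟨_, HasFDerivAt.fun_sum fun i _ => h1 i, fun v => by simp [h2]⟩

theorem HD.re {G G' : Pt n → ℂ} {y : Pt n} (k : HD G y G') :
    HD (fun z => (G z).re) y fun v => (G' v).re := by
  obtain ⟨M, k1, k2⟩ := k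
  exact ⟨_, Complex.reCLM.hasFDerivAt.comp y k1, fun v => by simp [k2]⟩

theorem HD.ofReal {G G' : Pt n → ℝ} {y : Pt n} (k : HD G y G') :
    HD (fun z => (G z : ℂ)) y fun v => (G' v : ℂ) := by
  obtain ⟨M, k1, k2⟩ := k
  exact ⟨_, Complex.ofRealCLM.hasFDerivAt.comp y k1, fun v => by simp [k2]⟩

theorem hd_of {G : Pt n → ℂ} (h : ContDiff ℝ ∞ G) (y : Pt n) : HD G y (fderiv ℝ G y) :=
  ⟨_, (h.differentiable (by simp) y).hasFDerivAt, fun _ => rfl⟩

theorem hd_d {G : Pt n → ℂ} (h : ContDiff ℝ ∞ G) (y v : Pt n) :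
    HD (fun z => fderiv ℝ G z v) y fun v' => fderiv ℝ (fderiv ℝ G) y v' v := by
  have hd : DifferentiableAt ℝ (fderiv ℝ G) y :=
    (h.fderiv_right (m := 1) (by norm_cast)).differentiable (by norm_num) y
  exact ⟨_, hd.hasFDerivAt.clm_apply (hasFDerivAt_const v y), fun v' => by simp⟩

theorem hd_lin {G : Pt n → ℂ} (h : ContDiff ℝ ∞ G) (y : Pt n) (A : Pt n →L[ℝ] Pt n) :
    HD (fun z => fderiv ℝ G z (A z)) y fun v' =>
      fderiv ℝ (fderiv ℝ G) y v' (A y) + fderiv ℝ G y (A v') := by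
  have hd : DifferentiableAt ℝ (fderiv ℝ G) y :=
    (h.fderiv_right (m := 1) (by norm_cast)).differentiable (by norm_num) y
  exact ⟨_, hd.hasFDerivAt.clm_apply A.hasFDerivAt, fun v' => by simp [add_comm]⟩

/-- the dot product as a continuous linear form -/
noncomputable def dotL (v : Pt n) : Pt n →L[ℝ] ℝ := ∑ i, v i • ContinuousLinearMap.proj i

theorem dotL_apply (v z : Pt n) : dotL v z = v ⬝ᵥ z := by
  simp [dotL, dotProduct]

theorem hf_sg (y : Pt n) : HasFDerivAt sg ((2 : ℝ) • dotL y) y := by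
  have := HasFDerivAt.fun_sum (u := Finset.univ) fun i _ =>
    (hasFDerivAt_apply (𝕜 := ℝ) i y).mul (hasFDerivAt_apply i y)
  refine this.congr_fderiv ?_
  ext v
  simp [dotL, two_mul, Finset.sum_add_distrib]

theorem hf_ls {y : Pt n} (hy : y ≠ 0) : HasFDerivAt ls ((sg y)⁻¹ • dotL y) y := by
  have := ((hf_sg y).log (sg_pos hy).ne').mul_const (2 : ℝ)⁻¹
  refine this.congr_fderiv ?_
  ext v
  simp
  ring

theorem hd_comp {y : Pt n} (hy : y ≠ 0) {f : ℝ → ℂ} {f' : ℂ} (h : HasDerivAt f f' (ls y)) :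
    HD (fun z => f (ls z)) y fun v => f' * ((y ⬝ᵥ v / sg y : ℝ) : ℂ) :=
  ⟨_, h.hasFDerivAt.comp y (hf_ls hy), fun v => by
    simp [dotL_apply, div_eq_mul_inv]
    ring⟩

theorem hd_q {y : Pt n} (hy : y ≠ 0) (v : Pt n) : HD (fun z => z ⬝ᵥ v / sg z) y
    fun v' => v' ⬝ᵥ v / sg y - 2 * (y ⬝ᵥ v) * (y ⬝ᵥ v') / sg y ^ 2 := by
  have h0 := (sg_pos hy).ne'
  have h1 := (dotL v).hasFDerivAt (x := y)
  have h2 := h1.mul ((hasDerivAt_inv h0).comp_hasFDerivAt y (hf_sg y))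
  refine ⟨_, h2.congr_of_eventuallyEq (Eventually.of_forall fun z => ?_), fun v' => ?_⟩
  · simp [dotL_apply, dotProduct_comm v, div_eq_mul_inv]
  · simp [dotL_apply, dotProduct_comm v]
    field_simp
    ring

theorem cd_sg : ContDiff ℝ ∞ (sg : Pt n → ℝ) := by
  have : (sg : Pt n → ℝ) = fun y => ∑ i, y i * y i := rfl
  rw [this]
  fun_prop

theorem cd_ls {y : Pt n} (hy : y ≠ 0) : ContDiffAt ℝ ∞ ls y :=
  (cd_sg.contDiffAt.log (sg_pos hy).ne').div_const 2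

section Sep

variable {D : ℕ} {w : Fin D → Pt n → ℂ} {f f1 : Fin D → ℝ → ℂ}

theorem hd_G (hw : ∀ i, ContDiff ℝ ∞ (w i)) (h1 : ∀ i s, HasDerivAt (f i) (f1 i s) s)
    {y : Pt n} (hy : y ≠ 0) : HD (fun z => ∑ i, f i (ls z) * w i z) y fun v =>
      ∑ i, (f1 i (ls y) * ((y ⬝ᵥ v / sg y : ℝ) : ℂ) * w i y + f i (ls y) * fderiv ℝ (w i) y v) :=
  HD.sum fun i => (hd_comp hy (h1 i _)).mul (hd_of (hw i) y)

theorem fd1 (hw : ∀ i, ContDiff ℝ ∞ (w i)) (h1 : ∀ i s, HasDerivAt (f i) (f1 i s) s) (c : ℂ)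
    {y : Pt n} (hy : y ≠ 0) (v : Pt n) :
    fderiv ℝ (fun z => (c * ∑ i, f i (ls z) * w i z).re) y v = (c * ∑ i,
      (f1 i (ls y) * ((y ⬝ᵥ v / sg y : ℝ) : ℂ) * w i y + f i (ls y) * fderiv ℝ (w i) y v)).re :=
  ((hd_G hw h1 hy).cmul c).re.fd v

theorem fd2 (hw : ∀ i, ContDiff ℝ ∞ (w i)) (h1 : ∀ i s, HasDerivAt (f i) (f1 i s) s) (c : ℂ)
    {y : Pt n} (hy : y ≠ 0) {f2 : Fin D → ℂ} (h2 : ∀ i, HasDerivAt (f1 i) (f2 i) (ls y))
    (v : Pt n) :
    fderiv ℝ (fun x => fderiv ℝ (fun z => (c * ∑ i, f i (ls z) * w i z).re) x v) y v = (c * ∑ i,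
      (f2 i * ((y ⬝ᵥ v / sg y : ℝ) : ℂ) ^ 2 * w i y +
        f1 i (ls y) * ((v ⬝ᵥ v / sg y - 2 * (y ⬝ᵥ v / sg y) ^ 2 : ℝ) : ℂ) * w i y +
        2 * f1 i (ls y) * (((y ⬝ᵥ v / sg y : ℝ) : ℂ) * fderiv ℝ (w i) y v) +
        f i (ls y) * fderiv ℝ (fderiv ℝ (w i)) y v v)).re := by
  have h := (HD.cmul c (HD.sum fun i => (((hd_comp hy (h2 i)).mul (hd_q hy v).ofReal).mul
    (hd_of (hw i) y)).add ((hd_comp hy (h1 i _)).mul (hd_d (hw i) y v)))).re
  rw [(h.congr ((eventually_ne_nhds hy).mono fun x hx => fd1 hw h1 c hx v)).fd v]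
  congr 2
  refine Finset.sum_congr rfl fun i _ => ?_
  push_cast
  ring

end Sep

theorem euler2 {w : Pt n → ℂ} (hw : ContDiff ℝ ∞ w) {l : ℕ}
    (h : ∀ y, fderiv ℝ w y y = (l : ℂ) * w y) (y : Pt n) :
    fderiv ℝ (fderiv ℝ w) y y y = (l : ℂ) * (l - 1) * w y := by
  have h1 := (hd_lin hw y (ContinuousLinearMap.id ℝ _)).fd y
  have h2 := ((hd_of hw y).cmul (l : ℂ)).fd y
  simp only [ContinuousLinearMap.id_apply, h] at h1 h2
  rw [h2] at h1
  linear_combination -h1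

theorem rot2 {D : ℕ} {w : Fin D → Pt n → ℂ} (hw : ∀ i, ContDiff ℝ ∞ (w i)) {l : ℕ}
    (h : ∀ i y, fderiv ℝ (w i) y y = (l : ℂ) * w i y) {J : Mat n} (hJ : IsCx J) {d : Op D}
    (hd : ∀ i y, fderiv ℝ (w i) y (J *ᵥ y) = ∑ k, d (ee i) k * w k y) (i : Fin D) (y : Pt n) :
    fderiv ℝ (fderiv ℝ (w i)) y (J *ᵥ y) (J *ᵥ y) =
      l * w i y + ∑ k, (d * d) (ee i) k * w k y := by
  have h1 := (hd_lin (hw i) y (LinearMap.toContinuousLinearMap (Matrix.mulVecLin J))).fd (J *ᵥ y)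
  have h2 := (HD.sum fun k => (hd_of (hw k) y).cmul (d (ee i) k)).fd (J *ᵥ y)
  simp only [LinearMap.coe_toContinuousLinearMap', Matrix.mulVecLin_apply, hd, cx_JJ hJ, map_neg,
    h] at h1 h2
  rw [h2] at h1
  have h3 : ∑ k, (d * d) (ee i) k * w k y = ∑ k, d (ee i) k * ∑ m, d (ee k) m * w m y := by
    have e : (d * d) (ee i) = ∑ k, d (ee i) k • d (ee k) := by
      rw [mul_apply_eq_comp]
      conv_lhs => rw [pi_eq_sum_univ' (d (ee i))]
      simp [ee]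
    simp only [e, Finset.sum_apply, Pi.smul_apply, smul_eq_mul, Finset.sum_mul, Finset.mul_sum,
      mul_assoc]
    exact Finset.sum_comm
  rw [h3]
  linear_combination -h1

theorem op_sum {D : ℕ} (K : Op D) (u c : Vc D) :
    ∑ i, u i * ∑ k, K (ee i) k * c k = ∑ k, K u k * c k := by
  have e : K u = ∑ i, u i • K (ee i) := by
    conv_lhs => rw [pi_eq_sum_univ' u]
    simp [ee]
  simp only [e, Finset.sum_apply, Pi.smul_apply, smul_eq_mul, Finset.sum_mul, Finset.mul_sum,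
    mul_assoc]
  exact Finset.sum_comm

theorem chr_one (k i j : Fin n) (y : Pt n) : chr (fun _ => (1 : Mat n)) k i j y = 0 := by
  simp [chr, pd]

theorem ls_nonpos {y : Pt n} (h : sg y ≤ 1) : ls y ≤ 0 := by
  have h0 : 0 ≤ ∑ i, y i * y i := Finset.sum_nonneg fun i _ => mul_self_nonneg (y i)
  have := Real.log_nonpos (x := sg y) h0 h
  unfold ls
  linarith

theorem near_zero : ∀ᶠ y in 𝓝 (0 : Pt n), sg y ≤ 1 :=
  (cd_sg.continuous.continuousAt.eventually_lt continuousAt_const (by simp [sg])).mono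
    fun _ h => le_of_lt h

theorem tr_term {y : Pt n} (hy : y ≠ 0) (F2 F1 F0 W : ℂ) (P B : Fin n → ℂ) :
    ∑ a, (F2 * ((y ⬝ᵥ Pi.single a 1 / sg y : ℝ) : ℂ) ^ 2 * W +
      F1 * (((Pi.single a 1 : Pt n) ⬝ᵥ Pi.single a 1 / sg y -
        2 * (y ⬝ᵥ Pi.single a 1 / sg y) ^ 2 : ℝ) : ℂ) * W +
      2 * F1 * (((y ⬝ᵥ Pi.single a 1 / sg y : ℝ) : ℂ) * P a) + F0 * B a) =
    ((F2 + (n - 2) * F1) * W + 2 * F1 * ∑ a, (y a : ℂ) * P a) / sg y + F0 * ∑ a, B a := by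
  have hσ : (sg y : ℂ) ≠ 0 := by exact_mod_cast (sg_pos hy).ne'
  have t1 : ∑ a, (y a : ℂ) ^ 2 = sg y := by
    simp [sg, dotProduct, sq]
  have e : ∀ a, F2 * ((y ⬝ᵥ Pi.single a 1 / sg y : ℝ) : ℂ) ^ 2 * W +
      F1 * (((Pi.single a 1 : Pt n) ⬝ᵥ Pi.single a 1 / sg y -
        2 * (y ⬝ᵥ Pi.single a 1 / sg y) ^ 2 : ℝ) : ℂ) * W +
      2 * F1 * (((y ⬝ᵥ Pi.single a 1 / sg y : ℝ) : ℂ) * P a) + F0 * B a =
      (F2 - 2 * F1) * W / sg y ^ 2 * (y a : ℂ) ^ 2 + F1 * W / sg y +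
        2 * F1 / sg y * ((y a : ℂ) * P a) + F0 * B a := by
    intro a
    simp only [dotProduct_single, mul_one, Pi.single_eq_same]
    push_cast
    ring
  simp only [e, Finset.sum_add_distrib, ← Finset.mul_sum, t1, Finset.sum_const, Finset.card_univ,
    Fintype.card_fin, nsmul_eq_mul]
  field_simp
  ring

theorem re_comb (a σ p q r : ℝ) (z A B C E : ℂ) :
    a * (σ * (z * A).re) + p * (z * B).re + q * (z * C).re - r * (z * E).re =
      (z * (a * σ * A + p * B + q * C - r * E)).re := by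
  simp only [mul_add, mul_sub, Complex.add_re, Complex.sub_re, Complex.mul_re, Complex.mul_im,
    Complex.ofReal_re, Complex.ofReal_im]
  ring

theorem re_zero (z : ℂ) {t : ℂ} (h : t = 0) : (z * t).re = 0 := by simp [h]

end Lap

open Lap

theorem lapStmt (h1 : ChrStmt) (h2 : LocStmt) : LapStmt := by
  intro n Φ x J hP D l w d hw hE hH hR u v i₀ hu hS h0 z
  obtain ⟨f, hf⟩ : ∃ f : Fin D → ℝ → ℂ, f = fun i s => u s i * (Real.exp (-(l * s)) : ℝ) := ⟨_, rfl⟩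
  have hF : (fun y : Pt n => (z * ∑ i, u (ls y) i * (Real.exp (-(l * ls y)) : ℝ) * w i y).re) =
      fun y => (z * ∑ i, f i (ls y) * w i y).re := by rw [hf]
  rw [hF]
  have hfc : ∀ i, ContDiff ℝ ∞ (f i) := by
    intro i
    rw [hf]
    exact (contDiff_pi.mp hu i).mul (Complex.ofRealCLM.contDiff.comp
      (show ContDiff ℝ ∞ fun s : ℝ => Real.exp (-(l * s)) by fun_prop))
  have hz : (fun y : Pt n => (z * ∑ i, f i (ls y) * w i y).re) =ᶠ[𝓝 0]
      fun y => (z * w i₀ y).re := by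
    filter_upwards [near_zero] with y hy
    have e : ∀ i, f i (ls y) = ee i₀ i := by
      intro i
      simp only [hf, h0 _ (ls_nonpos hy), Pi.smul_apply, Complex.real_smul]
      rw [mul_right_comm, ← Complex.ofReal_mul, ← Real.exp_add]
      simp
    simp [e, ee, Pi.single_apply]
  have hc0 : ContDiff ℝ ∞ fun y => (z * w i₀ y).re :=
    Complex.reCLM.contDiff.comp (contDiff_const.mul (hw i₀))
  have hc : ContDiff ℝ ∞ fun y : Pt n => (z * ∑ i, f i (ls y) * w i y).re := by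
    rw [contDiff_iff_contDiffAt]
    intro y
    by_cases hy : y = 0
    · subst hy
      exact hc0.contDiffAt.congr_of_eventuallyEq hz
    · exact Complex.reCLM.contDiff.contDiffAt.comp y (contDiffAt_const.mul (ContDiffAt.sum
        fun i _ => ((hfc i).contDiffAt.comp y (cd_ls hy)).mul (hw i).contDiffAt))
  refine ⟨hc, fun y => ?_⟩
  by_cases hy : y = 0
  · subst hy
    have hm : met Φ x J =ᶠ[𝓝 0] fun _ => 1 := near_zero.mono (h2 n Φ x J hP).1
    have c3 := ((h2 n Φ x J hP).2.2 _ _ 0 hm).1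
    have e : ∀ i, pd i (pd i fun y : Pt n => (z * ∑ i, f i (ls y) * w i y).re) 0 =
        (z * fderiv ℝ (fun y => fderiv ℝ (w i₀) y (Pi.single i 1)) 0 (Pi.single i 1)).re := by
      intro i
      have e1 : (pd i fun y : Pt n => (z * ∑ i, f i (ls y) * w i y).re) =ᶠ[𝓝 0]
          fun y => (z * fderiv ℝ (w i₀) y (Pi.single i 1)).re := by
        filter_upwards [hz.fderiv (𝕜 := ℝ)] with y hy
        rw [pd, hy]
        exact ((hd_of (hw i₀) y).cmul z).re.fd _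
      rw [pd, ((((hd_d (hw i₀) 0 (Pi.single i 1)).cmul z).re).congr e1).fd,
        (hd_d (hw i₀) 0 (Pi.single i 1)).fd]
    simp only [lap, hm.eq_of_nhds, fun k i j => (c3 k i j).eq_of_nhds, chr_one, inv_one,
      Matrix.one_apply, zero_mul, Finset.sum_const_zero, sub_zero, ite_mul, one_mul,
      Finset.sum_ite_eq, Finset.mem_univ, if_true, e]
    rw [← Complex.re_sum, ← Finset.mul_sum, hH, mul_zero, Complex.zero_re]
  obtain ⟨J₀, hJ, hx, hm⟩ := (h2 n Φ x J hP).2.1 y hy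
  have hexp : ∀ s : ℝ, HasDerivAt (fun s : ℝ => ((Real.exp (-(l * s)) : ℝ) : ℂ))
      (-(l : ℂ) * (Real.exp (-(l * s)) : ℝ)) s := by
    intro s
    have := (((hasDerivAt_id s).const_mul (l : ℝ)).neg.exp).ofReal_comp
    refine this.congr_deriv ?_
    simp [mul_comm]
  have d1 : ∀ i s, HasDerivAt (f i) ((v s i - l * u s i) * (Real.exp (-(l * s)) : ℝ)) s := by
    intro i s
    rw [hf]
    have := (hasDerivAt_pi.mp (hS s trivial).1 i).mul (hexp s)
    refine this.congr_deriv ?_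
    ring
  obtain ⟨K, hK⟩ : ∃ K, K = d (J (ls y)) * d (J (ls y)) := ⟨_, rfl⟩
  obtain ⟨a, ha⟩ : ∃ a, a = (cA (x (ls y)))⁻¹ := ⟨_, rfl⟩
  obtain ⟨b, hb⟩ : ∃ b, b = (cB n (x (ls y)))⁻¹ := ⟨_, rfl⟩
  have ea : aa (x (ls y)) = a := by rw [ha, aa, cA, ← Real.exp_neg, neg_mul]
  have eb : bb ((n : ℝ) - 2) (x (ls y)) = a - b := by
    rw [hb, bb, ← ea, aa, cB, ← Real.exp_neg]
    congr 2
    ring
  have d2 : ∀ i, HasDerivAt (fun s => (v s i - l * u s i) * (Real.exp (-(l * s)) : ℝ))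
      (((l * (l + (n - 2)) * a * u (ls y) i + (a - b) * K (u (ls y)) i -
        (n - 2) * (deriv Φ (ls y) : ℝ) * v (ls y) i) - 2 * l * v (ls y) i + l ^ 2 * u (ls y) i) *
        (Real.exp (-(l * ls y)) : ℝ)) (ls y) := by
    intro i
    have := ((hasDerivAt_pi.mp (hS (ls y) trivial).2 i).sub
      ((hasDerivAt_pi.mp (hS (ls y) trivial).1 i).const_mul (l : ℂ))).mul (hexp (ls y))
    refine this.congr_deriv ?_
    simp only [Qf, ea, eb, ← hK, Pi.sub_apply, Pi.add_apply, Pi.smul_apply, Complex.real_smul,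
      _root_.add_apply, _root_.smul_apply, one_apply_eq_self]
    push_cast
    ring
  have hσ := (sg_pos hy).ne'
  have hσc : (sg y : ℂ) ≠ 0 := by exact_mod_cast hσ
  have hyy : y ⬝ᵥ y = sg y := rfl
  have hKK : ((a : ℂ) - b) * ∑ k, K (u (ls y)) k * w k y =
      ((a : ℂ) - b) * ∑ k, (d J₀ * d J₀) (u (ls y)) k * w k y := by
    rcases hx with hx | hx
    · simp [ha, hb, hx, cA, cB]
    · rw [hK, hx]
  have t2 : ∀ i, ∑ a, (y a : ℂ) * fderiv ℝ (w i) y (Pi.single a 1) = l * w i y := by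
    intro i
    rw [← hE, clm_sum _ y]
    simp
  have t3 : ∀ i, ∑ a, fderiv ℝ (fderiv ℝ (w i)) y (Pi.single a 1) (Pi.single a 1) = 0 := by
    intro i
    rw [← hH i y]
    exact Finset.sum_congr rfl fun a _ => ((hd_d (hw i) y _).fd _).symm
  rw [lap_formula h1 h2 hP hJ hy hm (hc.contDiffAt.of_le (by norm_cast)), ← ha, ← hb]
  simp only [fd2 hw d1 z hy d2, fd1 hw d1 z hy, cx_yw hJ, cx_ww hJ, hyy, div_self hσ, hE,
    euler2 (hw _) (hE _), rot2 hw hE hJ (hR J₀ hJ)]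
  rw [← Complex.re_sum, ← Finset.mul_sum, Finset.sum_comm]
  simp only [tr_term hy, t2, t3]
  rw [re_comb, mul_eq_zero]
  right
  refine re_zero z ?_
  rw [← op_sum (d J₀ * d J₀), ← sub_eq_zero] at hKK
  refine Eq.trans ?_ (mul_eq_zero_of_right ((Real.exp (-(l * ls y)) : ℝ) : ℂ) hKK)
  rw [Finset.mul_sum, Finset.mul_sum,
    Finset.mul_sum, Finset.mul_sum, Finset.mul_sum, Finset.mul_sum, ← Finset.sum_add_distrib,
    ← Finset.sum_add_distrib, ← Finset.sum_sub_distrib, ← Finset.sum_sub_distrib, Finset.mul_sum]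
  refine Finset.sum_congr rfl fun i _ => ?_
  simp only [hf]
  generalize ((Real.exp (-(l * ls y)) : ℝ) : ℂ) = e
  push_cast
  field_simp
  ring

end Vale.Agent.P225
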