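import Vale.Agent.P225.Iface

/-! The Laplacian of the Berger type metric in terms of directional derivatives. -/

namespace Vale.Agent.P225.Lap

open scoped ContDiff Topology Matrix
open Filter Set

variable {n : ℕ}

theorem clm_sum {E : Type*} [NormedAddCommGroup E] [NormedSpace ℝ E] (L : Pt n →L[ℝ] E)
    (v : Pt n) : L v = ∑ i, v i • L (Pi.single i 1) := by
  conv_lhs => rw [pi_eq_sum_univ' v]
  simp

theorem d2_eq {E : Type*} [NormedAddCommGroup E] [NormedSpace ℝ E] {F : Pt n → E} {y : Pt n}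
    (h : ContDiffAt ℝ 2 F y) (v v' : Pt n) :
    fderiv ℝ (fun x => fderiv ℝ F x v) y v' = fderiv ℝ (fderiv ℝ F) y v' v := by
  have hd : DifferentiableAt ℝ (fderiv ℝ F) y :=
    (h.fderiv_right (m := 1) (by norm_num)).differentiableAt (by norm_num)
  rw [fderiv_clm_apply hd (differentiableAt_const v)]
  simp

theorem sg_pos {y : Pt n} (hy : y ≠ 0) : 0 < sg y := by
  have h : 0 ≤ ∑ i, y i * y i := Finset.sum_nonneg fun i _ => mul_self_nonneg (y i)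
  exact lt_of_le_of_ne h fun e => hy (dotProduct_self_eq_zero.mp e.symm)

theorem cx_JJ {J : Mat n} (h : IsCx J) (y : Pt n) : J *ᵥ (J *ᵥ y) = -y := by
  rw [Matrix.mulVec_mulVec, h.2, Matrix.neg_mulVec, Matrix.one_mulVec]

theorem cx_adj {J : Mat n} (h : IsCx J) (y v : Pt n) : y ⬝ᵥ (J *ᵥ v) = -((J *ᵥ y) ⬝ᵥ v) := by
  rw [Matrix.dotProduct_mulVec, ← Matrix.mulVec_transpose, h.1, Matrix.neg_mulVec, neg_dotProduct]

theorem cx_yw {J : Mat n} (h : IsCx J) (y : Pt n) : y ⬝ᵥ (J *ᵥ y) = 0 := by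
  have := cx_adj h y y
  rw [dotProduct_comm (J *ᵥ y)] at this
  linarith

theorem cx_ww {J : Mat n} (h : IsCx J) (y : Pt n) : (J *ᵥ y) ⬝ᵥ (J *ᵥ y) = sg y := by
  rw [cx_adj h, cx_JJ h, neg_dotProduct, neg_neg, sg]

/-- contraction of a 2-tensor with a vector -/
def quad (v : Pt n) (T : Fin n → Fin n → ℝ) : ℝ := ∑ i, ∑ j, v i * v j * T i j

theorem quad_add (v : Pt n) (S T : Fin n → Fin n → ℝ) :
    quad v (fun i j => S i j + T i j) = quad v S + quad v T := by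
  simp only [quad, mul_add, Finset.sum_add_distrib]

theorem quad_mul (v : Pt n) (c : ℝ) (T : Fin n → Fin n → ℝ) :
    quad v (fun i j => c * T i j) = c * quad v T := by
  simp only [quad, Finset.mul_sum]
  exact Finset.sum_congr rfl fun i _ => Finset.sum_congr rfl fun j _ => by ring

theorem quad_mul' (v : Pt n) (c : ℝ) (T : Fin n → Fin n → ℝ) :
    quad v (fun i j => T i j * c) = quad v T * c := by
  simp only [mul_comm _ c, quad_mul]

theorem quad_prod (v p q : Pt n) : quad v (fun i j => p i * q j) = (p ⬝ᵥ v) * (q ⬝ᵥ v) := by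
  simp only [quad, dotProduct, Finset.sum_mul_sum]
  exact Finset.sum_congr rfl fun i _ => Finset.sum_congr rfl fun j _ => by ring

theorem quad_prod' (v p q : Pt n) : quad v (fun i j => p j * q i) = (p ⬝ᵥ v) * (q ⬝ᵥ v) := by
  rw [mul_comm, ← quad_prod]
  simp only [mul_comm]

theorem quad_one (v : Pt n) (c : ℝ) :
    quad v (fun i j => c * (1 : Mat n) i j) = c * (v ⬝ᵥ v) := by
  refine (quad_mul v c fun i j => (1 : Mat n) i j).trans ?_
  simp [quad, dotProduct, Matrix.one_apply]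

theorem quad_Gam (Φ x : ℝ → ℝ) (J : Mat n) (k : Fin n) (y v : Pt n) :
    quad v (fun i j => Gam Φ x J k i j y) =
      c1 Φ x (ls y) / sg y * (2 * (y ⬝ᵥ v) * v k) +
      c2 n x (ls y) / sg y * (2 * ((J *ᵥ y) ⬝ᵥ v) * (J *ᵥ v) k) +
      (c3 Φ x (ls y) / sg y * (v ⬝ᵥ v) + c4 Φ x (ls y) / sg y ^ 2 * (y ⬝ᵥ v) ^ 2 +
        c5 n Φ x (ls y) / sg y ^ 2 * ((J *ᵥ y) ⬝ᵥ v) ^ 2) * y k +
      c6 n x (ls y) / sg y ^ 2 * (2 * (y ⬝ᵥ v) * ((J *ᵥ y) ⬝ᵥ v)) * (J *ᵥ y) k := by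
  have e1 : (1 : Mat n) k ⬝ᵥ v = v k := by simp [dotProduct, Matrix.one_apply]
  have e2 : J k ⬝ᵥ v = (J *ᵥ v) k := rfl
  simp only [Gam, quad_add, quad_mul, quad_mul']
  rw [quad_prod v y ((1 : Mat n) k), quad_prod' v y ((1 : Mat n) k), quad_prod' v (J *ᵥ y) (J k),
    quad_prod v (J *ᵥ y) (J k), quad_one, quad_prod v y y, quad_prod v (J *ᵥ y) (J *ᵥ y),
    quad_prod v y (J *ᵥ y), quad_prod' v y (J *ᵥ y), e1, e2]
  ring

theorem tr_Gam (Φ x : ℝ → ℝ) {J : Mat n} (hJ : IsCx J) (k : Fin n) {y : Pt n} (hy : y ≠ 0) :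
    ∑ i, Gam Φ x J k i i y = (2 * c1 Φ x (ls y) - 2 * c2 n x (ls y) + n * c3 Φ x (ls y) +
      c4 Φ x (ls y) + c5 n Φ x (ls y)) / sg y * y k := by
  have e1 : ∑ i, y i * (1 : Mat n) k i = y k := by simp [Matrix.one_apply]
  have e2 : ∑ i, (J *ᵥ y) i * J k i = -y k := by
    have := congrFun (cx_JJ hJ y) k
    simp only [Pi.neg_apply] at this
    rw [← this]
    exact Finset.sum_congr rfl fun i _ => mul_comm _ _
  have e3 : ∑ i, y i * y i = sg y := rfl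
  have e4 : ∑ i, (J *ᵥ y) i * (J *ᵥ y) i = sg y := cx_ww hJ y
  have e5 : ∑ i, y i * (J *ᵥ y) i = 0 := cx_yw hJ y
  have h0 := (sg_pos hy).ne'
  simp only [Gam, Finset.sum_add_distrib, ← Finset.mul_sum, ← Finset.sum_mul, e1, e2, e3, e4, e5,
    Matrix.one_apply_eq, Finset.sum_const, Finset.card_univ, Fintype.card_fin, nsmul_eq_mul]
  field_simp
  ring

theorem ginv_sum (Φ x : ℝ → ℝ) (J : Mat n) (y : Pt n) (T : Fin n → Fin n → ℝ) :
    ∑ i, ∑ j, ginv Φ x J y i j * T i j = sg y / Real.exp (2 * Φ (ls y)) *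
      ((cA (x (ls y)))⁻¹ * ∑ i, T i i + (1 - (cA (x (ls y)))⁻¹) / sg y * quad y T +
        ((cB n (x (ls y)))⁻¹ - (cA (x (ls y)))⁻¹) / sg y * quad (J *ᵥ y) T) := by
  have e : ∑ i, T i i = ∑ i, ∑ j, (1 : Mat n) i j * T i j := by simp [Matrix.one_apply]
  rw [e]
  simp only [ginv, quad, Matrix.smul_apply, Matrix.add_apply, Matrix.vecMulVec_apply, smul_eq_mul,
    Finset.mul_sum, ← Finset.sum_add_distrib]
  exact Finset.sum_congr rfl fun i _ => Finset.sum_congr rfl fun j _ => by ring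

theorem ginv_Gam (Φ x : ℝ → ℝ) {J : Mat n} (hJ : IsCx J) (k : Fin n) {y : Pt n} (hy : y ≠ 0) :
    ∑ i, ∑ j, ginv Φ x J y i j * Gam Φ x J k i j y = (Real.exp (2 * Φ (ls y)))⁻¹ *
      ((((n : ℝ) - 2) * ((cA (x (ls y)))⁻¹ - deriv Φ (ls y)) + (cB n (x (ls y)))⁻¹ - 1) * y k) := by
  have h0 := (sg_pos hy).ne'
  have hA : cA (x (ls y)) ≠ 0 := Real.exp_ne_zero _
  have hB : cB n (x (ls y)) ≠ 0 := Real.exp_ne_zero _
  have hE : Real.exp (2 * Φ (ls y)) ≠ 0 := Real.exp_ne_zero _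
  have e3 : y ⬝ᵥ y = sg y := rfl
  rw [ginv_sum, tr_Gam Φ x hJ k hy, quad_Gam, quad_Gam, cx_ww hJ, cx_yw hJ, dotProduct_comm (J *ᵥ y),
    cx_yw hJ, cx_JJ hJ, e3]
  simp only [c1, c2, c3, c4, c5, Pi.neg_apply]
  field_simp
  ring

theorem quad_d2 {F : Pt n → ℝ} {y : Pt n} (h : ContDiffAt ℝ 2 F y) (v : Pt n) :
    quad v (fun i j => pd i (pd j F) y) = fderiv ℝ (fun x => fderiv ℝ F x v) y v := by
  rw [d2_eq h, clm_sum (fderiv ℝ (fderiv ℝ F) y) v]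
  simp only [quad, _root_.sum_apply, _root_.smul_apply, smul_eq_mul]
  refine Finset.sum_congr rfl fun i _ => ?_
  rw [clm_sum _ v, Finset.mul_sum]
  refine Finset.sum_congr rfl fun j _ => ?_
  rw [← d2_eq h, smul_eq_mul, mul_assoc]
  rfl

theorem lap_formula (h1 : ChrStmt) (h2 : LocStmt) {Φ x : ℝ → ℝ} {J : ℝ → Mat n} (hP : Prof Φ x J)
    {J₀ : Mat n} (hJ : IsCx J₀) {y : Pt n} (hy : y ≠ 0) (hm : met Φ x J =ᶠ[𝓝 y] gm Φ x J₀)
    {F : Pt n → ℝ} (hF : ContDiffAt ℝ 2 F y) :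
    lap (met Φ x J) F y = (Real.exp (2 * Φ (ls y)))⁻¹ *
      ((cA (x (ls y)))⁻¹ * (sg y * ∑ i, fderiv ℝ (fun z => fderiv ℝ F z (Pi.single i 1)) y
          (Pi.single i 1)) +
        (1 - (cA (x (ls y)))⁻¹) * fderiv ℝ (fun z => fderiv ℝ F z y) y y +
        ((cB n (x (ls y)))⁻¹ - (cA (x (ls y)))⁻¹) *
          fderiv ℝ (fun z => fderiv ℝ F z (J₀ *ᵥ y)) y (J₀ *ᵥ y) -
        (((n : ℝ) - 2) * ((cA (x (ls y)))⁻¹ - deriv Φ (ls y)) + (cB n (x (ls y)))⁻¹ - 1) *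
          fderiv ℝ F y y) := by
  obtain ⟨-, c1, c2⟩ := h1 n Φ x J₀ hP.sΦ hP.sx hJ y hy
  have c3 := ((h2 n Φ x J hP).2.2 _ _ y hm).1
  have h0 := (sg_pos hy).ne'
  have e1 : lap (met Φ x J) F y = ∑ i, ∑ j, ginv Φ x J₀ y i j * pd i (pd j F) y -
      ∑ k, (∑ i, ∑ j, ginv Φ x J₀ y i j * Gam Φ x J₀ k i j y) * pd k F y := by
    simp only [lap, hm.eq_of_nhds, c1, fun k i j => (c3 k i j).eq_of_nhds, c2, mul_sub,
      Finset.sum_sub_distrib, Finset.mul_sum, Finset.sum_mul, mul_assoc]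
    congr 1
    rw [Finset.sum_comm]
    conv_rhs => rw [Finset.sum_comm]
    refine (Finset.sum_comm.trans (Finset.sum_congr rfl fun i _ => Finset.sum_comm))
  have e2 : fderiv ℝ F y y = ∑ k, y k * pd k F y := clm_sum _ y
  rw [e1, ginv_sum, quad_d2 hF, quad_d2 hF, e2]
  simp only [ginv_Gam Φ x hJ _ hy, mul_assoc, ← Finset.mul_sum]
  simp only [pd]
  field_simp
  rfl

end Vale.Agent.P225.Lap
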