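import Vale.Agent.P225.MainA

namespace Vale.Agent.P225

open scoped ContDiff Topology Matrix
open Filter Set Main

theorem Main.tangent {κ q Λ : ℝ} (h : 0 < 2 * κ + q) :
    Λ ≤ ((κ ^ 2 + Λ) / (2 * κ + q)) ^ 2 + q * ((κ ^ 2 + Λ) / (2 * κ + q)) := by
  set b := (κ ^ 2 + Λ) / (2 * κ + q)
  have hb : b * (2 * κ + q) = κ ^ 2 + Λ := div_mul_cancel₀ _ h.ne'
  nlinarith [sq_nonneg (b - κ)]

theorem mainStmt (hGeo : GeoStmt) (hDist : DistStmt) (hLap : LapStmt) (hRho : RhoStmt)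
    (hSteer : SteerStmt) (hStep : StepStmt) (hPot : PotStmt) (hGlob : GlobStmt)
    (hRep : RepStmt) (hNum : NumStmt) :
    ∃ (n : ℕ) (g : Met n) (k : ℕ), 2 ≤ n ∧ IsMetric g ∧ Complete g ∧ RicNonneg g ∧ 1 ≤ k ∧
      ∃ (N : ℕ) (u : Fin N → Pt n → ℝ), (n + k - 1).choose k + (n + k - 2).choose (k - 1) < N ∧
        LinearIndependent ℝ u ∧ ∀ i, HarmGrowth g k (u i) := by
  classical
  obtain ⟨m, k, A, ρ, L, q₀, hm, hk, hA, hρ0, hρ1, hρ2, hL, hcount⟩ := hNum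
  obtain ⟨dim, μ, d, w, J₀, hJ₀, hw, hcard, hrep⟩ := hRep m hm
  obtain ⟨hind, hctl⟩ := hrep L Subtype.val Subtype.val_injective
  have hNc : ((m + m - 2 : ℕ) : ℝ) = ((m + m : ℕ) : ℝ) - 2 := by
    rw [Nat.cast_sub (by omega)]; norm_num
  set N' : ℝ := ((m + m : ℕ) : ℝ) - 2 with hN'
  have hN0 : 0 < N' := by rw [← hNc]; exact_mod_cast (by omega : 0 < m + m - 2)
  have hA0 : 0 < A := by linarith
  -- parameters
  obtain ⟨ξ, hξ, hξA⟩ : ∃ ξ : ℝ, 0 < ξ ∧ Real.exp (2 * ξ) = A :=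
    ⟨Real.log A / 2, half_pos (Real.log_pos hA), by
      rw [mul_div_cancel₀ _ two_ne_zero, Real.exp_log hA0]⟩
  have hξp : ∀ j : ℕ, Real.exp (2 * j * ξ) = A ^ j := fun j => by
    rw [← hξA, ← Real.exp_nat_mul]; congr 1; ring
  have haa : aa (-ξ) = A := by rw [aa, ← hξA]; congr 1; ring
  have hbb : bb N' (-ξ) = A - (A ^ (m + m - 2))⁻¹ := by
    rw [bb, ← hξp, ← Real.exp_neg, hNc, ← hξA]; congr 2 <;> ring
  obtain ⟨t, ht, ht1, ht2⟩ := exists_irrational_btwn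
    (lt_min hρ1 ((lt_div_iff₀' hN0).2 hρ2) : ρ < min 1 (((m + m : ℕ) * A - 2 * A ^ (m + m)) / N'))
  have ht0 : 0 < t := hρ0.trans ht1
  set r : ℝ := √t with hr
  have hr0 : 0 < r := Real.sqrt_pos.2 ht0
  have hr2 : r ^ 2 = t := Real.sq_sqrt ht0.le
  have hr1 : r < 1 := by
    have := ht2.trans_le (min_le_left _ _)
    nlinarith
  obtain ⟨Φ, hΦ, hΦ0, hΦ1, hΦ2, hΦ3, hΦ4, ε, hε, s₀, hric⟩ := hRho (m + m) r ξ (by omega) hr0 hr1 hξ
    (by rw [hξA, hξp, hr2]; exact (lt_div_iff₀' hN0).1 (ht2.trans_le (min_le_right _ _)))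
  have hΦ' : ContDiff ℝ ∞ (deriv Φ) := (contDiff_infty_iff_deriv.1 hΦ).2
  set q : ℝ := N' * r with hq
  have hq0 : 0 < q := mul_pos hN0 hr0
  have hp : Damp (fun s => N' * deriv Φ s) q :=
    ⟨continuous_const.mul hΦ'.continuous, hq0,
      fun s => mul_le_mul_of_nonneg_left (hΦ2 s).1 hN0.le, hΦ3.const_mul _⟩
  have hl2 : ∀ l : L, (2 : ℝ) ≤ (l : ℕ) := fun l => by exact_mod_cast (hL l l.2).1
  let lam : L → ℝ := fun l => (l : ℕ) * ((l : ℕ) + N')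
  have hlam : ∀ l, 0 < lam l := fun l => mul_pos (by linarith [hl2 l]) (by linarith [hl2 l])
  let β : L → ℝ := fun l => (√(q ^ 2 + 4 * lam l) - q) / 2
  have hβ : ∀ l, 0 < β l ∧ β l ^ 2 + q * β l = lam l := by
    intro l
    have h1 := hlam l
    have h2 : √(q ^ 2 + 4 * lam l) ^ 2 = q ^ 2 + 4 * lam l := Real.sq_sqrt (by positivity)
    have h3 : q < √(q ^ 2 + 4 * lam l) := Real.lt_sqrt_of_sq_lt (by linarith)
    exact ⟨half_pos (sub_pos.2 h3), by simp only [β]; nlinarith⟩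
  have hirr : Irr fun l : L => (2 * β l + q)⁻¹ := by
    have := irr (L := L) (N := m + m - 2) ht ht0 (by omega)
    rw [hNc] at this
    convert this using 3 with l
    simp only [β, lam, hq, mul_pow, hr2]; ring
  -- the chosen basis vectors
  choose S hS1 hS2 hS3 using fun l : L => select (μ l) l (q₀ l) (fun j => Dn m (l - j) j)
    fun j hj => hcard l j (Finset.mem_Icc.1 hj).1
      (by have := (Finset.mem_Icc.1 hj).2; have := (hL l l.2).2.1; omega)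
  have hSpos : ∀ l : L, ∀ τ ∈ S l, 0 < μ l τ := by
    intro l τ hτ
    obtain ⟨j, hj, h⟩ := hS1 l τ hτ
    have := (Finset.mem_Icc.1 hj).2
    have := (hL l l.2).2.1
    omega
  set κ : ℝ := k * r with hκ
  have hk1 : (1 : ℝ) ≤ k := by exact_mod_cast hk
  have hκ0 : 0 < κ := mul_pos (by linarith) hr0
  have hden : 0 < 2 * κ + q := by positivity
  let Λf : L → ℤ → ℝ := fun l j => lam l * A - (j : ℝ) ^ 2 * (A - (A ^ (m + m - 2))⁻¹)
  let βs : ∀ l : L, Fin (dim l) → ℝ := fun l i => (κ ^ 2 + Λf l (μ l i)) / (2 * κ + q)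
  have hν : ∀ (l : L) i, (μ l i : ℝ) ^ 2 ≤ lam l := by
    intro l i
    have h1 : |(μ l i : ℝ)| ≤ (l : ℕ) := by exact_mod_cast (hw l i).2.2.2.2.2.2
    have h2 : (μ l i : ℝ) ^ 2 ≤ ((l : ℕ) : ℝ) ^ 2 := sq_le_sq' (abs_le.1 h1).1 (abs_le.1 h1).2
    have h3 := hl2 l
    simp only [lam]; nlinarith
  have hΛ0 : ∀ (l : L) i, 0 ≤ Λf l (μ l i) := by
    intro l i
    have h1 := hν l i
    have h2 : 0 ≤ (μ l i : ℝ) ^ 2 * (A ^ (m + m - 2))⁻¹ := by positivity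
    simp only [Λf]; nlinarith
  have hsum : ∀ l : L, ∑ τ ∈ S l, (βs l τ - κ) < 0 := by
    intro l
    have h1 : ∀ τ, βs l τ - κ ≤ (Λf l (μ l τ) - ρ * (k * (k + N'))) / (2 * κ + q) := by
      intro τ
      rw [le_div_iff₀ hden, sub_mul, div_mul_cancel₀ _ hden.ne']
      have h2 : ρ * (k * (k + N')) ≤ t * (k * (k + N')) := by gcongr
      have h3 : κ * (2 * κ + q) = κ ^ 2 + t * (k * (k + N')) := by rw [← hr2, hκ, hq]; ring
      linarith
    refine (Finset.sum_le_sum fun τ _ => h1 τ).trans_lt ?_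
    rw [← Finset.sum_div]
    refine div_neg_of_neg_of_pos ?_ hden
    rw [hS3 l fun j => Λf l j - ρ * (k * (k + N'))]
    refine lt_of_eq_of_lt (Finset.sum_congr rfl fun j _ => ?_) (hL l l.2).2.2
    simp only [Λf, lam]; push_cast; ring
  choose π δ θ hδ hπ hθ hpot using fun l : L => hPot (dim l) (S l) (βs l) κ (hsum l)
  obtain ⟨δ₀, hδ₀, hδ₁⟩ : ∃ δ₀ > 0, ∀ l, δ₀ ≤ δ l := by
    rcases isEmpty_or_nonempty L with h | h
    · exact ⟨1, one_pos, fun l => h.elim l⟩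
    · obtain ⟨l, hl⟩ := Finite.exists_min δ
      exact ⟨δ l, hδ l, hl⟩
  let ι := {J : Mat (m + m) // IsCx J}
  have : Nonempty ι := ⟨⟨J₀, hJ₀⟩⟩
  let K : ι → ∀ l : L, Op (dim l) := fun J l => d l J * d l J
  have h1 := hSteer L (fun l => dim l) ι _ _ S π
    (hctl _ (fun l => (hL l l.2).1) hirr) hSpos hπ
  have h2 := hStep L (fun l => dim l) ι S π _ q lam β N' ξ K ⟨J₀, hJ₀⟩
    (fun l i => (μ l i : ℝ) ^ 2) βs hp hβ hN0.le hξ.le (fun l i =>
      ⟨(hw l i).2.2.2.2.2.1, sq_nonneg _, hν l i,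
        div_nonneg (add_nonneg (sq_nonneg _) (hΛ0 l i)) hden.le, by
          rw [haa, hbb]; exact tangent hden⟩) h1
  obtain ⟨x, J, hx, hx0, hxl, hxb, hsol⟩ := hGlob L (fun l => dim l) ι S π _ q Subtype.val β N' ξ κ
    δ₀ K ⟨J₀, hJ₀⟩ βs θ hp (contDiff_const.mul hΦ')
    (fun s => mul_le_of_le_one_right hN0.le (hΦ2 s).2) (fun s hs => by rw [hΦ1 s hs, mul_one])
    hβ hξ hκ0 hδ₀ hπ hθ (fun l τ hτ => by linarith [hpot l τ hτ, hδ₁ l]) h2 ε hε (max s₀ 0)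
  have hP : Prof Φ x fun s => (J s).1 :=
    ⟨hΦ, hx, hΦ0, fun s hs => hx0 s (hs.trans (le_max_right _ _)), fun s => (J s).2, fun s₁ => by
      obtain ⟨j, hj⟩ := hxl s₁
      exact ⟨j.1, j.2, hj.mono fun s hs => hs.imp id fun h => congrArg Subtype.val h⟩⟩
  obtain ⟨hM, hR⟩ := hGeo _ Φ x _ hP
  obtain ⟨hC, hD⟩ := hDist _ Φ x _ r hP hM hr0 hr1.le hΦ4
  choose! u v hu1 hu2 hu3 hu4 using hsol
  let F : ∀ l : L, Fin (dim l) → Pt (m + m) → ℂ := fun l τ => FF l (w l) (u l τ)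
  have hli := indep S (fun l => w l) F (fun l τ hτ y hy => FF_small (hu3 l τ hτ) hy)
    fun z hz => hind z fun l i h => hSpos l i (hz l i h)
  let e := Fintype.equivFin ((Σ l : L, S l) × Bool)
  refine ⟨m + m, met Φ x fun s => (J s).1, k, by omega, hM, hC,
    hR (hric x hx (fun s hs => hx0 s (hs.trans (le_max_left _ _))) hxb), hk, _, _, ?_,
    hli.comp e.symm e.symm.injective, fun i => ?_⟩
  · refine hcount.trans_le (le_of_eq ?_)
    rw [Fintype.card_prod, Fintype.card_sigma, Fintype.card_bool, mul_comm,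
      ← Finset.sum_coe_sort L]
    congr 1
    exact Finset.sum_congr rfl fun l _ => by rw [Fintype.card_coe, hS2]
  · rw [Function.comp_apply]
    generalize e.symm i = a
    obtain ⟨⟨l, τ, hτ⟩, b⟩ := a
    obtain ⟨a1, a2⟩ := hLap _ Φ x _ hP (dim l) l (w l) (d l) (fun i => (hw l i).1)
      (fun i => (hw l i).2.1) (fun i => (hw l i).2.2.1) (fun J hJ i => (hw l i).2.2.2.1 J hJ)
      (u l τ) (v l τ) τ (hu1 l τ hτ) (hu2 l τ hτ) (hu3 l τ hτ) (if b then 1 else Complex.I)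
    refine ⟨a1, a2, ?_⟩
    obtain ⟨C, hC⟩ := FF_growth (k := k) hr0 (fun i => (hw l i).2.2.2.2.1) (hu3 l τ hτ)
      (hu4 l τ hτ) hD
    refine ⟨C, fun y => le_trans ?_ (hC y)⟩
    refine (Complex.abs_re_le_norm _).trans (le_of_eq ?_)
    rw [norm_mul]
    cases b <;> simp [F]

end Vale.Agent.P225
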