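import Vale.Agent.P225.RDefs

namespace Vale.Agent.P225.Main

open scoped ContDiff Topology Matrix
open Filter Set

theorem irr {L : Finset ℕ} {N : ℕ} {t : ℝ} (ht : Irrational t) (ht0 : 0 < t) (hN : 0 < N) :
    Irr fun l : L => (√((N : ℝ) ^ 2 * t + 4 * ((l : ℕ) * ((l : ℕ) + (N : ℝ)))))⁻¹ := by
  have hpos : ∀ l : ℕ, 0 < (N : ℝ) ^ 2 * t + 4 * (l * (l + (N : ℝ))) := fun l => by positivity
  refine ⟨fun l => (inv_pos.2 (Real.sqrt_pos.2 (hpos l))).ne', fun l l' hl a b ha h => ?_⟩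
  have h1 := congrArg (· ^ 2) h
  simp only [mul_pow, inv_pow, Real.sq_sqrt (hpos _).le] at h1
  have h2 : (a : ℝ) ^ 2 * ((N : ℝ) ^ 2 * t + 4 * ((l' : ℕ) * ((l' : ℕ) + (N : ℝ)))) =
      (b : ℝ) ^ 2 * ((N : ℝ) ^ 2 * t + 4 * ((l : ℕ) * ((l : ℕ) + (N : ℝ)))) := by
    have p1 := (hpos l).ne'
    have p2 := (hpos l').ne'
    field_simp at h1
    linarith
  by_cases hab : a ^ 2 = b ^ 2
  · have hab' : (a : ℝ) ^ 2 = (b : ℝ) ^ 2 := by exact_mod_cast hab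
    have ha' : (a : ℝ) ^ 2 ≠ 0 := pow_ne_zero _ (by exact_mod_cast ha)
    rw [← hab'] at h2
    have h3 := mul_left_cancel₀ ha' h2
    have h4 : ((l' : ℕ) : ℝ) * ((l' : ℕ) + (N : ℝ)) = (l : ℕ) * ((l : ℕ) + (N : ℝ)) := by linarith
    have h5 : (l' : ℕ) * ((l' : ℕ) + N) = (l : ℕ) * ((l : ℕ) + N) := by exact_mod_cast h4
    refine hl (Subtype.ext ?_)
    rcases lt_trichotomy (l : ℕ) l' with h6 | h6 | h6
    · nlinarith
    · exact h6
    · nlinarith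
  · have hne : (((a ^ 2 - b ^ 2) * (N : ℤ) ^ 2 : ℤ) : ℝ) ≠ 0 :=
      Int.cast_ne_zero.2 (mul_ne_zero (sub_ne_zero.2 hab)
        (pow_ne_zero _ (Int.natCast_ne_zero.2 hN.ne')))
    refine ht.ne_rational (4 * (b ^ 2 * ((l : ℕ) * ((l : ℕ) + N)) - a ^ 2 * ((l' : ℕ) * ((l' : ℕ) + N))))
      ((a ^ 2 - b ^ 2) * (N : ℤ) ^ 2) ?_
    rw [eq_div_iff hne]
    push_cast
    linarith

theorem select {D : ℕ} (μ : Fin D → ℤ) (l q₀ : ℕ) (c : ℕ → ℕ)
    (h : ∀ q ∈ Finset.Icc 1 q₀,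
      c q ≤ (Finset.univ.filter fun i => μ i = (l : ℤ) - 2 * q).card) :
    ∃ S : Finset (Fin D), (∀ τ ∈ S, ∃ q ∈ Finset.Icc 1 q₀, μ τ = (l : ℤ) - 2 * q) ∧
      S.card = ∑ q ∈ Finset.Icc 1 q₀, c q ∧
      ∀ f : ℤ → ℝ, ∑ τ ∈ S, f (μ τ) = ∑ q ∈ Finset.Icc 1 q₀, c q * f ((l : ℤ) - 2 * q) := by
  classical
  choose! F hF hF' using fun q hq => Finset.exists_subset_card_eq (h q hq)
  have hμ : ∀ q ∈ Finset.Icc 1 q₀, ∀ τ ∈ F q, μ τ = (l : ℤ) - 2 * q := fun q hq τ hτ =>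
    (Finset.mem_filter.1 (hF q hq hτ)).2
  have hd : (Finset.Icc 1 q₀ : Set ℕ).PairwiseDisjoint F := by
    intro q hq q' hq' hne
    refine Finset.disjoint_left.2 fun τ h1 h2 => hne ?_
    have := (hμ q (by exact_mod_cast hq) τ h1).symm.trans (hμ q' (by exact_mod_cast hq') τ h2)
    omega
  have hd' : ((Finset.Icc 1 q₀ : Finset ℕ) : Set ℕ).PairwiseDisjoint F := by simpa using hd
  refine ⟨(Finset.Icc 1 q₀).biUnion F, fun τ hτ => ?_, ?_, fun f => ?_⟩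
  · obtain ⟨q, hq, h1⟩ := Finset.mem_biUnion.1 hτ
    exact ⟨q, hq, hμ q hq τ h1⟩
  · rw [Finset.card_biUnion hd']
    exact Finset.sum_congr rfl hF'
  · rw [Finset.sum_biUnion hd']
    refine Finset.sum_congr rfl fun q hq => ?_
    rw [Finset.sum_congr rfl fun τ hτ => by rw [hμ q hq τ hτ], Finset.sum_const, hF' q hq,
      nsmul_eq_mul]

variable {n : ℕ}

theorem sg_nonneg (y : Pt n) : 0 ≤ sg y := by
  unfold sg dotProduct
  exact Finset.sum_nonneg fun i _ => mul_self_nonneg (y i)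

theorem ls_nonpos {y : Pt n} (h : sg y ≤ 1) : ls y ≤ 0 :=
  div_nonpos_of_nonpos_of_nonneg (Real.log_nonpos (sg_nonneg y) h) zero_le_two

theorem norm_le_sqrt (y : Pt n) : ‖y‖ ≤ √(sg y) := by
  refine (pi_norm_le_iff_of_nonneg (Real.sqrt_nonneg _)).2 fun i => ?_
  rw [Real.norm_eq_abs]
  refine Real.abs_le_sqrt ?_
  rw [sq]
  exact Finset.single_le_sum (f := fun i => y i * y i) (fun _ _ => mul_self_nonneg _)
    (Finset.mem_univ i)

theorem exp_ls {y : Pt n} (h : 0 < sg y) : Real.exp (ls y) = √(sg y) := by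
  rw [ls, Real.sqrt_eq_rpow, Real.rpow_def_of_pos h]; congr 1; ring

theorem ev_small : ∀ᶠ y : Pt n in 𝓝 0, sg y ≤ 1 := by
  have hc : Continuous (sg : Pt n → ℝ) := by unfold sg; fun_prop
  have : sg (0 : Pt n) < 1 := by simp [sg]
  exact (hc.continuousAt.eventually (gt_mem_nhds this)).mono fun _ h => h.le

/-- the complex solution -/
noncomputable def FF {D : ℕ} (l : ℕ) (w : Fin D → Pt n → ℂ) (u : ℝ → Vc D) (y : Pt n) : ℂ :=
  ∑ i, u (ls y) i * (Real.exp (-(l * ls y)) : ℝ) * w i y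

theorem FF_small {D l : ℕ} {w : Fin D → Pt n → ℂ} {u : ℝ → Vc D} {τ : Fin D}
    (hu : ∀ s ≤ 0, u s = Real.exp (l * s) • ee τ) {y : Pt n} (hy : sg y ≤ 1) :
    FF l w u y = w τ y := by
  rw [FF, hu _ (ls_nonpos hy), Finset.sum_eq_single τ]
  · have : ((Real.exp (l * ls y) : ℝ) : ℂ) * (Real.exp (-(l * ls y)) : ℝ) = 1 := by
      rw [← Complex.ofReal_mul, ← Real.exp_add, add_neg_cancel, Real.exp_zero, Complex.ofReal_one]
    simp only [ee, Pi.smul_apply, Pi.single_eq_same, Complex.real_smul, mul_one, this, one_mul]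
  · intro i _ hi
    simp [ee, hi]
  · simp

theorem FF_growth {D l k : ℕ} {w : Fin D → Pt n → ℂ} {u : ℝ → Vc D} {τ : Fin D} {r : ℝ}
    {dd : Pt n → ℝ} (hr : 0 < r) (hw : ∀ i, ∃ C : ℝ, ∀ y, ‖w i y‖ ≤ C * ‖y‖ ^ l)
    (hu : ∀ s ≤ 0, u s = Real.exp (l * s) • ee τ)
    (hg : ∃ C : ℝ, ∀ s ≥ 0, ‖u s‖ ≤ C * Real.exp (k * r * s))
    (hd : ∀ y, (1 + sg y) ^ (r / 2) ≤ 1 + dd y) :
    ∃ C : ℝ, ∀ y, ‖FF l w u y‖ ≤ C * (1 + dd y) ^ k := by
  choose Cw hCw using hw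
  obtain ⟨C, hC⟩ := hg
  have hw' : ∀ i y, ‖w i y‖ ≤ |Cw i| * √(sg y) ^ l := fun i y =>
    (hCw i y).trans (mul_le_mul (le_abs_self _)
      (pow_le_pow_left₀ (norm_nonneg _) (norm_le_sqrt y) _) (by positivity) (abs_nonneg _))
  have hS : 0 ≤ ∑ i, |Cw i| := Finset.sum_nonneg fun _ _ => abs_nonneg _
  refine ⟨|Cw τ| + |C| * ∑ i, |Cw i|, fun y => ?_⟩
  have h1 : 1 ≤ 1 + dd y := (Real.one_le_rpow (by linarith [sg_nonneg y]) (by positivity)).trans (hd y)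
  have h2 : 1 ≤ (1 + dd y) ^ k := one_le_pow₀ h1
  have h3 : 0 ≤ |C| * ∑ i, |Cw i| := by positivity
  rcases le_total (sg y) 1 with hy | hy
  · rw [FF_small hu hy]
    have : √(sg y) ^ l ≤ 1 := pow_le_one₀ (Real.sqrt_nonneg _) (Real.sqrt_le_one.2 hy)
    have h4 : ‖w τ y‖ ≤ |Cw τ| := (hw' τ y).trans (mul_le_of_le_one_right (abs_nonneg _) this)
    nlinarith [abs_nonneg (Cw τ)]
  · have hy0 : 0 < sg y := by linarith
    have hs : 0 ≤ ls y := div_nonneg (Real.log_nonneg hy) zero_le_two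
    have h4 : Real.exp (k * r * ls y) ≤ (1 + dd y) ^ k := by
      rw [mul_assoc, Real.exp_nat_mul]
      refine pow_le_pow_left₀ (Real.exp_pos _).le (le_trans ?_ (hd y)) _
      have : Real.exp (r * ls y) = sg y ^ (r / 2) := by
        rw [Real.rpow_def_of_pos hy0, ls]; congr 1; ring
      rw [this]
      exact Real.rpow_le_rpow hy0.le (by linarith) (by positivity)
    have h5 : ‖u (ls y)‖ ≤ |C| * (1 + dd y) ^ k :=
      (hC _ hs).trans (mul_le_mul (le_abs_self _) h4 (Real.exp_pos _).le (abs_nonneg _))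
    have h6 : Real.exp (-(l * ls y)) * √(sg y) ^ l = 1 := by
      rw [← exp_ls hy0, ← Real.exp_nat_mul, ← Real.exp_add, neg_add_cancel, Real.exp_zero]
    have h7 : ‖FF l w u y‖ ≤ ∑ i, |C| * (1 + dd y) ^ k * |Cw i| := by
      refine (norm_sum_le _ _).trans (Finset.sum_le_sum fun i _ => ?_)
      rw [norm_mul, norm_mul, Complex.norm_real, Real.norm_eq_abs, abs_of_pos (Real.exp_pos _),
        mul_assoc]
      refine mul_le_mul ((norm_le_pi_norm _ i).trans h5) ?_ (by positivity) (by positivity)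
      calc _ ≤ Real.exp (-(l * ls y)) * (|Cw i| * √(sg y) ^ l) :=
            mul_le_mul_of_nonneg_left (hw' i y) (Real.exp_pos _).le
        _ = |Cw i| * (Real.exp (-(l * ls y)) * √(sg y) ^ l) := by ring
        _ = _ := by rw [h6, mul_one]
    rw [← Finset.mul_sum] at h7
    nlinarith [abs_nonneg (Cw τ)]

theorem indep {Λ : Type} [Fintype Λ] [DecidableEq Λ] {dim : Λ → ℕ}
    (S : ∀ l, Finset (Fin (dim l))) (w F : ∀ l, Fin (dim l) → Pt n → ℂ)
    (hF : ∀ l, ∀ τ ∈ S l, ∀ y, sg y ≤ 1 → F l τ y = w l τ y)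
    (hw : ∀ z : ∀ l, Fin (dim l) → ℂ, (∀ l i, z l i ≠ 0 → i ∈ S l) →
      (∀ᶠ y in 𝓝 0, (∑ l, ∑ i, z l i * w l i y).re = 0) → ∀ l i, z l i = 0) :
    LinearIndependent ℝ fun (a : (Σ l, S l) × Bool) (y : Pt n) =>
      ((if a.2 then 1 else Complex.I) * F a.1.1 a.1.2 y).re := by
  rw [Fintype.linearIndependent_iff]
  intro g hg
  have key := hw (fun l i => if h : i ∈ S l then
    (g (⟨l, i, h⟩, true) : ℂ) + g (⟨l, i, h⟩, false) * Complex.I else 0)
    (fun l i h => by by_contra h'; exact h (dif_neg h')) (by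
      filter_upwards [ev_small] with y hy
      have := congrFun hg y
      simp only [Finset.sum_apply, Pi.smul_apply, smul_eq_mul, Pi.zero_apply,
        Fintype.sum_prod_type, Fintype.sum_sigma, Fintype.sum_bool] at this
      rw [← this, Complex.re_sum]
      refine Finset.sum_congr rfl fun l _ => ?_
      rw [Complex.re_sum, ← Finset.sum_subset (Finset.subset_univ (S l))
        (fun i _ hi => by simp [hi]), ← Finset.sum_coe_sort]
      refine Finset.sum_congr rfl fun i _ => ?_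
      simp [hF l i i.2 y hy]
      ring)
  rintro ⟨⟨l, i, h⟩, b⟩
  have h1 := key l i
  simp only [dif_pos h] at h1
  cases b
  · simpa using congrArg Complex.im h1
  · simpa using congrArg Complex.re h1

end Vale.Agent.P225.Main
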