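import Vale.Agent.P225.Iface

/-! Several pulses in a row, and the cyclic potential. -/

namespace Vale.Agent.P225

open Set

namespace Multi

theorem exp_bound {D : ℕ} (K : Op D) (c Y₀ : ℝ) :
    ∃ B ≥ 0, ∀ y : ℝ, |y| ≤ Y₀ → ‖NormedSpace.exp ((c * y) • K)‖ ≤ B := by
  let _ : NormedAlgebra ℚ (Op D) := NormedAlgebra.restrictScalars ℚ ℂ _
  have hc : Continuous fun y : ℝ => NormedSpace.exp ((c * y) • K) :=
    NormedSpace.exp_continuous.comp (by fun_prop)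
  obtain ⟨B, hB⟩ := (isCompact_Icc (a := -Y₀) (b := Y₀)).exists_bound_of_continuousOn
    hc.continuousOn
  exact ⟨max B 0, le_max_right _ _, fun y hy => (hB y (abs_le.1 hy)).trans (le_max_left _ _)⟩

theorem prod_bound {D : ℕ} (K : ℕ → Op D) (c Y₀ : ℝ) (N : ℕ) :
    ∃ B ≥ 0, ∀ y : ℕ → ℝ, (∀ i, |y i| ≤ Y₀) →
      ‖prodUp (fun i => NormedSpace.exp ((c * y i) • K i)) N‖ ≤ B := by
  induction N with
  | zero => exact ⟨1, zero_le_one, fun _ _ => ContinuousLinearMap.norm_id_le⟩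
  | succ N ih =>
    obtain ⟨B, hB, h⟩ := ih
    obtain ⟨B', hB', h'⟩ := exp_bound (K N) c Y₀
    exact ⟨B' * B, by positivity, fun y hy => (norm_mul_le _ _).trans
      (mul_le_mul (h' _ (hy N)) (h y hy) (norm_nonneg _) hB')⟩

theorem combine {D : ℕ} {P E : Op D} {u₀ u₁ u₂ : Vc D} {Γ Γ' B B' C C' e ε w₀ w₁ w₂ : ℝ}
    (hΓ : 0 < Γ) (hΓ' : 0 < Γ') (hP : ‖P‖ ≤ B) (hE : ‖E‖ ≤ B') (hC : 0 ≤ C) (hC' : 0 ≤ C')
    (he : 0 < e) (he1 : e ≤ 1) (hε : e * (B + 1 + C' + B') ≤ ε) (hw : 0 ≤ w₀)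
    (h1 : ‖u₁ - Γ • P u₀‖ ≤ Γ * (e * ‖u₀‖ + C * w₀)) (h2 : w₁ ≤ Γ * (e * ‖u₀‖ + C * w₀))
    (h3 : ‖u₂ - Γ' • E u₁‖ ≤ Γ' * (e * ‖u₁‖ + C' * w₁)) (h4 : w₂ ≤ Γ' * (e * ‖u₁‖ + C' * w₁)) :
    ‖u₂ - (Γ' * Γ) • (E * P) u₀‖ ≤ Γ' * Γ * (ε * ‖u₀‖ + (C + C' * C + B' * C) * w₀) ∧
      w₂ ≤ Γ' * Γ * (ε * ‖u₀‖ + (C + C' * C + B' * C) * w₀) := by
  have hB' : 0 ≤ B' := (norm_nonneg _).trans hE
  have hu := norm_nonneg u₀
  set X := e * ‖u₀‖ + C * w₀ with hX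
  have hX0 : 0 ≤ X := by positivity
  have g1 : ‖u₁‖ ≤ Γ * (X + B * ‖u₀‖) := by
    have g : ‖Γ • P u₀‖ ≤ Γ * (B * ‖u₀‖) := by
      rw [norm_smul, Real.norm_of_nonneg hΓ.le]
      exact mul_le_mul_of_nonneg_left (P.le_of_opNorm_le hP _) hΓ.le
    have := norm_le_insert' u₁ (Γ • P u₀)
    linarith
  have g2 : ‖Γ' • E u₁ - (Γ' * Γ) • (E * P) u₀‖ ≤ Γ' * (B' * (Γ * X)) := by
    have e1 : Γ' • E u₁ - (Γ' * Γ) • (E * P) u₀ = Γ' • E (u₁ - Γ • P u₀) := by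
      rw [map_sub, smul_sub, ContinuousLinearMap.map_smul_of_tower, smul_smul]
      rfl
    rw [e1, norm_smul, Real.norm_of_nonneg hΓ'.le]
    exact mul_le_mul_of_nonneg_left ((E.le_of_opNorm_le hE _).trans
      (mul_le_mul_of_nonneg_left h1 hB')) hΓ'.le
  have g3 : e * ‖u₁‖ + C' * w₁ ≤ Γ * (e * (X + B * ‖u₀‖) + C' * X) := by
    have a1 := mul_le_mul_of_nonneg_left g1 he.le
    have a2 := mul_le_mul_of_nonneg_left h2 hC'
    linarith
  have g4 : e * (X + B * ‖u₀‖) + C' * X + B' * X ≤ ε * ‖u₀‖ + (C + C' * C + B' * C) * w₀ := by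
    have a1 := mul_le_mul_of_nonneg_right hε hu
    have a2 := mul_le_mul_of_nonneg_right he1 hX0
    rw [hX] at a2 ⊢
    linarith
  have g5 := mul_le_mul_of_nonneg_left g3 hΓ'.le
  have g6 := mul_le_mul_of_nonneg_left g4 (mul_pos hΓ' hΓ).le
  have g7 : 0 ≤ Γ' * (B' * (Γ * X)) := by positivity
  have g8 := norm_sub_le_norm_sub_add_norm_sub u₂ (Γ' • E u₁) ((Γ' * Γ) • (E * P) u₀)
  constructor <;> linarith

theorem cyc {t : ℕ} (f : Fin (t + 1) → ℝ) (h : ∑ i, f i = 0) :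
    ∃ g : Fin (t + 1) → ℝ, ∀ i, f (finRotate (t + 1) i) = g (finRotate (t + 1) i) - g i := by
  let F : ℕ → ℝ := fun j => if hj : j < t + 1 then f ⟨j, hj⟩ else 0
  have hF : ∀ i : Fin (t + 1), F i = f i := fun i => dif_pos i.2
  refine ⟨fun i => ∑ j ∈ Finset.range (i + 1), F j, fun i => ?_⟩
  beta_reduce
  induction i using Fin.lastCases with
  | last =>
    rw [finRotate_last, Fin.val_last, Finset.sum_range (n := t + 1) F,
      Finset.sum_congr rfl fun i _ => hF i, h, ← hF]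
    simp
  | cast i =>
    have e : finRotate (t + 1) i.castSucc = i.succ := by
      rw [finRotate_apply, Fin.coeSucc_eq_succ]
    rw [e, ← hF, Fin.val_succ, Fin.val_castSucc, Finset.sum_range_succ _ (i + 1)]
    ring

end Multi

open Multi

theorem multiStmt (h : PulseStmt) : MultiStmt := by
  intro D K p q lam β N' Y₀ hp hβ hlam hN' N
  induction N with
  | zero =>
    refine ⟨1, zero_le_one, 0, le_rfl, fun ε hε => ⟨0, fun a _ T _ y _ =>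
      ⟨1, one_pos, by simp, fun Q u v _ _ => ?_⟩⟩⟩
    have h1 := mul_nonneg hε.le (norm_nonneg (u a))
    have h2 := norm_nonneg (v a - β • u a)
    simp only [Nat.cast_zero, zero_mul, add_zero, prodUp, one_smul, one_apply_eq_self,
      sub_self, norm_zero, one_mul]
    constructor <;> linarith
  | succ N ih =>
    obtain ⟨C, hC, Y, hY, ih⟩ := ih
    obtain ⟨C', hC', Y', hY', hpul⟩ := h D (K N) p q lam β N' Y₀ hp hβ hlam hN'
    obtain ⟨B, hB, hPB⟩ := prod_bound (fun i => (2 * β + q)⁻¹ • K i) (-2 * (N' + 1) * Ipsi) Y₀ N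
    obtain ⟨B', hB', hEB⟩ := exp_bound ((2 * β + q)⁻¹ • K N) (-2 * (N' + 1) * Ipsi) Y₀
    refine ⟨C + C' * C + B' * C, by positivity, Y' + Y, by positivity, fun ε hε => ?_⟩
    have hS : 0 < B + 1 + C' + B' := by positivity
    have he : 0 < min 1 (ε / (B + 1 + C' + B')) := lt_min one_pos (div_pos hε hS)
    obtain ⟨a₁, h1⟩ := ih _ he
    obtain ⟨a₂, h2⟩ := hpul _ he
    refine ⟨max (max a₁ a₂) 0, fun a ha T hT y hy => ?_⟩
    simp only [ge_iff_le, max_le_iff] at ha hT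
    have hNT : 0 ≤ (N : ℝ) * T := mul_nonneg N.cast_nonneg hT.2
    obtain ⟨Γ, hΓ, hΓY, h1⟩ := h1 a ha.1.1 T hT.1.1 y hy
    obtain ⟨Γ', hΓ', hΓY', h2⟩ := h2 (a + N * T) (by linarith [ha.1.2]) T hT.1.2 (y N) (hy N)
    refine ⟨Γ' * Γ, mul_pos hΓ' hΓ, ?_, fun Q u v hW hs => ?_⟩
    · rw [mul_add, Real.exp_add]
      exact mul_le_mul hΓY' hΓY hΓ.le (Real.exp_pos _).le
    have e : a + ((N + 1 : ℕ) : ℝ) * T = a + N * T + T := by push_cast; ring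
    rw [e] at hs ⊢
    obtain ⟨g1, g2⟩ := h1 Q u v (fun i hi => hW i (Nat.lt_succ_of_lt hi))
      fun s hs' => hs s ⟨hs'.1, by linarith [hs'.2, hT.2]⟩
    obtain ⟨g3, g4⟩ := h2 u v fun s hs' => by
      have := hs s ⟨by linarith [hs'.1], hs'.2⟩
      rwa [hW N (Nat.lt_succ_self N) s ⟨hs'.1, by linarith [hs'.2]⟩] at this
    exact combine hΓ hΓ' (hPB y hy) (hEB _ (hy N)) hC hC' he (min_le_left _ _)
      ((le_div_iff₀ hS).1 (min_le_right _ _)) (norm_nonneg _) g1 g2 g3 g4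

theorem potStmt : PotStmt := by
  intro D S b κ h
  have hS : S.card ≠ 0 := by
    intro h0
    rw [Finset.card_eq_zero.1 h0] at h
    simp at h
  obtain ⟨t, ht⟩ := Nat.exists_eq_succ_of_ne_zero hS
  let e : Fin (t + 1) ≃ {τ // τ ∈ S} := (S.equivFinOfCardEq ht).symm
  have hpos : (0 : ℝ) < t + 1 := by positivity
  set δ := -(∑ τ ∈ S, (b τ - κ)) / (t + 1) with hδ
  obtain ⟨g, hg⟩ := cyc (fun i => b (e i) - κ + δ) (by
    rw [Finset.sum_add_distrib, e.sum_comp fun τ => b τ - κ, Finset.sum_coe_sort S fun τ => b τ - κ]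
    simp only [Finset.sum_const, Finset.card_univ, Fintype.card_fin, nsmul_eq_mul, hδ]
    push_cast
    field_simp
    ring)
  let θ : Fin D → ℝ := fun τ => if hτ : τ ∈ S then g (e.symm ⟨τ, hτ⟩) else 0
  have hθ : ∀ i, θ (e i) = g i := fun i => by simp [θ, (e i).2]
  refine ⟨(finRotate (t + 1)).extendDomain e, δ, fun τ => θ τ + ∑ σ, |θ σ|,
    div_pos (neg_pos.2 h) hpos, fun τ hτ => Equiv.Perm.extendDomain_apply_not_subtype _ _ hτ,
    fun τ => ?_, fun τ hτ => ?_⟩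
  · have := Finset.single_le_sum (f := fun σ => |θ σ|) (fun σ _ => abs_nonneg _)
      (Finset.mem_univ τ)
    linarith [neg_abs_le (θ τ)]
  · obtain ⟨i, hi⟩ := e.surjective ⟨τ, hτ⟩
    obtain rfl : (e i).1 = τ := congrArg Subtype.val hi
    simp only [Equiv.Perm.extendDomain_apply_image, hθ]
    linarith [hg i]

end Vale.Agent.P225
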