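import Vale.Agent.P225.RDefs

/-! The numerical inequality (`m = 16`, `k = 4000`). -/

namespace Vale.Agent.P225

open Finset

namespace Num

/-- explicit formula for `Bn 16` -/
def P' (p : ℕ) : ℕ :=
  (p + 1) * (p + 2) * (p + 3) * (p + 4) * (p + 5) * (p + 6) * (p + 7) * (p + 8) * (p + 9) *
    (p + 10) * (p + 11) * (p + 12) * (p + 13) * (p + 14) * (p + 15) / 1307674368000

/-- the same function, in a form whose values the kernel caches -/
def P (p : ℕ) : ℕ := Nat.rec (P' 0) (fun n _ => Nat.add (P' (n + 1)) 0) p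

theorem P_eq (p : ℕ) : P p = P' p := by cases p <;> rfl

theorem Bn_eq (p : ℕ) : Bn 16 p = P p := by
  have h1 : Bn 16 p = (p + 15).choose 15 := by
    rw [Bn, show 16 + p - 1 = p + 15 by omega, Nat.choose_symm_add]
  have h2 := Nat.ascFactorial_eq_factorial_mul_choose p 15
  have h3 : (p + 1).ascFactorial 15 = (p + 1) * (p + 2) * (p + 3) * (p + 4) * (p + 5) * (p + 6) *
      (p + 7) * (p + 8) * (p + 9) * (p + 10) * (p + 11) * (p + 12) * (p + 13) * (p + 14) *
      (p + 15) := by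
    simp only [Nat.ascFactorial_succ, Nat.ascFactorial_zero]
    ring
  have h4 : Nat.factorial 15 = 1307674368000 := by decide
  rw [h1, P_eq, P', ← h3, h2, h4, Nat.mul_div_cancel_left _ (by norm_num)]

theorem Bn_mono (p : ℕ) : Bn 16 (p - 1) ≤ Bn 16 p := by
  have h1 : ∀ p, Bn 16 p = (p + 15).choose 15 := fun p => by
    rw [Bn, show 16 + p - 1 = p + 15 by omega, Nat.choose_symm_add]
  rw [h1, h1]
  exact Nat.choose_le_choose _ (by omega)

theorem Bn_pos (p : ℕ) : 0 < Bn 16 p := Nat.choose_pos (by omega)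

/-- finite sums, evaluated by the kernel -/
def sm (f : ℕ → ℕ) (n : ℕ) : ℕ := Nat.rec 0 (fun q s => s + f (q + 1)) n

theorem sm_eq (f : ℕ → ℕ) (n : ℕ) : ∑ q ∈ Icc 1 n, f q = sm f n := by
  induction n with
  | zero => rfl
  | succ n ih => rw [Finset.sum_Icc_succ_top (by omega), ih]; rfl

def D (l q : ℕ) : ℕ := P (l - q) * P q - P (l - q - 1) * P (q - 1)

theorem Dn_eq (l q : ℕ) : Dn 16 (l - q) q = D l q := by
  simp only [Dn, D, Bn_eq]

def S0 (l Q : ℕ) : ℕ := sm (D l) Q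

def S2 (l Q : ℕ) : ℕ := sm (fun q => D l q * ((l - 2 * q) * (l - 2 * q))) Q

def cuts : List ℕ := [1994, 1995, 1995, 1996, 1996, 1918, 1855, 1802, 1756, 1715, 1677, 1643,
  1610, 1580, 1551, 1524, 1498, 1473, 1449, 1426, 1403, 1382, 1361, 1340, 1321, 1301, 1283, 1264,
  1246, 1229, 1212, 1195, 1178, 1162]

def q0 (l : ℕ) : ℕ := if l ≤ 3989 then (l - 1) / 2 else cuts.getD (l - 3990) 0

def ok (l : ℕ) : Bool :=
  Nat.blt (2 * q0 l) l &&
    Nat.blt (l * (l + 30) * 1002500000 * S0 l (q0 l))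
      (997121405 * 16120000 * S0 l (q0 l) + 74669678 * S2 l (q0 l))

def E (l : ℕ) : ℕ := sm (fun q => P (l - q) * P q) ((l - 1) / 2)

theorem ok_all : (List.range 34).all (fun i => ok (3990 + i)) = true := by
  decide +kernel

theorem cnt : Nat.descFactorial (3999 + 1 + 31) 31 / Nat.factorial 31 +
    Nat.descFactorial (3999 + 31) 31 / Nat.factorial 31 + 2 * sm P 3987 <
    2 * (E (3987 + 2) + E (3987 + 1) +
      sm (fun i => S0 (3987 + 2 + i) (q0 (3987 + 2 + i))) 34) := by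
  decide +kernel

theorem step (l : ℕ) (hl : 1 ≤ l) : S0 (l + 2) ((l + 2 - 1) / 2) + E l + P l = E (l + 2) := by
  have key : ∀ Q, Q ≤ l → sm (D (l + 2)) (Q + 1) + sm (fun q => P (l - q) * P q) Q + P l =
      sm (fun q => P (l + 2 - q) * P q) (Q + 1) := by
    have hD : ∀ q, q ≤ l → D (l + 2) (q + 1) + P (l - q) * P q = P (l + 2 - (q + 1)) * P (q + 1) := by
      intro q hq
      have h1 := Bn_mono (l + 2 - (q + 1))
      have h2 := Bn_mono (q + 1)
      rw [Bn_eq, Bn_eq] at h1 h2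
      have h3 := Nat.mul_le_mul h1 h2
      rw [D, show l - q = l + 2 - (q + 1) - 1 by omega]
      exact Nat.sub_add_cancel h3
    intro Q
    induction Q with
    | zero =>
      intro _
      have h := hD 0 (by omega)
      have h0 : P 0 = 1 := by decide
      rw [h0, mul_one, Nat.sub_zero] at h
      show 0 + D (l + 2) (0 + 1) + 0 + P l = 0 + P (l + 2 - (0 + 1)) * P (0 + 1)
      omega
    | succ Q ih =>
      intro hQ
      have h := hD (Q + 1) hQ
      have h' := ih (by omega)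
      show sm (D (l + 2)) (Q + 1) + D (l + 2) (Q + 1 + 1) +
        (sm (fun q => P (l - q) * P q) Q + P (l - (Q + 1)) * P (Q + 1)) + P l =
        sm (fun q => P (l + 2 - q) * P q) (Q + 1) + P (l + 2 - (Q + 1 + 1)) * P (Q + 1 + 1)
      omega
  rw [S0, E, E, show (l + 2 - 1) / 2 = (l - 1) / 2 + 1 by omega]
  exact key _ (by omega)

theorem tele (n : ℕ) :
    ∑ l ∈ Icc 3 (n + 2), S0 l ((l - 1) / 2) + sm P n = E (n + 2) + E (n + 1) := by
  induction n with
  | zero => rfl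
  | succ n ih =>
    have h := step (n + 1) (by omega)
    rw [show n + 1 + 2 = n + 2 + 1 by omega, Finset.sum_Icc_succ_top (by omega)]
    have h2 : sm P (n + 1) = sm P n + P (n + 1) := rfl
    rw [show n + 1 + 2 = n + 2 + 1 by omega] at h
    rw [show n + 1 + 1 = n + 2 by omega]
    omega

theorem split (f : ℕ → ℕ) (a j : ℕ) (ha : 2 ≤ a) :
    ∑ l ∈ Icc 3 (a + j), f l = ∑ l ∈ Icc 3 a, f l + sm (fun i => f (a + i)) j := by
  induction j with
  | zero => rfl
  | succ j ih =>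
    rw [← add_assoc, Finset.sum_Icc_succ_top (by omega), ih, add_assoc]
    rfl

theorem S0_eq (l Q : ℕ) : ∑ q ∈ Icc 1 Q, Dn 16 (l - q) q = S0 l Q := by
  rw [S0, ← sm_eq]
  exact Finset.sum_congr rfl fun q _ => Dn_eq l q

theorem choose_eq (n k : ℕ) : (k + n).choose k = Nat.descFactorial (k + n) n / Nat.factorial n := by
  rw [← Nat.choose_eq_descFactorial_div_factorial, Nat.choose_symm_add]

theorem count_aux (a j k : ℕ) (hq : ∀ l ≤ a + 2, q0 l = (l - 1) / 2)
    (h : Nat.descFactorial (k + 1 + 31) 31 / Nat.factorial 31 +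
      Nat.descFactorial (k + 31) 31 / Nat.factorial 31 + 2 * sm P a <
      2 * (E (a + 2) + E (a + 1) + sm (fun i => S0 (a + 2 + i) (q0 (a + 2 + i))) j)) :
    (16 + 16 + (k + 1) - 1).choose (k + 1) + (16 + 16 + (k + 1) - 2).choose (k + 1 - 1) <
      2 * ∑ l ∈ Icc 3 (a + 2 + j), ∑ q ∈ Icc 1 (q0 l), Dn 16 (l - q) q := by
  have h3 := split (fun l => S0 l (q0 l)) (a + 2) j (by omega)
  have h4 := tele a
  have h5 : ∑ l ∈ Icc 3 (a + 2), S0 l (q0 l) = ∑ l ∈ Icc 3 (a + 2), S0 l ((l - 1) / 2) :=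
    Finset.sum_congr rfl fun l hl => by rw [hq l (Finset.mem_Icc.1 hl).2]
  rw [← choose_eq, ← choose_eq] at h
  rw [show 16 + 16 + (k + 1) - 1 = k + 1 + 31 by omega,
    show 16 + 16 + (k + 1) - 2 = k + 31 by omega, show k + 1 - 1 = k by omega,
    Finset.sum_congr rfl fun l _ => S0_eq l (q0 l), h3, h5]
  omega

theorem count :
    (16 + 16 + (3999 + 1) - 1).choose (3999 + 1) +
      (16 + 16 + (3999 + 1) - 2).choose (3999 + 1 - 1) <
      2 * ∑ l ∈ Icc 3 (3987 + 2 + 34), ∑ q ∈ Icc 1 (q0 l), Dn 16 (l - q) q :=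
  count_aux 3987 34 3999 (fun _ h => if_pos h) cnt

theorem S0_pos (l Q : ℕ) (hQ : 1 ≤ Q) : 0 < S0 l Q := by
  rw [← S0_eq]
  refine Finset.sum_pos' (fun _ _ => Nat.zero_le _) ⟨1, Finset.mem_Icc.2 ⟨le_rfl, hQ⟩, ?_⟩
  have h1 := Bn_mono (l - 1)
  have h2 := Bn_pos (l - 1)
  have h3 : Bn 16 1 = 16 := by decide
  have h4 : Bn 16 (1 - 1) = 1 := by decide
  rw [Dn, h3, h4]
  omega

theorem nat_ok (l : ℕ) (h3 : 3 ≤ l) (h4 : l ≤ 4023) : 2 * q0 l < l ∧
    l * (l + 30) * 1002500000 * S0 l (q0 l) <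
      997121405 * 16120000 * S0 l (q0 l) + 74669678 * S2 l (q0 l) := by
  by_cases h : l ≤ 3989
  · have hq : q0 l = (l - 1) / 2 := if_pos h
    refine ⟨by omega, Nat.lt_add_right _ ?_⟩
    refine Nat.mul_lt_mul_of_pos_right ?_ (S0_pos _ _ (by omega))
    have : l * (l + 30) ≤ 3989 * (3989 + 30) := Nat.mul_le_mul h (by omega)
    omega
  · have h1 := List.all_eq_true.1 ok_all (l - 3990) (List.mem_range.2 (by omega))
    rw [show 3990 + (l - 3990) = l by omega, ok, Bool.and_eq_true, Nat.blt_eq, Nat.blt_eq] at h1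
    exact h1

theorem real_ok (l Q : ℕ) (hQ : 2 * Q < l) (B : ℝ) (hB : 74669678 / 10 ^ 9 ≤ B)
    (h : l * (l + 30) * 1002500000 * S0 l Q <
      997121405 * 16120000 * S0 l Q + 74669678 * S2 l Q) :
    ∑ q ∈ Icc 1 Q, (Dn 16 (l - q) q : ℝ) *
      (l * (l + 30) * (401 / 400) - ((l : ℝ) - 2 * q) ^ 2 * B -
        199424281 / 200000000 * (4000 * (4000 + 30))) < 0 := by
  have e0 : (S0 l Q : ℝ) = ∑ q ∈ Icc 1 Q, (Dn 16 (l - q) q : ℝ) := by
    rw [← S0_eq, Nat.cast_sum]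
  have e2 : (S2 l Q : ℝ) = ∑ q ∈ Icc 1 Q, (Dn 16 (l - q) q : ℝ) * ((l : ℝ) - 2 * q) ^ 2 := by
    rw [S2, ← sm_eq, Nat.cast_sum]
    refine Finset.sum_congr rfl fun q hq => ?_
    have hq' : 2 * q ≤ l := by have := (Finset.mem_Icc.1 hq).2; omega
    rw [Dn_eq, Nat.cast_mul, Nat.cast_mul, Nat.cast_sub hq']
    push_cast
    ring
  have e : ∑ q ∈ Icc 1 Q, (Dn 16 (l - q) q : ℝ) *
      (l * (l + 30) * (401 / 400) - ((l : ℝ) - 2 * q) ^ 2 * B -
        199424281 / 200000000 * (4000 * (4000 + 30))) =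
      (l * (l + 30) * (401 / 400) - 199424281 / 200000000 * (4000 * (4000 + 30))) * S0 l Q -
        B * S2 l Q := by
    rw [e0, e2, Finset.mul_sum, Finset.mul_sum, ← Finset.sum_sub_distrib]
    exact Finset.sum_congr rfl fun q _ => by ring
  have h' : ((l * (l + 30) * 1002500000 * S0 l Q : ℕ) : ℝ) <
      ((997121405 * 16120000 * S0 l Q + 74669678 * S2 l Q : ℕ) : ℝ) := Nat.cast_lt.2 h
  push_cast at h'
  have h2 : (0 : ℝ) ≤ S2 l Q := Nat.cast_nonneg _
  have h3 := mul_le_mul_of_nonneg_right hB h2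
  rw [e]
  linarith

end Num

theorem numStmt : NumStmt := by
  refine ⟨16, 3999 + 1, 401 / 400, 199424281 / 200000000, Icc 3 (3987 + 2 + 34), Num.q0,
    by norm_num, by norm_num, by norm_num, by norm_num, by norm_num, by norm_num,
    fun l hl => ?_, Num.count⟩
  obtain ⟨h3, h4⟩ := Finset.mem_Icc.1 hl
  obtain ⟨h5, h6⟩ := Num.nat_ok l h3 h4
  refine ⟨by omega, h5, ?_⟩
  have h := Num.real_ok l _ h5 (401 / 400 - ((401 / 400 : ℝ) ^ (16 + 16 - 2))⁻¹) (by norm_num) h6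
  have e : (((16 + 16 : ℕ) : ℝ) - 2) = 30 := by norm_num
  rw [e, show ((3999 + 1 : ℕ) : ℝ) = 4000 by norm_num]
  exact h

end Vale.Agent.P225
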