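import Vale.Agent.P225.RDefs

/-! Isolating a rank one operator by brackets. -/

namespace Vale.Agent.P225

open scoped Matrix
open MvPolynomial

namespace One

variable {m : ℕ}

/-- diagonal operators, linear version -/
noncomputable def Dl (f : (Ix m →₀ ℕ) → ℂ) : Module.End ℂ (Pol m) :=
  (basisMonomials (Ix m) ℂ).constr ℂ fun d => f d • monomial d 1

theorem Dl_monomial (f : (Ix m →₀ ℕ) → ℂ) (d : Ix m →₀ ℕ) :
    Dl f (monomial d 1) = f d • monomial d 1 := by
  have := (basisMonomials (Ix m) ℂ).constr_basis ℂ (fun d => f d • (monomial d 1 : Pol m)) d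
  simpa [Dl] using this

theorem end_ext {S T : Module.End ℂ (Pol m)}
    (h : ∀ d, S (monomial d 1) = T (monomial d 1)) : S = T :=
  (basisMonomials (Ix m) ℂ).ext fun d => by simpa using h d

/-- diagonal operators -/
noncomputable def Dg : ((Ix m →₀ ℕ) → ℂ) →ₐ[ℂ] Module.End ℂ (Pol m) where
  toFun := Dl
  map_one' := end_ext fun d => by simp [Dl_monomial]
  map_mul' f g := end_ext fun d => by
    simp [Dl_monomial, smul_smul, mul_comm]
  map_zero' := end_ext fun d => by simp [Dl_monomial]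
  map_add' f g := end_ext fun d => by simp [Dl_monomial, add_smul]
  commutes' z := end_ext fun d => by simp [Dl_monomial]

theorem Dg_monomial (f : (Ix m →₀ ℕ) → ℂ) (d : Ix m →₀ ℕ) :
    Dg f (monomial d 1 : Pol m) = f d • monomial d 1 := Dl_monomial f d

theorem coeff_Dg (f : (Ix m →₀ ℕ) → ℂ) (d : Ix m →₀ ℕ) (P : Pol m) :
    coeff d (Dg f P) = f d * coeff d P := by
  classical
  have : (lcoeff ℂ d : Pol m →ₗ[ℂ] ℂ) ∘ₗ Dg f = f d • lcoeff ℂ d := by
    refine (basisMonomials (Ix m) ℂ).ext fun e => ?_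
    simp only [coe_basisMonomials, LinearMap.comp_apply, Dg_monomial, LinearMap.smul_apply,
      lcoeff_apply, coeff_smul, coeff_monomial, smul_eq_mul]
    split_ifs with h
    · rw [h]
    · simp
  simpa using LinearMap.congr_fun this P

/-- the eigenvalue of `H_b` on a monomial -/
def hv (b : Fin m) : (Ix m →₀ ℕ) → ℂ := fun d => (d (Sum.inl b) : ℂ) - d (Sum.inr b)

theorem DM_Hm (b : Fin m) : DM (Hm b) = Dg (hv b) := by
  refine end_ext fun d => ?_
  rw [Hm, DM_Rm, Dg_monomial]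
  simp only [Sum.swap_inl, Sum.swap_inr, X_mul_pderiv_monomial, hv, sub_smul, Nat.cast_smul_eq_nsmul]

/-- the weight of a variable -/
def hw (s : Ix m) (b : Fin m) : ℂ :=
  if s = Sum.inl b then 1 else if s = Sum.inr b then -1 else 0

theorem hw_swap (s : Ix m) (b : Fin m) : hw (Sum.swap s) b = -hw s b := by
  cases s <;> simp [hw] <;> split_ifs <;> simp

theorem H_X_mul (b : Fin m) (s : Ix m) (P : Pol m) :
    Dg (hv b) (X s * P) = X s * (Dg (hv b) P + hw s b • P) := by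
  classical
  rw [← DM_Hm, Hm, DM_Rm, DM_Rm]
  simp only [Sum.swap_inl, Sum.swap_inr, Derivation.leibniz, pderiv_X, smul_eq_mul, hw,
    Pi.single_apply]
  by_cases h1 : s = Sum.inl b
  · subst h1; simp; ring
  · by_cases h2 : s = Sum.inr b
    · subst h2; simp; ring
    · simp [h1, h2]; ring

theorem H_pderiv (b : Fin m) (s : Ix m) (P : Pol m) :
    Dg (hv b) (pderiv s P) = pderiv s (Dg (hv b) P - hw s b • P) := by
  classical
  rw [← DM_Hm, Hm, DM_Rm, DM_Rm]
  simp only [Sum.swap_inl, Sum.swap_inr, Derivation.leibniz, pderiv_X, smul_eq_mul, hw,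
    Pi.single_apply, map_sub, pderiv_comm s]
  by_cases h1 : s = Sum.inl b
  · subst h1; simp; ring
  · by_cases h2 : s = Sum.inr b
    · subst h2; simp; ring
    · simp [h1, h2, Ne.symm h1, Ne.symm h2]

/-- `T` shifts the weights by `w` -/
def Sh (T : Module.End ℂ (Pol m)) (w : Fin m → ℂ) : Prop :=
  ∀ b, Dg (hv b) * T = T * Dg (hv b + fun _ => w b)

theorem Dg_const (z : ℂ) : (Dg fun _ => z : Module.End ℂ (Pol m)) = z • 1 := by
  have : (fun _ => z : (Ix m →₀ ℕ) → ℂ) = z • 1 := by ext; simp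
  rw [this, map_smul, map_one]

theorem sh_Rm (a c : Ix m) : Sh (DM (Rm a c)) fun b => hw a b + hw c b := by
  intro b
  refine LinearMap.ext fun P => ?_
  simp only [Module.End.mul_apply, DM_Rm, map_sub, map_add, H_X_mul, H_pderiv, hw_swap, Dg_const,
    LinearMap.add_apply, LinearMap.smul_apply, Module.End.one_apply, Derivation.map_smul]
  simp only [smul_eq_C_mul, map_neg, map_add]
  ring

theorem Sh.add {T : Module.End ℂ (Pol m)} {w : Fin m → ℂ} (h : Sh T w) (b : Fin m) (x : ℂ) :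
    Dg (hv b + fun _ => x) * T = T * Dg (hv b + fun _ => w b + x) := by
  have : (hv b + fun _ => w b + x) = (hv b + fun _ => w b) + fun _ => x := by
    ext; simp [add_assoc]
  rw [this, map_add, map_add _ (hv b + _), add_mul, mul_add, h b, Dg_const]
  simp

theorem Sh.mul {T T' : Module.End ℂ (Pol m)} {w w' : Fin m → ℂ} (h : Sh T w) (h' : Sh T' w') :
    Sh (T * T') fun b => w' b + w b := by
  intro b
  rw [← mul_assoc, h b, mul_assoc, h'.add, mul_assoc]

theorem Sh.two {T : Module.End ℂ (Pol m)} {w : Fin m → ℂ} (h : Sh T w) (a b : Fin m) (x y : ℂ) :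
    Dg ((hv a + fun _ => x) * (hv b + fun _ => y)) * T =
      T * Dg ((hv a + fun _ => w a + x) * (hv b + fun _ => w b + y)) := by
  rw [map_mul, mul_assoc, h.add, ← mul_assoc, h.add, mul_assoc, ← map_mul]

theorem Sh.two' {T : Module.End ℂ (Pol m)} {w : Fin m → ℂ} (h : Sh T w) (a b : Fin m) :
    Dg (hv a * hv b) * T = T * Dg ((hv a + fun _ => w a) * (hv b + fun _ => w b)) := by
  have := h.two a b 0 0
  simpa [show (fun _ => (0 : ℂ)) = (0 : (Ix m →₀ ℕ) → ℂ) from rfl] using this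

section Rep

variable {Λ : Type} {lev : Λ → ℕ} {c : Λ → ℝ}
  {H : Submodule ℂ (∀ l, Module.End ℂ (HV m (lev l)))}

/-- a family of operators on polynomials that restricts to an element of `H` -/
def Rp (H : Submodule ℂ (∀ l, Module.End ℂ (HV m (lev l)))) (T : Λ → Module.End ℂ (Pol m)) :
    Prop :=
  ∃ Y ∈ H, ∀ (l : Λ) (u : HV m (lev l)), (Y l u : Pol m) = T l u

theorem Rp.congr {T T' : Λ → Module.End ℂ (Pol m)} (h : Rp H T)
    (e : ∀ l, ∀ u ∈ HV m (lev l), T l u = T' l u) : Rp H T' := by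
  obtain ⟨Y, hY, h⟩ := h
  exact ⟨Y, hY, fun l u => (h l u).trans (e l u u.2)⟩

theorem Rp.congr' {T T' : Λ → Module.End ℂ (Pol m)} (h : Rp H T) (e : ∀ l, T l = T' l) :
    Rp H T' := h.congr fun l _ _ => by rw [e l]

theorem Rp.lin {T T' : Λ → Module.End ℂ (Pol m)} (h : Rp H T) (h' : Rp H T') (x y : ℂ) :
    Rp H fun l => x • T l + y • T' l := by
  obtain ⟨Y, hY, h⟩ := h
  obtain ⟨Z, hZ, h'⟩ := h'
  refine ⟨x • Y + y • Z, H.add_mem (H.smul_mem _ hY) (H.smul_mem _ hZ), fun l u => ?_⟩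
  simp [h, h']

theorem Rp.br (G : Good lev c H) {T T' : Λ → Module.End ℂ (Pol m)} (h : Rp H T) (h' : Rp H T') :
    Rp H fun l => T l * T' l - T' l * T l := by
  obtain ⟨Y, hY, h⟩ := h
  obtain ⟨Z, hZ, h'⟩ := h'
  refine ⟨_, G.br Y hY Z hZ, fun l u => ?_⟩
  simp [h, h']

theorem Rp.ad (G : Good lev c H) {T : Λ → Module.End ℂ (Pol m)} (h : Rp H T) (a b : Ix m) :
    Rp H fun l => DM (Rm a b) * T l - T l * DM (Rm a b) := by
  obtain ⟨Y, hY, h⟩ := h
  refine ⟨_, G.ad _ (isSo_Rm a b) Y hY, fun l u => ?_⟩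
  simp [h, dV_coe (isSo_Rm a b)]

theorem rp_hh (G : Good lev c H) {a b : Fin m} (hab : a ≠ b) :
    Rp H fun l => (c l : ℂ) • Dg (hv a * hv b) := by
  refine ⟨_, G.hh a b hab, fun l u => ?_⟩
  have h1 : ∀ a : Fin m, IsSo (Hm a) := fun a => isSo_Rm _ _
  simp [dV_coe (h1 _), DM_Hm]

theorem hw_ll {i j : Fin m} (h : i ≠ j) : hw (Sum.inl i) j = 0 := by simp [hw, h]
theorem hw_rl {i j : Fin m} (h : i ≠ j) : hw (Sum.inr i) j = 0 := by simp [hw, h]
theorem hw_l (i : Fin m) : hw (Sum.inl i) i = 1 := by simp [hw]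
theorem hw_r (i : Fin m) : hw (Sum.inr i) i = -1 := by simp [hw]

theorem RR_comm (i j k : Fin m) :
    DM (Rm (Sum.inr i) (Sum.inr j)) * DM (Rm (Sum.inr i) (Sum.inr k)) =
      DM (Rm (Sum.inr i) (Sum.inr k)) * DM (Rm (Sum.inr i) (Sum.inr j)) := by
  classical
  refine LinearMap.ext fun P => ?_
  simp only [Module.End.mul_apply, DM_Rm, Sum.swap_inr, map_sub, Derivation.leibniz, pderiv_X,
    smul_eq_mul, Pi.single_apply, reduceCtorEq, if_false, mul_zero, add_zero,
    pderiv_comm (Sum.inl j) (Sum.inl k), pderiv_comm (Sum.inl j) (Sum.inl i),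
    pderiv_comm (Sum.inl k) (Sum.inl i)]
  ring

/-- the product of the two lowering operators -/
noncomputable def RR (i j k : Fin m) : Module.End ℂ (Pol m) :=
  DM (Rm (Sum.inr i) (Sum.inr j)) * DM (Rm (Sum.inr i) (Sum.inr k))

theorem sh_RR (i j k : Fin m) : Sh (RR i j k) fun b =>
    (hw (Sum.inr i) b + hw (Sum.inr k) b) + (hw (Sum.inr i) b + hw (Sum.inr j) b) :=
  (sh_Rm _ _).mul (sh_Rm _ _)

theorem comb (T : Module.End ℂ (Pol m)) (z : ℂ) {f g h : (Ix m →₀ ℕ) → ℂ} (e : f - g = h) :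
    z • (T * Dg f) - z • (T * Dg g) = z • (T * Dg h) := by
  rw [← e, map_sub, mul_sub]
  module

theorem rp_RR (G : Good lev c H) {i j k : Fin m} (hij : i ≠ j) (hik : i ≠ k) (hjk : j ≠ k) :
    Rp H fun l => (c l : ℂ) • RR i j k := by
  have h1 : Rp H fun l => (c l : ℂ) • (DM (Rm (Sum.inr i) (Sum.inr k)) * Dg (hv j)) := by
    refine ((rp_hh G hjk).ad G (Sum.inr i) (Sum.inr k)).congr' fun l => ?_
    rw [mul_smul_comm, smul_mul_assoc, (sh_Rm _ _).two']
    refine comb _ _ ?_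
    ext d
    simp [hw_rl hij, hw_rl hik, hw_rl hjk.symm, hw_r]
    ring
  refine (h1.ad G (Sum.inr i) (Sum.inr j)).congr' fun l => ?_
  rw [mul_smul_comm, smul_mul_assoc, mul_assoc, sh_Rm _ _ j, ← mul_assoc, ← mul_assoc,
    ← RR_comm i j k, RR]
  have : (hv j - (hv j + fun _ => hw (Sum.inr i) j + hw (Sum.inr j) j)) = 1 := by
    ext d
    simp [hw_rl hij, hw_r]
  rw [comb _ _ this, map_one, mul_one]

theorem rp_prod (G : Good lev c H) {i j k : Fin m} (hij : i ≠ j) (hik : i ≠ k) (hjk : j ≠ k)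
    (A : Finset ℂ) :
    Rp H fun l => (c l : ℂ) • (RR i j k * Dg fun d => ∏ a ∈ A, (-2 * c l * (hv i d - 1) - a)) := by
  classical
  induction A using Finset.induction_on with
  | empty =>
    refine (rp_RR G hij hik hjk).congr' fun l => ?_
    simp [Dg_const]
  | insert a A ha ih =>
    have hD := ((rp_hh G hij).lin (rp_hh G hik) 1 1).lin (rp_hh G hjk) 1 (-2)
    refine ((hD.br G ih).lin ih 1 (-a)).congr' fun l => ?_
    simp only [one_smul, add_mul, mul_add, smul_mul_assoc, mul_smul_comm]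
    simp only [← mul_assoc, (sh_RR i j k).two']
    simp only [mul_assoc, ← map_mul]
    simp only [← mul_smul_comm, ← mul_add, ← mul_sub, ← map_smul, ← map_add, ← map_sub]
    congr 2
    ext d
    simp [Finset.prod_insert ha, hw_rl hij, hw_rl hik, hw_rl hjk, hw_rl hij.symm, hw_rl hik.symm,
      hw_rl hjk.symm, hw_r]
    ring

theorem single_of_hv {i : Fin m} {L : ℕ} {d : Ix m →₀ ℕ} (hd : d.degree = L)
    (h : (d (Sum.inl i) : ℤ) - d (Sum.inr i) = L) : d = Finsupp.single (Sum.inl i) L := by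
  classical
  have h1 : d (Sum.inl i) ≤ L := hd ▸ Finsupp.le_degree _ d
  have h2 : d (Sum.inl i) = L := by omega
  have h3 : d = Finsupp.single (Sum.inl i) L + d.erase (Sum.inl i) := by
    rw [← h2, Finsupp.single_add_erase]
  have h4 : (d.erase (Sum.inl i)).degree = 0 := by
    have := congrArg Finsupp.degree h3
    rw [map_add, Finsupp.degree_single, hd] at this
    omega
  rw [Finsupp.degree_eq_zero_iff] at h4
  rw [h3, h4, add_zero]

theorem deg_of_mem {l : ℕ} {u : Pol m} (hu : u ∈ HV m l) {d : Ix m →₀ ℕ} (hd : coeff d u ≠ 0) :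
    d.degree = l := by
  rw [Finsupp.degree_eq_weight_one]
  exact hu.1 hd

theorem rp_one [Fintype Λ] [DecidableEq Λ] (h2 : ∀ l, 2 ≤ lev l) (hc : Irr c) (G : Good lev c H)
    {i j k : Fin m} (hij : i ≠ j) (hik : i ≠ k) (hjk : j ≠ k) (l₀ : Λ) :
    Rp H fun l => if l = l₀ then
      (lcoeff ℂ (Finsupp.single (Sum.inl i) (lev l₀)) : Pol m →ₗ[ℂ] ℂ).smulRight
        (RR i j k (X (Sum.inl i) ^ lev l₀)) else 0 := by
  classical
  set a₀ : ℂ := -2 * c l₀ * ((lev l₀ : ℂ) - 1) with ha₀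
  set A : Finset ℂ := (Finset.univ.biUnion fun l : Λ =>
    (Finset.Icc (-(lev l : ℤ)) (lev l)).image fun h : ℤ => -2 * (c l : ℂ) * ((h : ℂ) - 1)).erase a₀
    with hA
  set κ : ℂ := ∏ a ∈ A, (a₀ - a) with hκ
  have hκ0 : κ ≠ 0 := Finset.prod_ne_zero_iff.2 fun a ha =>
    sub_ne_zero.2 (Finset.ne_of_mem_erase ha).symm
  have hc0 : (c l₀ : ℂ) ≠ 0 := by exact_mod_cast hc.1 l₀
  -- the diagonal factor vanishes off the top monomial
  have key : ∀ (l : Λ) (d : Ix m →₀ ℕ), d.degree = lev l →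
      ∏ a ∈ A, (-2 * (c l : ℂ) * (hv i d - 1) - a) ≠ 0 →
      l = l₀ ∧ d = Finsupp.single (Sum.inl i) (lev l₀) := by
    intro l d hd hne
    have b1 : d (Sum.inl i) ≤ lev l := hd ▸ Finsupp.le_degree _ d
    have b2 : d (Sum.inr i) ≤ lev l := hd ▸ Finsupp.le_degree _ d
    have e : -2 * (c l : ℂ) * (hv i d - 1) = a₀ := by
      by_contra hn
      apply hne
      refine Finset.prod_eq_zero (i := -2 * (c l : ℂ) * (hv i d - 1)) ?_ (sub_self _)
      refine Finset.mem_erase.2 ⟨hn, Finset.mem_biUnion.2 ⟨l, Finset.mem_univ _, ?_⟩⟩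
      refine Finset.mem_image.2 ⟨(d (Sum.inl i) : ℤ) - d (Sum.inr i), ?_, ?_⟩
      · rw [Finset.mem_Icc]; omega
      · simp [hv]
    have e' : c l₀ * ((lev l₀ : ℤ) - 1 : ℤ) =
        c l * ((d (Sum.inl i) : ℤ) - d (Sum.inr i) - 1 : ℤ) := by
      have : ((c l₀ * ((lev l₀ : ℤ) - 1 : ℤ) : ℝ) : ℂ) =
          ((c l * ((d (Sum.inl i) : ℤ) - d (Sum.inr i) - 1 : ℤ) : ℝ) : ℂ) := by
        rw [ha₀, hv] at e
        push_cast
        linear_combination (1 / 2 : ℂ) * e
      exact_mod_cast this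
    have hl : l = l₀ := by
      by_contra hl
      have := h2 l₀
      exact hc.2 l₀ l (Ne.symm hl) _ _ (by omega) e'
    subst hl
    refine ⟨rfl, single_of_hv hd ?_⟩
    have := mul_left_cancel₀ (hc.1 l) e'
    have : ((lev l : ℤ) - 1 : ℤ) = ((d (Sum.inl i) : ℤ) - d (Sum.inr i) - 1 : ℤ) := by
      exact_mod_cast this
    omega
  have h := rp_prod G hij hik hjk A
  refine (h.lin h ((c l₀ : ℂ) * κ)⁻¹ 0).congr fun l u hu => ?_
  have hD : Dg (fun d => ∏ a ∈ A, (-2 * (c l : ℂ) * (hv i d - 1) - a)) u =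
      if l = l₀ then (κ * coeff (Finsupp.single (Sum.inl i) (lev l₀)) u) •
        X (Sum.inl i) ^ lev l₀ else 0 := by
    ext d
    rw [coeff_Dg]
    by_cases hd : l = l₀ ∧ d = Finsupp.single (Sum.inl i) (lev l₀)
    · obtain ⟨rfl, rfl⟩ := hd
      simp [coeff_X_pow, hv, hκ, ha₀]
    · have : (∏ a ∈ A, (-2 * (c l : ℂ) * (hv i d - 1) - a)) * coeff d u = 0 := by
        by_contra hn
        exact hd (key l d (deg_of_mem hu (right_ne_zero_of_mul hn)) (left_ne_zero_of_mul hn))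
      rw [this]
      split_ifs with hl
      · have : Finsupp.single (Sum.inl i) (lev l₀) ≠ d := fun h => hd ⟨hl, h.symm⟩
        simp [coeff_X_pow, this]
      · simp
  simp only [zero_smul, add_zero, LinearMap.smul_apply, Module.End.mul_apply, hD]
  split_ifs with hl
  · subst hl
    simp only [map_smul, smul_smul, LinearMap.smulRight_apply, lcoeff_apply]
    congr 1
    field_simp
  · simp

theorem E_RR {i j k : Fin m} (hij : i ≠ j) (hik : i ≠ k) (hjk : j ≠ k) (n : ℕ) :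
    DM (Rm (Sum.inl i) (Sum.inl k)) (RR i j k (X (Sum.inl i) ^ (n + 2))) =
      (((n : ℂ) + 2) * (n + 1)) • (X (Sum.inl i) ^ (n + 1) * X (Sum.inr j)) := by
  classical
  have h2 : ∀ a : Ix m, pderiv a (2 : Pol m) = 0 := fun a => by
    simpa using (pderiv a : Derivation ℂ (Pol m) (Pol m)).map_natCast 2
  have h3 : (C 2 : Pol m) = 2 := rfl
  simp [RR, DM_Rm, Derivation.leibniz, Derivation.leibniz_pow, pderiv_X, hij, hik,
    hjk, hij.symm, hik.symm, hjk.symm, smul_eq_C_mul, h2, h3]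
  ring

theorem Dg_X_pow (f : (Ix m →₀ ℕ) → ℂ) (a : Ix m) (n : ℕ) :
    Dg f (X a ^ n : Pol m) = f (Finsupp.single a n) • X a ^ n := by
  rw [X_pow_eq_monomial, Dg_monomial]

theorem rp_two [Fintype Λ] [DecidableEq Λ] (h2 : ∀ l, 2 ≤ lev l) (hc : Irr c) (G : Good lev c H)
    {i j k : Fin m} (hij : i ≠ j) (hik : i ≠ k) (hjk : j ≠ k) (l₀ : Λ) :
    Rp H fun l => if l = l₀ then
      (lcoeff ℂ (Finsupp.single (Sum.inl i) (lev l₀)) : Pol m →ₗ[ℂ] ℂ).smulRight
        (X (Sum.inl i) ^ (lev l₀ - 1) * X (Sum.inr j)) else 0 := by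
  classical
  obtain ⟨n, hn⟩ : ∃ n, lev l₀ = n + 2 := ⟨lev l₀ - 2, by have := h2 l₀; omega⟩
  have hc0 : (c l₀ : ℂ) ≠ 0 := by exact_mod_cast hc.1 l₀
  have hZ := (rp_one h2 hc G hij hik hjk l₀).ad G (Sum.inl i) (Sum.inl k)
  have hB := (rp_hh G hik).br G hZ
  set κ : ℂ := ((n : ℂ) + 2) * (n + 1) with hκ
  have hκ0 : κ ≠ 0 := mul_ne_zero (by exact_mod_cast (by omega : n + 2 ≠ 0))
    (by exact_mod_cast (by omega : n + 1 ≠ 0))
  refine (hZ.lin hB κ⁻¹ (-(κ * c l₀)⁻¹)).congr' fun l => ?_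
  split_ifs with hl
  swap
  · simp
  subst hl
  set E := DM (Rm (Sum.inl i : Ix m) (Sum.inl k)) with hE
  set u₀ : Pol m := RR i j k (X (Sum.inl i) ^ lev l) with hu₀
  set u₁ : Pol m := X (Sum.inl i) ^ (lev l - 1) * X (Sum.inr j) with hu₁
  set D : Module.End ℂ (Pol m) := Dg (hv i * hv k) with hD
  have e1 : E u₀ = κ • u₁ := by
    rw [hu₀, hu₁, hn, hE, E_RR hij hik hjk]; rfl
  have e2 : D u₀ = (-(n : ℂ)) • u₀ := by
    rw [hu₀, ← Module.End.mul_apply, hD, (sh_RR i j k).two', Module.End.mul_apply, Dg_X_pow,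
      map_smul, hn]
    congr 1
    simp [hv, hw_rl hik, hw_rl hjk, hw_rl hij.symm, hw_rl hik.symm, hw_r, hik]
    ring
  have e3 : D u₁ = 0 := by
    have : D (E u₀) = 0 := by
      rw [hu₀, ← Module.End.mul_apply E, ← Module.End.mul_apply, hD, hE,
        ((sh_Rm _ _).mul (sh_RR i j k)).two', Module.End.mul_apply, Dg_X_pow]
      simp [hv, hw_rl hik, hw_rl hjk, hw_ll hik, hw_r, hw_l, hik]
    rw [e1, map_smul] at this
    exact (smul_eq_zero.1 this).resolve_left hκ0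
  have e4 : ∀ P, coeff (Finsupp.single (Sum.inl i) (lev l)) (D P) = 0 := fun P => by
    rw [hD, coeff_Dg]
    simp [hv, hik]
  have e5 : ∀ P, coeff (Finsupp.single (Sum.inl i) (lev l)) (E (D P)) =
      -((n : ℂ) + 1) * coeff (Finsupp.single (Sum.inl i) (lev l)) (E P) := fun P => by
    have := (sh_Rm (Sum.inl i) (Sum.inl k)).two i k (-1) (-1)
    have h0 : ((hv i + fun _ => hw (Sum.inl i) i + hw (Sum.inl k) i + -1) *
        (hv k + fun _ => hw (Sum.inl i) k + hw (Sum.inl k) k + -1)) = hv i * hv k := by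
      ext d
      simp [hw_l, hw_ll hik, hw_ll hik.symm]
    rw [h0] at this
    rw [← Module.End.mul_apply, hE, hD, ← this, Module.End.mul_apply, coeff_Dg, hn]
    congr 1
    simp [hv, hik]
    ring
  refine LinearMap.ext fun P => ?_
  simp only [LinearMap.add_apply, LinearMap.smul_apply, LinearMap.sub_apply, Module.End.mul_apply,
    LinearMap.smulRight_apply, lcoeff_apply, map_smul, map_sub, e1, e2, e3, e4, e5, coeff_smul,
    smul_eq_mul]
  match_scalars <;> field_simp <;> ring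

end Rep

end One

theorem oneStmt (_h : CxStmt) : OneStmt := by
  intro m Λ _ _ lev c H h2 hc G i j k hij hik hjk l₀
  obtain ⟨Y, hY, h⟩ := One.rp_two h2 hc G hij hik hjk l₀
  have hu : (Y l₀ (vtop (Sum.inl i) (lev l₀)) : Pol m) =
      X (Sum.inl i) ^ (lev l₀ - 1) * X (Sum.inr j) := by
    classical
    rw [h]
    simp [vtop, coeff_X_pow]
  refine ⟨_, hu, ?_⟩
  convert hY using 1
  funext l
  refine LinearMap.ext fun u => Subtype.ext ?_
  rw [h]
  by_cases hl : l = l₀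
  · subst hl
    simp [hu, ctop]
  · simp [hl]

end Vale.Agent.P225
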