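import Vale.Agent.P225.ProfA

/-! Gluing the windows. -/

namespace Vale.Agent.P225

open scoped ContDiff Topology
open Filter Set

namespace Prof

lemma Tk_ge (k : ℕ) : ((k : ℝ) + 1) ^ 4 ≤ Tk k := by
  have h0 : (0 : ℝ) ≤ k := Nat.cast_nonneg k
  have h1 : (k : ℝ) ^ 4 ≤ ((k : ℝ) + 1) ^ 4 := pow_le_pow_left₀ h0 (by linarith) 4
  have h2 : (k : ℝ) * (k : ℝ) ^ 4 ≤ k * ((k : ℝ) + 1) ^ 4 := mul_le_mul_of_nonneg_left h1 h0
  unfold Tk
  nlinarith

lemma one_le_Tk (k : ℕ) : 1 ≤ Tk k := by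
  have h0 : (0 : ℝ) ≤ k := Nat.cast_nonneg k
  exact (one_le_pow₀ (by linarith)).trans (Tk_ge k)

lemma Tk_pos (k : ℕ) : 0 < Tk k := one_pos.trans_le (one_le_Tk k)

lemma tk_succ (L : ℝ) (k : ℕ) : tk L (k + 1) = tk L k + L * Tk k := by
  simp only [tk, Tk, Nat.cast_succ]
  ring

lemma tk_mono {L : ℝ} (hL : 0 ≤ L) : Monotone (tk L) :=
  monotone_nat_of_le_succ fun k => by
    rw [tk_succ]
    exact le_add_of_nonneg_right (mul_nonneg hL (Tk_pos k).le)

lemma le_tk {L : ℝ} (hL : 1 ≤ L) (k : ℕ) : (k : ℝ) ≤ tk L k := by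
  induction k with
  | zero => simp [tk]
  | succ k ih =>
    rw [tk_succ, Nat.cast_succ]
    nlinarith [one_le_Tk k]

lemma exists_tk_succ {L : ℝ} (hL : 1 ≤ L) (s : ℝ) : ∃ k, s < tk L (k + 1) := by
  obtain ⟨k, hk⟩ := exists_nat_gt s
  exact ⟨k, hk.trans_le ((le_tk hL k).trans (tk_mono (by linarith) k.le_succ))⟩

open Classical in
/-- the window number -/
noncomputable def kk (L s : ℝ) : ℕ := if h : ∃ k, s < tk L (k + 1) then Nat.find h else 0

lemma kk_eq {L s : ℝ} (hL : 0 ≤ L) {k : ℕ} (h1 : tk L k ≤ s) (h2 : s < tk L (k + 1)) :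
    kk L s = k := by
  classical
  rw [kk, dif_pos ⟨k, h2⟩, Nat.find_eq_iff]
  exact ⟨h2, fun j hj => not_lt.2 ((tk_mono hL hj).trans h1)⟩

lemma exists_win {L s : ℝ} (hL : 1 ≤ L) {k₀ : ℕ} (h : tk L k₀ ≤ s) :
    ∃ k ≥ k₀, tk L k ≤ s ∧ s < tk L (k + 1) := by
  classical
  have h1 := exists_tk_succ hL s
  have h2 : k₀ ≤ Nat.find h1 := (Nat.le_find_iff h1 k₀).2 fun j hj =>
    not_lt.2 ((tk_mono (by linarith) hj).trans h)
  refine ⟨Nat.find h1, h2, ?_, Nat.find_spec h1⟩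
  rcases h2.eq_or_lt with h3 | h3
  · rwa [← h3]
  · obtain ⟨j, hj⟩ := Nat.exists_eq_succ_of_ne_zero (Nat.ne_zero_of_lt h3)
    rw [hj]
    exact not_lt.1 (Nat.find_min h1 (by omega))

variable (N : ℕ) (R ξ : ℝ)

/-- normalized time in the `k`-th window -/
noncomputable def nt (k : ℕ) (s : ℝ) : ℝ := (s - tk (N + R + 2) k) / Tk k

/-- the function in the `k`-th window -/
noncomputable def xw (y : ℕ → ℕ → ℝ) (k : ℕ) (s : ℝ) : ℝ :=
  W N R ξ (fun i => y k i / Tk k) (nt N R k s)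

/-- the glued function -/
noncomputable def XX (k₀ : ℕ) (y : ℕ → ℕ → ℝ) (s : ℝ) : ℝ :=
  ∑' k, if k₀ ≤ k then xw N R ξ y k s else 0

/-- the phase number -/
noncomputable def ixx (s : ℝ) : ℕ := jx N (nt N R (kk (N + R + 2) s) s)

variable {N R ξ} {y : ℕ → ℕ → ℝ} {k k₀ : ℕ} {s : ℝ}

lemma one_le_L (hR : 0 ≤ R) : (1 : ℝ) ≤ N + R + 2 := by
  have h0 : (0 : ℝ) ≤ N := Nat.cast_nonneg N
  linarith

lemma xw_left (h : s ≤ tk (N + R + 2) k + 1 / 4) : xw N R ξ y k s = 0 := by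
  refine W_left ?_
  rw [nt, div_le_iff₀ (Tk_pos k)]
  linarith [one_le_Tk k]

lemma xw_right (hR : 0 ≤ R) (h : tk (N + R + 2) (k + 1) - 1 / 4 ≤ s) : xw N R ξ y k s = 0 := by
  refine W_right hR ?_
  rw [tk_succ] at h
  rw [nt, le_div_iff₀ (Tk_pos k)]
  linarith [one_le_Tk k]

lemma ixx_eq (hR : 0 ≤ R) (h : xw N R ξ y k s ≠ 0) : ixx N R s = jx N (nt N R k s) := by
  have h1 := not_le.1 fun h' => h (xw_left h')
  have h2 := not_le.1 fun h' => h (xw_right hR h')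
  rw [ixx, kk_eq (k := k) (by linarith [one_le_L (N := N) hR]) (by linarith) (by linarith)]

lemma XX_left (hR : 0 ≤ R) (h : s ≤ tk (N + R + 2) k₀ + 1 / 4) : XX N R ξ k₀ y s = 0 := by
  have : ∀ k, (if k₀ ≤ k then xw N R ξ y k s else 0) = 0 := by
    intro k
    split_ifs with hk
    · exact xw_left (by linarith [tk_mono (zero_le_one.trans (one_le_L (N := N) hR)) hk])
    · rfl
  simp only [XX, this, tsum_zero]

lemma XX_win (hR : 0 ≤ R) (hk : k₀ ≤ k) (h1 : tk (N + R + 2) k - 1 / 4 ≤ s)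
    (h2 : s ≤ tk (N + R + 2) (k + 1) + 1 / 4) : XX N R ξ k₀ y s = xw N R ξ y k s := by
  have hm := tk_mono (zero_le_one.trans (one_le_L (N := N) hR))
  rw [XX, tsum_eq_single k, if_pos hk]
  intro j hj
  split_ifs
  · rcases lt_or_gt_of_ne hj with h | h
    · exact xw_right hR (by linarith [hm (show j + 1 ≤ k from h)])
    · exact xw_left (by linarith [hm (show k + 1 ≤ j from h)])
  · rfl

lemma XX_loc (hR : 0 ≤ R) (k₀ : ℕ) (y : ℕ → ℕ → ℝ) (s₁ : ℝ) :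
    XX N R ξ k₀ y =ᶠ[𝓝 s₁] (fun _ => 0) ∨ ∃ k ≥ k₀, s₁ < tk (N + R + 2) (k + 1) ∧
      XX N R ξ k₀ y =ᶠ[𝓝 s₁] xw N R ξ y k := by
  rcases lt_or_ge s₁ (tk (N + R + 2) k₀) with h | h
  · exact Or.inl ((eventually_lt_nhds h).mono fun s hs => XX_left hR (by linarith))
  · obtain ⟨k, hk, h1, h2⟩ := exists_win (one_le_L hR) h
    refine Or.inr ⟨k, hk, h2, ?_⟩
    filter_upwards [eventually_lt_nhds h2,
      eventually_gt_nhds (show tk (N + R + 2) k - 1 / 4 < s₁ by linarith)] with s h3 h4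
    exact XX_win hR hk h4.le (by linarith)

lemma contDiff_xw : ContDiff ℝ ∞ (xw N R ξ y k) := by
  unfold xw nt
  exact (contDiff_W _ _ _ _).comp (by fun_prop)

lemma growth {L c s : ℝ} {k : ℕ} (hL : 1 ≤ L) (hs : s ≤ tk L (k + 1)) {d : ℝ}
    (hd : |d| ≤ c / Tk k) : d ^ 2 * √(1 + s) ^ 3 ≤ c ^ 2 * √(1 + L) ^ 3 / √(k + 1) := by
  have h0 : (0 : ℝ) ≤ k := Nat.cast_nonneg k
  set w := √((k : ℝ) + 1) with hw
  have hw1 : 1 ≤ w := Real.one_le_sqrt.2 (by linarith)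
  have hw2 : w ^ 2 = k + 1 := Real.sq_sqrt (by linarith)
  have hT : w ^ 8 ≤ Tk k := by
    have := Tk_ge k
    rwa [← hw2, ← pow_mul] at this
  have h10 : 1 ≤ w ^ 10 := one_le_pow₀ hw1
  have hs' : 1 + s ≤ (1 + L) * (w ^ 5) ^ 2 := by
    rw [tk, Nat.cast_succ, ← hw2, ← pow_mul] at hs
    rw [← pow_mul]
    norm_num at hs ⊢
    linarith
  have h1 : √(1 + s) ≤ √(1 + L) * w ^ 5 := by
    refine (Real.sqrt_le_sqrt hs').trans_eq ?_
    rw [Real.sqrt_mul (by linarith), Real.sqrt_sq (by positivity)]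
  have hc : 0 ≤ c := by
    have := (abs_nonneg d).trans hd
    rwa [le_div_iff₀ (Tk_pos k), zero_mul] at this
  have h2 : |d| ≤ c / w ^ 8 := hd.trans (div_le_div_of_nonneg_left hc (by positivity) hT)
  have h3 : d ^ 2 ≤ (c / w ^ 8) ^ 2 := by
    rw [← sq_abs]
    exact pow_le_pow_left₀ (abs_nonneg d) h2 2
  calc d ^ 2 * √(1 + s) ^ 3 ≤ (c / w ^ 8) ^ 2 * (√(1 + L) * w ^ 5) ^ 3 := by gcongr
    _ = c ^ 2 * √(1 + L) ^ 3 / w := by field_simp

lemma sqrt_le_Tk (k : ℕ) : √((k : ℝ) + 1) ≤ Tk k := by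
  have h0 : (0 : ℝ) ≤ k := Nat.cast_nonneg k
  refine le_trans ?_ (Tk_ge k)
  rw [Real.sqrt_le_left (by positivity), ← pow_mul]
  exact le_self_pow₀ (by linarith) (by norm_num)

end Prof

open Prof

theorem profStmt : ProfStmt := by
  intro N R ξ Y₀ ε hR hξ hY hε
  obtain ⟨c, hc, hW⟩ := exists_bd_W N R ξ hY
  have hL := one_le_L (N := N) hR
  set D : ℝ := c ^ 2 * √(1 + (N + R + 2)) ^ 3 / ε + c / ε + Y₀ / ε + Y₀ / ξ with hD
  have p1 : 0 ≤ c ^ 2 * √(1 + (N + R + 2)) ^ 3 / ε := by positivity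
  have p2 : 0 ≤ c / ε := by positivity
  have p3 : 0 ≤ Y₀ / ε := by positivity
  have p4 : 0 ≤ Y₀ / ξ := by positivity
  obtain ⟨K₀, hK⟩ := exists_nat_ge (D ^ 2)
  refine ⟨K₀, fun k₀ hk₀ => ⟨XX N R ξ k₀, ixx N R, fun y => ?_,
    fun y s hs => XX_left hR (by linarith), fun y k hk i hi s hs => ?_, fun y k hk s hs => ?_,
    fun y s₁ => ?_, fun y y' k hy s hs => ?_, fun y hy s => ?_⟩⟩
  · refine contDiff_iff_contDiffAt.2 fun s => ?_
    rcases XX_loc (ξ := ξ) (N := N) hR k₀ y s with h | ⟨k, -, -, h⟩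
    · exact contDiffAt_const.congr_of_eventuallyEq h
    · exact contDiff_xw.contDiffAt.congr_of_eventuallyEq h
  · have hT := Tk_pos k
    have h0 : (0 : ℝ) ≤ i := Nat.cast_nonneg i
    have h1 : (i : ℝ) + 1 ≤ N := by exact_mod_cast hi
    have e : XX N R ξ k₀ y s = xw N R ξ y k s :=
      XX_win hR hk (by nlinarith [hs.1]) (by rw [tk_succ]; nlinarith [hs.2])
    have h2 : (i : ℝ) ≤ nt N R k s := by
      rw [nt, le_div_iff₀ hT]; linarith [hs.1]
    have h3 : nt N R k s ≤ i + 1 := by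
      rw [nt, div_le_iff₀ hT]; linarith [hs.2]
    have h4 : xw N R ξ y k s = y k i / Tk k * psi (nt N R k s - i) := W_pulse hi h2 h3
    refine ⟨?_, or_iff_not_imp_left.2 fun h => ?_⟩
    · rw [e, h4, nt]
      congr 2
      field_simp
      ring
    · rw [e] at h
      have h5 : nt N R k s < i + 1 := not_le.1 fun h6 => h (by
        rw [h4, psi_right (by linarith), mul_zero])
      rw [ixx_eq hR h, jx, (Nat.floor_eq_iff (h0.trans h2)).2 ⟨h2, h5⟩, min_eq_right hi.le]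
  · have hT := Tk_pos k
    have h0 : (0 : ℝ) ≤ N := Nat.cast_nonneg N
    have e : XX N R ξ k₀ y s = xw N R ξ y k s :=
      XX_win hR hk (by nlinarith [hs.1]) (by rw [tk_succ]; nlinarith [hs.2])
    have h2 : (N : ℝ) ≤ nt N R k s := by
      rw [nt, le_div_iff₀ hT]; linarith [hs.1]
    have h4 : xw N R ξ y k s = -ξ * bump R (nt N R k s - N) := W_wait h2
    refine ⟨?_, or_iff_not_imp_left.2 fun h => ?_⟩
    · rw [e, h4, nt]
      congr 2
      field_simp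
      ring
    · rw [e] at h
      rw [ixx_eq hR h, jx, min_eq_left (Nat.le_floor h2)]
  · rcases XX_loc (ξ := ξ) (N := N) hR k₀ y s₁ with h | ⟨k, -, -, h⟩
    · exact ⟨0, h.mono fun s hs => Or.inl hs⟩
    · obtain ⟨i, hi⟩ := jx_loc N R ξ (fun i => y k i / Tk k) (nt N R k s₁)
      have h1 : Continuous fun s => |nt N R k s - nt N R k s₁| := by
        unfold nt
        fun_prop
      have h2 : ∀ᶠ s in 𝓝 s₁, |nt N R k s - nt N R k s₁| < 1 / 4 :=
        h1.continuousAt.eventually_lt continuousAt_const (by simp)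
      refine ⟨i, ?_⟩
      filter_upwards [h, h2] with s h3 h4
      rw [h3]
      refine or_iff_not_imp_left.2 fun h5 => ?_
      rw [ixx_eq hR h5]
      exact (hi _ h4).resolve_left h5
  · refine tsum_congr fun j => ?_
    split_ifs
    · rcases lt_or_ge j k with h | h
      · simp only [xw, hy j h]
      · have h1 := tk_mono (zero_le_one.trans hL) h
        rw [xw_left (by linarith), xw_left (by linarith)]
    · rfl
  · rcases XX_loc (ξ := ξ) (N := N) hR k₀ y s with h | ⟨k, hk, hs, h⟩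
    · rw [h.deriv.deriv_eq, h.deriv_eq, h.eq_of_nhds]
      simp [hξ.le, hε.le]
    rw [h.deriv.deriv_eq, h.deriv_eq, h.eq_of_nhds]
    have hT := Tk_pos k
    have hT1 := one_le_Tk k
    have hkK : (K₀ : ℝ) ≤ k := by exact_mod_cast hk₀.trans hk
    have hw : D ≤ √((k : ℝ) + 1) := Real.le_sqrt_of_sq_le (by linarith)
    have hw0 : 0 < √((k : ℝ) + 1) := Real.sqrt_pos.2 (by positivity)
    have hDT := hw.trans (sqrt_le_Tk k)
    have hz : ∀ i, |y k i / Tk k| ≤ Y₀ / Tk k := fun i => by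
      rw [abs_div, abs_of_pos hT]
      exact div_le_div_of_nonneg_right (hy k i) hT.le
    have q1 : Y₀ / Tk k ≤ ε := by
      rw [div_le_comm₀ hT hε]; linarith
    have q2 : Y₀ / Tk k ≤ ξ := by
      rw [div_le_comm₀ hT hξ]; linarith
    have hB : Bd (xw N R ξ y k) (c / Tk k) (c / Tk k ^ 2) :=
      (hW _ fun i => (hz i).trans (div_le_self hY hT1)).scale _ hT
    have hb := W_bounds (N := N) (R := R) (z := fun i => y k i / Tk k) hξ.le hε.le
      (fun i => ⟨by linarith [(abs_le.1 (hz i)).1], by linarith [(abs_le.1 (hz i)).2]⟩)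
      (nt N R k s)
    refine ⟨hb.1, hb.2, (growth hL hs.le (hB.d1 s)).trans ?_, (hB.d2 s).trans ?_⟩
    · rw [div_le_comm₀ hw0 hε]; linarith
    · rw [div_le_comm₀ (by positivity) hε]; nlinarith

end Vale.Agent.P225
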