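import Vale.Agent.P225.Iface

/-! The shape function of one window. -/

namespace Vale.Agent.P225.Prof

open scoped ContDiff Topology
open Filter Set

lemma bump_nonneg (R t : ℝ) : 0 ≤ bump R t :=
  mul_nonneg (Real.smoothTransition.nonneg _) (Real.smoothTransition.nonneg _)

lemma bump_le_one (R t : ℝ) : bump R t ≤ 1 :=
  mul_le_one₀ (Real.smoothTransition.le_one _) (Real.smoothTransition.nonneg _)
    (Real.smoothTransition.le_one _)

lemma bump_left {R t : ℝ} (h : t ≤ 1 / 4) : bump R t = 0 := by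
  rw [bump, Real.smoothTransition.zero_of_nonpos (by linarith), zero_mul]

lemma bump_right {R t : ℝ} (h : R + 7 / 4 ≤ t) : bump R t = 0 := by
  rw [bump, Real.smoothTransition.zero_of_nonpos (x := 4 * (R + 2 - t) - 1) (by linarith),
    mul_zero]

lemma psi_left {t : ℝ} (h : t ≤ 1 / 4) : psi t = 0 := bump_left h

lemma psi_right {t : ℝ} (h : 3 / 4 ≤ t) : psi t = 0 := bump_right (by linarith)

lemma contDiff_bump (R : ℝ) : ContDiff ℝ ∞ (bump R) := by
  unfold bump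
  exact (Real.smoothTransition.contDiff.comp (by fun_prop)).mul
    (Real.smoothTransition.contDiff.comp (by fun_prop))

/-- smooth with bounded first and second derivatives -/
structure Bd (f : ℝ → ℝ) (c c' : ℝ) : Prop where
  sm : ContDiff ℝ ∞ f
  d1 : ∀ t, |deriv f t| ≤ c
  d2 : ∀ t, |deriv (deriv f) t| ≤ c'

lemma sm_deriv {f : ℝ → ℝ} (h : ContDiff ℝ ∞ f) : ContDiff ℝ ∞ (deriv f) :=
  (contDiff_infty_iff_deriv.1 h).2

lemma sm_diff {f : ℝ → ℝ} (h : ContDiff ℝ ∞ f) : Differentiable ℝ f :=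
  (contDiff_infty_iff_deriv.1 h).1

lemma Bd.mono {f : ℝ → ℝ} {c c' d d' : ℝ} (h : Bd f c c') (h1 : c ≤ d) (h2 : c' ≤ d') :
    Bd f d d' := ⟨h.sm, fun t => (h.d1 t).trans h1, fun t => (h.d2 t).trans h2⟩

lemma Bd.add {f g : ℝ → ℝ} {c c' d d' : ℝ} (h : Bd f c c') (h' : Bd g d d') :
    Bd (fun t => f t + g t) (c + d) (c' + d') := by
  have e1 : deriv (fun t => f t + g t) = fun t => deriv f t + deriv g t :=
    funext fun t => deriv_fun_add (sm_diff h.sm t) (sm_diff h'.sm t)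
  refine ⟨h.sm.add h'.sm, fun t => ?_, fun t => ?_⟩
  · rw [e1]
    exact (abs_add_le _ _).trans (add_le_add (h.d1 t) (h'.d1 t))
  · rw [e1, deriv_fun_add (sm_diff (sm_deriv h.sm) t) (sm_diff (sm_deriv h'.sm) t)]
    exact (abs_add_le _ _).trans (add_le_add (h.d2 t) (h'.d2 t))

lemma Bd.const_mul {f : ℝ → ℝ} {c c' : ℝ} (h : Bd f c c') {a b : ℝ} (hab : |a| ≤ b) :
    Bd (fun t => a * f t) (b * c) (b * c') := by
  have e1 : deriv (fun t => a * f t) = fun t => a * deriv f t :=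
    funext fun t => deriv_const_mul_field a
  have hb : 0 ≤ b := (abs_nonneg a).trans hab
  refine ⟨contDiff_const.mul h.sm, fun t => ?_, fun t => ?_⟩
  · rw [e1, abs_mul]
    exact mul_le_mul hab (h.d1 t) (abs_nonneg _) hb
  · rw [e1, deriv_const_mul_field a, abs_mul]
    exact mul_le_mul hab (h.d2 t) (abs_nonneg _) hb

lemma deriv_scale {f : ℝ → ℝ} (h : ContDiff ℝ ∞ f) (a T : ℝ) :
    deriv (fun s => f ((s - a) / T)) = fun s => deriv f ((s - a) / T) * (1 / T) := by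
  funext s
  have h1 : HasDerivAt (fun s => (s - a) / T) (1 / T) s :=
    ((hasDerivAt_id s).sub_const a).div_const T
  exact ((sm_diff h _).hasDerivAt.comp s h1).deriv

lemma Bd.scale {f : ℝ → ℝ} {c c' : ℝ} (h : Bd f c c') (a : ℝ) {T : ℝ} (hT : 0 < T) :
    Bd (fun s => f ((s - a) / T)) (c / T) (c' / T ^ 2) := by
  have hT' : |1 / T| = 1 / T := abs_of_pos (by positivity)
  refine ⟨h.sm.comp (by fun_prop), fun t => ?_, fun t => ?_⟩
  · rw [deriv_scale h.sm, abs_mul, hT', mul_one_div]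
    exact div_le_div_of_nonneg_right (h.d1 _) hT.le
  · rw [deriv_scale h.sm, deriv_mul_const_field, deriv_scale (sm_deriv h.sm), abs_mul, abs_mul,
      hT', mul_one_div, mul_one_div, div_div, ← sq]
    exact div_le_div_of_nonneg_right (h.d2 _) (by positivity)

lemma Bd.shift {f : ℝ → ℝ} {c c' : ℝ} (h : Bd f c c') (a : ℝ) :
    Bd (fun s => f (s - a)) c c' := by
  simpa using h.scale a one_pos

lemma Bd.sum {f : ℕ → ℝ → ℝ} {c c' : ℝ} (h : ∀ i, Bd (f i) c c') (N : ℕ) :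
    Bd (fun t => ∑ i ∈ Finset.range N, f i t) (N * c) (N * c') := by
  induction N with
  | zero => exact ⟨by simpa using contDiff_const, by simp, by simp⟩
  | succ N ih =>
    simp only [Finset.sum_range_succ, Nat.cast_succ, add_one_mul]
    exact ih.add (h N)

lemma exists_bd_bump (R : ℝ) : ∃ c, 0 ≤ c ∧ Bd (bump R) c c := by
  have hs : HasCompactSupport (bump R) := by
    refine HasCompactSupport.intro (isCompact_Icc (a := 1 / 4) (b := R + 7 / 4)) fun t ht => ?_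
    rw [mem_Icc, not_and_or, not_le, not_le] at ht
    exact ht.elim (fun h => bump_left h.le) fun h => bump_right h.le
  obtain ⟨c, hc⟩ :=
    (sm_deriv (contDiff_bump R)).continuous.bounded_above_of_compact_support hs.deriv
  obtain ⟨c', hc'⟩ := Continuous.bounded_above_of_compact_support
    (sm_deriv (sm_deriv (contDiff_bump R))).continuous hs.deriv.deriv
  exact ⟨max c c', (norm_nonneg _).trans ((hc 0).trans (le_max_left _ _)), contDiff_bump R,
    fun t => (hc t).trans (le_max_left _ _), fun t => (hc' t).trans (le_max_right _ _)⟩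

/-- the window shape in the normalized time -/
noncomputable def W (N : ℕ) (R ξ : ℝ) (z : ℕ → ℝ) (t : ℝ) : ℝ :=
  ∑ i ∈ Finset.range N, z i * psi (t - i) + -ξ * bump R (t - N)

variable {N : ℕ} {R ξ : ℝ} {z : ℕ → ℝ} {t : ℝ}

lemma contDiff_W (N : ℕ) (R ξ : ℝ) (z : ℕ → ℝ) : ContDiff ℝ ∞ (W N R ξ z) := by
  unfold W psi
  refine (ContDiff.sum fun i _ => contDiff_const.mul ((contDiff_bump _).comp ?_)).add
    (contDiff_const.mul ((contDiff_bump _).comp ?_)) <;> fun_prop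

lemma exists_bd_W (N : ℕ) (R ξ : ℝ) {Y : ℝ} (hY : 0 ≤ Y) :
    ∃ c, 0 ≤ c ∧ ∀ z : ℕ → ℝ, (∀ i, |z i| ≤ Y) → Bd (W N R ξ z) c c := by
  obtain ⟨c, hc, h⟩ := exists_bd_bump (-1)
  obtain ⟨c', hc', h'⟩ := exists_bd_bump R
  exact ⟨N * (Y * c) + |-ξ| * c', by positivity, fun z hz =>
    (Bd.sum (fun i => (h.shift i).const_mul (hz i)) N).add ((h'.shift N).const_mul le_rfl)⟩

lemma W_pulse {i : ℕ} (hi : i < N) (h1 : (i : ℝ) ≤ t) (h2 : t ≤ i + 1) :
    W N R ξ z t = z i * psi (t - i) := by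
  have h3 : (i : ℝ) + 1 ≤ N := by exact_mod_cast hi
  rw [W, bump_left (by linarith), mul_zero, add_zero]
  refine Finset.sum_eq_single_of_mem i (Finset.mem_range.2 hi) fun j _ hj => ?_
  rcases lt_or_gt_of_ne hj with h | h
  · have h4 : (j : ℝ) + 1 ≤ i := by exact_mod_cast h
    rw [psi_right (by linarith), mul_zero]
  · have h4 : (i : ℝ) + 1 ≤ j := by exact_mod_cast h
    rw [psi_left (by linarith), mul_zero]

lemma W_wait (h1 : (N : ℝ) ≤ t) : W N R ξ z t = -ξ * bump R (t - N) := by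
  rw [W, Finset.sum_eq_zero, zero_add]
  intro j hj
  have h4 : (j : ℝ) + 1 ≤ N := by exact_mod_cast Finset.mem_range.1 hj
  rw [psi_right (by linarith), mul_zero]

lemma W_left (h : t ≤ 1 / 4) : W N R ξ z t = 0 := by
  have h0 : (0 : ℝ) ≤ N := Nat.cast_nonneg N
  rw [W, bump_left (by linarith), mul_zero, add_zero]
  refine Finset.sum_eq_zero fun j _ => ?_
  have h0 : (0 : ℝ) ≤ j := Nat.cast_nonneg j
  rw [psi_left (by linarith), mul_zero]

lemma W_right (hR : 0 ≤ R) (h : N + R + 7 / 4 ≤ t) : W N R ξ z t = 0 := by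
  rw [W_wait (by linarith), bump_right (by linarith), mul_zero]

/-- the phase number -/
noncomputable def jx (N : ℕ) (t : ℝ) : ℕ := min N ⌊t⌋₊

lemma W_cases (N : ℕ) (R ξ : ℝ) (z : ℕ → ℝ) (t : ℝ) : W N R ξ z t = 0 ∨
    (jx N t < N ∧ jx N t + 1 / 4 ≤ t ∧ t ≤ jx N t + 3 / 4 ∧
      W N R ξ z t = z (jx N t) * psi (t - jx N t)) ∨
    (jx N t = N ∧ N + 1 / 4 ≤ t ∧ W N R ξ z t = -ξ * bump R (t - N)) := by
  by_cases h : W N R ξ z t = 0
  · exact Or.inl h
  have h0 : 1 / 4 < t := not_le.1 fun h' => h (W_left h')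
  right
  by_cases h1 : (N : ℝ) ≤ t
  · refine Or.inr ⟨min_eq_left (Nat.le_floor h1), not_lt.1 fun h2 => h ?_, W_wait h1⟩
    rw [W_wait h1, bump_left (by linarith), mul_zero]
  · have h2 : ⌊t⌋₊ < N := (Nat.floor_lt (by linarith)).2 (not_le.1 h1)
    have e : jx N t = ⌊t⌋₊ := min_eq_right h2.le
    have h3 := W_pulse (R := R) (ξ := ξ) (z := z) h2 (Nat.floor_le (by linarith))
      (Nat.lt_floor_add_one t).le
    rw [e]
    refine Or.inl ⟨h2, not_lt.1 fun h4 => h ?_, not_lt.1 fun h4 => h ?_, h3⟩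
    · rw [h3, psi_left (by linarith), mul_zero]
    · rw [h3, psi_right (by linarith), mul_zero]

lemma jx_not_lt {t' : ℝ} (h : W N R ξ z t ≠ 0) (h' : W N R ξ z t' ≠ 0) (hd : t' - t < 1 / 2) :
    ¬ jx N t < jx N t' := by
  intro hlt
  have h1 : (jx N t : ℝ) + 1 ≤ jx N t' := by exact_mod_cast hlt
  have h2 : jx N t' ≤ N := min_le_left _ _
  have h3 : (jx N t' : ℝ) + 1 / 4 ≤ t' := by
    rcases W_cases N R ξ z t' with h4 | h4 | h4
    · exact absurd h4 h'
    · exact h4.2.1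
    · rw [h4.1]; exact h4.2.1
  rcases W_cases N R ξ z t with h4 | h4 | h4
  · exact h h4
  · linarith [h4.2.2.1]
  · omega

lemma jx_loc (N : ℕ) (R ξ : ℝ) (z : ℕ → ℝ) (t₁ : ℝ) :
    ∃ i, ∀ t, |t - t₁| < 1 / 4 → W N R ξ z t = 0 ∨ jx N t = i := by
  by_cases h : ∃ t₂, |t₂ - t₁| < 1 / 4 ∧ W N R ξ z t₂ ≠ 0
  · obtain ⟨t₂, h2, h2'⟩ := h
    refine ⟨jx N t₂, fun t ht => or_iff_not_imp_left.2 fun h' => ?_⟩
    rw [abs_lt] at h2 ht
    exact le_antisymm (not_lt.1 (jx_not_lt h2' h' (by linarith)))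
      (not_lt.1 (jx_not_lt h' h2' (by linarith)))
  · exact ⟨0, fun t ht => Or.inl (not_not.1 fun h' => h ⟨t, ht, h'⟩)⟩

lemma W_bounds {δ : ℝ} (hξ : 0 ≤ ξ) (hδ : 0 ≤ δ) (hz : ∀ i, -ξ ≤ z i ∧ z i ≤ δ) (t : ℝ) :
    -ξ ≤ W N R ξ z t ∧ W N R ξ z t ≤ δ := by
  rcases W_cases N R ξ z t with h | ⟨-, -, -, h⟩ | ⟨-, -, h⟩ <;> rw [h]
  · exact ⟨by linarith, hδ⟩
  · have h1 : 0 ≤ psi (t - jx N t) := bump_nonneg _ _
    have h2 : psi (t - jx N t) ≤ 1 := bump_le_one _ _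
    obtain ⟨h3, h4⟩ := hz (jx N t)
    constructor <;> nlinarith
  · have h1 := bump_nonneg R (t - N)
    have h2 := bump_le_one R (t - N)
    constructor <;> nlinarith

end Vale.Agent.P225.Prof
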