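import Vale.Agent.P225.Iface

/-! The adiabatic limit of a short pulse. -/

namespace Vale.Agent.P225

open scoped Topology
open Filter Set

namespace Pulse

theorem arith {δ B S z w x y : ℝ} (hδ : 0 ≤ δ) (hB : 1 ≤ B) (hδB : 4 * δ * B ^ 2 ≤ 1)
    (hw : 0 ≤ w) (hS : S ≤ B * z + (3 * B ^ 2 * w + 2 * δ * B ^ 2 * S))
    (hx : x ≤ 3 * B ^ 2 * w + 2 * δ * B ^ 2 * S) (hy : y ≤ w + δ * B * S + δ * S) (h0 : 0 ≤ S) :
    x ≤ 4 * δ * B ^ 3 * z + 6 * B ^ 2 * w ∧ y ≤ 4 * δ * B ^ 3 * z + 6 * B ^ 2 * w := by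
  have hB2 : B ≤ B ^ 2 := by nlinarith
  have h1 : S ≤ 2 * B * z + 6 * B ^ 2 * w := by nlinarith [mul_le_mul_of_nonneg_right hδB h0]
  have h2 := mul_le_mul_of_nonneg_left h1 (show 0 ≤ 2 * δ * B ^ 2 by positivity)
  have h3 := mul_le_mul_of_nonneg_right hδB (show 0 ≤ 3 * B ^ 2 * w by positivity)
  have h4 := mul_le_mul_of_nonneg_left hB2 (mul_nonneg hδ h0)
  have h5 := mul_le_mul_of_nonneg_left (hB.trans hB2) (mul_nonneg hδ h0)
  have h6 := mul_le_mul_of_nonneg_right (hB.trans hB2) hw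
  constructor <;> nlinarith

theorem core (h1 : DecayStmt) {E : Type} [NormedAddCommGroup E] [NormedSpace ℝ E]
    (K : E →L[ℝ] E) (U : ℝ → E →L[ℝ] E) {c γ G B δ a T : ℝ} {g g₀ G₀ P : ℝ → ℝ} {Z W : ℝ → E}
    (hU : ∀ t, HasDerivAt U ((U t).comp (c • K)) t) (hU0 : U 0 = 1) (hc : 0 ≤ c) (hγ : 0 < γ)
    (hG : 0 ≤ G) (hδ : 0 ≤ δ) (hT : 0 < T) (hTδ : 1 / T ≤ δ) (hδB : 4 * δ * B ^ 2 ≤ 1)
    (hB : 1 ≤ B) (b1 : c ≤ B) (b2 : G * ‖K‖ / γ ≤ B) (b3 : (1 + c ^ 2 * G * ‖K‖) / γ ≤ B)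
    (b4 : (1 + c ^ 2 * G * ‖K‖) * (G * ‖K‖ / γ) + c * ‖K‖ ≤ B)
    (hP : ContinuousOn P (Icc a (a + T))) (hG0 : G₀ a = 0)
    (h : ∀ s ∈ Icc a (a + T), HasDerivAt Z (W s) s ∧
      HasDerivAt W (g s • K (Z s) - P s • W s) s ∧ HasDerivAt G₀ (g₀ s) s ∧ γ ≤ P s ∧
      |1 - c * P s| ≤ δ ∧ |g s| ≤ G * (1 / T) ∧ |g₀ s| ≤ G * (1 / T) ∧
      |g s - g₀ s| ≤ δ * (1 / T) ∧ ∀ s' ∈ Icc a (a + T), ‖U (G₀ s - G₀ s')‖ ≤ B) :
    ‖Z (a + T) - U (G₀ (a + T)) (Z a)‖ ≤ 4 * δ * B ^ 3 * ‖Z a‖ + 6 * B ^ 2 * ‖W a‖ ∧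
      ‖W (a + T)‖ + δ * ‖Z (a + T)‖ ≤ 4 * δ * B ^ 3 * ‖Z a‖ + 6 * B ^ 2 * ‖W a‖ := by
  have ha : a ∈ Icc a (a + T) := left_mem_Icc.2 (by linarith)
  have hb : a + T ∈ Icc a (a + T) := right_mem_Icc.2 (by linarith)
  obtain ⟨s₀, hs₀, hS⟩ := isCompact_Icc.exists_isMaxOn ⟨a, ha⟩
    (ContinuousOn.norm fun s hs => (h s hs).1.continuousAt.continuousWithinAt)
  obtain ⟨S, hS'⟩ : ∃ S, S = ‖Z s₀‖ := ⟨_, rfl⟩
  have hZ : ∀ s ∈ Icc a (a + T), ‖Z s‖ ≤ S := fun s hs => hS' ▸ hS hs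
  have S0 : 0 ≤ S := hS' ▸ norm_nonneg _
  have hτ : 1 / T * T = 1 := one_div_mul_cancel hT.ne'
  have τ0 : 0 < 1 / T := by positivity
  generalize 1 / T = τ at *
  have k0 := norm_nonneg K
  have hK : ∀ x r, ‖x‖ ≤ r → ‖K x‖ ≤ ‖K‖ * r := fun x r hr => K.le_opNorm_of_le hr
  have hW : ∀ s ∈ Icc a (a + T),
      ‖W s‖ ≤ Real.exp (-(γ * (s - a))) * ‖W a‖ + τ * (G * ‖K‖ / γ) * S := by
    intro s hs
    refine (h1 E W (fun s => g s • K (Z s)) P a (a + T) γ (G * τ * (‖K‖ * S)) 0 hγ (by positivity)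
      le_rfl hP (fun s hs => ⟨(h s hs).2.2.2.1, ?_, (h s hs).2.1⟩) s hs).trans (le_of_eq ?_)
    · rw [norm_smul, zero_mul, Real.exp_zero, mul_one]
      exact mul_le_mul (h s hs).2.2.2.2.2.1 (hK _ _ (hZ s hs)) (norm_nonneg _) (by positivity)
    · rw [zero_mul, Real.exp_zero]
      ring
  have hW' : ∀ s ∈ Icc a (a + T), ‖W s‖ ≤ ‖W a‖ + δ * B * S := by
    intro s hs
    refine (hW s hs).trans (add_le_add (mul_le_of_le_one_left (norm_nonneg _)
      (Real.exp_le_one_iff.2 (by nlinarith [hs.1]))) ?_)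
    exact mul_le_mul_of_nonneg_right (mul_le_mul hTδ b2 (by positivity) hδ) S0
  have hM : ∀ t ∈ Icc a (a + T),
      ‖Z t + c • W t - U (G₀ t) (Z a + c • W a)‖ ≤ δ * B ^ 2 * (‖W a‖ + S) := by
    intro t ht
    have hd : ∀ s ∈ Icc a (a + T), HasDerivAt
        (fun s => U (G₀ t - G₀ s) (Z s + c • W s) - U (G₀ t) (Z a + c • W a))
        (U (G₀ t - G₀ s) ((1 - c * P s) • W s + (c * (g s - g₀ s)) • K (Z s) -
          (c ^ 2 * g₀ s) • K (W s))) s := by
      intro s hs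
      obtain ⟨d1, d2, d3, -⟩ := h s hs
      refine ((((hU _).scomp s (d3.const_sub (G₀ t))).clm_apply
        (d1.add (d2.const_smul c))).sub_const _).congr_deriv ?_
      simp only [smul_apply, ContinuousLinearMap.comp_apply,
        Function.comp_apply, Pi.add_apply, Pi.smul_apply, map_add, map_sub, map_smul]
      module
    have hB' : ∀ s, HasDerivAt (fun s => B * δ * ((1 + c ^ 2 * G * ‖K‖) * ‖W a‖ *
        ((1 - Real.exp (-(γ * (s - a)))) / γ) + τ * B * S * (s - a)))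
        (B * δ * ((1 + c ^ 2 * G * ‖K‖) * ‖W a‖ * Real.exp (-(γ * (s - a))) + τ * B * S)) s := by
      intro s
      have d := (hasDerivAt_id s).sub_const a
      refine ((((((d.const_mul γ).neg.exp.const_sub 1).div_const γ).const_mul _).add
        (d.const_mul _)).const_mul _).congr_deriv ?_
      simp only [Pi.neg_apply, id]
      field_simp
    have := image_norm_le_of_norm_deriv_right_le_deriv_boundary
      (fun s hs => (hd s hs).continuousAt.continuousWithinAt)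
      (fun s hs => (hd s (Ico_subset_Icc_self hs)).hasDerivWithinAt) (by simp [hG0]) hB'
      (fun s hs => ?_) ht
    · simp only [sub_self, hU0, one_apply_eq_self] at this
      refine this.trans ?_
      have e1 : (1 + c ^ 2 * G * ‖K‖) * ‖W a‖ * ((1 - Real.exp (-(γ * (t - a)))) / γ) ≤
          B * ‖W a‖ := by
        refine le_trans (le_of_eq ?_) (mul_le_mul_of_nonneg_right
          ((mul_le_of_le_one_right (by positivity)
            (sub_le_self 1 (Real.exp_pos (-(γ * (t - a)))).le)).trans b3) (norm_nonneg _))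
        ring
      have e2 : τ * B * S * (t - a) ≤ B * S := by
        have : τ * (t - a) ≤ 1 := hτ ▸ mul_le_mul_of_nonneg_left (by linarith [ht.2]) τ0.le
        nlinarith [mul_le_mul_of_nonneg_left this (show 0 ≤ B * S by positivity)]
      nlinarith [mul_le_mul_of_nonneg_left (add_le_add e1 e2) (show 0 ≤ B * δ by positivity)]
    · have hs' := Ico_subset_Icc_self hs
      obtain ⟨-, -, -, -, p1, -, p2, p3, -⟩ := h s hs'
      rw [mul_assoc B]
      refine ((U _).le_opNorm _).trans (mul_le_mul ((h t ht).2.2.2.2.2.2.2.2 s hs')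
        ((norm_sub_le_of_le (norm_add_le _ _) le_rfl).trans ?_) (norm_nonneg _) (by linarith))
      simp only [norm_smul, Real.norm_eq_abs, abs_mul, abs_of_nonneg hc, abs_pow]
      have q1 := mul_le_mul_of_nonneg_right p1 (norm_nonneg (W s))
      have q2 := mul_le_mul (mul_le_mul_of_nonneg_left p3 hc) (hK _ _ (hZ s hs'))
        (norm_nonneg _) (by positivity)
      have q3 := mul_le_mul (mul_le_mul_of_nonneg_left
        (p2.trans (mul_le_mul_of_nonneg_left hTδ hG)) (sq_nonneg c)) (K.le_opNorm (W s))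
        (norm_nonneg _) (by positivity)
      have q4 := mul_le_mul_of_nonneg_left (hW s hs')
        (show 0 ≤ δ * (1 + c ^ 2 * G * ‖K‖) by positivity)
      have q5 := mul_le_mul_of_nonneg_left b4 (show 0 ≤ δ * τ * S by positivity)
      linarith
  have hX : ∀ t ∈ Icc a (a + T),
      ‖Z t - U (G₀ t) (Z a)‖ ≤ 3 * B ^ 2 * ‖W a‖ + 2 * δ * B ^ 2 * S := by
    intro t ht
    have e : Z t - U (G₀ t) (Z a) =
        Z t + c • W t - U (G₀ t) (Z a + c • W a) - c • W t + c • U (G₀ t) (W a) := by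
      simp only [map_add, map_smul]
      abel
    have u1 := (h t ht).2.2.2.2.2.2.2.2 a ha
    rw [hG0, sub_zero] at u1
    rw [e]
    refine (norm_add_le_of_le (norm_sub_le_of_le (hM t ht) le_rfl) le_rfl).trans ?_
    rw [norm_smul, norm_smul, Real.norm_of_nonneg hc]
    have q1 := mul_le_mul b1 (hW' t ht) (norm_nonneg _) (by linarith)
    have q2 := mul_le_mul b1 (((U _).le_opNorm (W a)).trans
      (mul_le_mul_of_nonneg_right u1 (norm_nonneg _))) (norm_nonneg _) (by linarith)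
    have q3 := mul_le_mul_of_nonneg_right hδB (norm_nonneg (W a))
    have q4 := mul_le_mul_of_nonneg_right (show B ≤ B ^ 2 by nlinarith) (norm_nonneg (W a))
    have q5 := mul_le_mul_of_nonneg_right hB (norm_nonneg (W a))
    nlinarith [norm_nonneg (W a)]
  refine arith hδ hB hδB (norm_nonneg _) ?_ (hX _ hb)
    (add_le_add (hW' _ hb) (mul_le_mul_of_nonneg_left (hZ _ hb) hδ)) S0
  have u1 := (h s₀ hs₀).2.2.2.2.2.2.2.2 a ha
  rw [hG0, sub_zero] at u1
  have := norm_le_norm_add_norm_sub' (Z s₀) (U (G₀ s₀) (Z a))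
  linarith [hX s₀ hs₀, ((U _).le_opNorm (Z a)).trans
    (mul_le_mul_of_nonneg_right u1 (norm_nonneg _))]

theorem scalar (h1 : DecayStmt) (h2 : PosStmt) {p r : ℝ → ℝ} {q lam β a T η : ℝ}
    (hp : Continuous p) (hr : Continuous r) (hq : 0 < q) (hβ : 0 < β) (hl : β ^ 2 + q * β = lam)
    (hη : 0 ≤ η) (hT : 0 ≤ T) (h : ∀ s ∈ Icc a (a + T), q ≤ p s ∧ 0 ≤ r s ∧ r s ≤ 3 ∧
      lam * |r s - 1| + (p s - q) * (3 * β) ≤ η * β) :
    ∃ A A' : ℝ → ℝ, A a = 1 ∧ A' a = β ∧ A (a + T) ≤ Real.exp (T * (3 * β)) ∧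
      ∀ s ∈ Icc a (a + T), 1 ≤ A s ∧ 0 ≤ A' s ∧ HasDerivAt A (A' s) s ∧
        HasDerivAt (fun s => A' s / A s)
          (lam * r s - p s * (A' s / A s) - (A' s / A s) ^ 2) s ∧ |A' s / A s - β| ≤ η := by
  have hl0 : 0 ≤ lam := by rw [← hl]; positivity
  obtain ⟨A, A', a1, a2, hA⟩ := h2.1 p (fun s => lam * r s) a (a + T) 1 β hp (by fun_prop)
  obtain ⟨b1, b2⟩ := h2.2 p (fun s => lam * r s) A A' a (a + T) hp.continuousOn
    (fun s hs => ⟨mul_nonneg hl0 (h s hs).2.1, hA s hs⟩) (by linarith) (by linarith)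
  have b3 := b2 (3 * β) (by linarith) (fun s hs => by
    obtain ⟨c1, -, c2, -⟩ := h s hs
    nlinarith [mul_le_mul_of_nonneg_left c2 hl0, mul_le_mul_of_nonneg_left c1 hβ.le])
    (by rw [a1, a2]; linarith)
  rw [a1] at b1 b3
  have hpos : ∀ s ∈ Icc a (a + T), 0 < A s := fun s hs => one_pos.trans_le (b1 s hs).1
  have hd : ∀ s ∈ Icc a (a + T), HasDerivAt (fun s => A' s / A s)
      (lam * r s - p s * (A' s / A s) - (A' s / A s) ^ 2) s := fun s hs =>
    ((hA s hs).2.div (hA s hs).1 (hpos s hs).ne').congr_deriv (by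
      have := (hpos s hs).ne'
      field_simp)
  refine ⟨A, A', a1, a2, by simpa [mul_comm] using (b3 _ (right_mem_Icc.2 (by linarith))).2,
    fun s hs => ⟨(b1 s hs).1, (b1 s hs).2, (hA s hs).1, hd s hs, ?_⟩⟩
  have := h1 ℝ (fun s => A' s / A s - β) (fun s => lam * (r s - 1) - (p s - q) * (A' s / A s))
    (fun s => A' s / A s + β + q) a (a + T) β (η * β) 0 hβ (by positivity) le_rfl
    (fun s hs => (((hd s hs).add_const β).add_const q).continuousAt.continuousWithinAt)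
    (fun s hs => ?_) s hs
  · simpa [a1, a2, hβ.ne'] using this
  · have y0 := div_nonneg (b1 s hs).2 (hpos s hs).le
    have y1 := (div_le_iff₀ (hpos s hs)).2 (b3 s hs).1
    obtain ⟨c1, -, -, c2⟩ := h s hs
    refine ⟨by linarith, ?_, ((hd s hs).sub_const β).congr_deriv (by rw [← hl, smul_eq_mul]; ring)⟩
    rw [zero_mul, Real.exp_zero, mul_one]
    refine (norm_sub_le _ _).trans (le_trans ?_ c2)
    rw [Real.norm_eq_abs, abs_mul, abs_of_nonneg hl0,
      Real.norm_of_nonneg (mul_nonneg (sub_nonneg.2 c1) y0)]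
    linarith [mul_le_mul_of_nonneg_left y1 (sub_nonneg.2 c1)]

theorem psi_cont : Continuous psi := by
  unfold psi bump
  fun_prop

theorem abs_psi (t : ℝ) : |psi t| ≤ 1 := by
  rw [psi, bump, abs_of_nonneg (mul_nonneg (Real.smoothTransition.nonneg _)
    (Real.smoothTransition.nonneg _))]
  exact mul_le_one₀ (Real.smoothTransition.le_one _) (Real.smoothTransition.nonneg _)
    (Real.smoothTransition.le_one _)

theorem coef {N x : ℝ} (hN : 0 ≤ N) (h : 2 * (N + 1) * |x| ≤ 1) :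
    aa x ≤ 3 ∧ |aa x - 1| ≤ 4 * |x| ∧ |bb N x - -2 * (N + 1) * x| ≤ 4 * (1 + N ^ 2) * |x| ^ 2 := by
  have h0 := mul_nonneg hN (abs_nonneg x)
  have h1 : |-2 * x| ≤ 1 := by
    rw [abs_mul, abs_neg, abs_two]
    linarith
  have h2 : |2 * N * x| ≤ 1 := by
    rw [abs_mul, abs_of_nonneg (by linarith)]
    linarith [abs_nonneg x]
  have h3 := Real.abs_exp_sub_one_le h1
  have h4 := abs_le.1 (Real.abs_exp_sub_one_sub_id_le h1)
  have h5 := abs_le.1 (Real.abs_exp_sub_one_sub_id_le h2)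
  refine ⟨by linarith [(abs_le.1 h3).2, show aa x = Real.exp (-2 * x) from rfl], ?_, ?_⟩
  · rw [abs_mul, abs_neg, abs_two] at h3
    exact h3.trans (le_of_eq (by ring))
  · rw [bb, sq_abs, abs_le]
    constructor <;> linarith [h4.1, h4.2, h5.1, h5.2]

end Pulse

open Pulse in
theorem pulseStmt (h1 : DecayStmt) (h2 : PosStmt) : PulseStmt := by
  intro D K p q lam β N Y₀ hp hβ hl hN
  have hq := hp.pos
  have hl0 : 0 ≤ lam := by rw [← hl]; positivity
  obtain ⟨c, hc⟩ : ∃ c, c = (2 * β + q)⁻¹ := ⟨_, rfl⟩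
  have c0 : 0 < c := by rw [hc]; positivity
  have c1 : c * (2 * β + q) = 1 := by rw [hc]; field_simp
  let U : ℝ → Vc D →L[ℝ] Vc D := fun t => (NormedSpace.exp (t • c • K)).restrictScalars ℝ
  have hU : ∀ t, HasDerivAt U ((U t).comp (c • K.restrictScalars ℝ)) t := fun t =>
    (ContinuousLinearMap.restrictScalarsL ℂ (Vc D) (Vc D) ℝ ℝ).hasFDerivAt.comp_hasDerivAt t
      (hasDerivAt_exp_smul_const (c • K) t)
  have hU0 : U 0 = 1 := by
    simp only [U]
    rw [show (0 : ℝ) • c • K = 0 from zero_smul ℝ (c • K), NormedSpace.exp_zero]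
    rfl
  obtain ⟨G, hG⟩ : ∃ G, G = 2 * (N + 1) * |Y₀| + 1 := ⟨_, rfl⟩
  have G0 : 0 ≤ G := by rw [hG]; positivity
  obtain ⟨B₀, hB₀⟩ := (isCompact_Icc (a := -(2 * G)) (b := 2 * G)).exists_bound_of_continuousOn
    fun t _ => (hU t).continuousAt.continuousWithinAt
  obtain ⟨k, hk⟩ : ∃ k, k = ‖K.restrictScalars ℝ‖ := ⟨_, rfl⟩
  obtain ⟨B, hB, b0, b1, b2, b3, b4⟩ : ∃ B, 1 ≤ B ∧ B₀ ≤ B ∧ c ≤ B ∧ G * k / q ≤ B ∧
      (1 + c ^ 2 * G * k) / q ≤ B ∧ (1 + c ^ 2 * G * k) * (G * k / q) + c * k ≤ B :=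
    ((eventually_ge_atTop _).and ((eventually_ge_atTop _).and ((eventually_ge_atTop _).and
      ((eventually_ge_atTop _).and ((eventually_ge_atTop _).and
        (eventually_ge_atTop _)))))).exists
  refine ⟨6 * B ^ 2, by positivity, 3 * β, by positivity, fun ε hε => ?_⟩
  obtain ⟨δ, δ0, δ1, δ2⟩ : ∃ δ, 0 < δ ∧ 4 * δ * B ^ 2 ≤ 1 ∧ 4 * δ * B ^ 3 ≤ ε := by
    refine ⟨min (1 / (4 * B ^ 2)) (ε / (4 * B ^ 3)), by positivity, ?_, ?_⟩
    · linarith [(le_div_iff₀ (show 0 < 4 * B ^ 2 by positivity)).1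
        (min_le_left (1 / (4 * B ^ 2)) (ε / (4 * B ^ 3)))]
    · linarith [(le_div_iff₀ (show 0 < 4 * B ^ 3 by positivity)).1
        (min_le_right (1 / (4 * B ^ 2)) (ε / (4 * B ^ 3)))]
  have δ3 : δ ≤ 1 := by linarith [mul_le_mul_of_nonneg_left (one_le_pow₀ hB (n := 2)) δ0.le]
  obtain ⟨η, η0, η1, η2⟩ : ∃ η, 0 < η ∧ η ≤ δ ∧ c * (3 * η) ≤ δ := by
    refine ⟨min δ (δ / (3 * c)), by positivity, min_le_left _ _, ?_⟩
    linarith [(le_div_iff₀ (show 0 < 3 * c by positivity)).1 (min_le_right δ (δ / (3 * c)))]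
  have ev : ∀ M r : ℝ, 0 < r → ∀ᶠ T : ℝ in atTop, M * (1 / T) ≤ r := fun M r hr => by
    simpa only [mul_one_div, id] using
      (tendsto_const_nhds.div_atTop tendsto_id).eventually (eventually_le_nhds hr)
  obtain ⟨a₀, ha₀⟩ := eventually_atTop.1 ((hp.lim.eventually
    (eventually_le_nhds (show q < q + η / 6 by linarith))).and ((eventually_gt_atTop 0).and
      ((ev 1 δ δ0).and ((ev (2 * (N + 1) * |Y₀|) 1 one_pos).and
        ((ev (4 * (1 + N ^ 2) * |Y₀| ^ 2) δ δ0).and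
          (ev (lam * (4 * |Y₀|)) (η * β / 2) (by positivity)))))))
  refine ⟨a₀, fun a ha T hT y hy => ?_⟩
  obtain ⟨-, T0, t1, t2, t3, t4⟩ := ha₀ T hT
  have τ0 : 0 < 1 / T := by positivity
  obtain ⟨x, hx⟩ : ∃ x : ℝ → ℝ, ∀ s, x s = y / T * psi ((s - a) / T) := ⟨_, fun _ => rfl⟩
  have hxc : Continuous x := by
    rw [funext hx]
    exact continuous_const.mul (psi_cont.comp (by fun_prop))
  have hy' := hy.trans (le_abs_self Y₀)
  have hxb : ∀ s, |x s| ≤ |Y₀| * (1 / T) := fun s => by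
    rw [hx, abs_mul, abs_div, abs_of_pos T0, mul_one_div]
    exact (mul_le_of_le_one_right (by positivity) (abs_psi _)).trans
      (div_le_div_of_nonneg_right hy' T0.le)
  have hco := fun s => coef (x := x s) hN
    (by linarith [mul_le_mul_of_nonneg_left (hxb s) (show 0 ≤ 2 * (N + 1) by linarith)])
  have hpq : ∀ s ∈ Icc a (a + T), p s - q ≤ η / 6 := fun s hs => by
    linarith [(ha₀ s (hs.1.trans' ha)).1]
  obtain ⟨A, A', a1, a2, a3, hA⟩ := scalar h1 h2 (r := fun s => aa (x s)) (a := a) hp.cont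
    (by unfold aa; fun_prop) hq hβ hl η0.le T0.le fun s hs =>
      ⟨hp.le s, (Real.exp_pos _).le, (hco s).1, by
        linarith [mul_le_mul_of_nonneg_left ((hco s).2.1.trans
          (mul_le_mul_of_nonneg_left (hxb s) (by norm_num))) hl0,
          mul_le_mul_of_nonneg_right (hpq s hs) hβ.le]⟩
  have hb : a + T ∈ Icc a (a + T) := right_mem_Icc.2 (by linarith)
  have Γ0 := one_pos.trans_le (hA _ hb).1
  refine ⟨A (a + T), Γ0, a3, fun u v hs => ?_⟩
  simp only [← hx] at hs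
  have hΨ : ∀ s ∈ Icc a (a + T), |-2 * (N + 1) * y * ∫ t in (0 : ℝ)..(s - a) / T, psi t| ≤ G := by
    intro s hs
    have e1 := intervalIntegral.norm_integral_le_of_norm_le_const (a := 0) (b := (s - a) / T)
      (f := psi) (C := 1) fun t _ => abs_psi t
    rw [one_mul, sub_zero, abs_of_nonneg (div_nonneg (sub_nonneg.2 hs.1) T0.le)] at e1
    have e2 := e1.trans ((div_le_one T0).2 (by linarith [hs.2]))
    rw [abs_mul, abs_mul, neg_mul, abs_neg, abs_of_nonneg (show 0 ≤ 2 * (N + 1) by linarith)]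
    refine (mul_le_of_le_one_right (by positivity) e2).trans ?_
    linarith [mul_le_mul_of_nonneg_left hy' (show 0 ≤ 2 * (N + 1) by linarith)]
  have H := core h1 (K.restrictScalars ℝ) U (g := fun s => bb N (x s))
    (g₀ := fun s => -2 * (N + 1) * x s)
    (G₀ := fun s => -2 * (N + 1) * y * ∫ t in (0 : ℝ)..(s - a) / T, psi t)
    (P := fun s => p s + 2 * (A' s / A s)) (Z := fun s => (A s)⁻¹ • u s)
    (W := fun s => (A s)⁻¹ • (v s - (A' s / A s) • u s)) (a := a) hU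
    hU0 c0.le hq G0 δ0.le T0
    (by linarith) δ1 hB b1 (hk ▸ b2) (hk ▸ b3) (hk ▸ b4)
    (fun s hs => (hp.cont.continuousAt.add
      ((hA s hs).2.2.2.1.const_mul 2).continuousAt).continuousWithinAt) (by simp) fun s hs' => ?_
  · simp only [a1, a2, inv_one, one_smul, div_one, add_sub_cancel_left, div_self T0.ne'] at H
    have e := add_le_add (mul_le_mul_of_nonneg_right δ2 (norm_nonneg (u a)))
      (le_refl (6 * B ^ 2 * ‖v a - β • u a‖))
    have n1 : ∀ w : Vc D, ‖w‖ = A (a + T) * ‖(A (a + T))⁻¹ • w‖ := fun w => by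
      rw [norm_smul, norm_inv, Real.norm_of_nonneg Γ0.le, mul_inv_cancel_left₀ Γ0.ne']
    constructor
    · rw [n1, smul_sub, inv_smul_smul₀ Γ0.ne', ← hc, mul_right_comm _ Ipsi]
      exact mul_le_mul_of_nonneg_left (H.1.trans e) Γ0.le
    · rw [n1]
      refine mul_le_mul_of_nonneg_left (le_trans ?_ (H.2.trans e)) Γ0.le
      rw [show (A (a + T))⁻¹ • (v (a + T) - β • u (a + T)) =
        (A (a + T))⁻¹ • (v (a + T) - (A' (a + T) / A (a + T)) • u (a + T)) +
          (A' (a + T) / A (a + T) - β) • (A (a + T))⁻¹ • u (a + T) by module]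
      refine norm_add_le_of_le le_rfl ?_
      rw [norm_smul]
      exact mul_le_mul_of_nonneg_right ((hA _ hb).2.2.2.2.trans η1) (norm_nonneg _)
  · obtain ⟨d1, d2, d3, d4, d5⟩ := hA s hs'
    obtain ⟨d6, d7⟩ := hs s hs'
    have A0 : A s ≠ 0 := (one_pos.trans_le d1).ne'
    have g1 : |-2 * (N + 1) * x s| ≤ 2 * (N + 1) * |Y₀| * (1 / T) := by
      rw [abs_mul, neg_mul, abs_neg, abs_of_nonneg (show 0 ≤ 2 * (N + 1) by linarith)]
      linarith [mul_le_mul_of_nonneg_left (hxb s) (show 0 ≤ 2 * (N + 1) by linarith)]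
    have g2 : |bb N (x s) - -2 * (N + 1) * x s| ≤ δ * (1 / T) := by
      refine (hco s).2.2.trans (le_trans ?_ (mul_le_mul_of_nonneg_right t3 τ0.le))
      linarith [mul_le_mul_of_nonneg_left (pow_le_pow_left₀ (abs_nonneg _) (hxb s) 2)
        (show 0 ≤ 4 * (1 + N ^ 2) by positivity)]
    have g3 : δ * (1 / T) ≤ 1 / T := mul_le_of_le_one_left τ0.le δ3
    refine ⟨((d3.inv A0).smul d6).congr_deriv ?_,
      ((d3.inv A0).smul (d7.sub (d4.smul d6))).congr_deriv ?_, ?_,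
      by linarith [hp.le s, div_nonneg d2 (zero_le_one.trans d1)], ?_, ?_, ?_, g2,
      fun s' hs'' => (hB₀ _ (abs_le.1 ?_)).trans b0⟩
    · simp only [Pi.inv_apply]
      match_scalars <;> field_simp
    · simp only [Pi.inv_apply, Pi.sub_apply, Pi.smul_apply', Qf, add_apply,
        smul_apply, one_apply_eq_self, map_smul,
        ContinuousLinearMap.coe_restrictScalars']
      match_scalars <;> field_simp <;> ring
    · refine (((psi_cont.integral_hasStrictDerivAt 0 _).hasDerivAt.comp s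
        (((hasDerivAt_id s).sub_const a).div_const T)).const_mul _).congr_deriv ?_
      rw [hx]
      simp only [id]
      ring
    · rw [show 1 - c * (p s + 2 * (A' s / A s)) = -(c * (p s - q + 2 * (A' s / A s - β))) by
        linear_combination -c1, abs_neg, abs_mul, abs_of_pos c0]
      refine le_trans (mul_le_mul_of_nonneg_left (abs_le.2 ⟨?_, ?_⟩) c0.le) η2 <;>
        linarith [(abs_le.1 d5).1, (abs_le.1 d5).2, hpq s hs', hp.le s]
    · rw [hG]
      linarith [abs_sub_abs_le_abs_sub (bb N (x s)) (-2 * (N + 1) * x s)]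
    · rw [hG]
      linarith
    · exact (abs_sub _ _).trans (by linarith [hΨ s hs', hΨ s' hs''])

end Vale.Agent.P225
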