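import Vale.Agent.P225.Iface

/-! Harmonic polynomials in null coordinates: definitions and interfaces. -/

namespace Vale.Agent.P225

open scoped ContDiff Topology Matrix ComplexConjugate Nat
open Filter MvPolynomial

abbrev Ix (m : ℕ) := Fin m ⊕ Fin m
abbrev Pol (m : ℕ) := MvPolynomial (Ix m) ℂ
abbrev CM (m : ℕ) := Matrix (Ix m) (Ix m) ℂ

variable {m : ℕ}

/-- the derivation `∑ M a b X_b ∂_a` -/
noncomputable def DM (M : CM m) : Module.End ℂ (Pol m) :=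
  ∑ a, ∑ b, M a b • (LinearMap.mulLeft ℂ (X b : Pol m) ∘ₗ (pderiv a).toLinearMap)

theorem DM_apply (M : CM m) (P : Pol m) :
    DM M P = ∑ a, ∑ b, M a b • (X b * pderiv a P) := by
  simp [DM, LinearMap.sum_apply]

/-- the Laplacian in null coordinates -/
noncomputable def Lp : Module.End ℂ (Pol m) :=
  ∑ a, (pderiv a).toLinearMap ∘ₗ (pderiv (Sum.swap a)).toLinearMap

theorem Lp_apply (P : Pol m) : Lp P = ∑ a, pderiv a (pderiv (Sum.swap a) P) := by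
  simp [Lp, LinearMap.sum_apply]

/-- harmonic homogeneous polynomials of degree `l` -/
noncomputable def HV (m l : ℕ) : Submodule ℂ (Pol m) :=
  homogeneousSubmodule (Ix m) ℂ l ⊓ LinearMap.ker Lp

theorem mem_HV {l : ℕ} {P : Pol m} : P ∈ HV m l ↔ P.IsHomogeneous l ∧ Lp P = 0 := Iff.rfl

/-- the complex orthogonal Lie algebra in null coordinates -/
def IsSo (M : CM m) : Prop := ∀ a b, M a b = -M (Sum.swap b) (Sum.swap a)

theorem swap_ne (a : Ix m) : Sum.swap a ≠ a := by cases a <;> simp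

theorem pderiv_comm (a b : Ix m) (P : Pol m) : pderiv a (pderiv b P) = pderiv b (pderiv a P) := by
  classical
  induction P using MvPolynomial.induction_on with
  | C c => simp
  | add p q hp hq => simp [hp, hq]
  | mul_X p c hp =>
    simp only [Derivation.leibniz, pderiv_X, smul_eq_mul, map_add, hp, Pi.single_apply]
    split_ifs <;> simp <;> ring

theorem X_mul_pderiv_hom {l : ℕ} {P : Pol m} (h : P.IsHomogeneous l) (a b : Ix m) :
    (X b * pderiv a P).IsHomogeneous l := by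
  rcases l with _ | l
  · have : pderiv a P = 0 := by
      rw [← totalDegree_zero_iff_isHomogeneous, totalDegree_eq_zero_iff_eq_C] at h
      rw [h]; simp
    rw [this, mul_zero]; exact isHomogeneous_zero _ _ _
  · have := (isHomogeneous_X ℂ b).mul (h.pderiv (i := a))
    simpa [add_comm] using this

theorem Lp_X_mul (b : Ix m) (Q : Pol m) :
    Lp (X b * Q) = X b * Lp Q + 2 • pderiv (Sum.swap b) Q := by
  classical
  have h1 : ∀ a : Ix m, pderiv a (pderiv (Sum.swap a) (X b * Q)) =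
      X b * pderiv a (pderiv (Sum.swap a) Q) +
      (if a = b then pderiv (Sum.swap b) Q else 0) +
      (if a = Sum.swap b then pderiv (Sum.swap b) Q else 0) := by
    intro a
    have e : (b = Sum.swap a) ↔ (a = Sum.swap b) := by
      constructor <;> rintro rfl <;> simp
    simp only [Derivation.leibniz, pderiv_X, smul_eq_mul, map_add, Pi.single_apply, e]
    by_cases h : a = b
    · subst h; simp [(swap_ne a).symm]
    · by_cases h' : a = Sum.swap b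
      · subst h'; simp [swap_ne b, (swap_ne b).symm]
      · simp [h, h', Ne.symm h]
  rw [Lp_apply, Lp_apply, Finset.mul_sum, Finset.sum_congr rfl fun a _ => h1 a]
  simp [Finset.sum_add_distrib, two_mul, add_assoc]

theorem Lp_pderiv (a : Ix m) (P : Pol m) : Lp (pderiv a P) = pderiv a (Lp P) := by
  simp only [Lp_apply, map_sum]
  exact Finset.sum_congr rfl fun c _ => by rw [pderiv_comm (Sum.swap c) a, pderiv_comm c a]

theorem Lp_DM {M : CM m} (hM : IsSo M) (P : Pol m) : Lp (DM M P) = DM M (Lp P) := by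
  have hS : ∑ a, ∑ b, M a b • pderiv (Sum.swap b) (pderiv a P) = 0 := by
    have h1 : ∑ a, ∑ b, M a b • pderiv (Sum.swap b) (pderiv a P) =
        -∑ a, ∑ b, M a b • pderiv (Sum.swap b) (pderiv a P) := by
      conv_lhs => rw [Finset.sum_comm, ← (Equiv.sumComm (Fin m) (Fin m)).sum_comp]
      rw [← Finset.sum_neg_distrib]
      refine Finset.sum_congr rfl fun a _ => ?_
      rw [← (Equiv.sumComm (Fin m) (Fin m)).sum_comp, ← Finset.sum_neg_distrib]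
      refine Finset.sum_congr rfl fun b _ => ?_
      simp only [Equiv.sumComm_apply, Sum.swap_swap]
      rw [hM (Sum.swap b) (Sum.swap a), Sum.swap_swap, Sum.swap_swap, neg_smul, pderiv_comm]
    have h2 : (2 : ℂ) • ∑ a, ∑ b, M a b • pderiv (Sum.swap b) (pderiv a P) = 0 := by
      rw [two_smul]; nth_rewrite 1 [h1]; exact neg_add_cancel _
    exact (smul_eq_zero.1 h2).resolve_left two_ne_zero
  rw [DM_apply, DM_apply]
  simp only [map_sum, map_smul, Lp_X_mul, Lp_pderiv, smul_add, Finset.sum_add_distrib]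
  have : ∑ a, ∑ b, M a b • 2 • pderiv (Sum.swap b) (pderiv a P) =
      2 • ∑ a, ∑ b, M a b • pderiv (Sum.swap b) (pderiv a P) := by
    simp only [Finset.smul_sum, smul_comm (M _ _) (2 : ℕ)]
  rw [this, hS, smul_zero, add_zero]

theorem DM_mem {l : ℕ} {M : CM m} (hM : IsSo M) {P : Pol m} (hP : P ∈ HV m l) :
    DM M P ∈ HV m l := by
  refine ⟨?_, ?_⟩
  · rw [DM_apply]
    exact Submodule.sum_mem _ fun a _ => Submodule.sum_mem _ fun b _ =>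
      Submodule.smul_mem _ _ (X_mul_pderiv_hom hP.1 a b)
  · have h : Lp P = 0 := hP.2
    show Lp (DM M P) = 0
    rw [Lp_DM hM, h, map_zero]

open Classical in
/-- the restriction of `DM M` to harmonic polynomials -/
noncomputable def dV (l : ℕ) (M : CM m) : Module.End ℂ (HV m l) :=
  if h : IsSo M then (DM M).restrict fun _ => DM_mem h else 0

theorem dV_coe {l : ℕ} {M : CM m} (h : IsSo M) (u : HV m l) :
    ((dV l M u : HV m l) : Pol m) = DM M u := by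
  rw [dV, dif_pos h]; rfl

/-- `DM (Rm a b) = X_a ∂_{b*} - X_b ∂_{a*}` -/
noncomputable def Rm (a b : Ix m) : CM m :=
  Matrix.single (Sum.swap b) a 1 - Matrix.single (Sum.swap a) b 1

theorem isSo_Rm (a b : Ix m) : IsSo (Rm a b) := by
  intro c d
  have e : ∀ x y : Ix m, (x = Sum.swap y) ↔ (Sum.swap x = y) := by
    intro x y; constructor <;> rintro rfl <;> simp
  simp only [Rm, Matrix.sub_apply, Matrix.single_apply, e, Sum.swap_swap, neg_sub, and_comm]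

theorem DM_Rm (a b : Ix m) (P : Pol m) :
    DM (Rm a b) P = X a * pderiv (Sum.swap b) P - X b * pderiv (Sum.swap a) P := by
  simp [DM_apply, Rm, Matrix.single_apply, sub_smul, Finset.sum_sub_distrib, ite_and]

/-- `DM (Hm a) = X_a ∂_a - X_{a*} ∂_{a*}` -/
noncomputable def Hm (a : Fin m) : CM m := Rm (Sum.inl a) (Sum.inr a)

theorem X_pow_mem (a : Ix m) (l : ℕ) : (X a ^ l : Pol m) ∈ HV m l := by
  classical
  refine ⟨isHomogeneous_X_pow a l, ?_⟩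
  show Lp (X a ^ l : Pol m) = 0
  rw [Lp_apply]
  refine Finset.sum_eq_zero fun c _ => ?_
  by_cases h : Sum.swap c = a
  · have h' : a ≠ c := fun h' => swap_ne c (h.trans h')
    rw [pderiv_comm]
    simp [Derivation.leibniz_pow, pderiv_X, h']
  · simp [Derivation.leibniz_pow, pderiv_X, Ne.symm h]

/-- the highest weight vector -/
noncomputable def vtop (a : Ix m) (l : ℕ) : HV m l := ⟨X a ^ l, X_pow_mem a l⟩

/-- the coefficient of `X_a^l` -/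
noncomputable def ctop (a : Ix m) (l : ℕ) : Module.Dual ℂ (HV m l) :=
  lcoeff ℂ (Finsupp.single a l) ∘ₗ (HV m l).subtype

/-- the Fischer form -/
noncomputable def fis (P Q : Pol m) : ℂ :=
  ∑ d ∈ P.support, conj (coeff d P) * ((∏ a, (d a)! : ℕ) : ℂ) * coeff d Q

/-- complex conjugation of polynomial functions -/
noncomputable def kap : Pol m →+* Pol m :=
  (rename Sum.swap : Pol m →ₐ[ℂ] Pol m).toRingHom.comp (MvPolynomial.map (starRingEnd ℂ))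

/-- null coordinates `ζ = Cm y` -/
noncomputable def Cm (m : ℕ) : Matrix (Ix m) (Fin (m + m)) ℂ := fun s a =>
  if a = finSumFinEquiv s then (1 + Complex.I) / 2
  else if a = finSumFinEquiv (Sum.swap s) then (1 - Complex.I) / 2 else 0

noncomputable def cx (Y : Mat (m + m)) : CM m := Cm m * Y.map ((↑) : ℝ → ℂ) * (Cm m)ᴴ

noncomputable def ev (P : Pol m) (y : Pt (m + m)) : ℂ :=
  eval (fun s => ∑ a, Cm m s a * (y a : ℂ)) P

def wt (m : ℕ) : Ix m → ℤ := Sum.elim (fun _ => 1) fun _ => -1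

def Bn (m p : ℕ) : ℕ := (m + p - 1).choose p

def Dn (m p q : ℕ) : ℕ := Bn m p * Bn m q - Bn m (p - 1) * Bn m (q - 1)

structure Good {Λ : Type} (lev : Λ → ℕ) (c : Λ → ℝ)
    (H : Submodule ℂ (∀ l, Module.End ℂ (HV m (lev l)))) : Prop where
  br : ∀ Y ∈ H, ∀ Z ∈ H, Y * Z - Z * Y ∈ H
  ad : ∀ M : CM m, IsSo M → ∀ Y ∈ H,
    (fun l => dV (lev l) M) * Y - Y * (fun l => dV (lev l) M) ∈ H
  adj : ∀ Y ∈ H, ∃ Z ∈ H, ∀ (l : Λ) (u w : HV m (lev l)),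
    fis (Y l u : Pol m) w = fis (u : Pol m) (Z l w : Pol m)
  hh : ∀ a b : Fin m, a ≠ b →
    (fun l => (c l : ℂ) • (dV (lev l) (Hm a) * dV (lev l) (Hm b))) ∈ H

/-- the scales of different levels are rationally independent in pairs -/
def Irr {Λ : Type} (c : Λ → ℝ) : Prop :=
  (∀ l, c l ≠ 0) ∧ ∀ l l', l ≠ l' → ∀ a b : ℤ, a ≠ 0 → c l * a ≠ c l' * b

def EvStmt : Prop :=
  ∀ (m : ℕ) (P : Pol m), ContDiff ℝ ∞ (ev P) ∧
    (∀ (Y : Mat (m + m)) y, fderiv ℝ (ev P) y (Y *ᵥ y) = ev (DM (cx Y) P) y) ∧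
    (∀ l : ℕ, P.IsHomogeneous l → (∀ y, fderiv ℝ (ev P) y y = (l : ℂ) * ev P y) ∧
      ∃ C : ℝ, ∀ y, ‖ev P y‖ ≤ C * ‖y‖ ^ l) ∧
    (∀ y, ∑ a, fderiv ℝ (fun z => fderiv ℝ (ev P) z (Pi.single a 1)) y (Pi.single a 1) =
      ev (Lp P) y) ∧
    (∀ y, conj (ev P y) = ev (kap P) y) ∧
    ((∀ᶠ y in 𝓝 0, ev P y = 0) → P = 0)

def CxStmt : Prop :=
  ∀ m : ℕ,
    (∀ Y : Mat (m + m), Yᵀ = -Y → IsSo (cx Y) ∧ (cx Y)ᴴ = -cx Y) ∧
    (∀ (Y : Mat (m + m)) (P : Pol m), kap (DM (cx Y) P) = DM (cx Y) (kap P)) ∧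
    (∀ Y Z : Mat (m + m), cx (Y * Z) = cx Y * cx Z) ∧
    (∀ M : CM m, IsSo M → ∃ Y Z : Mat (m + m), Yᵀ = -Y ∧ Zᵀ = -Z ∧
      M = cx Y + Complex.I • cx Z) ∧
    (∀ ε : Fin m → ℝ, (∀ a, ε a = 1 ∨ ε a = -1) → ∃ J : Mat (m + m), IsCx J ∧
      cx J = Complex.I • ∑ a, (ε a : ℂ) • Hm a) ∧
    (∀ M M' : CM m, DM M * DM M' - DM M' * DM M = DM (M' * M - M * M')) ∧
    (∀ (z : ℂ) (M M' : CM m), DM (z • M + M') = z • DM M + DM M') ∧
    (∀ (l : ℕ) (P : Pol m), P ∈ HV m l → kap P ∈ HV m l) ∧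
    (∀ P : Pol m, kap (kap P) = P) ∧
    (∀ (z : ℂ) (P : Pol m), kap (z • P) = conj z • kap P) ∧
    (∀ (μ : ℤ) (P : Pol m), IsWeightedHomogeneous (wt m) P μ →
      IsWeightedHomogeneous (wt m) (kap P) (-μ) ∧ DM (∑ a, Hm a) P = (μ : ℂ) • P)

def FisStmt : Prop :=
  ∀ m : ℕ,
    (∀ P Q R : Pol m, fis P (Q + R) = fis P Q + fis P R) ∧
    (∀ (z : ℂ) (P Q : Pol m), fis P (z • Q) = z * fis P Q) ∧
    (∀ P Q : Pol m, fis P Q = conj (fis Q P)) ∧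
    (∀ P : Pol m, fis P P = 0 → P = 0) ∧
    (∀ (M : CM m) (P Q : Pol m), fis (DM M P) Q = fis P (DM Mᴴ Q)) ∧
    (∀ (a : Ix m) (l : ℕ) (P : Pol m),
      fis (X a ^ l) P = (l ! : ℂ) * coeff (Finsupp.single a l) P) ∧
    (∀ l, FiniteDimensional ℂ (HV m l)) ∧
    ∀ (l : ℕ) (ψ : Module.Dual ℂ (HV m l)), ∃ u : HV m l, ∀ w : HV m l, ψ w = fis (u : Pol m) w

def CycStmt : Prop :=
  ∀ (m l : ℕ) (a : Ix m) (B : Submodule ℂ (HV m l)), 2 ≤ m → vtop a l ∈ B →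
    (∀ b c, b ≠ a → c ≠ a → ∀ u ∈ B, dV l (Rm b c) u ∈ B) → B = ⊤

def GenStmt : Prop :=
  ∀ (m : ℕ) (Λ : Type) [Fintype Λ] (lev : Λ → ℕ) (c : Λ → ℝ)
    (S : Submodule ℝ (∀ l, Module.End ℂ (HV m (lev l)))),
    (∀ J : Mat (m + m), IsCx J →
      (fun l => (c l : ℂ) • (dV (lev l) (cx J) * dV (lev l) (cx J))) ∈ S) →
    (∀ Y ∈ S, ∀ Z ∈ S, Y * Z - Z * Y ∈ S) →
    ∃ H, Good lev c H ∧ ∀ Y ∈ H, ∃ Z ∈ S, ∀ (l : Λ) (u u' : HV m (lev l)),
      (u' : Pol m) = kap (u : Pol m) → (Z l u : Pol m) = (Y l u : Pol m) + kap (Y l u' : Pol m)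

def OneStmt : Prop :=
  ∀ (m : ℕ) (Λ : Type) [Fintype Λ] [DecidableEq Λ] (lev : Λ → ℕ) (c : Λ → ℝ)
    (H : Submodule ℂ (∀ l, Module.End ℂ (HV m (lev l)))), (∀ l, 2 ≤ lev l) → Irr c →
    Good lev c H → ∀ i j k : Fin m, i ≠ j → i ≠ k → j ≠ k → ∀ l₀ : Λ, ∃ u : HV m (lev l₀),
      (u : Pol m) = X (Sum.inl i) ^ (lev l₀ - 1) * X (Sum.inr j) ∧
      Pi.single (M := fun l => Module.End ℂ (HV m (lev l))) l₀
        ((ctop (Sum.inl i) (lev l₀)).smulRight u) ∈ H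

def AllStmt : Prop :=
  ∀ (m : ℕ) (Λ : Type) [Fintype Λ] [DecidableEq Λ] (lev : Λ → ℕ) (c : Λ → ℝ)
    (H : Submodule ℂ (∀ l, Module.End ℂ (HV m (lev l)))), 3 ≤ m → (∀ l, 2 ≤ lev l) → Irr c →
    Good lev c H → ∀ (l₀ : Λ) (u : HV m (lev l₀)) (ψ : Module.Dual ℂ (HV m (lev l₀))), ψ u = 0 →
      Pi.single (M := fun l => Module.End ℂ (HV m (lev l))) l₀ (ψ.smulRight u) ∈ H

def BasisStmt : Prop :=
  ∀ m l : ℕ, ∃ (D : ℕ) (b : Module.Basis (Fin D) ℂ (HV m l)) (μ : Fin D → ℤ),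
    (∀ i, IsWeightedHomogeneous (wt m) (b i : Pol m) (μ i)) ∧ (∀ i, |μ i| ≤ l) ∧
    ∀ q : ℕ, 1 ≤ q → 2 * q < l →
      Dn m (l - q) q ≤ (Finset.univ.filter fun i => μ i = (l : ℤ) - 2 * q).card

def RepStmt : Prop :=
  ∀ m : ℕ, 3 ≤ m → ∃ (dim : ℕ → ℕ) (μ : ∀ l, Fin (dim l) → ℤ)
    (d : ∀ l, Mat (m + m) → Op (dim l)) (w : ∀ l, Fin (dim l) → Pt (m + m) → ℂ) (J₀ : Mat (m + m)),
    IsCx J₀ ∧
    (∀ l i, ContDiff ℝ ∞ (w l i) ∧ (∀ y, fderiv ℝ (w l i) y y = (l : ℂ) * w l i y) ∧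
      (∀ y, ∑ a, fderiv ℝ (fun z => fderiv ℝ (w l i) z (Pi.single a 1)) y (Pi.single a 1) = 0) ∧
      (∀ J, IsCx J → ∀ y, fderiv ℝ (w l i) y (J *ᵥ y) = ∑ k, d l J (ee i) k * w l k y) ∧
      (∃ C : ℝ, ∀ y, ‖w l i y‖ ≤ C * ‖y‖ ^ l) ∧
      (d l J₀ * d l J₀) (ee i) = -((μ l i : ℝ) ^ 2) • ee i ∧ |μ l i| ≤ l) ∧
    (∀ l q : ℕ, 1 ≤ q → 2 * q < l →
      Dn m (l - q) q ≤ (Finset.univ.filter fun i => μ l i = (l : ℤ) - 2 * q).card) ∧
    ∀ (Λ : Type) [Fintype Λ] [DecidableEq Λ] (lev : Λ → ℕ), Function.Injective lev →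
      (∀ z : ∀ l, Fin (dim (lev l)) → ℂ, (∀ l i, z l i ≠ 0 → 0 < μ (lev l) i) →
        (∀ᶠ y in 𝓝 0, (∑ l, ∑ i, z l i * w (lev l) i y).re = 0) → ∀ l i, z l i = 0) ∧
      ∀ c : Λ → ℝ, (∀ l, 2 ≤ lev l) → Irr c →
        Ctl (fun l => dim (lev l)) (fun l i => 0 < μ (lev l) i)
          (fun (J : {J : Mat (m + m) // IsCx J}) l => c l • (d (lev l) J * d (lev l) J))

def NumStmt : Prop :=
  ∃ (m k : ℕ) (A ρ : ℝ) (L : Finset ℕ) (q₀ : ℕ → ℕ), 3 ≤ m ∧ 1 ≤ k ∧ 1 < A ∧ 0 < ρ ∧ ρ < 1 ∧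
    (((m + m : ℕ) : ℝ) - 2) * ρ < (m + m : ℕ) * A - 2 * A ^ (m + m) ∧
    (∀ l ∈ L, 2 ≤ l ∧ 2 * q₀ l < l ∧
      ∑ q ∈ Finset.Icc 1 (q₀ l), (Dn m (l - q) q : ℝ) *
        (l * (l + (((m + m : ℕ) : ℝ) - 2)) * A - ((l : ℝ) - 2 * q) ^ 2 * (A - (A ^ (m + m - 2))⁻¹) -
          ρ * (k * (k + (((m + m : ℕ) : ℝ) - 2)))) < 0) ∧
    (m + m + k - 1).choose k + (m + m + k - 2).choose (k - 1) <
      2 * ∑ l ∈ L, ∑ q ∈ Finset.Icc 1 (q₀ l), Dn m (l - q) q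

end Vale.Agent.P225
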