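import Vale.Agent.P225.RDefs

/-! The finite dimensional representation on harmonic polynomials. -/

namespace Vale.Agent.P225

open scoped ContDiff Topology Matrix ComplexConjugate
open Filter MvPolynomial

namespace Rep

section tr

variable {V : Type} [AddCommGroup V] [Module ℂ V] {D : ℕ} (b : Module.Basis (Fin D) ℂ V)

/-- the matrix of an endomorphism in a basis, as an operator -/
noncomputable def tr : Module.End ℂ V ≃ₐ[ℂ] Op D :=
  (b.equivFun.conjAlgEquiv ℂ).trans (Module.End.toContinuousLinearMap (Vc D))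

theorem tr_br (Y Z : Module.End ℂ V) : tr b (Y * Z - Z * Y) = tr b Y * tr b Z - tr b Z * tr b Y := by
  rw [map_sub, map_mul, map_mul]

theorem eqv_basis (i : Fin D) : b.equivFun (b i) = ee i := by
  funext j
  rw [b.equivFun_self, ee, Pi.single_apply, if_congr eq_comm rfl rfl]

theorem tr_ee (Y : Module.End ℂ V) (i : Fin D) : tr b Y (ee i) = b.equivFun (Y (b i)) := by
  change b.equivFun (Y (b.equivFun.symm (ee i))) = _
  rw [← eqv_basis b, LinearEquiv.symm_apply_apply]

theorem coord_eq_zero {T : Module.End ℂ V} {e : Fin D → ℂ} (h : ∀ i, T (b i) = e i • b i) {u : V}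
    {c : ℂ} (hu : T u = c • u) {τ : Fin D} (hc : c ≠ e τ) : b.coord τ u = 0 := by
  have h1 : b.coord τ ∘ₗ T = e τ • b.coord τ := b.ext fun i => by
    rw [LinearMap.comp_apply, h, map_smul, LinearMap.smul_apply, b.coord_apply, b.repr_self,
      Finsupp.single_apply]
    split_ifs with hi
    · rw [hi]
    · simp
  have h2 := DFunLike.congr_fun h1 u
  rw [LinearMap.comp_apply, hu, map_smul, LinearMap.smul_apply, smul_eq_mul, smul_eq_mul] at h2
  exact (mul_eq_mul_right_iff.1 h2).resolve_left hc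

end tr

variable {m : ℕ}

theorem ev_smul (z : ℂ) (P : Pol m) (y : Pt (m + m)) : ev (z • P) y = z * ev P y := smul_eval _ _ _

theorem ev_sum {ι : Type} (s : Finset ι) (P : ι → Pol m) (y : Pt (m + m)) :
    ev (∑ i ∈ s, P i) y = ∑ i ∈ s, ev (P i) y := map_sum _ _ _

theorem ev_add (P Q : Pol m) (y : Pt (m + m)) : ev (P + Q) y = ev P y + ev Q y := map_add _ _ _

theorem DM_smul (z : ℂ) (M : CM m) (P : Pol m) : DM (z • M) P = z • DM M P := by
  simp only [DM_apply, Matrix.smul_apply, smul_eq_mul, mul_smul, Finset.smul_sum]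

theorem indep (h1 : EvStmt) (h2 : CxStmt) {ι : Type} [Fintype ι] (P : ι → Pol m) (μ : ι → ℤ)
    (hP : ∀ i, IsWeightedHomogeneous (wt m) (P i) (μ i)) (z : ι → ℂ) (hz : ∀ i, z i ≠ 0 → 0 < μ i)
    (h : ∀ᶠ y in 𝓝 0, (∑ i, z i * ev (P i) y).re = 0) : ∑ i, z i • P i = 0 := by
  obtain ⟨-, -, -, -, -, -, -, -, -, k1, k2⟩ := h2 m
  have h3 := (h1 m (∑ i, z i • P i + kap (∑ i, z i • P i))).2.2.2.2.2 (h.mono fun y hy => by
    rw [ev_add, ← (h1 m _).2.2.2.2.1, Complex.add_conj, ev_sum]
    simp only [ev_smul, hy, mul_zero, Complex.ofReal_zero])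
  ext d
  by_cases hd : 0 < Finsupp.weight (wt m) d
  · have h4 : coeff d (kap (∑ i, z i • P i)) = 0 := by
      rw [map_sum, coeff_sum]
      refine Finset.sum_eq_zero fun i _ => ?_
      rw [k1, coeff_smul]
      by_cases hi : z i = 0
      · simp [hi]
      · rw [(k2 _ _ (hP i)).1.coeff_eq_zero d (by have := hz i hi; omega), smul_zero]
    have h5 := congrArg (coeff d) h3
    rwa [coeff_add, h4, add_zero] at h5
  · rw [coeff_sum, coeff_zero]
    refine Finset.sum_eq_zero fun i _ => ?_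
    rw [coeff_smul]
    by_cases hi : z i = 0
    · simp [hi]
    · rw [(hP i).coeff_eq_zero d (by have := hz i hi; omega), smul_zero]

end Rep

open Vale.Agent.P225.Rep in
theorem repStmt (h1 : EvStmt) (h2 : CxStmt) (h3 : GenStmt) (h4 : AllStmt) (h5 : BasisStmt) :
    RepStmt := by
  intro m hm
  choose dim b μ hb hμ hcnt using h5 m
  obtain ⟨c1, -, -, -, c2, -, -, c3, -, -, c4⟩ := h2 m
  obtain ⟨J₀, hJ, hJ'⟩ := c2 (fun _ => 1) fun _ => Or.inl rfl
  have eig : ∀ (l : ℕ) (u : HV m l) (n₀ : ℤ), IsWeightedHomogeneous (wt m) (u : Pol m) n₀ →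
      dV l (cx J₀) u = (Complex.I * n₀) • u := fun l u n₀ hu => Subtype.ext (by
    rw [dV_coe (c1 _ hJ.1).1, hJ', DM_smul]
    simp only [Complex.ofReal_one, one_smul]
    rw [(c4 n₀ _ hu).2, Submodule.coe_smul, mul_smul])
  refine ⟨dim, μ, fun l J => tr (b l) (dV l (cx J)), fun l i => ev (b l i : Pol m), J₀, hJ,
    fun l i => ?_, hcnt, fun Λ _ _ lev hlev => ⟨fun z hz h l₀ i => ?_, fun c hc hirr => ?_⟩⟩
  · obtain ⟨e1, e2, e3, e4, -, -⟩ := h1 m (b l i : Pol m)
    obtain ⟨e5, e6⟩ := e3 l (b l i).2.1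
    refine ⟨e1, e5, fun y => ?_, fun J hJ y => ?_, e6, ?_, hμ l i⟩
    · rw [e4, show Lp (b l i : Pol m) = 0 from (b l i).2.2]
      exact map_zero _
    · rw [e2, ← dV_coe (c1 _ hJ.1).1, tr_ee]
      conv_lhs => rw [← (b l).sum_equivFun (dV l (cx J) (b l i))]
      rw [Submodule.coe_sum, ev_sum]
      simp only [Submodule.coe_smul, ev_smul]
    · rw [← map_mul, tr_ee, Module.End.mul_apply, eig l _ _ (hb l i), map_smul, eig l _ _ (hb l i),
        smul_smul, map_smul, eqv_basis, ← Complex.coe_smul]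
      congr 1
      push_cast
      linear_combination (μ l i : ℂ) ^ 2 * Complex.I_mul_I
  · have h6 := indep h1 h2 (ι := Σ l, Fin (dim (lev l))) (fun x => (b (lev x.1) x.2 : Pol m))
      (fun x => μ (lev x.1) x.2) (fun x => hb _ _) (fun x => z x.1 x.2) (fun x => hz x.1 x.2)
      (by simpa only [Fintype.sum_sigma] using h)
    have h7 := congrArg (homogeneousComponent (lev l₀)) h6
    rw [Fintype.sum_sigma, map_zero, map_sum, Finset.sum_eq_single l₀ (fun l _ hl => by
      rw [homogeneousComponent_of_mem (n := lev l) (Submodule.sum_mem _ fun i _ =>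
        Submodule.smul_mem _ _ (b _ i).2.1), if_neg fun h => hl (hlev h).symm]) (by simp),
      homogeneousComponent_of_mem (n := lev l₀) (Submodule.sum_mem _ fun i _ =>
        Submodule.smul_mem _ _ (b _ i).2.1), if_pos rfl] at h7
    refine Fintype.linearIndependent_iff.1 (b (lev l₀)).linearIndependent (z l₀)
      (Subtype.ext ?_) i
    simpa only [Submodule.coe_sum, Submodule.coe_smul, Submodule.coe_zero] using h7
  · intro S hT hS l τ ν z hτ hν
    let Ψ : (∀ l, Module.End ℂ (HV m (lev l))) →ₗ[ℝ] ∀ l, Op (dim (lev l)) :=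
      { toFun := fun Y l => tr (b (lev l)) (Y l)
        map_add' := fun Y Z => funext fun l => map_add _ _ _
        map_smul' := fun r Y => funext fun l => by
          rw [RingHom.id_apply, Pi.smul_apply, Pi.smul_apply, ← algebraMap_smul ℂ r, map_smul]
          exact algebraMap_smul ℂ r (tr (b (lev l)) (Y l)) }
    have hΨ : ∀ Y Z, Ψ (Y * Z - Z * Y) = Ψ Y * Ψ Z - Ψ Z * Ψ Y := fun Y Z => funext fun l =>
      tr_br (b (lev l)) (Y l) (Z l)
    obtain ⟨H, hH, hH'⟩ := h3 m Λ lev c (S.comap Ψ) (fun J hJ => by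
        refine (congrArg (· ∈ S) (funext fun l => ?_)).mpr (hT ⟨J, hJ⟩)
        change tr (b (lev l)) _ = _
        rw [map_smul, map_mul]
        rfl)
      fun Y hY Z hZ => by
        rw [Submodule.mem_comap, hΨ]
        exact hS _ hY _ hZ
    obtain ⟨Z, hZ, hZ'⟩ := hH' _ (h4 m Λ lev c H hm hc hirr hH l (z • b _ ν) ((b _).coord τ) (by
      simp [hν]))
    refine ⟨fun l => tr (b (lev l)) (Z l), hZ, fun l' hl => ?_, fun τ' hτ' => ?_⟩
    · have h6 : Z l' = 0 := LinearMap.ext fun u => Subtype.ext (by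
        rw [hZ' l' u ⟨_, c3 _ _ u.2⟩ rfl, Pi.single_eq_of_ne hl]
        simp)
      change tr _ _ = 0
      rw [h6, map_zero]
    · have h6 := coord_eq_zero (b (lev l)) (fun i => eig _ _ _ (hb _ i))
        (eig _ ⟨_, c3 _ _ (b _ τ').2⟩ _ (c4 _ _ (hb _ τ')).1) (τ := τ) fun h => by
          have h7 : -μ (lev l) τ' = μ (lev l) τ := by
            exact_mod_cast mul_left_cancel₀ Complex.I_ne_zero h
          omega
      have h7 : Z l (b _ τ') = (b _).coord τ (b _ τ') • z • b _ ν := Subtype.ext (by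
        rw [hZ' l _ ⟨_, c3 _ _ (b _ τ').2⟩ rfl, Pi.single_eq_same, LinearMap.smulRight_apply,
          LinearMap.smulRight_apply, h6]
        simp)
      rw [tr_ee, h7, map_smul, map_smul, eqv_basis, Module.Basis.coord_apply,
        Module.Basis.repr_self, Finsupp.single_apply]
      split_ifs <;> simp

end Vale.Agent.P225
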