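import Vale.Agent.P225.Iface

/-! The radial function and the Ricci inequalities. -/

namespace Vale.Agent.P225

open scoped ContDiff Topology
open Filter Set

namespace Rho

/-- The derivative of the radial function. -/
noncomputable def rho (r s : ℝ) : ℝ := r + (1 - r) / √(1 + s * Real.smoothTransition s)

theorem m_nonpos {s : ℝ} (hs : s ≤ 0) : s * Real.smoothTransition s = 0 := by
  rw [Real.smoothTransition.zero_of_nonpos hs, mul_zero]

theorem m_nonneg (s : ℝ) : 0 ≤ s * Real.smoothTransition s := by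
  rcases le_total s 0 with h | h
  · exact (m_nonpos h).ge
  · exact mul_nonneg h (Real.smoothTransition.nonneg s)

theorem m_mono : Monotone fun s => s * Real.smoothTransition s := fun s t hst => by
  rcases le_total s 0 with h | h
  · exact (m_nonpos h).trans_le (m_nonneg t)
  · exact mul_le_mul hst (Real.smoothTransition.monotone hst) (Real.smoothTransition.nonneg s)
      (h.trans hst)

theorem one_le_sqrt (s : ℝ) : 1 ≤ √(1 + s * Real.smoothTransition s) :=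
  Real.one_le_sqrt.2 (le_add_of_nonneg_right (m_nonneg s))

theorem smooth (r : ℝ) : ContDiff ℝ ∞ (rho r) :=
  contDiff_const.add (contDiff_const.div
    ((contDiff_const.add (contDiff_id.mul Real.smoothTransition.contDiff)).sqrt
      fun s => (add_pos_of_pos_of_nonneg one_pos (m_nonneg s)).ne')
    fun s => (one_pos.trans_le (one_le_sqrt s)).ne')

theorem rho_nonpos (r : ℝ) {s : ℝ} (hs : s ≤ 0) : rho r s = 1 := by
  simp [rho, m_nonpos hs]

variable {r : ℝ} (hr : r < 1)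
include hr

theorem le_rho (s : ℝ) : r ≤ rho r s :=
  le_add_of_nonneg_right (div_nonneg (by linarith) (Real.sqrt_nonneg _))

theorem rho_le (s : ℝ) : rho r s ≤ 1 := by
  have := div_le_self (show 0 ≤ 1 - r by linarith) (one_le_sqrt s)
  rw [rho]; linarith

theorem anti : Antitone (rho r) := fun s t hst => by
  have := div_le_div_of_nonneg_left (show 0 ≤ 1 - r by linarith) (one_pos.trans_le (one_le_sqrt s))
    (Real.sqrt_le_sqrt (add_le_add_right (m_mono hst) 1))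
  rw [rho, rho]; linarith

omit hr in
theorem rho_ev {s : ℝ} (hs : 1 < s) : rho r =ᶠ[𝓝 s] fun t => r + (1 - r) / √(1 + t) :=
  (lt_mem_nhds hs).mono fun t ht => by
    rw [rho, Real.smoothTransition.one_of_one_le ht.le, mul_one]

omit hr in
theorem deriv_rho {s : ℝ} (hs : 1 < s) : deriv (rho r) s * √(1 + s) ^ 3 = -((1 - r) / 2) := by
  have h0 : 0 < 1 + s := by linarith
  have h1 : 0 < √(1 + s) := Real.sqrt_pos.2 h0
  have h := (((hasDerivAt_const s (1 - r)).div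
    (((hasDerivAt_id s).const_add 1).sqrt h0.ne') h1.ne').const_add r).congr_of_eventuallyEq
      (rho_ev hs)
  rw [h.deriv]
  simp only [id]
  field_simp
  ring

omit hr in
theorem rho_lim : Tendsto (rho r) atTop (𝓝 r) := by
  have h1 : Tendsto (fun t : ℝ => r + (1 - r) / √(1 + t)) atTop (𝓝 (r + 0)) :=
    (Tendsto.const_div_atTop (Real.tendsto_sqrt_atTop.comp
      (tendsto_atTop_add_const_left _ 1 tendsto_id)) _).const_add r
  rw [add_zero] at h1
  refine h1.congr' ((eventually_gt_atTop 1).mono fun t ht => (rho_ev ht).self_of_nhds.symm)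

omit hr in
theorem G_le {n : ℕ} (hn : 1 ≤ n) {t ξ : ℝ} (h0 : 0 ≤ t) (h : t ≤ ξ) :
    n * Real.exp (2 * ξ) - 2 * Real.exp (2 * n * ξ) ≤
      n * Real.exp (2 * t) - 2 * Real.exp (2 * n * t) := by
  have e : ∀ u : ℝ, Real.exp (2 * n * u) = Real.exp (2 * u) ^ n := fun u => by
    rw [← Real.exp_nat_mul]; ring_nf
  have e2 : Real.exp (2 * ξ) = Real.exp (2 * t) * Real.exp (2 * (ξ - t)) := by
    rw [← Real.exp_add]; ring_nf
  rw [e, e, e2, mul_pow]
  have ha : 1 ≤ Real.exp (2 * t) := Real.one_le_exp (by linarith)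
  have hb : 1 ≤ Real.exp (2 * (ξ - t)) := Real.one_le_exp (by linarith)
  generalize Real.exp (2 * t) = a at ha
  generalize Real.exp (2 * (ξ - t)) = b at hb
  have h1 : 1 + n * (b - 1) ≤ b ^ n := one_add_mul_sub_le_pow (by linarith) n
  have h2 : a ≤ a ^ n := le_self_pow₀ ha (by omega)
  have h3 : 0 ≤ (n : ℝ) * (b - 1) := mul_nonneg (Nat.cast_nonneg n) (by linarith)
  have h4 := mul_le_mul h2 (le_sub_iff_add_le'.2 h1) h3 (by positivity)
  nlinarith [mul_nonneg (zero_le_one.trans ha) h3]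

omit hr in
theorem alg0 {N ρ d : ℝ} (hN : 1 ≤ N - 2) (p1 : d ≤ 0) (p4 : ρ * ρ ≤ 1) :
    0 ≤ -(N - 1) * (d + (N - 2) * 0 ^ 2) ∧ 0 ≤ -d + (N - 2) * (0 - ρ * (ρ - 0) + 1) ∧
      0 ≤ -d - 0 - (N - 2) * (ρ * (ρ + 0)) + N * 1 - 2 * 1 :=
  ⟨by nlinarith, by nlinarith, by nlinarith⟩

omit hr in
theorem alg1 {N d y w δ c : ℝ} (hN : 1 ≤ N - 2) (q2 : d * w = -c) (q3 : 1 ≤ w)
    (x3 : y ^ 2 * w ≤ δ ^ 2) (d1 : (N - 2) * δ ^ 2 < c) : 0 ≤ -(N - 1) * (d + (N - 2) * y ^ 2) := by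
  have : (d + (N - 2) * y ^ 2) * w ≤ 0 := by
    have := mul_le_mul_of_nonneg_left x3 (zero_le_one.trans hN)
    nlinarith
  exact mul_nonneg_of_nonpos_of_nonpos (by linarith)
    (nonpos_of_mul_nonpos_left this (by linarith))

omit hr in
theorem alg2 {N d y z ρ δ e : ℝ} (hN : 1 ≤ N - 2) (p1 : d ≤ 0) (q6 : -δ ≤ ρ * y)
    (q8 : -δ ^ 2 ≤ z) (q10 : ρ * ρ ≤ (r + δ) ^ 2) (d2 : δ ^ 2 + (r + δ) ^ 2 + (N - 2) * δ < e) :
    0 ≤ -d + (N - 2) * (z - ρ * (ρ - (N - 2) * y) + e) := by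
  have h2 := mul_le_mul_of_nonneg_left q6 (zero_le_one.trans hN)
  refine add_nonneg (by linarith) (mul_nonneg (by linarith) ?_)
  nlinarith

omit hr in
theorem alg3 {N d y z ρ δ e e' : ℝ} (hN : 1 ≤ N - 2) (p1 : d ≤ 0) (q7 : ρ * y ≤ δ)
    (q9 : z ≤ δ ^ 2) (q10 : ρ * ρ ≤ (r + δ) ^ 2)
    (d3 : δ ^ 2 + (N - 2) * ((r + δ) ^ 2 + δ) < e - e') :
    0 ≤ -d - z - (N - 2) * (ρ * (ρ + y)) + e - e' := by
  have h1 : (N - 2) * (ρ * (ρ + y)) ≤ (N - 2) * ((r + δ) ^ 2 + δ) :=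
    mul_le_mul_of_nonneg_left (by linarith) (by linarith)
  linarith

end Rho

open Rho

theorem rhoStmt : RhoStmt := by
  intro n r ξ hn r0 r1 hξ hG
  have hc : Continuous (rho r) := (smooth r).continuous
  have hd : ∀ s, HasDerivAt (fun s => ∫ t in (0 : ℝ)..s, rho r t) (rho r s) s := fun s =>
    (hc.integral_hasStrictDerivAt 0 s).hasDerivAt
  have hder : deriv (fun s => ∫ t in (0 : ℝ)..s, rho r t) = rho r := funext fun s => (hd s).deriv
  have hN : (1 : ℝ) ≤ (n : ℝ) - 2 := by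
    have : (3 : ℝ) ≤ n := by exact_mod_cast hn
    linarith
  refine ⟨fun s => ∫ t in (0 : ℝ)..s, rho r t, ?_, fun s hs => ?_, ?_, ?_, ?_, fun s hs => ?_, ?_⟩
  · exact contDiff_infty_iff_deriv.2 ⟨fun s => (hd s).differentiableAt, by rw [hder]; exact smooth r⟩
  · refine (intervalIntegral.integral_congr (f := rho r) (g := fun _ => (1 : ℝ)) fun t ht =>
      rho_nonpos r ?_).trans (by simp)
    rw [uIcc_of_ge hs] at ht
    exact ht.2
  · rw [hder]; exact fun s hs => rho_nonpos r hs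
  · rw [hder]; exact fun s => ⟨le_rho r1 s, rho_le r1 s⟩
  · rw [hder]; exact rho_lim
  · have := intervalIntegral.integral_mono_on hs (μ := MeasureTheory.volume)
      (f := fun _ => r) (g := rho r) (by simp) (hc.intervalIntegrable _ _) fun t _ => le_rho r1 t
    simpa [mul_comm] using this
  have c1 : ∀ᶠ δ : ℝ in 𝓝 0, ((n : ℝ) - 2) * δ ^ 2 < (1 - r) / 2 :=
    ContinuousAt.eventually_lt (by fun_prop) (by fun_prop) (by simpa using r1)
  have c2 : ∀ᶠ δ : ℝ in 𝓝 0,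
      δ ^ 2 + (r + δ) ^ 2 + ((n : ℝ) - 2) * δ < Real.exp (-2 * n * δ ^ 2) :=
    ContinuousAt.eventually_lt (by fun_prop) (by fun_prop) (by simp; exact abs_lt.2 ⟨by linarith, r1⟩)
  have c3 : ∀ᶠ δ : ℝ in 𝓝 0,
      δ ^ 2 + ((n : ℝ) - 2) * ((r + δ) ^ 2 + δ) < n * Real.exp (-2 * δ ^ 2) - 2 :=
    ContinuousAt.eventually_lt (by fun_prop) (by fun_prop) (by
      have : r ^ 2 < 1 := by nlinarith
      simp; nlinarith)
  have c4 : ∀ᶠ δ : ℝ in 𝓝 0, δ ^ 2 + ((n : ℝ) - 2) * ((r + δ) ^ 2 + δ) <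
      n * Real.exp (2 * ξ) - 2 * Real.exp (2 * n * ξ) :=
    ContinuousAt.eventually_lt (by fun_prop) (by fun_prop) (by simpa using hG)
  obtain ⟨δ, ⟨⟨⟨d1, d2⟩, d3⟩, d4⟩, (δ0 : 0 < δ)⟩ :=
    (((((c1.and c2).and c3).and c4).filter_mono nhdsWithin_le_nhds).and
      (self_mem_nhdsWithin (s := Ioi (0 : ℝ)))).exists
  obtain ⟨s₁, hs₁⟩ := eventually_atTop.1 (rho_lim.eventually
    (gt_mem_nhds (show r < r + δ by linarith)))
  refine ⟨δ ^ 2, by positivity, max s₁ 2, fun x _ hx0 hx s => ?_⟩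
  have p1 : deriv (rho r) s ≤ 0 := (anti r1).deriv_nonpos
  have p2 := le_rho r1 s
  have p3 := rho_le r1 s
  simp only [rad, ver, hor, hder]
  rcases lt_or_ge s (max s₁ 2) with hs | hs
  · have e0 : x =ᶠ[𝓝 s] fun _ => 0 := (gt_mem_nhds hs).mono fun t ht => hx0 t ht.le
    have e1 : deriv x =ᶠ[𝓝 s] fun _ => 0 := by simpa using e0.deriv
    have e2 : deriv (deriv x) s = 0 := by simpa using e1.deriv_eq
    have p4 : rho r s * rho r s ≤ 1 := mul_le_one₀ p3 (r0.le.trans p2) p3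
    rw [e2, e1.self_of_nhds, e0.self_of_nhds]
    simp only [mul_zero, Real.exp_zero]
    exact alg0 hN p1 p4
  · obtain ⟨x1, x2, x3, x4⟩ := hx s
    have s2 : 2 ≤ s := (le_max_right _ _).trans hs
    have q1 := hs₁ s ((le_max_left _ _).trans hs)
    have q2 := deriv_rho (r := r) (show 1 < s by linarith)
    have q3 : 1 ≤ √(1 + s) ^ 3 := one_le_pow₀ (Real.one_le_sqrt.2 (by linarith))
    have q4 : |deriv x s| ≤ δ :=
      abs_le.2 (abs_le_of_sq_le_sq' ((le_mul_of_one_le_right (sq_nonneg _) q3).trans x3) δ0.le)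
    have q5 : |rho r s * deriv x s| ≤ δ := by
      rw [abs_mul, abs_of_nonneg (r0.le.trans p2)]
      exact (mul_le_of_le_one_left (abs_nonneg _) p3).trans q4
    obtain ⟨q6, q7⟩ := abs_le.1 q5
    obtain ⟨q8, q9⟩ := abs_le.1 x4
    have q10 : rho r s * rho r s ≤ (r + δ) ^ 2 := by
      rw [sq]; exact mul_self_le_mul_self (r0.le.trans p2) q1.le
    have hn0 : (0 : ℝ) ≤ n := Nat.cast_nonneg n
    refine ⟨alg1 hN q2 q3 x3 d1, alg2 hN p1 q6 q8 q10 (d2.trans_le (Real.exp_le_exp.2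
      (mul_le_mul_of_nonpos_left x2 (by linarith)))), alg3 hN p1 q7 q9 q10 ?_⟩
    rcases le_total 0 (x s) with h | h
    · have h2 : Real.exp (-2 * δ ^ 2) ≤ Real.exp (-2 * x s) := Real.exp_le_exp.2 (by linarith)
      have h3 : Real.exp (-2 * n * x s) ≤ 1 :=
        Real.exp_le_one_iff.2 (mul_nonpos_of_nonpos_of_nonneg (by linarith) h)
      have h4 := mul_le_mul_of_nonneg_left h2 hn0
      linarith
    · have h2 := G_le (n := n) (by omega) (t := -x s) (ξ := ξ) (by linarith) (by linarith)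
      rw [show 2 * -x s = -2 * x s by ring, show 2 * n * -x s = -2 * n * x s by ring] at h2
      exact d4.trans_le h2

end Vale.Agent.P225
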