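import Vale.Agent.P225.Chr

/-! The Ricci tensor of the Berger type metric. -/

namespace Vale.Agent.P225

open scoped ContDiff Topology Matrix
open Filter Set

namespace Ric

open Chr

variable {n : ℕ}

/-- abstract form of the Christoffel symbols -/
def G (a1 a2 a3 a4 a5 a6 : ℝ) (J : Mat n) (y w : Pt n) (k i j : Fin n) : ℝ :=
  a1 * (y i * (1 : Mat n) k j + y j * (1 : Mat n) k i) +
  a2 * (w j * J k i + w i * J k j) +
  (a3 * (1 : Mat n) i j + a4 * (y i * y j) + a5 * (w i * w j)) * y k +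
  a6 * (y i * w j + y j * w i) * w k

/-- abstract form of their coordinate derivatives -/
def DG (a1 a2 a3 a4 a5 a6 b1 b2 b3 b4 b5 b6 : ℝ) (J : Mat n) (y w : Pt n) (l k i j : Fin n) : ℝ :=
  b1 * y l * (y i * (1 : Mat n) k j + y j * (1 : Mat n) k i) +
  a1 * ((1 : Mat n) i l * (1 : Mat n) k j + (1 : Mat n) j l * (1 : Mat n) k i) +
  b2 * y l * (w j * J k i + w i * J k j) +
  a2 * (J j l * J k i + J i l * J k j) +
  (b3 * y l * (1 : Mat n) i j + b4 * y l * (y i * y j) +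
    a4 * ((1 : Mat n) i l * y j + y i * (1 : Mat n) j l) + b5 * y l * (w i * w j) +
    a5 * (J i l * w j + w i * J j l)) * y k +
  (a3 * (1 : Mat n) i j + a4 * (y i * y j) + a5 * (w i * w j)) * (1 : Mat n) k l +
  b6 * y l * (y i * w j + y j * w i) * w k +
  a6 * ((1 : Mat n) i l * w j + y i * J j l + (1 : Mat n) j l * w i + y j * J i l) * w k +
  a6 * (y i * w j + y j * w i) * J k l

theorem hasPd_G {f1 f2 f3 f4 f5 f6 : Pt n → ℝ} {b1 b2 b3 b4 b5 b6 : ℝ} (J : Mat n) {y : Pt n}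
    (l k i j : Fin n) (h1 : HasPd l f1 y (b1 * y l)) (h2 : HasPd l f2 y (b2 * y l))
    (h3 : HasPd l f3 y (b3 * y l)) (h4 : HasPd l f4 y (b4 * y l))
    (h5 : HasPd l f5 y (b5 * y l)) (h6 : HasPd l f6 y (b6 * y l)) :
    HasPd l (fun z => G (f1 z) (f2 z) (f3 z) (f4 z) (f5 z) (f6 z) J z (J *ᵥ z) k i j) y
      (DG (f1 y) (f2 y) (f3 y) (f4 y) (f5 y) (f6 y) b1 b2 b3 b4 b5 b6 J y (J *ᵥ y) l k i j) := by
  have yi := hasPd_coord l i y
  have yj := hasPd_coord l j y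
  have yk := hasPd_coord l k y
  have wi := hasPd_w J l i y
  have wj := hasPd_w J l j y
  have wk := hasPd_w J l k y
  have c := fun r : ℝ => hasPd_const l r y
  have T1 := h1.mul ((yi.mul (c ((1 : Mat n) k j))).add (yj.mul (c ((1 : Mat n) k i))))
  have T2 := h2.mul ((wj.mul (c (J k i))).add (wi.mul (c (J k j))))
  have T3 := (((h3.mul (c ((1 : Mat n) i j))).add (h4.mul (yi.mul yj))).add
    (h5.mul (wi.mul wj))).mul yk
  have T4 := (h6.mul ((yi.mul wj).add (yj.mul wi))).mul wk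
  refine (((T1.add T2).add T3).add T4).congr (fun z => rfl) ?_
  unfold DG
  ring

theorem J_diag {J : Mat n} (hJ : IsCx J) (k : Fin n) : J k k = 0 := by
  have := J_anti hJ k k
  linarith

theorem one_diag (k : Fin n) : (1 : Mat n) k k = 1 := by simp

theorem s_JJ' {J : Mat n} (hJ : IsCx J) (i j : Fin n) :
    ∑ k, J i k * J k j = -(1 : Mat n) i j := by
  have := congrFun (congrFun hJ.2 i) j
  rw [Matrix.mul_apply] at this
  rw [this]; rfl

theorem s_JJ {J : Mat n} (hJ : IsCx J) (i j : Fin n) :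
    ∑ k, J k i * J k j = (1 : Mat n) i j := by
  have h : ∀ k, J k i * J k j = -(J i k * J k j) := by
    intro k; rw [J_anti hJ i k]; ring
  simp only [h, Finset.sum_neg_distrib, s_JJ' hJ, neg_neg]

theorem s_one : ∑ _k : Fin n, (1 : ℝ) = n := by simp

section sums

variable {J : Mat n} (hJ : IsCx J) (y : Pt n) (a1 a2 a3 a4 a5 a6 b1 b2 b3 b4 b5 b6 : ℝ)
include hJ

theorem sum1 (i j : Fin n) :
    ∑ k, DG a1 a2 a3 a4 a5 a6 b1 b2 b3 b4 b5 b6 J y (J *ᵥ y) k k i j =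
      (2 * a1 - 2 * a2 + b3 * sg y + n * a3) * (1 : Mat n) i j +
      (2 * b1 + b4 * sg y + 2 * a4 + n * a4 - 2 * a6) * (y i * y j) +
      (-2 * b2 + b5 * sg y + 2 * a5 + n * a5 + 2 * a6) * ((J *ᵥ y) i * (J *ᵥ y) j) := by
  obtain ⟨w, hw⟩ : ∃ w, w = J *ᵥ y := ⟨_, rfl⟩
  have h : ∀ k, DG a1 a2 a3 a4 a5 a6 b1 b2 b3 b4 b5 b6 J y w k k i j =
      (b1 * y i + a4 * y i) * (y k * (1 : Mat n) k j) +
      (b1 * y j + a4 * y j) * (y k * (1 : Mat n) k i) +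
      (2 * a1) * ((1 : Mat n) k i * (1 : Mat n) k j) +
      (b2 * w j - a5 * w j) * (y k * J k i) + (b2 * w i - a5 * w i) * (y k * J k j) +
      (-2 * a2) * (J k i * J k j) +
      (b3 * (1 : Mat n) i j + b4 * (y i * y j) + b5 * (w i * w j)) * (y k * y k) +
      (a3 * (1 : Mat n) i j + a4 * (y i * y j) + a5 * (w i * w j)) * 1 +
      (b6 * (y i * w j + y j * w i)) * (y k * w k) +
      (a6 * w j) * (w k * (1 : Mat n) k i) + (a6 * w i) * (w k * (1 : Mat n) k j) +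
      (-a6 * y i) * (w k * J k j) + (-a6 * y j) * (w k * J k i) := by
    intro k
    unfold DG
    rw [one_symm i k, one_symm j k, J_anti hJ k i, J_anti hJ k j, one_diag, J_diag hJ]
    ring
  rw [← hw]
  simp only [h, Finset.sum_add_distrib, ← Finset.mul_sum, sum_one_right, s_JJ hJ, s_one]
  simp only [hw, sum_yy, sum_yw hJ, sum_yJ hJ, Jw hJ, Pi.neg_apply]
  rw [one_symm j i]
  ring

theorem sum2 (i j : Fin n) :
    ∑ k, DG a1 a2 a3 a4 a5 a6 b1 b2 b3 b4 b5 b6 J y (J *ᵥ y) j k i k =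
      ((n + 1) * a1 + a2 + a3 + a4 * sg y + a6 * sg y) * (1 : Mat n) i j +
      ((n + 1) * b1 + b2 + b3 + b4 * sg y + 2 * a4 + b6 * sg y + 2 * a6) * (y i * y j) := by
  obtain ⟨w, hw⟩ : ∃ w, w = J *ᵥ y := ⟨_, rfl⟩
  have h : ∀ k, DG a1 a2 a3 a4 a5 a6 b1 b2 b3 b4 b5 b6 J y w j k i k =
      (b1 * y j * y i + a1 * (1 : Mat n) i j) * 1 +
      (b1 * y j + b3 * y j) * (y k * (1 : Mat n) k i) +
      (a1 + a3) * ((1 : Mat n) k i * (1 : Mat n) k j) +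
      (b2 * y j) * (w k * J k i) + a2 * (J k i * J k j) +
      (b4 * y j * y i + a4 * (1 : Mat n) i j) * (y k * y k) +
      (2 * a4 * y i) * (y k * (1 : Mat n) k j) +
      (b5 * y j * w i + a5 * J i j + b6 * y j * w i + a6 * J i j) * (y k * w k) +
      (a5 * w i + a6 * w i) * (y k * J k j) +
      (a5 * w i + a6 * w i) * (w k * (1 : Mat n) k j) +
      (b6 * y j * y i + a6 * (1 : Mat n) i j) * (w k * w k) +
      (2 * a6 * y i) * (w k * J k j) := by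
    intro k
    unfold DG
    rw [one_symm i k, one_diag, J_diag hJ]
    ring
  rw [← hw]
  simp only [h, Finset.sum_add_distrib, ← Finset.mul_sum, sum_one_right, s_JJ hJ, s_one]
  simp only [hw, sum_yy, sum_ww hJ, sum_yw hJ, sum_yJ hJ, Jw hJ, Pi.neg_apply]
  rw [one_symm j i]
  ring

theorem trace1 (i : Fin n) :
    ∑ k, G a1 a2 a3 a4 a5 a6 J y (J *ᵥ y) k i k =
      ((n + 1) * a1 + a2 + a3 + a4 * sg y + a6 * sg y) * y i := by
  obtain ⟨w, hw⟩ : ∃ w, w = J *ᵥ y := ⟨_, rfl⟩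
  have h : ∀ k, G a1 a2 a3 a4 a5 a6 J y w k i k =
      (a1 * y i) * 1 + (a1 + a3) * (y k * (1 : Mat n) k i) + a2 * (w k * J k i) +
      (a4 * y i) * (y k * y k) + (a5 * w i + a6 * w i) * (y k * w k) +
      (a6 * y i) * (w k * w k) := by
    intro k
    unfold G
    rw [one_symm i k, one_diag, J_diag hJ]
    ring
  rw [← hw]
  simp only [h, Finset.sum_add_distrib, ← Finset.mul_sum, sum_one_right, s_one]
  simp only [hw, sum_yy, sum_ww hJ, sum_yw hJ, sum_wJ hJ]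
  ring

omit hJ in
theorem G_symm (w : Pt n) (k i j : Fin n) :
    G a1 a2 a3 a4 a5 a6 J y w k i j = G a1 a2 a3 a4 a5 a6 J y w k j i := by
  unfold G
  rw [one_symm i j]
  ring

theorem sum_yG (i k : Fin n) :
    ∑ l, y l * G a1 a2 a3 a4 a5 a6 J y (J *ᵥ y) l i k =
      (sg y * a3) * (1 : Mat n) i k + (2 * a1 + sg y * a4) * (y i * y k) +
      (sg y * a5 - 2 * a2) * ((J *ᵥ y) i * (J *ᵥ y) k) := by
  obtain ⟨w, hw⟩ : ∃ w, w = J *ᵥ y := ⟨_, rfl⟩
  have h : ∀ l, y l * G a1 a2 a3 a4 a5 a6 J y w l i k =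
      (a1 * y i) * (y l * (1 : Mat n) l k) + (a1 * y k) * (y l * (1 : Mat n) l i) +
      (a2 * w k) * (y l * J l i) + (a2 * w i) * (y l * J l k) +
      (a3 * (1 : Mat n) i k + a4 * (y i * y k) + a5 * (w i * w k)) * (y l * y l) +
      (a6 * (y i * w k + y k * w i)) * (y l * w l) := by
    intro l
    unfold G
    ring
  rw [← hw]
  simp only [h, Finset.sum_add_distrib, ← Finset.mul_sum, sum_one_right]
  simp only [hw, sum_yy, sum_yw hJ, sum_yJ hJ]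
  ring

theorem sum_wG (i k : Fin n) :
    ∑ l, (J *ᵥ y) l * G a1 a2 a3 a4 a5 a6 J y (J *ᵥ y) l i k =
      (a1 + a2 + a6 * sg y) * (y i * (J *ᵥ y) k + y k * (J *ᵥ y) i) := by
  obtain ⟨w, hw⟩ : ∃ w, w = J *ᵥ y := ⟨_, rfl⟩
  have h : ∀ l, w l * G a1 a2 a3 a4 a5 a6 J y w l i k =
      (a1 * y i) * (w l * (1 : Mat n) l k) + (a1 * y k) * (w l * (1 : Mat n) l i) +
      (a2 * w k) * (w l * J l i) + (a2 * w i) * (w l * J l k) +
      (a3 * (1 : Mat n) i k + a4 * (y i * y k) + a5 * (w i * w k)) * (y l * w l) +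
      (a6 * (y i * w k + y k * w i)) * (w l * w l) := by
    intro l
    unfold G
    ring
  rw [← hw]
  simp only [h, Finset.sum_add_distrib, ← Finset.mul_sum, sum_one_right]
  simp only [hw, sum_ww hJ, sum_yw hJ, sum_wJ hJ]
  ring

theorem sum_JG (i k : Fin n) :
    ∑ l, J l k * G a1 a2 a3 a4 a5 a6 J y (J *ᵥ y) l i k =
      -a1 * (y k * J k i) + a2 * ((J *ᵥ y) k * (1 : Mat n) k i + (J *ᵥ y) i) -
      (a3 * (1 : Mat n) k i + a4 * (y i * y k) + a5 * ((J *ᵥ y) i * (J *ᵥ y) k)) * (J *ᵥ y) k +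
      a6 * (y i * (J *ᵥ y) k + y k * (J *ᵥ y) i) * y k := by
  obtain ⟨w, hw⟩ : ∃ w, w = J *ᵥ y := ⟨_, rfl⟩
  have h : ∀ l, J l k * G a1 a2 a3 a4 a5 a6 J y w l i k =
      (a1 * y i) * (J l k * (1 : Mat n) l k) + (a1 * y k) * (J l k * (1 : Mat n) l i) +
      (a2 * w k) * (J l k * J l i) + (a2 * w i) * (J l k * J l k) +
      (a3 * (1 : Mat n) i k + a4 * (y i * y k) + a5 * (w i * w k)) * (y l * J l k) +
      (a6 * (y i * w k + y k * w i)) * (w l * J l k) := by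
    intro l
    unfold G
    ring
  rw [← hw]
  simp only [h, Finset.sum_add_distrib, ← Finset.mul_sum, sum_one_right, s_JJ hJ]
  simp only [hw, sum_yJ hJ, Jw hJ, Pi.neg_apply]
  rw [J_diag hJ, one_diag, J_anti hJ k i, one_symm i k]
  ring

theorem sum3 (i j : Fin n) :
    ∑ k, ∑ l, G a1 a2 a3 a4 a5 a6 J y (J *ᵥ y) k k l * G a1 a2 a3 a4 a5 a6 J y (J *ᵥ y) l i j =
      ((n + 1) * a1 + a2 + a3 + a4 * sg y + a6 * sg y) *
        ((sg y * a3) * (1 : Mat n) i j + (2 * a1 + sg y * a4) * (y i * y j) +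
          (sg y * a5 - 2 * a2) * ((J *ᵥ y) i * (J *ᵥ y) j)) := by
  rw [Finset.sum_comm, ← sum_yG hJ y a1 a2 a3 a4 a5 a6 i j, Finset.mul_sum]
  refine Finset.sum_congr rfl fun l _ => ?_
  rw [← Finset.sum_mul]
  have : ∑ k, G a1 a2 a3 a4 a5 a6 J y (J *ᵥ y) k k l =
      ∑ k, G a1 a2 a3 a4 a5 a6 J y (J *ᵥ y) k l k :=
    Finset.sum_congr rfl fun k _ => G_symm y a1 a2 a3 a4 a5 a6 _ k k l
  rw [this, trace1 hJ]
  ring

theorem inner4 (i j k : Fin n) :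
    ∑ l, G a1 a2 a3 a4 a5 a6 J y (J *ᵥ y) k j l * G a1 a2 a3 a4 a5 a6 J y (J *ᵥ y) l i k =
      (a1 * y j) * G a1 a2 a3 a4 a5 a6 J y (J *ᵥ y) k i k +
      (a3 * y k) * G a1 a2 a3 a4 a5 a6 J y (J *ᵥ y) j i k +
      (a1 * (1 : Mat n) k j + a4 * (y j * y k) + a6 * ((J *ᵥ y) j * (J *ᵥ y) k)) *
        ((sg y * a3) * (1 : Mat n) i k + (2 * a1 + sg y * a4) * (y i * y k) +
          (sg y * a5 - 2 * a2) * ((J *ᵥ y) i * (J *ᵥ y) k)) +
      (a2 * J k j + a5 * ((J *ᵥ y) j * y k) + a6 * (y j * (J *ᵥ y) k)) *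
        ((a1 + a2 + a6 * sg y) * (y i * (J *ᵥ y) k + y k * (J *ᵥ y) i)) -
      (a2 * (J *ᵥ y) j) *
        (-a1 * (y k * J k i) + a2 * ((J *ᵥ y) k * (1 : Mat n) k i + (J *ᵥ y) i) -
          (a3 * (1 : Mat n) k i + a4 * (y i * y k) + a5 * ((J *ᵥ y) i * (J *ᵥ y) k)) *
            (J *ᵥ y) k +
          a6 * (y i * (J *ᵥ y) k + y k * (J *ᵥ y) i) * y k) := by
  rw [← sum_yG hJ, ← sum_wG hJ, ← sum_JG hJ,
    ← sum_one_right k (fun l => G a1 a2 a3 a4 a5 a6 J y (J *ᵥ y) l i k),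
    ← sum_one_right j (fun l => G a1 a2 a3 a4 a5 a6 J y (J *ᵥ y) l i k)]
  simp only [Finset.mul_sum, ← Finset.sum_add_distrib, ← Finset.sum_sub_distrib]
  refine Finset.sum_congr rfl fun l _ => ?_
  generalize G a1 a2 a3 a4 a5 a6 J y (J *ᵥ y) l i k = V
  unfold G
  rw [one_symm k l, one_symm j l, J_anti hJ l k]
  ring

theorem sum4 (i j : Fin n) :
    ∑ k, ∑ l, G a1 a2 a3 a4 a5 a6 J y (J *ᵥ y) k j l * G a1 a2 a3 a4 a5 a6 J y (J *ᵥ y) l i k =
      (2 * a1 * a3 * sg y) * (1 : Mat n) i j +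
      (a1 * ((n + 1) * a1 + a2 + a3 + a4 * sg y + a6 * sg y) + a3 * (a1 + a3 + a4 * sg y) +
        a1 * (2 * a1 + sg y * a4) + a4 * sg y * (2 * a1 + sg y * a4 + a3) +
        (a1 + a2 + a6 * sg y) * (a2 + a6 * sg y)) * (y i * y j) +
      (a3 * (a2 + a6 * sg y) + a1 * (sg y * a5 - 2 * a2) +
        a6 * sg y * (sg y * a5 - 2 * a2 + a3) + (a1 + a2 + a6 * sg y) * (a5 * sg y - a2) +
        a2 * (-a1 - (n + 1) * a2 + a3 + a5 * sg y - a6 * sg y)) *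
        ((J *ᵥ y) i * (J *ᵥ y) j) := by
  simp only [inner4 hJ]
  obtain ⟨w, hw⟩ : ∃ w, w = J *ᵥ y := ⟨_, rfl⟩
  obtain ⟨s, hs⟩ : ∃ s, s = sg y := ⟨_, rfl⟩
  obtain ⟨p, hp⟩ : ∃ p, p = a1 + a2 + a6 * s := ⟨_, rfl⟩
  obtain ⟨q, hq⟩ : ∃ q, q = 2 * a1 + s * a4 := ⟨_, rfl⟩
  obtain ⟨r, hr⟩ : ∃ r, r = s * a5 - 2 * a2 := ⟨_, rfl⟩
  have h : ∀ k, (a1 * y j) * G a1 a2 a3 a4 a5 a6 J y w k i k +
      (a3 * y k) * G a1 a2 a3 a4 a5 a6 J y w j i k +
      (a1 * (1 : Mat n) k j + a4 * (y j * y k) + a6 * (w j * w k)) *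
        ((s * a3) * (1 : Mat n) i k + q * (y i * y k) + r * (w i * w k)) +
      (a2 * J k j + a5 * (w j * y k) + a6 * (y j * w k)) * (p * (y i * w k + y k * w i)) -
      (a2 * w j) * (-a1 * (y k * J k i) + a2 * (w k * (1 : Mat n) k i + w i) -
          (a3 * (1 : Mat n) k i + a4 * (y i * y k) + a5 * (w i * w k)) * w k +
          a6 * (y i * w k + y k * w i) * y k) =
      (a1 * y j) * G a1 a2 a3 a4 a5 a6 J y w k i k +
      (a3 * a1 * y i + a1 * q * y i) * (y k * (1 : Mat n) k j) +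
      (a3 * a1 * (1 : Mat n) i j + a3 * a4 * y i * y j + a3 * a6 * w i * w j +
        a4 * q * y j * y i + a5 * p * w j * w i - a2 * a6 * w j * w i) * (y k * y k) +
      (a3 * a2 * J j i + a3 * a5 * w i * y j + a3 * a6 * y i * w j + a4 * r * y j * w i +
        a6 * q * w j * y i + a5 * p * w j * y i + a6 * p * y j * w i + a2 * a4 * w j * y i -
        a2 * a6 * w j * y i) * (y k * w k) +
      (-a3 * a2 * w i + a2 * p * w i) * (y k * J k j) +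
      (a3 * a3 * y j + a4 * s * a3 * y j) * (y k * (1 : Mat n) k i) +
      (a1 * s * a3) * ((1 : Mat n) k i * (1 : Mat n) k j) +
      (a1 * r * w i) * (w k * (1 : Mat n) k j) +
      (a6 * s * a3 * w j - a2 * a2 * w j + a2 * a3 * w j) * (w k * (1 : Mat n) k i) +
      (a6 * r * w j * w i + a6 * p * y j * y i + a2 * a5 * w j * w i) * (w k * w k) +
      (a2 * p * y i) * (w k * J k j) +
      (a2 * a1 * w j) * (y k * J k i) +
      (-a2 * a2 * w j * w i) * 1 := by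
    intro k
    generalize G a1 a2 a3 a4 a5 a6 J y w k i k = V
    unfold G
    rw [one_symm i k, one_symm j k, one_symm j i, J_anti hJ k j]
    ring
  rw [← hw, ← hs, ← hp, ← hq, ← hr]
  simp only [h, Finset.sum_add_distrib, ← Finset.mul_sum, sum_one_right, s_one]
  simp only [hw, trace1 hJ, sum_yy, sum_ww hJ, sum_yw hJ, sum_yJ hJ, Jw hJ, Pi.neg_apply, ← hs,
    hp, hq, hr]
  rw [one_symm j i]
  ring

end sums

/-- radial functions divided by powers of `|y|^2` -/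
theorem hasPd_rad1 (l : Fin n) {y : Pt n} (hy : y ≠ 0) {c : ℝ → ℝ} {d : ℝ}
    (hc : HasDerivAt c d (ls y)) :
    HasPd l (fun z => c (ls z) / sg z) y ((d - 2 * c (ls y)) / sg y ^ 2 * y l) := by
  have h := (sg_pos hy).ne'
  refine (((hasPd_ls l hy).comp hc).mul (hasPd_inv_sg l hy)).congr (fun z => ?_) ?_
  · rw [div_eq_mul_inv]
  · field_simp
    ring

theorem hasPd_rad2 (l : Fin n) {y : Pt n} (hy : y ≠ 0) {c : ℝ → ℝ} {d : ℝ}
    (hc : HasDerivAt c d (ls y)) :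
    HasPd l (fun z => c (ls z) / sg z ^ 2) y ((d - 4 * c (ls y)) / sg y ^ 3 * y l) := by
  have h := (sg_pos hy).ne'
  refine ((((hasPd_ls l hy).comp hc).mul (hasPd_inv_sg l hy)).mul (hasPd_inv_sg l hy)).congr
    (fun z => ?_) ?_
  · rw [div_eq_mul_inv, ← inv_pow]; ring
  · field_simp
    ring

theorem Gam_eq (Φ x : ℝ → ℝ) (J : Mat n) (k i j : Fin n) (z : Pt n) :
    Gam Φ x J k i j z = G (c1 Φ x (ls z) / sg z) (c2 n x (ls z) / sg z) (c3 Φ x (ls z) / sg z)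
      (c4 Φ x (ls z) / sg z ^ 2) (c5 n Φ x (ls z) / sg z ^ 2) (c6 n x (ls z) / sg z ^ 2)
      J z (J *ᵥ z) k i j := rfl

section ders

variable {Φ x : ℝ → ℝ}

theorem d0 (hf : ContDiff ℝ ∞ Φ) (s : ℝ) : HasDerivAt Φ (deriv Φ s) s :=
  ((hf.differentiable (by simp)) s).hasDerivAt

theorem d1 (hf : ContDiff ℝ ∞ Φ) (s : ℝ) : HasDerivAt (deriv Φ) (deriv (deriv Φ) s) s :=
  d0 (contDiff_infty_iff_deriv.mp hf).2 s

theorem dA (hx : ContDiff ℝ ∞ x) (s : ℝ) :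
    HasDerivAt (fun s => cA (x s)) (cA (x s) * (2 * deriv x s)) s :=
  ((d0 hx s).const_mul 2).exp

theorem dB (n : ℕ) (hx : ContDiff ℝ ∞ x) (s : ℝ) :
    HasDerivAt (fun s => cB n (x s)) (cB n (x s) * (-2 * ((n : ℝ) - 2) * deriv x s)) s :=
  ((d0 hx s).const_mul (-2 * ((n : ℝ) - 2))).exp

theorem dBA (n : ℕ) (hx : ContDiff ℝ ∞ x) (s : ℝ) :
    HasDerivAt (fun s => cB n (x s) / cA (x s))
      (-2 * ((n : ℝ) - 1) * deriv x s * (cB n (x s) / cA (x s))) s := by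
  have h := (cA_pos (x s)).ne'
  refine ((dB n hx s).div (dA hx s) h).congr_deriv ?_
  field_simp
  ring

theorem dc1 (hΦ : ContDiff ℝ ∞ Φ) (hx : ContDiff ℝ ∞ x) (s : ℝ) :
    HasDerivAt (c1 Φ x) (deriv (deriv Φ) s + deriv (deriv x) s) s :=
  ((d1 hΦ s).add (d1 hx s)).sub_const 1

theorem dc2 (n : ℕ) (hx : ContDiff ℝ ∞ x) (s : ℝ) :
    HasDerivAt (c2 n x) (-2 * ((n : ℝ) - 1) * deriv x s * (cB n (x s) / cA (x s))) s :=
  (dBA n hx s).sub_const 1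

theorem dAf (hΦ : ContDiff ℝ ∞ Φ) (hx : ContDiff ℝ ∞ x) (s : ℝ) :
    HasDerivAt (fun s => cA (x s) * (deriv Φ s + deriv x s))
      (cA (x s) * (2 * deriv x s) * (deriv Φ s + deriv x s) +
        cA (x s) * (deriv (deriv Φ) s + deriv (deriv x) s)) s :=
  (dA hx s).mul ((d1 hΦ s).add (d1 hx s))

theorem dc3 (hΦ : ContDiff ℝ ∞ Φ) (hx : ContDiff ℝ ∞ x) (s : ℝ) :
    HasDerivAt (c3 Φ x) (-(cA (x s) * (2 * deriv x s) * (deriv Φ s + deriv x s) +
        cA (x s) * (deriv (deriv Φ) s + deriv (deriv x) s))) s :=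
  (dAf hΦ hx s).const_sub 1

theorem dc4 (hΦ : ContDiff ℝ ∞ Φ) (hx : ContDiff ℝ ∞ x) (s : ℝ) :
    HasDerivAt (c4 Φ x) (cA (x s) * (2 * deriv x s) * (deriv Φ s + deriv x s) +
        cA (x s) * (deriv (deriv Φ) s + deriv (deriv x) s) - deriv (deriv Φ) s -
        2 * deriv (deriv x) s) s :=
  ((dAf hΦ hx s).sub (d1 hΦ s)).sub ((d1 hx s).const_mul 2)

theorem dc5 (n : ℕ) (hΦ : ContDiff ℝ ∞ Φ) (hx : ContDiff ℝ ∞ x) (s : ℝ) :
    HasDerivAt (c5 n Φ x) (cA (x s) * (2 * deriv x s) * (deriv Φ s + deriv x s) +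
        cA (x s) * (deriv (deriv Φ) s + deriv (deriv x) s) -
        (cB n (x s) * (-2 * ((n : ℝ) - 2) * deriv x s) *
            (deriv Φ s - ((n : ℝ) - 2) * deriv x s) +
          cB n (x s) * (deriv (deriv Φ) s - ((n : ℝ) - 2) * deriv (deriv x) s)) +
        2 * (-2 * ((n : ℝ) - 1) * deriv x s * (cB n (x s) / cA (x s)))) s :=
  ((dAf hΦ hx s).sub ((dB n hx s).mul ((d1 hΦ s).sub ((d1 hx s).const_mul ((n : ℝ) - 2))))).add
    (((dBA n hx s).sub_const 1).const_mul 2)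

theorem dc6 (n : ℕ) (hx : ContDiff ℝ ∞ x) (s : ℝ) :
    HasDerivAt (c6 n x) (-(-2 * ((n : ℝ) - 1) * deriv x s * (cB n (x s) / cA (x s))) -
      ((n : ℝ) - 1) * deriv (deriv x) s) s :=
  ((dBA n hx s).const_sub 1).sub ((d1 hx s).const_mul ((n : ℝ) - 1))

end ders

theorem pd_congr {f g : Pt n → ℝ} {y : Pt n} (h : f =ᶠ[𝓝 y] g) (l : Fin n) :
    pd l f y = pd l g y := by
  unfold pd
  rw [h.fderiv_eq]

theorem exp_n (n : ℕ) (t : ℝ) : Real.exp (-2 * (n : ℝ) * t) = cB n t / cA t ^ 2 := by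
  unfold cA cB
  rw [← Real.exp_nat_mul, ← Real.exp_sub]
  congr 1
  push_cast
  ring

theorem exp_one (t : ℝ) : Real.exp (-2 * t) = 1 / cA t := by
  unfold cA
  rw [one_div, ← Real.exp_neg]
  congr 1
  ring

end Ric

open Ric Chr in
theorem ricStmt (h : ChrStmt) : RicStmt := by
  intro n Φ x J hΦ hx hJ y hy i j
  have hev : ∀ k i j, chr (gm Φ x J) k i j =ᶠ[𝓝 y] Gam Φ x J k i j := by
    intro k i j
    filter_upwards [isOpen_ne.mem_nhds hy] with z hz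
    exact (h n Φ x J hΦ hx hJ z hz).2.2 k i j
  have hval : ∀ k i j, chr (gm Φ x J) k i j y = Gam Φ x J k i j y :=
    (h n Φ x J hΦ hx hJ y hy).2.2
  have hpd : ∀ l k i j, pd l (chr (gm Φ x J) k i j) y = _ := fun l k i j =>
    (pd_congr (hev k i j) l).trans
      (hasPd_G J l k i j (hasPd_rad1 l hy (dc1 hΦ hx _)) (hasPd_rad1 l hy (dc2 n hx _))
        (hasPd_rad1 l hy (dc3 hΦ hx _)) (hasPd_rad2 l hy (dc4 hΦ hx _))
        (hasPd_rad2 l hy (dc5 n hΦ hx _)) (hasPd_rad2 l hy (dc6 n hx _))).pd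
  unfold ric
  simp only [hpd, hval, Gam_eq, Finset.sum_add_distrib, Finset.sum_sub_distrib]
  rw [sum1 hJ, sum2 hJ, sum3 hJ, sum4 hJ]
  unfold RicF hor rad ver c1 c2 c3 c4 c5 c6
  rw [exp_n, exp_one]
  have h1 := (sg_pos hy).ne'
  have h2 := (cA_pos (x (ls y))).ne'
  generalize sg y = s at h1 ⊢
  generalize cA (x (ls y)) = A at h2 ⊢
  generalize cB n (x (ls y)) = B
  generalize deriv (deriv Φ) (ls y) = f2
  generalize deriv (deriv x) (ls y) = t2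
  generalize deriv Φ (ls y) = f
  generalize deriv x (ls y) = t
  generalize (1 : Mat n) i j = D
  generalize y i * y j = Y
  generalize (J *ᵥ y) i * (J *ᵥ y) j = W
  generalize (n : ℝ) = N
  field_simp
  ring

end Vale.Agent.P225
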