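import Vale.Agent.P225.Ode

/-! Scalar ODE comparison. -/

namespace Vale.Agent.P225

open scoped ContDiff Topology
open Filter Set

namespace Scal

theorem exists_prim {P : ℝ → ℝ} {a b : ℝ} (hab : a ≤ b) (hP : ContinuousOn P (Icc a b)) :
    ∃ I : ℝ → ℝ, I a = 0 ∧ ∀ s ∈ Icc a b, HasDerivAt I (P s) s := by
  have hc : Continuous (IccExtend hab ((Icc a b).domRestrict P)) :=
    (continuousOn_iff_continuous_domRestrict.1 hP).Icc_extend'
  refine ⟨fun s => ∫ t in a..s, IccExtend hab ((Icc a b).domRestrict P) t, by simp, fun s hs => ?_⟩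
  have := (hc.integral_hasStrictDerivAt a s).hasDerivAt
  rwa [IccExtend_of_mem hab _ hs] at this

theorem mono {f f' : ℝ → ℝ} {a b : ℝ} (h : ∀ s ∈ Icc a b, HasDerivAt f (f' s) s)
    (h0 : ∀ s ∈ Icc a b, 0 ≤ f' s) : ∀ s ∈ Icc a b, f a ≤ f s := fun _ hs =>
  image_le_of_deriv_right_le_deriv_boundary (f := fun _ => f a) (f' := fun _ => 0)
    continuousOn_const (fun s _ => hasDerivWithinAt_const s _ _) le_rfl
    (fun s hs => (h s hs).continuousAt.continuousWithinAt)
    (fun s hs => (h s (Ico_subset_Icc_self hs)).hasDerivWithinAt)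
    (fun s hs => h0 s (Ico_subset_Icc_self hs)) hs

end Scal

open Scal

theorem decayStmt : DecayStmt := by
  intro E _ _ W h P a b γ H ν hγ hH hν hP hW s hs
  obtain ⟨I, I0, hI⟩ := exists_prim (hs.1.trans hs.2) hP
  have hZ : ∀ t ∈ Icc a b,
      HasDerivAt (fun t => Real.exp (I t) • W t) (Real.exp (I t) • h t) t := fun t ht => by
    refine ((hI t ht).exp.smul (hW t ht).2.2).congr_deriv ?_
    rw [smul_sub, mul_smul, sub_add_cancel]
  have hB : ∀ t ∈ Icc a b, HasDerivAt
      (fun t => ‖W a‖ + H / γ * (Real.exp (I t) * Real.exp (ν * (t - a))))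
      (H / γ * (Real.exp (I t) * Real.exp (ν * (t - a)) * (P t + ν))) t := fun t ht => by
    refine ((((hI t ht).exp.mul
      (((hasDerivAt_id t).sub_const a).const_mul ν).exp).const_mul (H / γ)).const_add
        ‖W a‖).congr_deriv ?_
    simp only [id]; ring
  have h1 := image_norm_le_of_norm_deriv_right_le_deriv_boundary'
    (fun t ht => (hZ t ht).continuousAt.continuousWithinAt)
    (fun t ht => (hZ t (Ico_subset_Icc_self ht)).hasDerivWithinAt)
    (by simp only [I0, Real.exp_zero, one_smul]; exact le_add_of_nonneg_right (by positivity))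
    (fun t ht => (hB t ht).continuousAt.continuousWithinAt)
    (fun t ht => (hB t (Ico_subset_Icc_self ht)).hasDerivWithinAt) (fun t ht => ?_) hs
  · have h2 := mono (f := fun t => I t - γ * (t - a)) (f' := fun t => P t - γ * 1)
      (fun t ht => (hI t ht).sub (((hasDerivAt_id t).sub_const a).const_mul γ))
      (fun t ht => by linarith [(hW t ht).1]) s hs
    simp only [I0, sub_self, mul_zero] at h2
    have h3 : 1 ≤ Real.exp (I s) * Real.exp (-(γ * (s - a))) := by
      rw [← Real.exp_add]; exact Real.one_le_exp h2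
    rw [norm_smul, Real.norm_of_nonneg (Real.exp_pos _).le] at h1
    refine le_of_mul_le_mul_left (h1.trans ?_) (Real.exp_pos (I s))
    have h4 := mul_le_mul_of_nonneg_right h3 (norm_nonneg (W a))
    have e : Real.exp (I s) * (H * Real.exp (ν * (s - a)) / γ) =
        H / γ * (Real.exp (I s) * Real.exp (ν * (s - a))) := by ring
    rw [mul_add, e]
    linarith
  · obtain ⟨b1, b2, -⟩ := hW t (Ico_subset_Icc_self ht)
    rw [norm_smul, Real.norm_of_nonneg (Real.exp_pos _).le]
    refine (mul_le_mul_of_nonneg_left b2 (Real.exp_pos _).le).trans ?_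
    have e : Real.exp (I t) * (H * Real.exp (ν * (t - a))) =
        H / γ * (Real.exp (I t) * Real.exp (ν * (t - a)) * γ) := by field_simp
    rw [e]
    gcongr
    linarith

theorem posStmt : PosStmt := by
  refine ⟨fun p q a b u₀ v₀ hp hq => ?_, fun p q u v a b hp h ha hv => ?_⟩
  · obtain ⟨y, y0, hy⟩ := Ode.glob (A := fun s => Ode.sys (p s) (q s • (1 : ℝ →L[ℝ] ℝ)))
      (Ode.sys_cont'' hp (hq.smul continuous_const)) (u₀, v₀) a
    refine ⟨fun s => (y s).1, fun s => (y s).2, congrArg Prod.fst y0, congrArg Prod.snd y0,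
      fun s _ => ?_⟩
    simpa using Ode.sys_iff.1 (hy s)
  rcases lt_or_ge b a with hab | hab
  · simp [Icc_eq_empty_of_lt hab]
  obtain ⟨I, I0, hI⟩ := exists_prim hab hp
  have h1 : ∀ s ∈ Icc a b, 0 ≤ u s * v s := fun s hs => by
    have := mono (f := fun t => Real.exp (I t) * (u t * v t))
      (f' := fun t => Real.exp (I t) * (v t ^ 2 + q t * u t ^ 2))
      (fun t ht => ((hI t ht).exp.mul ((h t ht).2.1.mul (h t ht).2.2)).congr_deriv (by
        simp only [Pi.mul_apply]; ring))
      (fun t ht => by have := (h t ht).1; positivity) s hs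
    exact nonneg_of_mul_nonneg_right ((by positivity : (0 : ℝ) ≤ _).trans this) (Real.exp_pos _)
  have h2 : ∀ s ∈ Icc a b, u a * u a ≤ u s * u s :=
    mono (f := fun t => u t * u t) (fun t ht => (h t ht).2.1.mul (h t ht).2.1)
      fun t ht => by linarith [h1 t ht]
  have h3 : ∀ s ∈ Icc a b, 0 < u s := fun s hs => by
    by_contra hc
    obtain ⟨t, ht, h0⟩ := intermediate_value_Icc' hs.1 (f := u)
      (fun t ht => (h t ⟨ht.1, ht.2.trans hs.2⟩).2.1.continuousAt.continuousWithinAt)
      (show (0 : ℝ) ∈ Icc (u s) (u a) from ⟨not_lt.1 hc, ha.le⟩)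
    have := h2 t ⟨ht.1, ht.2.trans hs.2⟩
    rw [h0] at this
    nlinarith
  have h4 : ∀ s ∈ Icc a b, 0 ≤ v s := fun s hs => nonneg_of_mul_nonneg_right (h1 s hs) (h3 s hs)
  refine ⟨fun s hs => ⟨mono (fun t ht => (h t ht).2.1) h4 s hs, h4 s hs⟩, fun Y hY hq hv' => ?_⟩
  have h5 : ∀ s ∈ Icc a b, v s ≤ Y * u s := fun s hs => by
    have := mono (f := fun t => Real.exp (I t + Y * t) * (Y * u t - v t))
      (f' := fun t => Real.exp (I t + Y * t) * ((Y * (Y + p t) - q t) * u t))
      (fun t ht => (((hI t ht).add ((hasDerivAt_id t).const_mul Y)).exp.mul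
        (((h t ht).2.1.const_mul Y).sub (h t ht).2.2)).congr_deriv (by
          simp only [Pi.add_apply, Pi.sub_apply, id]; ring))
      (fun t ht => mul_nonneg (Real.exp_pos _).le
        (mul_nonneg (sub_nonneg.2 (hq t ht)) (h3 t ht).le)) s hs
    exact sub_nonneg.1 (nonneg_of_mul_nonneg_right
      ((mul_nonneg (Real.exp_pos _).le (sub_nonneg.2 hv')).trans this) (Real.exp_pos _))
  refine fun s hs => ⟨h5 s hs, ?_⟩
  have := mono (f := fun t => -(u t * Real.exp (-(Y * (t - a)))))
    (f' := fun t => (Y * u t - v t) * Real.exp (-(Y * (t - a))))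
    (fun t ht => ((h t ht).2.1.mul
      (((hasDerivAt_id t).sub_const a).const_mul Y).neg.exp).neg.congr_deriv (by
        simp only [Pi.neg_apply, id]; ring))
    (fun t ht => mul_nonneg (sub_nonneg.2 (h5 t ht)) (Real.exp_pos _).le) s hs
  simp only [sub_self, mul_zero, neg_zero, Real.exp_zero, mul_one, neg_le_neg_iff] at this
  rwa [Real.exp_neg, ← div_eq_mul_inv, div_le_iff₀ (Real.exp_pos _)] at this

theorem startStmt : StartStmt := by
  intro p q lam β l hp hβ hlam hl ε hε
  have hq := hp.pos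
  set Y := max l β with hY
  have hY1 : l ≤ Y := le_max_left _ _
  have hY2 : β ≤ Y := le_max_right _ _
  have hY0 : 0 < Y := hβ.trans_le hY2
  obtain ⟨a₁, h1⟩ := eventually_atTop.1 (hp.lim.eventually
    (gt_mem_nhds (show q < q + ε / 2 * β / Y by have : 0 < ε / 2 * β / Y := by positivity
                                                linarith)))
  have t1 : Tendsto (fun a : ℝ => Real.exp (-(β * (a - a / 2))) * Y) atTop (𝓝 (0 * Y)) := by
    refine (Real.tendsto_exp_neg_atTop_nhds_zero.comp ?_).mul_const Y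
    refine (tendsto_id.const_mul_atTop (show 0 < β / 2 by positivity)).congr fun a => ?_
    simp only [id]; ring
  obtain ⟨a₂, h2⟩ := eventually_atTop.1 (t1.eventually (gt_mem_nhds (show 0 * Y < ε / 2 by linarith)))
  refine ⟨max (max (2 * a₁) a₂) 0, fun a ha => ?_⟩
  have a0 : 0 ≤ a := (le_max_right _ _).trans ha
  have a1 : 2 * a₁ ≤ a := ((le_max_left _ _).trans (le_max_left _ _)).trans ha
  have a2 : a₂ ≤ a := ((le_max_right _ _).trans (le_max_left _ _)).trans ha
  obtain ⟨u, v, u0, v0, h⟩ := posStmt.1 p (fun _ => lam) 0 a 1 l hp.cont continuous_const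
  obtain ⟨h3, h4⟩ := posStmt.2 p (fun _ => lam) u v 0 a hp.cont.continuousOn
    (fun s hs => ⟨by rw [← hlam]; positivity, h s hs⟩) (by rw [u0]; exact one_pos) (by rwa [v0])
  have h5 := h4 Y hY0.le (fun s _ => by nlinarith [hp.le s]) (by rw [u0, v0]; linarith)
  have hu : ∀ s ∈ Icc 0 a, 0 < u s := fun s hs => by linarith [(h3 s hs).1]
  have hy : ∀ s ∈ Icc 0 a, 0 ≤ v s / u s ∧ v s / u s ≤ Y := fun s hs =>
    ⟨div_nonneg (h3 s hs).2 (hu s hs).le, (div_le_iff₀ (hu s hs)).2 (h5 s hs).1⟩
  have hsub : Icc (a / 2) a ⊆ Icc 0 a := Icc_subset_Icc_left (by linarith)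
  have hd : ∀ s ∈ Icc 0 a, HasDerivAt (fun s => v s / u s - β)
      (-((p s - q) * (v s / u s)) - (v s / u s + β + q) • (v s / u s - β)) s := fun s hs => by
    refine (((h s hs).2.div (h s hs).1 (hu s hs).ne').sub_const β).congr_deriv ?_
    have := (hu s hs).ne'
    rw [← hlam, smul_eq_mul]
    field_simp
    ring
  have h6 := decayStmt ℝ (fun s => v s / u s - β) (fun s => -((p s - q) * (v s / u s)))
    (fun s => v s / u s + β + q) (a / 2) a β (ε / 2 * β) 0 hβ (by positivity) le_rfl
    (fun s hs => ((((h s (hsub hs)).2.div (h s (hsub hs)).1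
      (hu s (hsub hs)).ne').add_const β).add_const q).continuousAt.continuousWithinAt)
    (fun s hs => ⟨by linarith [(hy s (hsub hs)).1], ?_, hd s (hsub hs)⟩) a ⟨by linarith, le_rfl⟩
  · have ha' : a ∈ Icc 0 a := ⟨a0, le_rfl⟩
    refine ⟨u, v, u0, v0, h, u0 ▸ (h3 a ha').1, ?_⟩
    have h7 : ‖v (a / 2) / u (a / 2) - β‖ ≤ Y := by
      obtain ⟨b1, b2⟩ := hy (a / 2) ⟨by linarith, by linarith⟩
      exact abs_le.2 ⟨by linarith, by linarith⟩
    have h8 := mul_le_mul_of_nonneg_left h7 (Real.exp_pos (-(β * (a - a / 2)))).le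
    rw [zero_mul, Real.exp_zero, mul_one, mul_div_cancel_right₀ _ hβ.ne'] at h6
    have e : v a - β * u a = (v a / u a - β) * u a := by
      have := (hu a ha').ne'
      field_simp
    rw [e, abs_mul, abs_of_pos (hu a ha')]
    exact mul_le_mul_of_nonneg_right (h6.trans (by linarith [h2 a a2])) (hu a ha').le
  · obtain ⟨b1, b2⟩ := hy s (hsub hs)
    have b3 := h1 s (by linarith [hs.1])
    have b4 := hp.le s
    rw [zero_mul, Real.exp_zero, mul_one, norm_neg,
      Real.norm_of_nonneg (mul_nonneg (sub_nonneg.2 b4) b1)]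
    calc (p s - q) * (v s / u s) ≤ ε / 2 * β / Y * Y :=
          mul_le_mul (by linarith) b2 b1 (by positivity)
      _ = ε / 2 * β := div_mul_cancel₀ _ hY0.ne'

end Vale.Agent.P225
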