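import Vale.Agent.P225.Iface

/-! Steering the basis vectors through a permutation. -/

namespace Vale.Agent.P225

open scoped Topology
open Filter Set

namespace Steer

theorem exp_apply {D : ℕ} (Y : Op D) (v : Vc D) (h : Y (Y v) = 0) :
    NormedSpace.exp Y v = v + Y v := by
  have h1 := (NormedSpace.exp_series_hasSum_exp' (𝕂 := ℝ) Y).mapL
    ((ContinuousLinearMap.apply ℂ (Vc D) v).restrictScalars ℝ)
  have h2 : HasSum (fun n : ℕ => ((ContinuousLinearMap.apply ℂ (Vc D) v).restrictScalars ℝ)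
      (((n.factorial : ℝ)⁻¹) • Y ^ n)) (∑ n ∈ Finset.range 2,
      ((ContinuousLinearMap.apply ℂ (Vc D) v).restrictScalars ℝ)
        (((n.factorial : ℝ)⁻¹) • Y ^ n)) := by
    refine hasSum_sum_of_ne_finset_zero fun n hn => ?_
    obtain ⟨m, rfl⟩ : ∃ m, n = m + 2 := ⟨n - 2, by simp at hn; omega⟩
    simp [pow_add, pow_two, h]
  simpa [Finset.sum_range_succ] using h1.unique h2

theorem norm_ee {D : ℕ} (i : Fin D) : ‖ee i‖ = 1 := by simp [ee, Pi.norm_single]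

variable {Λ : Type} [Fintype Λ] [DecidableEq Λ] {dim : Λ → ℕ}

omit [DecidableEq Λ] in
theorem exp_pi (x : ∀ l, Op (dim l)) (l : Λ) : NormedSpace.exp x l = NormedSpace.exp (x l) := by
  let _ : ∀ l, NormedAlgebra ℚ (Op (dim l)) := fun l => .restrictScalars ℚ ℝ _
  exact Pi.coe_exp x l

omit [Fintype Λ] [DecidableEq Λ] in
theorem prodUp_pi (F : ℕ → ∀ l, Op (dim l)) (N : ℕ) (l : Λ) :
    prodUp F N l = prodUp (fun i => F i l) N := by
  induction N with
  | zero => rfl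
  | succ N ih => rw [prodUp, prodUp, Pi.mul_apply, ih]

/-- the families of permutations realised by a monoid of operators -/
def real (pos : ∀ l, Fin (dim l) → Prop) (H : Submonoid (∀ l, Op (dim l))) :
    Submonoid (∀ l, Equiv.Perm (Fin (dim l))) where
  carrier := {π | (∀ l τ, pos l τ → pos l (π l τ)) ∧ ∃ g ∈ H, ∀ l τ, pos l τ →
    ∃ z : ℂ, ‖z‖ = 1 ∧ g l (ee τ) = z • ee (π l τ)}
  one_mem' := ⟨fun _ _ h => h, 1, one_mem _, fun _ _ _ => ⟨1, norm_one, by simp⟩⟩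
  mul_mem' := by
    rintro π π' ⟨h1, g, hg, h2⟩ ⟨h1', g', hg', h2'⟩
    refine ⟨fun l τ h => h1 l _ (h1' l τ h), g * g', mul_mem hg hg', fun l τ h => ?_⟩
    obtain ⟨z', hz', e'⟩ := h2' l τ h
    obtain ⟨z, hz, e⟩ := h2 l _ (h1' l τ h)
    refine ⟨z' * z, by rw [norm_mul, hz, hz', mul_one], ?_⟩
    rw [Pi.mul_apply, mul_apply_eq_comp, e', map_smul, e, smul_smul]
    rfl

variable {pos : ∀ l, Fin (dim l) → Prop} {H : Submonoid (∀ l, Op (dim l))}

/-- the elementary moves -/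
def Moves (pos : ∀ l, Fin (dim l) → Prop) (S : Set (∀ l, Op (dim l))) : Prop :=
  ∀ (l : Λ) (τ ν : Fin (dim l)) (z : ℂ), pos l τ → ν ≠ τ →
    ∃ Y ∈ S, (∀ l', l' ≠ l → Y l' = 0) ∧
      ∀ τ', pos l τ' → Y l (ee τ') = if τ' = τ then z • ee ν else 0

theorem swap_mem (hM : Moves pos {Y | NormedSpace.exp Y ∈ H}) {l : Λ} {τ ν : Fin (dim l)}
    (hτ : pos l τ) (hν : pos l ν) (hne : ν ≠ τ) :
    Pi.mulSingle l (Equiv.swap τ ν) ∈ real pos H := by
  obtain ⟨Y, hY, Y0, Y1⟩ := hM l τ ν 1 hτ hne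
  obtain ⟨Z, hZ, Z0, Z1⟩ := hM l ν τ (-1) hν hne.symm
  have a1 : NormedSpace.exp (Y l) (ee τ) = ee τ + ee ν := by
    rw [exp_apply] <;> simp [Y1 τ hτ, Y1 ν hν, hne]
  have a2 : ∀ σ, pos l σ → σ ≠ τ → NormedSpace.exp (Y l) (ee σ) = ee σ := fun σ h1 h2 => by
    rw [exp_apply] <;> simp [Y1 σ h1, h2]
  have b1 : NormedSpace.exp (Z l) (ee ν) = ee ν - ee τ := by
    rw [exp_apply] <;> simp [Z1 τ hτ, Z1 ν hν, hne.symm, sub_eq_add_neg]
  have b2 : ∀ σ, pos l σ → σ ≠ ν → NormedSpace.exp (Z l) (ee σ) = ee σ := fun σ h1 h2 => by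
    rw [exp_apply] <;> simp [Z1 σ h1, h2]
  refine ⟨fun l' σ h => ?_, NormedSpace.exp Y * (NormedSpace.exp Z * NormedSpace.exp Y),
    mul_mem hY (mul_mem hZ hY), fun l' σ h => ?_⟩
  · by_cases hl : l' = l
    · subst hl
      rw [Pi.mulSingle_eq_same, Equiv.swap_apply_def]
      split_ifs
      exacts [hν, hτ, h]
    · rwa [Pi.mulSingle_eq_of_ne hl]
  · simp only [Pi.mul_apply, mul_apply_eq_comp, exp_pi]
    by_cases hl : l' = l
    · subst hl
      rw [Pi.mulSingle_eq_same]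
      by_cases h1 : σ = τ
      · refine ⟨1, norm_one, ?_⟩
        rw [h1, a1, map_add, b1, b2 τ hτ hne.symm, add_sub_cancel, a2 ν hν hne,
          Equiv.swap_apply_left, one_smul]
      · by_cases h2 : σ = ν
        · refine ⟨-1, by simp, ?_⟩
          rw [h2, a2 ν hν hne, b1, map_sub, a1, a2 ν hν hne, Equiv.swap_apply_right]
          simp
        · refine ⟨1, norm_one, ?_⟩
          rw [a2 σ h h1, b2 σ h h2, a2 σ h h1, Equiv.swap_apply_of_ne_of_ne h1 h2, one_smul]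
    · refine ⟨1, norm_one, ?_⟩
      rw [Pi.mulSingle_eq_of_ne hl, Y0 l' hl, Z0 l' hl]
      simp

theorem single_mem (hM : Moves pos {Y | NormedSpace.exp Y ∈ H}) (l : Λ) (n : ℕ) :
    ∀ σ : Equiv.Perm (Fin (dim l)), σ.support.card ≤ n → (∀ τ ∈ σ.support, pos l τ) →
      Pi.mulSingle l σ ∈ real pos H := by
  induction n with
  | zero =>
    intro σ h _
    rw [Equiv.Perm.card_support_eq_zero.1 (Nat.le_zero.1 h), Pi.mulSingle_one]
    exact one_mem _
  | succ n ih =>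
    intro σ h hp
    by_cases h1 : σ = 1
    · rw [h1, Pi.mulSingle_one]
      exact one_mem _
    · obtain ⟨τ, hτ⟩ : ∃ τ, σ τ ≠ τ := by
        by_contra hc
        exact h1 (Equiv.ext fun τ => not_not.1 fun h => hc ⟨τ, h⟩)
      have h2 := ih (Equiv.swap τ (σ τ) * σ)
        (Nat.le_of_lt_succ ((Equiv.Perm.card_support_swap_mul hτ).trans_le h))
        fun x hx => hp x (Equiv.Perm.mem_support_swap_mul_imp_mem_support_ne hx).1
      have hs := Equiv.Perm.mem_support.2 hτ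
      have h3 := mul_mem
        (swap_mem hM (hp τ hs) (hp _ (Equiv.Perm.apply_mem_support.2 hs)) hτ) h2
      rwa [← Pi.mulSingle_mul, Equiv.swap_mul_self_mul] at h3

theorem perm_mem (hM : Moves pos {Y | NormedSpace.exp Y ∈ H})
    (π : ∀ l, Equiv.Perm (Fin (dim l))) (hp : ∀ l, ∀ τ ∈ (π l).support, pos l τ) :
    π ∈ real pos H := by
  rw [← Finset.noncommProd_mulSingle π]
  exact Submonoid.noncommProd_mem _ _ _ _ fun l _ => single_mem hM l _ _ le_rfl (hp l)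

/-- the index set of the generators -/
abbrev Ix (dim : Λ → ℕ) : Type := Σ l, Fin (dim l) × Fin (dim l) × Bool

/-- the coefficient functions -/
def cf (π : ∀ l, Equiv.Perm (Fin (dim l))) (k : Ix dim) : C(Par dim, ℝ) :=
  if k.2.2.2 then ⟨fun c => (c k.1 ((π k.1).symm k.2.1) k.2.2.1).re, by fun_prop⟩
  else ⟨fun c => (c k.1 ((π k.1).symm k.2.1) k.2.2.1).im, by fun_prop⟩

omit [DecidableEq Λ] in
theorem abs_cf_le (π : ∀ l, Equiv.Perm (Fin (dim l))) (k : Ix dim) (c : Par dim) :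
    |cf π k c| ≤ ‖c‖ := by
  have h : ‖c k.1 ((π k.1).symm k.2.1) k.2.2.1‖ ≤ ‖c‖ :=
    (norm_le_pi_norm _ _).trans ((norm_le_pi_norm _ _).trans (norm_le_pi_norm c _))
  unfold cf
  split_ifs
  · exact (Complex.abs_re_le_norm _).trans h
  · exact (Complex.abs_im_le_norm _).trans h

theorem exists_gen {S : Submodule ℝ (∀ l, Op (dim l))} (hM : Moves pos S)
    (π : ∀ l, Equiv.Perm (Fin (dim l))) :
    ∃ Y : Ix dim → ∀ l, Op (dim l), (∀ k, Y k ∈ S) ∧ ∀ (c : Par dim) l τ, pos l (π l τ) →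
      (∑ k, cf π k c • Y k) l (ee (π l τ)) = Function.update (c l τ) (π l τ) 0 := by
  have H : ∀ k : Ix dim, ∃ Y ∈ S, (∀ l', l' ≠ k.1 → Y l' = 0) ∧
      ∀ τ', pos k.1 τ' → Y k.1 (ee τ') = if τ' = k.2.1 ∧ k.2.2.1 ≠ k.2.1 then
        (if k.2.2.2 then (1 : ℂ) else Complex.I) • ee k.2.2.1 else 0 := by
    rintro ⟨l, τ, ν, b⟩
    by_cases h : pos l τ ∧ ν ≠ τ
    · obtain ⟨Y, hY, Y0, Y1⟩ := hM l τ ν (if b then 1 else Complex.I) h.1 h.2
      exact ⟨Y, hY, Y0, fun τ' h' => by simp only [Y1 τ' h', h.2, ne_eq, not_false_eq_true, and_true]⟩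
    · refine ⟨0, zero_mem _, fun _ _ => rfl, fun τ' h' => ?_⟩
      rw [if_neg]
      · rfl
      · exact fun h2 => h ⟨(show τ' = τ from h2.1) ▸ h', h2.2⟩
  choose Y hY Y0 Y1 using H
  refine ⟨Y, hY, fun c l τ hp => ?_⟩
  rw [Finset.sum_apply, sum_apply, Fintype.sum_sigma,
    Finset.sum_eq_single l (fun l' _ hl => Finset.sum_eq_zero fun k _ => by
      rw [Pi.smul_apply, Y0 ⟨l', k⟩ l hl.symm]; simp) (by simp), Fintype.sum_prod_type,
    Finset.sum_eq_single (π l τ) (fun σ _ hσ => Finset.sum_eq_zero fun k _ => by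
      rw [Pi.smul_apply, smul_apply, Y1 ⟨l, σ, k⟩ _ hp,
        if_neg (fun h => hσ h.1.symm), smul_zero]) (by simp), Fintype.sum_prod_type]
  have e : ∀ ν, ∑ b : Bool, (cf π ⟨l, π l τ, ν, b⟩ c • Y ⟨l, π l τ, ν, b⟩) l (ee (π l τ)) =
      Pi.single ν (Function.update (c l τ) (π l τ) 0 ν) := by
    intro ν
    rw [Fintype.sum_bool, Pi.smul_apply, Pi.smul_apply, smul_apply,
      smul_apply, Y1 ⟨l, π l τ, ν, true⟩ _ hp, Y1 ⟨l, π l τ, ν, false⟩ _ hp]
    by_cases h : ν = π l τ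
    · simp [h]
    · ext j
      by_cases hj : j = ν
      · simp [h, hj, cf, ee]
      · simp [h, hj, ee]
  simp only [e]
  exact Finset.univ_sum_single _

theorem exp_small (A : Type) [NormedRing A] [NormedAlgebra ℝ A] [CompleteSpace A] {η : ℝ}
    (hη : 0 < η) : ∃ δ > 0, ∀ x : A, ‖x‖ ≤ δ → ‖NormedSpace.exp x - 1 - x‖ ≤ η * ‖x‖ := by
  have h := (hasFDerivAt_exp_zero (𝕂 := ℝ) (𝔸 := A)).isLittleO.bound hη
  obtain ⟨δ, hδ, h2⟩ := Metric.eventually_nhds_iff_ball.1 h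
  refine ⟨δ / 2, by positivity, fun x hx => ?_⟩
  simpa using h2 x (by rw [mem_ball_zero_iff]; linarith)

end Steer

open Steer in
theorem steerStmt (h : CtrlStmt) : SteerStmt := by
  intro Λ _ _ dim ι _ pos T S π hC hS hπ
  obtain ⟨S₀, G, hT, hbr, hexp, happ⟩ := h (∀ l, Op (dim l)) (Metric.closedBall (0 : Par dim) 1) ι T
    ((pi_norm_le_iff_of_nonneg zero_le_one).2 fun l => ContinuousLinearMap.norm_id_le)
  have hM : Moves pos S₀ := hC S₀ hT hbr
  let H : Submonoid (∀ l, Op (dim l)) := G.comap (Pi.constMonoidHom _ _)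
  have hM' : Moves pos {Y | NormedSpace.exp Y ∈ H} := by
    intro l τ ν z h1 h2
    obtain ⟨Y, hY, h3⟩ := hM l τ ν z h1 h2
    refine ⟨Y, ?_, h3⟩
    have := hexp Unit Finset.univ (fun _ => 1) (fun _ => Y) fun _ _ => hY
    simp only [Finset.univ_unique, Finset.sum_singleton, ContinuousMap.one_apply, one_smul] at this
    exact this
  obtain ⟨hpos, g, hg, hz⟩ := perm_mem hM' π fun l τ hτ =>
    hS l τ (by_contra fun hc => Equiv.Perm.mem_support.1 hτ (hπ l τ hc))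
  have hz' : ∀ l τ, ∃ z : ℂ, ‖z‖ = 1 ∧ (pos l τ → g l (ee τ) = z • ee (π l τ)) := fun l τ => by
    by_cases hp : pos l τ
    · obtain ⟨z, h1, h2⟩ := hz l τ hp
      exact ⟨z, h1, fun _ => h2⟩
    · exact ⟨1, norm_one, fun h => absurd h hp⟩
  choose z z1 z2 using hz'
  obtain ⟨Y, hY, hYc⟩ := exists_gen hM π
  set C : ℝ := ∑ k, ‖Y k‖ + 1 with hCdef
  have hC0 : 0 < C := by positivity
  have hN : ∀ c : Par dim, ‖∑ k, cf π k c • Y k‖ ≤ C * ‖c‖ := fun c => by
    refine (norm_sum_le _ _).trans ?_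
    rw [hCdef, add_mul, Finset.sum_mul]
    refine le_add_of_le_of_nonneg (Finset.sum_le_sum fun k _ => ?_) (by positivity)
    rw [norm_smul, mul_comm]
    exact mul_le_mul_of_nonneg_left (abs_cf_le π k c) (norm_nonneg _)
  obtain ⟨δ, hδ, hsm⟩ := exp_small (∀ l, Op (dim l)) (η := 1 / (20 * C)) (by positivity)
  have hr0 : 0 < min 1 (δ / C) := lt_min one_pos (by positivity)
  set r := min 1 (δ / C) with hr
  have hr1 : r ≤ 1 := min_le_left _ _
  have hr2 : C * r ≤ δ := by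
    have := min_le_right 1 (δ / C)
    rwa [← hr, le_div_iff₀ hC0, mul_comm] at this
  have hG := mul_mem (hexp (Ix dim) Finset.univ
    (fun k => (cf π k).comp ⟨Subtype.val, continuous_subtype_val⟩) Y fun k _ => hY k) hg
  obtain ⟨N, js, φ, hφ⟩ := happ _ hG (r / 20) (by positivity)
  let inc : C(Metric.closedBall (0 : Par dim) r, Metric.closedBall (0 : Par dim) 1) :=
    ⟨Set.inclusion (Metric.closedBall_subset_closedBall hr1), continuous_inclusion _⟩
  refine ⟨r, hr0, hr1, N, js, fun i => (φ i).comp inc, z, z1, fun c l τ hτ => ?_⟩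
  have hc : ‖c.1‖ ≤ r := mem_closedBall_zero_iff.1 c.2
  have hp := hS l τ hτ
  set M : ∀ l, Op (dim l) := ∑ k, cf π k c.1 • Y k with hMdef
  have hM1 : ‖M‖ ≤ C * r := (hN c.1).trans (mul_le_mul_of_nonneg_left hc hC0.le)
  have h1 : ‖NormedSpace.exp M - 1 - M‖ ≤ r / 20 := by
    refine (hsm M (hM1.trans hr2)).trans
      ((mul_le_mul_of_nonneg_left hM1 (by positivity)).trans (le_of_eq ?_))
    field_simp
  have h2 : ‖NormedSpace.exp M * g -
      prodUp (fun i => NormedSpace.exp (φ i (inc c) • T (js i))) N‖ ≤ r / 20 := hφ (inc c)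
  have app : ∀ (x : ∀ l, Op (dim l)) (σ : Fin (dim l)), ‖x l (ee σ)‖ ≤ ‖x‖ := fun x σ => by
    refine ((x l).le_opNorm _).trans ?_
    rw [norm_ee, mul_one]
    exact norm_le_pi_norm x l
  have e : prodUp (fun i => NormedSpace.exp (((φ i).comp inc) c • T (js i) l)) N (ee τ) -
      z l τ • (ee (π l τ) + Function.update (c.1 l τ) (π l τ) 0) =
      z l τ • (NormedSpace.exp M - 1 - M) l (ee (π l τ)) - (NormedSpace.exp M * g -
        prodUp (fun i => NormedSpace.exp (φ i (inc c) • T (js i))) N) l (ee τ) := by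
    rw [← hYc c.1 l τ (hpos l τ hp), ← hMdef]
    simp only [Pi.sub_apply, Pi.mul_apply, Pi.one_apply, sub_apply,
      mul_apply_eq_comp, one_apply_eq_self, z2 l τ hp, map_smul, prodUp_pi,
      exp_pi, Pi.smul_apply, ContinuousMap.comp_apply, smul_sub, smul_add]
    abel
  rw [e]
  refine (norm_sub_le _ _).trans ?_
  rw [norm_smul, z1, one_mul]
  linarith [(app _ (π l τ)).trans h1, (app _ τ).trans h2]

end Vale.Agent.P225
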