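import Vale.Agent.P225.Iface
import Vale.Agent.P371.Brouwer

/-! One window of pulses and waiting permutes the basis vectors exactly. -/

namespace Vale.Agent.P225

open scoped ContDiff Topology
open Filter Set

namespace Step

theorem brouwer_sub {E : Type} [NormedAddCommGroup E] [NormedSpace ℝ E] [FiniteDimensional ℝ E]
    {K : Set E} (hc : Convex ℝ K) (hK : IsCompact K) (hne : K.Nonempty) {g : K → E}
    (hg : Continuous g) (hm : ∀ p, g p ∈ K) : ∃ p : K, g p = p := by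
  classical
  obtain ⟨x, hx, h⟩ := P371.brouwer hc hK hne (f := fun x => if h : x ∈ K then g ⟨x, h⟩ else x)
    (by rw [continuousOn_iff_continuous_domRestrict]
        exact hg.congr fun p => by simp only [domRestrict_apply, dif_pos p.2])
    fun x hx => by simp only [dif_pos hx]; exact hm _
  exact ⟨⟨x, hx⟩, by rwa [dif_pos hx] at h⟩

theorem psi_cont : Continuous psi := by
  unfold psi bump
  exact (Real.smoothTransition.continuous.comp (by fun_prop)).mul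
    (Real.smoothTransition.continuous.comp (by fun_prop))

theorem psi_zero {t : ℝ} (h : t ≤ 0 ∨ 1 ≤ t) : psi t = 0 := by
  unfold psi bump
  rcases h with h | h
  · rw [Real.smoothTransition.zero_of_nonpos (by linarith), zero_mul]
  · rw [Real.smoothTransition.zero_of_nonpos (x := 4 * (-1 + 2 - t) - 1) (by linarith), mul_zero]

theorem Ipsi_pos : 0 < Ipsi :=
  intervalIntegral.integral_pos one_pos psi_cont.continuousOn
    (fun _ _ => mul_nonneg (Real.smoothTransition.nonneg _) (Real.smoothTransition.nonneg _))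
    ⟨1 / 2, ⟨by norm_num, by norm_num⟩, mul_pos (Real.smoothTransition.pos_of_pos (by norm_num))
      (Real.smoothTransition.pos_of_pos (by norm_num))⟩

theorem prodUp_congr {A : Type} [Monoid A] {F G : ℕ → A} {N : ℕ} (h : ∀ i < N, F i = G i) :
    prodUp F N = prodUp G N := by
  induction N with
  | zero => rfl
  | succ n ih => rw [prodUp, prodUp, h n n.lt_succ_self, ih fun i hi => h i (hi.trans n.lt_succ_self)]

theorem diag {D : ℕ} {K : Op D} {ν : Fin D → ℝ} (h : ∀ i, K (ee i) = -(ν i) • ee i) (w : Vc D)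
    (i : Fin D) : K w i = -(ν i : ℂ) * w i := by
  have e : w = ∑ j, w j • ee j := by
    ext k; simp [ee, Finset.sum_apply, Pi.single_apply]
  conv_lhs => rw [e]
  simp only [map_sum, map_smul, h]
  simp [ee, Finset.sum_apply, Pi.single_apply, mul_comm]

/-- the jointly continuous coefficient of the pulses -/
noncomputable def Qc {D : ℕ} (lam N' : ℝ) (K : ℕ → Op D) (N : ℕ) (a T : ℝ) (y : ℕ → ℝ) (s : ℝ) :
    Op D :=
  lam • 1 + ∑ i ∈ Finset.range N, (Qf lam N' (y i / T * psi ((s - (a + i * T)) / T)) (K i) - lam • 1)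

theorem Qc_win {D : ℕ} (lam N' : ℝ) (K : ℕ → Op D) (N : ℕ) (a : ℝ) {T : ℝ} (hT : 0 < T)
    (y : ℕ → ℝ) : WinP lam N' K N a T y (Qc lam N' K N a T y) := by
  intro i hi s hs
  rw [Qc, Finset.sum_eq_single_of_mem i (Finset.mem_range.2 hi), add_sub_cancel]
  intro j _ hj
  rw [psi_zero, mul_zero]
  · ext x k
    simp [Qf, aa, bb]
  rcases lt_or_gt_of_ne hj with h | h
  · have : (j : ℝ) + 1 ≤ i := by exact_mod_cast h
    exact Or.inr ((one_le_div hT).2 (by nlinarith [hs.1]))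
  · have : (i : ℝ) + 1 ≤ j := by exact_mod_cast h
    exact Or.inl (div_nonpos_of_nonpos_of_nonneg (by nlinarith [hs.2]) hT.le)

theorem Qc_cont {D : ℕ} (lam N' : ℝ) (K : ℕ → Op D) (N : ℕ) (a T : ℝ) {P : Type}
    [TopologicalSpace P] {y : P → ℕ → ℝ} (hy : ∀ i, Continuous fun c => y c i) :
    Continuous fun x : P × ℝ => Qc lam N' K N a T (y x.1) x.2 := by
  have := psi_cont
  unfold Qc Qf aa bb
  fun_prop

theorem agree (h1 : OdeStmt) {D : ℕ} {lam N' : ℝ} {K : ℕ → Op D} {N : ℕ} {a T : ℝ} (hT : 0 < T)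
    {y : ℕ → ℝ} {p : ℝ → ℝ} (hp : Continuous p) {Q : ℝ → Op D} (hQ : WinP lam N' K N a T y Q)
    {u v u' v' : ℝ → Vc D} (hs : Sol p Q u v (Icc a (a + N * T)))
    (hs' : Sol p (Qc lam N' K N a T y) u' v' (Icc a (a + N * T))) (hu : u a = u' a)
    (hv : v a = v' a) : u (a + N * T) = u' (a + N * T) ∧ v (a + N * T) = v' (a + N * T) := by
  rcases N.eq_zero_or_pos with rfl | hN
  · simpa using ⟨hu, hv⟩
  have h0 : a ≤ a + N * T := le_add_of_nonneg_right (by positivity)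
  refine (h1 D).2.1 p _ a _ u v u' v' hp.continuousOn
    ((Qc_cont lam N' K N a T (y := fun _ : Unit => y) fun _ => continuous_const).comp
      (Continuous.prodMk_right ())).continuousOn (fun s hs0 => ?_) hs' a ⟨le_rfl, h0⟩ hu hv _
    ⟨h0, le_rfl⟩
  obtain ⟨i, hi, h⟩ : ∃ i < N, s ∈ Icc (a + i * T) (a + (i + 1) * T) := by
    have h2 : 0 ≤ (s - a) / T := div_nonneg (by linarith [hs0.1]) hT.le
    rcases hs0.2.eq_or_lt with e | e
    · obtain ⟨n, rfl⟩ : ∃ n, N = n + 1 := ⟨N - 1, by omega⟩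
      refine ⟨n, n.lt_succ_self, ?_⟩
      push_cast at e
      constructor <;> nlinarith
    · refine ⟨⌊(s - a) / T⌋₊, (Nat.floor_lt h2).2 ((div_lt_iff₀ hT).2 (by linarith)), ?_, ?_⟩
      · linarith [(le_div_iff₀ hT).1 (Nat.floor_le h2)]
      · linarith [(div_lt_iff₀ hT).1 (Nat.lt_floor_add_one ((s - a) / T))]
  have := hs s hs0
  rwa [hQ i hi s h, ← Qc_win lam N' K N a hT y i hi s h] at this

theorem est {D : ℕ} {k : Fin D} {c W u v : Vc D} {r B η Γ β : ℝ} {z z₀ : ℂ} {b : Fin D → ℝ}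
    (hr0 : 0 < r) (hr1 : r ≤ 1) (hc : ‖c‖ ≤ r) (hz : ‖z‖ = 1) (hz₀ : z₀ ≠ 0) (hΓ : 0 < Γ)
    (hb : ∀ i, |b i| ≤ B) (hη : (1 + B) * η ≤ r / 10)
    (hW : ‖W - z • (ee k + Function.update c k 0)‖ ≤ r / 10)
    (hu : ‖u - Γ • z₀ • W‖ ≤ Γ * (η * ‖z₀‖)) (hv : ‖v - β • u‖ ≤ Γ * (η * ‖z₀‖))
    {X : Vc D} (hX : ∀ i, X i = u i + b i * (v i - β * u i)) :
    4 / 5 * (Γ * ‖z₀‖) ≤ ‖X k‖ ∧ ‖X k‖ ≤ 2 * (Γ * ‖z₀‖) ∧ ∀ i, i ≠ k → ‖c i - X i / X k‖ ≤ r := by
  have hm : 0 < Γ * ‖z₀‖ := mul_pos hΓ (norm_pos_iff.2 hz₀)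
  have hw : ‖Γ * z₀ * z‖ = Γ * ‖z₀‖ := by simp [hz, abs_of_pos hΓ]
  have key (i) : ‖X i - Γ * z₀ * z * (ee k + Function.update c k 0 : Vc D) i‖ ≤
      Γ * ‖z₀‖ * (r / 5) := by
    have e : X i - Γ * z₀ * z * (ee k + Function.update c k 0 : Vc D) i =
        (u - Γ • z₀ • W) i + b i * (v - β • u) i +
          Γ * z₀ * (W - z • (ee k + Function.update c k 0)) i := by
      simp only [hX, Pi.sub_apply, Pi.smul_apply, Complex.real_smul, smul_eq_mul]
      ring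
    have h1 := (norm_le_pi_norm _ i).trans hu
    have h2 : ‖b i * (v - β • u) i‖ ≤ B * (Γ * (η * ‖z₀‖)) := by
      rw [norm_mul, Complex.norm_real]
      exact mul_le_mul (hb i) ((norm_le_pi_norm _ i).trans hv) (norm_nonneg _)
        ((abs_nonneg _).trans (hb i))
    have h3 : ‖Γ * z₀ * (W - z • (ee k + Function.update c k 0)) i‖ ≤ Γ * ‖z₀‖ * (r / 10) := by
      rw [norm_mul, norm_mul, Complex.norm_real, Real.norm_of_nonneg hΓ.le]
      exact mul_le_mul_of_nonneg_left ((norm_le_pi_norm _ i).trans hW) hm.le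
    rw [e]
    refine (norm_add₃_le).trans ?_
    nlinarith [mul_le_mul_of_nonneg_left hη hm.le]
  have h0 := key k
  simp only [ee, Pi.add_apply, Pi.single_eq_same, Function.update_self, add_zero, mul_one] at h0
  have h1 := norm_sub_norm_le (X k) (Γ * z₀ * z)
  have h2 := norm_sub_norm_le (Γ * z₀ * z) (X k)
  rw [norm_sub_rev] at h2
  have h3 : Γ * ‖z₀‖ * (r / 5) ≤ Γ * ‖z₀‖ * (1 / 5) := by gcongr
  have h4 : 4 / 5 * (Γ * ‖z₀‖) ≤ ‖X k‖ := by linarith
  refine ⟨h4, by linarith, fun i hi => ?_⟩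
  have h5 := key i
  simp only [ee, Pi.add_apply, Pi.single_eq_of_ne hi, Function.update_of_ne hi, zero_add] at h5
  have h6 : 0 < ‖X k‖ := by linarith
  have h7 : X k ≠ 0 := norm_pos_iff.1 h6
  have e : c i - X i / X k = (c i * (X k - Γ * z₀ * z) - (X i - Γ * z₀ * z * c i)) / X k := by
    field_simp
    ring
  have h8 : ‖c i * (X k - Γ * z₀ * z)‖ ≤ 1 * (Γ * ‖z₀‖ * (r / 5)) := by
    rw [norm_mul]
    exact mul_le_mul (((norm_le_pi_norm _ i).trans hc).trans hr1) h0 (norm_nonneg _) zero_le_one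
  rw [e, norm_div, div_le_iff₀ h6]
  refine (norm_sub_le _ _).trans ?_
  nlinarith [mul_le_mul_of_nonneg_left h4 hr0.le, mul_pos hm hr0]

end Step

open Step in
theorem stepStmt (h1 : OdeStmt) (h2 : MultiStmt) (h3 : WaitStmt) : StepStmt := by
  intro Λ _ _ dim ι S π p q lam β N' ξ K j₀ ν βs hp hβ hN hξ hK ⟨r, hr0, hr1, N, js, φ, z, hz, hS⟩
  have hI : -2 * (N' + 1) * Ipsi ≠ 0 :=
    mul_ne_zero (mul_ne_zero (by norm_num) (by positivity)) Ipsi_pos.ne'
  obtain ⟨y, hyc, hye, Y₀, hY0, hY⟩ : ∃ y : Metric.closedBall (0 : Par dim) r → ℕ → ℝ,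
      (∀ i, Continuous fun c => y c i) ∧ (∀ c, ∀ i < N, -2 * (N' + 1) * Ipsi * y c i = φ i c) ∧
      ∃ Y₀, 0 ≤ Y₀ ∧ ∀ c i, |y c i| ≤ Y₀ := by
    refine ⟨fun c i => if i < N then φ i c / (-2 * (N' + 1) * Ipsi) else 0, fun i => ?_,
      fun c i hi => by dsimp only; rw [if_pos hi, mul_div_cancel₀ _ hI],
      ∑ i ∈ Finset.range N, ‖φ i‖ / |-2 * (N' + 1) * Ipsi|, by positivity, fun c i => ?_⟩
    · dsimp only
      split_ifs <;> fun_prop
    · dsimp only
      split_ifs with hi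
      · refine le_trans ?_ (Finset.single_le_sum (f := fun i => ‖φ i‖ / |-2 * (N' + 1) * Ipsi|)
          (fun _ _ => by positivity) (Finset.mem_range.2 hi))
        rw [abs_div]
        exact div_le_div_of_nonneg_right ((φ i).norm_coe_le_norm c) (abs_nonneg _)
      · rw [abs_zero]; positivity
  choose C hC Ym hYm hM using fun l =>
    h2 (dim l) (fun i => K (js i) l) p q (lam l) (β l) N' Y₀ hp (hβ l).1 (hβ l).2 hN N
  choose Yw hYw hW using fun x : Σ l, Fin (dim l) =>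
    h3 p q (lam x.1) (β x.1) N' (ν x.1 x.2) ξ (βs x.1 x.2) hp (hβ _).1 (hβ _).2 hN (hK _ _).2.1
      (hK _ _).2.2.1 hξ (hK _ _).2.2.2.1 (hK _ _).2.2.2.2
  obtain ⟨B, hB0, hBC, hBm, hBw⟩ : ∃ B : ℝ, 0 ≤ B ∧ (∀ l, C l ≤ B) ∧ (∀ l, Ym l ≤ B) ∧
      ∀ x, Yw x ≤ B := by
    obtain ⟨B1, e1⟩ := Finite.exists_le C
    obtain ⟨B2, e2⟩ := Finite.exists_le Ym
    obtain ⟨B3, e3⟩ := Finite.exists_le Yw
    exact ⟨max (max 0 B1) (max B2 B3), by simp, fun l => by simp [e1 l], fun l => by simp [e2 l],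
      fun l => by simp [e3 l]⟩
  obtain ⟨ε₀, hε, hε1⟩ : ∃ ε₀ : ℝ, 0 < ε₀ ∧ (1 + B) * ((1 + B) * ε₀) = r / 10 :=
    ⟨r / 10 / (1 + B) / (1 + B), by positivity, by field_simp⟩
  refine ⟨N, js, Y₀, 2 * B + 1, ε₀, hY0, hε, fun R hR => ?_⟩
  choose am hM using fun l => hM l ε₀ hε
  choose aw hW using fun x => hW x R hR (ε₀ / 2) (half_pos hε)
  obtain ⟨a1, e1⟩ := Finite.exists_le am
  obtain ⟨a2, e2⟩ := Finite.exists_le aw
  refine ⟨max 1 (max a1 a2), fun a ha T hT u₀ v₀ z₀ h0 => ?_⟩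
  simp only [ge_iff_le, max_le_iff] at ha hT
  have hT0 : 0 < T := one_pos.trans_le hT.1
  have hab : a ≤ a + N * T := le_add_of_nonneg_right (by positivity)
  choose Γ hΓ hΓ1 hM using fun l c =>
    hM l a ((e1 l).trans ha.2.1) T ((e1 l).trans hT.2.1) (y c) (hY c)
  choose f b hf hf1 hb hW using fun x =>
    hW x (a + N * T) (((e2 x).trans ha.2.2).trans hab) T ((e2 x).trans hT.2.2)
  choose U V hU hV hUV using fun l (τ : Fin (dim l)) =>
    (h1 (dim l)).2.2.1 _ p (fun c => Qc (lam l) N' (fun i => K (js i) l) N a T (y c)) (u₀ l τ)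
      (v₀ l τ) a (a + N * T) hab hp.cont
      (Qc_cont (lam l) N' (fun i => K (js i) l) N a T hyc)
  obtain ⟨X, hX⟩ : ∃ X : ∀ l, Fin (dim l) → Metric.closedBall (0 : Par dim) r → Vc (dim l),
      ∀ l τ c i, X l τ c i = U l τ c (a + N * T) i +
        b ⟨l, i⟩ * (V l τ c (a + N * T) i - β l * U l τ c (a + N * T) i) := ⟨_, fun _ _ _ _ => rfl⟩
  have hXc (l τ i) : Continuous fun c => X l τ c i := by
    have := hU l τ
    have := hV l τ
    simp only [hX]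
    fun_prop
  have hE (l τ) (hτ : τ ∈ S l) (c) : ‖V l τ c (a + N * T) - β l • U l τ c (a + N * T)‖ ≤
        Γ l c * ((1 + B) * ε₀ * ‖z₀ l τ‖) ∧ 4 / 5 * (Γ l c * ‖z₀ l τ‖) ≤ ‖X l τ c (π l τ)‖ ∧
      ‖X l τ c (π l τ)‖ ≤ 2 * (Γ l c * ‖z₀ l τ‖) ∧
      ∀ i, i ≠ π l τ → ‖c.1 l τ i - X l τ c i / X l τ c (π l τ)‖ ≤ r := by
    obtain ⟨g1, g2, g3⟩ := h0 l τ hτ
    obtain ⟨k1, k2, k3⟩ := hUV l τ c
    obtain ⟨m1, m2⟩ := hM l c _ _ _ (Qc_win _ _ _ _ _ hT0 _) k3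
    have m3 : Γ l c * (ε₀ * ‖U l τ c a‖ + C l * ‖V l τ c a - β l • U l τ c a‖) ≤
        Γ l c * ((1 + B) * ε₀ * ‖z₀ l τ‖) := by
      refine mul_le_mul_of_nonneg_left ?_ (hΓ l c).le
      have : ‖u₀ l τ‖ = ‖z₀ l τ‖ := by simp [g2, norm_smul, ee, Pi.norm_single]
      rw [k1, k2, this]
      nlinarith [mul_le_mul (hBC l) g3 (norm_nonneg _) hB0]
    refine ⟨m2.trans m3, est hr0 hr1 ((norm_le_pi_norm _ τ).trans ((norm_le_pi_norm _ l).trans
      (mem_closedBall_zero_iff.1 c.2))) (hz l τ) g1 (hΓ l c) (fun i => (hb ⟨l, i⟩).trans (hBw _))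
      hε1.le (hS c l τ hτ) (le_trans (le_of_eq ?_) (m1.trans m3)) (m2.trans m3) (hX l τ c)⟩
    rw [k1, g2, map_smul, prodUp_congr fun i hi => by rw [← hye c i hi]]
  have hne (l τ) (hτ : τ ∈ S l) (c) : X l τ c (π l τ) ≠ 0 := norm_pos_iff.1
    (lt_of_lt_of_le (by have := hΓ l c; have := norm_pos_iff.2 (h0 l τ hτ).1; positivity)
      (hE l τ hτ c).2.1)
  obtain ⟨c, hc⟩ := brouwer_sub (convex_closedBall (0 : Par dim) r) (isCompact_closedBall _ _)
    (Metric.nonempty_closedBall.2 hr0.le)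
    (g := fun c l τ i => if τ ∈ S l ∧ i ≠ π l τ then c.1 l τ i - X l τ c i / X l τ c (π l τ) else 0)
    (continuous_pi fun l => continuous_pi fun τ => continuous_pi fun i => by
      split_ifs with h
      · exact Continuous.sub ((continuous_apply i).comp ((continuous_apply τ).comp
          ((continuous_apply l).comp continuous_subtype_val)))
          ((hXc l τ i).div (hXc l τ _) (hne l τ h.1))
      · exact continuous_const)
    fun c => mem_closedBall_zero_iff.2 ((pi_norm_le_iff_of_nonneg hr0.le).2 fun l =>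
      (pi_norm_le_iff_of_nonneg hr0.le).2 fun τ => (pi_norm_le_iff_of_nonneg hr0.le).2 fun i => by
        split_ifs with h
        · exact (hE l τ h.1 c).2.2.2 i h.2
        · simpa using hr0.le)
  refine ⟨y c, hY c, fun l τ hτ Q u v w1 w2 hs hu hv => ?_⟩
  have ee1 : a + (N + R + 2) * T = a + N * T + (R + 2) * T := by ring
  have hbc : a + N * T ≤ a + N * T + (R + 2) * T := le_add_of_nonneg_right (by positivity)
  rw [ee1] at hs ⊢
  obtain ⟨k1, k2, k3⟩ := hUV l τ c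
  obtain ⟨n1, n2⟩ := agree h1 hT0 hp.cont w1 (fun s h => hs s ⟨h.1, h.2.trans hbc⟩) k3
    (hu.trans k1.symm) (hv.trans k2.symm)
  have hw (i) := hW ⟨l, i⟩ (fun s => u s i) (fun s => v s i) fun s h => by
    obtain ⟨d1, d2⟩ := hs s ⟨hab.trans h.1, h.2⟩
    refine ⟨hasDerivAt_pi.1 d1 i, (hasDerivAt_pi.1 d2 i).congr_deriv ?_⟩
    rw [w2 s h]
    simp [Qf, diag fun i => (hK l i).1]
    ring
  simp only [n1, n2, ← hX] at hw
  have hX0 (i) (hi : i ≠ π l τ) : X l τ c i = 0 := by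
    have := congrFun (congrFun (congrFun hc l) τ) i
    rw [if_pos ⟨hτ, hi⟩, sub_eq_self, div_eq_zero_iff] at this
    exact this.resolve_right (hne l τ hτ c)
  obtain ⟨E1, E2, E3, -⟩ := hE l τ hτ c
  have f0 : 0 < f ⟨l, π l τ⟩ := one_pos.trans_le (hf _)
  have hn : ‖f ⟨l, π l τ⟩ * X l τ c (π l τ)‖ = f ⟨l, π l τ⟩ * ‖X l τ c (π l τ)‖ := by
    rw [norm_mul, Complex.norm_real, Real.norm_of_nonneg f0.le]
  have hu1 : u (a + N * T + (R + 2) * T) = (f ⟨l, π l τ⟩ * X l τ c (π l τ)) • ee (π l τ) := by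
    ext i
    rw [(hw i).1]
    by_cases hi : i = π l τ
    · subst hi; simp [ee]
    · simp [ee, hX0 i hi, hi]
  have hm : 0 ≤ Γ l c * ‖z₀ l τ‖ := mul_nonneg (hΓ l c).le (norm_nonneg _)
  refine ⟨_, mul_ne_zero (by exact_mod_cast f0.ne') (hne l τ hτ c), hu1, ?_, ?_⟩
  · refine (pi_norm_le_iff_of_nonneg (by positivity)).2 fun i => ?_
    have g1 := (hw i).2
    have g2 := norm_le_pi_norm (u (a + N * T + (R + 2) * T)) i
    have g3 := (norm_le_pi_norm _ i).trans E1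
    have g4 : ‖u (a + N * T + (R + 2) * T)‖ = ‖f ⟨l, π l τ⟩ * X l τ c (π l τ)‖ := by
      rw [hu1, norm_smul, ee, Pi.norm_single, norm_one, mul_one]
    have g5 : ‖X l τ c (π l τ)‖ ≤ ‖f ⟨l, π l τ⟩ * X l τ c (π l τ)‖ :=
      hn ▸ le_mul_of_one_le_left (norm_nonneg _) (hf _)
    have g6 : (1 + B) * ε₀ ≤ 1 / 10 := by nlinarith [mul_nonneg hB0 (mul_nonneg hB0 hε.le)]
    simp only [Pi.sub_apply, Pi.smul_apply, Complex.real_smul] at g3 ⊢
    refine g1.trans ?_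
    nlinarith [mul_le_mul_of_nonneg_left g6 hm]
  · have g1 : (2 : ℝ) ≤ Real.exp (T * 1) := by linarith [Real.add_one_le_exp (T * 1), hT.1]
    have g2 : Γ l c ≤ Real.exp (T * B) := (hΓ1 l c).trans (by gcongr; exact hBm l)
    have g3 : f ⟨l, π l τ⟩ ≤ Real.exp (T * (B + R * βs l (π l τ))) :=
      (hf1 _).trans (by gcongr; exact hBw _)
    rw [hn, show T * (2 * B + 1 + R * βs l (π l τ)) =
      T * (B + R * βs l (π l τ)) + (T * 1 + T * B) by ring, Real.exp_add, Real.exp_add,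
      mul_left_comm]
    refine mul_le_mul g3 (E3.trans ?_) (norm_nonneg _) (by positivity)
    rw [mul_comm ‖z₀ l τ‖, mul_assoc]
    gcongr

end Vale.Agent.P225
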