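import Vale.Agent.P225.Iface

/-! The waiting phase. -/

namespace Vale.Agent.P225

open Filter Set Topology

namespace Wait

/-- real solution -/
def RS (p qq f g : ℝ → ℝ) (a e : ℝ) : Prop :=
  ∀ s ∈ Icc a e, HasDerivAt f (g s) s ∧ HasDerivAt g (qq s * f s - p s * g s) s

/-- complex solution -/
def CS (p qq : ℝ → ℝ) (u v : ℝ → ℂ) (a e : ℝ) : Prop :=
  ∀ s ∈ Icc a e, HasDerivAt u (v s) s ∧ HasDerivAt v ((qq s : ℂ) * u s - (p s : ℂ) * v s) s

theorem RS.mono {p qq f g : ℝ → ℝ} {a e c d : ℝ} (h : RS p qq f g a e) (h1 : a ≤ c) (h2 : d ≤ e) :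
    RS p qq f g c d := fun s hs => h s ⟨h1.trans hs.1, hs.2.trans h2⟩

theorem RS.cs {p qq f g : ℝ → ℝ} {a e : ℝ} (h : RS p qq f g a e) :
    CS p qq (fun s => (f s : ℂ)) (fun s => (g s : ℂ)) a e := fun s hs =>
  ⟨(h s hs).1.ofReal_comp, by simpa using (h s hs).2.ofReal_comp⟩

theorem CS.comb {p qq : ℝ → ℝ} {u v u' v' : ℝ → ℂ} {a e : ℝ} (h : CS p qq u v a e)
    (h' : CS p qq u' v' a e) (z : ℂ) :
    CS p qq (fun s => u s - z * u' s) (fun s => v s - z * v' s) a e := fun s hs =>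
  ⟨(h s hs).1.sub ((h' s hs).1.const_mul z),
    ((h s hs).2.sub ((h' s hs).2.const_mul z)).congr_deriv (by ring)⟩

theorem wr (h1 : DecayStmt) {p qq f g : ℝ → ℝ} {u v : ℝ → ℂ} {q a e : ℝ} (hp : Continuous p)
    (hq : 0 < q) (hqp : ∀ s, q ≤ p s) (hf : RS p qq f g a e) (hu : CS p qq u v a e) :
    ∀ s ∈ Icc a e, ‖f s * v s - g s * u s‖ ≤
      Real.exp (-(q * (s - a))) * ‖f a * v a - g a * u a‖ := by
  intro s hs
  have := h1 ℂ (fun s => f s * v s - g s * u s) (fun _ => 0) p a e q 0 0 hq le_rfl le_rfl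
    hp.continuousOn (fun t ht => ⟨hqp t, by simp, ?_⟩) s hs
  · simpa using this
  · obtain ⟨a1, a2⟩ := hf.cs t ht
    obtain ⟨a3, a4⟩ := hu t ht
    refine ((a1.mul a4).sub (a2.mul a3)).congr_deriv ?_
    rw [Complex.real_smul]
    ring

theorem ratio (h1 : DecayStmt) {p qq f g : ℝ → ℝ} {u v : ℝ → ℂ} {q a e : ℝ} (hp : Continuous p)
    (hq : 0 < q) (hqp : ∀ s, q ≤ p s) (hf : RS p qq f g a e) (hu : CS p qq u v a e)
    (hf1 : ∀ s ∈ Icc a e, 1 ≤ f s) (hae : a ≤ e) :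
    ‖u e / f e - u a / f a‖ ≤ ‖f a * v a - g a * u a‖ / q := by
  set w := ‖f a * v a - g a * u a‖ with hw
  have hw0 : 0 ≤ w := norm_nonneg _
  have hd : ∀ s ∈ Icc a e, HasDerivAt (fun s => u s / f s - u a / f a)
      ((f s * v s - g s * u s) / (f s : ℂ) ^ 2) s := fun s hs => by
    have h0 : (f s : ℂ) ≠ 0 := by
      have := hf1 s hs
      exact_mod_cast (by linarith : f s ≠ 0)
    refine (((hu s hs).1.div (hf.cs s hs).1 h0).sub_const _).congr_deriv ?_
    ring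
  have hB : ∀ x, HasDerivAt (fun s => w / q * (1 - Real.exp (-(q * (s - a)))))
      (Real.exp (-(q * (x - a))) * w) x := fun x => by
    have := ((((hasDerivAt_id x).sub_const a).const_mul q).neg.exp.const_sub 1).const_mul (w / q)
    refine this.congr_deriv ?_
    simp only [id, Pi.neg_apply]
    field_simp
  have := image_norm_le_of_norm_deriv_right_le_deriv_boundary
    (fun s hs => (hd s hs).continuousAt.continuousWithinAt)
    (fun s hs => (hd s (Ico_subset_Icc_self hs)).hasDerivWithinAt) (by simp) hB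
    (fun s hs => ?_) (right_mem_Icc.2 hae)
  · refine this.trans ?_
    have h2 : 0 ≤ w / q := div_nonneg hw0 hq.le
    nlinarith [Real.exp_pos (-(q * (e - a)))]
  · have hs' := Ico_subset_Icc_self hs
    rw [norm_div, norm_pow, Complex.norm_real, Real.norm_eq_abs, sq_abs]
    refine le_trans (div_le_self (norm_nonneg _) ?_) (wr h1 hp hq hqp hf hu s hs')
    nlinarith [hf1 s hs']

theorem plateau {p qq f g : ℝ → ℝ} {q c d βs : ℝ} (hqp : ∀ s, q ≤ p s) (hf : RS p qq f g c d)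
    (hfg : ∀ s ∈ Icc c d, 0 ≤ f s ∧ 0 ≤ g s ∧ qq s ≤ βs ^ 2 + q * βs) (hcd : c ≤ d) :
    g d + (βs + q) * f d ≤ (g c + (βs + q) * f c) * Real.exp (βs * (d - c)) := by
  have hd : ∀ s ∈ Icc c d, HasDerivAt (fun s => (g s + (βs + q) * f s) * Real.exp (-(βs * (s - c))))
      ((qq s * f s - p s * g s + (βs + q) * g s - βs * (g s + (βs + q) * f s)) *
        Real.exp (-(βs * (s - c)))) s := fun s hs => by
    have := ((hf s hs).2.add ((hf s hs).1.const_mul (βs + q))).mul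
      (((hasDerivAt_id s).sub_const c).const_mul βs).neg.exp
    refine this.congr_deriv ?_
    simp only [id, Pi.neg_apply, Pi.add_apply]
    ring
  have := image_le_of_deriv_right_le_deriv_boundary (B := fun _ => g c + (βs + q) * f c)
    (B' := fun _ => 0) (fun s hs => (hd s hs).continuousAt.continuousWithinAt)
    (fun s hs => (hd s (Ico_subset_Icc_self hs)).hasDerivWithinAt) (by simp)
    continuousOn_const (fun s _ => hasDerivWithinAt_const _ _ _) (fun s hs => ?_)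
    (right_mem_Icc.2 hcd)
  · rwa [Real.exp_neg, ← div_eq_mul_inv, div_le_iff₀ (Real.exp_pos _)] at this
  · obtain ⟨a1, a2, a3⟩ := hfg s (Ico_subset_Icc_self hs)
    refine mul_nonpos_of_nonpos_of_nonneg ?_ (Real.exp_pos _).le
    nlinarith [mul_le_mul_of_nonneg_right a3 a1, mul_le_mul_of_nonneg_right (hqp s) a2]

theorem ricc (h1 : DecayStmt) {p qq f g : ℝ → ℝ} {q c d β Y δ : ℝ} (hq : 0 < q) (hβ : 0 < β)
    (hβY : β ≤ Y) (hδ : 0 ≤ δ) (hqp : ∀ s, q ≤ p s) (hf : RS p qq f g c d)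
    (hfg : ∀ s ∈ Icc c d, 0 < f s ∧ 0 ≤ g s ∧ g s ≤ Y * f s ∧ qq s = β ^ 2 + q * β ∧ p s - q ≤ δ)
    (hcd : c ≤ d) : |g d / f d - β| ≤ Real.exp (-(q * (d - c))) * Y + δ * Y / q := by
  have hy : ∀ s ∈ Icc c d, 0 ≤ g s / f s ∧ g s / f s ≤ Y := fun s hs => by
    obtain ⟨a1, a2, a3, -⟩ := hfg s hs
    exact ⟨div_nonneg a2 a1.le, (div_le_iff₀ a1).2 a3⟩
  have hY : 0 ≤ Y := hβ.le.trans hβY
  have hd : ∀ s ∈ Icc c d, HasDerivAt (fun s => g s / f s - β)
      (-((p s - q) * (g s / f s)) - (g s / f s + β + q) • (g s / f s - β)) s := fun s hs => by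
    obtain ⟨a1, -, -, a4, -⟩ := hfg s hs
    refine (((hf s hs).2.div (hf s hs).1 a1.ne').sub_const β).congr_deriv ?_
    rw [a4, smul_eq_mul]
    field_simp
    ring
  have := h1 ℝ (fun s => g s / f s - β) (fun s => -((p s - q) * (g s / f s)))
    (fun s => g s / f s + β + q) c d q (δ * Y) 0 hq (mul_nonneg hδ hY) le_rfl
    (fun s hs => ?_) (fun s hs => ⟨?_, ?_, hd s hs⟩) d (right_mem_Icc.2 hcd)
  · simp only [zero_mul, Real.exp_zero, mul_one, Real.norm_eq_abs] at this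
    refine this.trans (add_le_add_left (mul_le_mul_of_nonneg_left ?_ (Real.exp_pos _).le) _)
    obtain ⟨b1, b2⟩ := hy c (left_mem_Icc.2 hcd)
    rw [abs_le]
    constructor <;> linarith
  · exact ((((hf s hs).2.div (hf s hs).1 (hfg s hs).1.ne').continuousAt.add
      continuousAt_const).add continuousAt_const).continuousWithinAt
  · linarith [(hy s hs).1]
  · obtain ⟨b1, b2⟩ := hy s hs
    have b3 : 0 ≤ p s - q := sub_nonneg.2 (hqp s)
    rw [zero_mul, Real.exp_zero, mul_one, norm_neg, Real.norm_eq_abs,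
      abs_of_nonneg (mul_nonneg b3 b1)]
    exact mul_le_mul (hfg s hs).2.2.2.2 b2 b1 hδ

theorem grow {q βs Y T fc gc fd gd E : ℝ} (hq : 0 < q) (hY : 0 ≤ Y) (hβs : 0 ≤ βs) (hT : 1 ≤ T)
    (k5 : 0 ≤ fc) (k6 : gc ≤ Y * fc) (k7 : 0 ≤ gd) (hE : 0 ≤ E)
    (c2 : gd + (βs + q) * fd ≤ (gc + (βs + q) * fc) * E) :
    fd ≤ Real.exp (T * (Y / q)) * fc * E := by
  have c4 : gc + (βs + q) * fc ≤ (βs + q) * (Real.exp (T * (Y / q)) * fc) := by
    have k1 : 0 ≤ Y / q := div_nonneg hY hq.le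
    have k2 : 1 + Y / q ≤ Real.exp (T * (Y / q)) := by
      have := Real.add_one_le_exp (T * (Y / q))
      nlinarith
    have k3 : Y ≤ (βs + q) * (Y / q) := by
      rw [add_mul, mul_div_cancel₀ _ hq.ne']
      nlinarith
    have k4 : Y + (βs + q) ≤ (βs + q) * Real.exp (T * (Y / q)) := by
      nlinarith [mul_le_mul_of_nonneg_left k2 (by linarith : 0 ≤ βs + q)]
    nlinarith [mul_le_mul_of_nonneg_right k4 k5]
  refine le_of_mul_le_mul_left ?_ (by linarith : 0 < βs + q)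
  have := mul_le_mul_of_nonneg_right c4 hE
  nlinarith

theorem core (h1 : DecayStmt) (h2 : PosStmt) {p qq : ℝ → ℝ} {q β βs Y δ a T R : ℝ}
    (hp : Continuous p) (hqq : Continuous qq) (hq : 0 < q) (hqp : ∀ s, q ≤ p s) (hβ : 0 < β)
    (hβY : β ≤ Y) (hβs : 0 ≤ βs) (hδ : 0 ≤ δ) (hT : 1 ≤ T) (hR : 0 ≤ R)
    (b1 : ∀ s, 0 ≤ qq s ∧ qq s ≤ Y ^ 2)
    (b2 : ∀ s ∈ Icc (a + T / 2) (a + (R + 3 / 2) * T), qq s ≤ βs ^ 2 + q * βs)
    (b3 : ∀ s, a + (R + 7 / 4) * T ≤ s → qq s = β ^ 2 + q * β)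
    (b4 : ∀ s, a ≤ s → p s - q ≤ δ) :
    ∃ φ b : ℝ, 1 ≤ φ ∧ φ ≤ Real.exp (T * (Y + Y / q + βs + R * βs)) ∧ |b| ≤ 1 / q ∧
      ∀ u v : ℝ → ℂ, CS p qq u v a (a + (R + 2) * T) →
        u (a + (R + 2) * T) = φ * (u a + b * (v a - β * u a)) ∧
        ‖v (a + (R + 2) * T) - β * u (a + (R + 2) * T)‖ ≤
          (Real.exp (-(q * (T / 4))) * Y + δ * Y / q) * ‖u (a + (R + 2) * T)‖ +
          Real.exp (-(q * (T / 4))) * ‖v a - β * u a‖ := by
  have hRT : 0 ≤ R * T := mul_nonneg hR (by linarith)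
  have hY : 0 ≤ Y := hβ.le.trans hβY
  set e := a + (R + 2) * T with he
  have hae : a ≤ e := by rw [he]; linarith
  obtain ⟨f, g, fa, ga, hf⟩ := h2.1 p qq a e 1 β hp hqq
  obtain ⟨f₂, g₂, fa₂, ga₂, hf₂⟩ := h2.1 p qq a e 0 1 hp hqq
  replace hf : RS p qq f g a e := hf
  replace hf₂ : RS p qq f₂ g₂ a e := hf₂
  have hqY : ∀ s, qq s ≤ Y * (Y + p s) := fun s => by
    nlinarith [(b1 s).2, mul_nonneg hY (hq.le.trans (hqp s))]
  obtain ⟨p1, p2⟩ := h2.2 p qq f g a e hp.continuousOn (fun s hs => ⟨(b1 s).1, hf s hs⟩)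
    (by rw [fa]; exact one_pos) (by rw [ga]; exact hβ.le)
  replace p2 := p2 Y hY (fun s _ => hqY s) (by rw [fa, ga, mul_one]; exact hβY)
  rw [fa] at p1 p2
  have hfe : 1 ≤ f e := (p1 e (right_mem_Icc.2 hae)).1
  have hfe0 : (f e : ℂ) ≠ 0 := by exact_mod_cast (by linarith : f e ≠ 0)
  refine ⟨f e, f₂ e / f e, hfe, ?_, ?_, fun u v hu => ⟨?_, ?_⟩⟩
  · set c := a + T / 2 with hc
    set d := a + (R + 3 / 2) * T with hd
    have hac : a ≤ c := by rw [hc]; linarith
    have hcd : c ≤ d := by rw [hc, hd]; linarith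
    have hde : d ≤ e := by rw [he, hd]; linarith
    have mc : c ∈ Icc a e := ⟨hac, hcd.trans hde⟩
    have md : d ∈ Icc a e := ⟨hac.trans hcd, hde⟩
    have c1 : f c ≤ Real.exp (Y * (T / 2)) := by simpa [hc] using (p2 c mc).2
    have c2 := plateau hqp (hf.mono hac hde) (fun s hs => ⟨by
      linarith [(p1 s ⟨hac.trans hs.1, hs.2.trans hde⟩).1],
      (p1 s ⟨hac.trans hs.1, hs.2.trans hde⟩).2, b2 s hs⟩) hcd
    have c3 := ((h2.2 p qq f g d e hp.continuousOn
      (fun s hs => ⟨(b1 s).1, hf.mono md.1 le_rfl s hs⟩) (by linarith [(p1 d md).1])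
      (p1 d md).2).2 Y hY (fun s _ => hqY s) (p2 d md).1 e (right_mem_Icc.2 hde)).2
    have e1 : d - c = (R + 1) * T := by rw [hc, hd]; ring
    have e2 : e - d = T / 2 := by rw [he, hd]; ring
    rw [e1] at c2
    rw [e2] at c3
    have c5 := grow hq hY hβs hT (by linarith [(p1 c mc).1]) (p2 c mc).1 (p1 d md).2
      (Real.exp_pos _).le c2
    calc f e ≤ f d * Real.exp (Y * (T / 2)) := c3
      _ ≤ Real.exp (T * (Y / q)) * Real.exp (Y * (T / 2)) * Real.exp (βs * ((R + 1) * T)) *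
          Real.exp (Y * (T / 2)) := by
        refine mul_le_mul_of_nonneg_right (c5.trans ?_) (Real.exp_pos _).le
        gcongr
      _ = Real.exp (T * (Y + Y / q + βs + R * βs)) := by
        rw [← Real.exp_add, ← Real.exp_add, ← Real.exp_add]
        congr 1
        ring
  · have := ratio h1 hp hq hqp hf hf₂.cs (fun s hs => (p1 s hs).1) hae
    simp only [fa, ga, fa₂, ga₂] at this
    rw [← Real.norm_eq_abs, ← Complex.norm_real]
    simpa using this
  · have := ratio h1 hp hq hqp hf ((hu.comb hf.cs (u a)).comb hf₂.cs (v a - β * u a))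
      (fun s hs => (p1 s hs).1) hae
    simp only [fa, ga, fa₂, ga₂] at this
    have e1 : ((1 : ℝ) : ℂ) * (v a - u a * β - (v a - β * u a) * ((1 : ℝ) : ℂ)) -
        β * (u a - u a * ((1 : ℝ) : ℂ) - (v a - β * u a) * ((0 : ℝ) : ℂ)) = 0 := by
      push_cast
      ring
    rw [e1, norm_zero, zero_div, norm_le_zero_iff] at this
    push_cast at this ⊢
    field_simp at this ⊢
    linear_combination this
  · set c := a + (R + 7 / 4) * T with hc
    have hac : a ≤ c := by rw [hc]; linarith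
    have hce : c ≤ e := by rw [hc, he]; linarith
    have c1 := ricc h1 hq hβ hβY hδ hqp (hf.mono hac le_rfl) (fun s hs => ⟨by
      linarith [(p1 s ⟨hac.trans hs.1, hs.2⟩).1], (p1 s ⟨hac.trans hs.1, hs.2⟩).2,
      (p2 s ⟨hac.trans hs.1, hs.2⟩).1, b3 s hs.1, b4 s (hac.trans hs.1)⟩) hce
    have e1 : e - c = T / 4 := by rw [he, hc]; ring
    rw [e1] at c1
    have c2 := wr h1 hp hq hqp hf hu e (right_mem_Icc.2 hae)
    rw [fa, ga, Complex.ofReal_one, one_mul] at c2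
    have e2 : v e - β * u e = ((g e / f e - β : ℝ) : ℂ) * u e + (f e * v e - g e * u e) / f e := by
      push_cast
      field_simp
      ring
    rw [e2]
    refine (norm_add_le _ _).trans (add_le_add ?_ ?_)
    · rw [norm_mul, Complex.norm_real, Real.norm_eq_abs]
      exact mul_le_mul_of_nonneg_right c1 (norm_nonneg _)
    · rw [norm_div, Complex.norm_real, Real.norm_eq_abs, abs_of_nonneg (by linarith)]
      refine (div_le_self (norm_nonneg _) hfe).trans (c2.trans ?_)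
      refine mul_le_mul_of_nonneg_right (Real.exp_le_exp.2 ?_) (norm_nonneg _)
      have : T / 4 ≤ e - a := by rw [he]; linarith
      exact neg_le_neg (mul_le_mul_of_nonneg_left this hq.le)

theorem bump_mem (R t : ℝ) : 0 ≤ bump R t ∧ bump R t ≤ 1 :=
  ⟨mul_nonneg (Real.smoothTransition.nonneg _) (Real.smoothTransition.nonneg _),
    mul_le_one₀ (Real.smoothTransition.le_one _) (Real.smoothTransition.nonneg _)
      (Real.smoothTransition.le_one _)⟩

theorem bump_one {R t : ℝ} (h : 1 / 2 ≤ t) (h' : t ≤ R + 3 / 2) : bump R t = 1 := by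
  rw [bump, Real.smoothTransition.one_of_one_le (by linarith),
    Real.smoothTransition.one_of_one_le (by linarith), mul_one]

theorem bump_zero {R t : ℝ} (h : R + 7 / 4 ≤ t) : bump R t = 0 := by
  rw [bump, Real.smoothTransition.zero_of_nonpos (x := 4 * (R + 2 - t) - 1) (by linarith), mul_zero]

theorem bump_cont (R : ℝ) : Continuous (bump R) := by
  unfold bump
  exact (Real.smoothTransition.continuous.comp (by fun_prop)).mul
    (Real.smoothTransition.continuous.comp (by fun_prop))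

theorem coef {lam N ν ξ x : ℝ} (hN : 0 ≤ N) (hν : 0 ≤ ν) (hνl : ν ≤ lam) (h1 : -ξ ≤ x)
    (h2 : x ≤ 0) : 0 ≤ lam * aa x - ν * bb N x ∧ lam * aa x - ν * bb N x ≤ lam * Real.exp (2 * ξ) := by
  have e : lam * aa x - ν * bb N x = (lam - ν) * Real.exp (-2 * x) + ν * Real.exp (2 * N * x) := by
    rw [aa, bb]; ring
  have a1 : Real.exp (-2 * x) ≤ Real.exp (2 * ξ) := Real.exp_le_exp.2 (by linarith)
  have a2 : Real.exp (2 * N * x) ≤ Real.exp (2 * ξ) :=
    Real.exp_le_exp.2 (by nlinarith [mul_nonneg hN (neg_nonneg.2 h2)])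
  have a3 : 0 ≤ lam - ν := by linarith
  rw [e]
  exact ⟨by positivity, by
    nlinarith [mul_le_mul_of_nonneg_left a1 a3, mul_le_mul_of_nonneg_left a2 hν]⟩

end Wait

open Wait in
theorem waitStmt (h1 : DecayStmt) (h2 : PosStmt) : WaitStmt := by
  intro p q lam β N ν ξ βs hp hβ hlam hN hν hνl hξ hβs hpl
  have hq := hp.pos
  have hl : 0 ≤ lam := hν.trans hνl
  obtain ⟨Y, hβY, hY1, hY2⟩ : ∃ Y, β ≤ Y ∧ 1 ≤ Y ∧ lam * Real.exp (2 * ξ) ≤ Y ^ 2 := by
    have : 0 ≤ lam * Real.exp (2 * ξ) := by positivity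
    exact ⟨β + 1 + lam * Real.exp (2 * ξ), by linarith, by linarith, by nlinarith⟩
  have hY : 0 < Y := by linarith
  refine ⟨Y + Y / q + βs, by positivity, fun R hR ε hε => ?_⟩
  have t1 : ∀ᶠ s in atTop, p s - q ≤ ε / 2 * q / Y := by
    have := (hp.lim.sub_const q).eventually (eventually_le_nhds (b := ε / 2 * q / Y)
      (by rw [sub_self]; positivity))
    exact this
  have t2 : ∀ᶠ T in atTop, Real.exp (-(q * (T / 4))) * Y ≤ ε / 2 := by
    have a1 : Tendsto (fun T : ℝ => q * (T / 4)) atTop atTop :=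
      (tendsto_id.atTop_div_const (by norm_num)).const_mul_atTop hq
    have := ((Real.tendsto_exp_neg_atTop_nhds_zero.comp a1).mul_const Y).eventually
      (eventually_le_nhds (b := ε / 2) (by rw [zero_mul]; positivity))
    exact this
  obtain ⟨a₀, ha₀⟩ := eventually_atTop.1 (t1.and (t2.and (eventually_ge_atTop 1)))
  refine ⟨a₀, fun a ha T hT => ?_⟩
  obtain ⟨-, k1, k2⟩ := ha₀ T hT
  have hT0 : 0 < T := by linarith
  have hx : ∀ s, -ξ ≤ -ξ * bump R ((s - a) / T) ∧ -ξ * bump R ((s - a) / T) ≤ 0 := fun s => by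
    obtain ⟨a1, a2⟩ := bump_mem R ((s - a) / T)
    constructor <;> nlinarith
  obtain ⟨φ, b, c1, c2, c3, c4⟩ := core h1 h2 (qq := fun s => lam * aa (-ξ * bump R ((s - a) / T)) -
      ν * bb N (-ξ * bump R ((s - a) / T))) (δ := ε / 2 * q / Y) (a := a) hp.cont
    (by
      have := bump_cont R
      unfold aa bb
      fun_prop) hq hp.le hβ hβY hβs (by positivity) k2 hR
    (fun s => ⟨(coef hN hν hνl (hx s).1 (hx s).2).1, (coef hN hν hνl (hx s).1 (hx s).2).2.trans hY2⟩)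
    (fun s hs => by
      rw [bump_one (by rw [le_div_iff₀ hT0]; linarith [hs.1])
        (by rw [div_le_iff₀ hT0]; linarith [hs.2]), mul_one]
      exact hpl)
    (fun s hs => by
      rw [bump_zero (by rw [le_div_iff₀ hT0]; linarith), hlam]
      simp [aa, bb])
    (fun s hs => (ha₀ s (ha.trans hs)).1)
  refine ⟨φ, b, c1, c2, c3.trans ?_, fun u v hu => ⟨(c4 u v hu).1, (c4 u v hu).2.trans ?_⟩⟩
  · have : 1 / q ≤ Y / q := by gcongr
    linarith
  · have e1 : ε / 2 * q / Y * Y / q = ε / 2 := by field_simp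
    have e2 : Real.exp (-(q * (T / 4))) ≤ ε := by
      nlinarith [Real.exp_pos (-(q * (T / 4)))]
    rw [e1, mul_add]
    exact add_le_add (mul_le_mul_of_nonneg_right (by linarith) (norm_nonneg _))
      (mul_le_mul_of_nonneg_right e2 (norm_nonneg _))

end Vale.Agent.P225
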